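import Crest.Agent.R83.Defs

/-!
# Row 83: linear algebra in `ℝ³`

Everything is coordinate algebra: `ext3`, `inner3`, `simp [cr, row, adj, tn_apply]`, `ring`.
`det_eq`: write `A` in the basis `EuclideanSpace.basisFun` (`LinearMap.det_toMatrix`,
`Matrix.det_fin_three`).  Smoothness of `adj`, `det`: they are polynomial in the continuous linear
functionals `A ↦ A (ee j) i` (`contDiff_euclidean`, `tn` is a continuous bilinear map).
`Cone.pull`: `s • E₁ + t • E₂ ↦ tr A (…)`, `‖tr A‖ = ‖A‖`, `inner_adj`, `norm_adj_le`, and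
`cr (tr A p) (tr A q) = adj A (cr p q) ≠ 0` since `A ∘ adj A = det A`.
-/

namespace Crest.Agent.R83

open MeasureTheory Set Metric Filter Topology
open scoped Gradient RealInnerProductSpace NNReal
open Crest.Agent.R80 (L2 nr)

@[simp] theorem v3_0 (a b c : ℝ) : v3 a b c 0 = a := by simp [v3]
@[simp] theorem v3_1 (a b c : ℝ) : v3 a b c 1 = b := by simp [v3]
@[simp] theorem v3_2 (a b c : ℝ) : v3 a b c 2 = c := by simp [v3]

theorem ext3 {a b : E3} (h0 : a 0 = b 0) (h1 : a 1 = b 1) (h2 : a 2 = b 2) : a = b := by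
  ext i; fin_cases i <;> assumption

theorem ee_apply (i j : Fin 3) : ee i j = if j = i then 1 else 0 := by
  simp [ee, Pi.single_apply]

theorem inner3 (a b : E3) : ⟪a, b⟫ = a 0 * b 0 + a 1 * b 1 + a 2 * b 2 := by
  simp [PiLp.inner_apply, Fin.sum_univ_three]; ring

theorem norm_sq3 (a : E3) : ‖a‖ ^ 2 = a 0 ^ 2 + a 1 ^ 2 + a 2 ^ 2 := by
  rw [← real_inner_self_eq_norm_sq, inner3]; ring

theorem v3_eta (a : E3) : v3 (a 0) (a 1) (a 2) = a := ext3 (by simp) (by simp) (by simp)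

theorem inner_ee (a : E3) (i : Fin 3) : ⟪a, ee i⟫ = a i := by
  simp [ee, EuclideanSpace.inner_single_right]

theorem tn_apply (a b ξ : E3) : tn a b ξ = ⟪b, ξ⟫ • a := by simp [tn]

/-! ### part a -/

theorem abs_coord_le (a : E3) (i : Fin 3) : |a i| ≤ ‖a‖ := by
  simpa using PiLp.norm_apply_le a i

theorem norm_le_sum3 (a : E3) : ‖a‖ ≤ |a 0| + |a 1| + |a 2| := by
  refine abs_le_of_sq_le_sq' ?_ (by positivity) |>.2
  rw [norm_sq3, ← sq_abs (a 0), ← sq_abs (a 1), ← sq_abs (a 2)]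
  have h0 := abs_nonneg (a 0)
  have h1 := abs_nonneg (a 1)
  have h2 := abs_nonneg (a 2)
  nlinarith [mul_nonneg h0 h1, mul_nonneg h0 h2, mul_nonneg h1 h2]

theorem cr_add_left (a a' b : E3) : cr (a + a') b = cr a b + cr a' b := by
  apply ext3 <;> simp [cr] <;> ring

theorem cr_add_right (a b b' : E3) : cr a (b + b') = cr a b + cr a b' := by
  apply ext3 <;> simp [cr] <;> ring

theorem cr_smul_left (s : ℝ) (a b : E3) : cr (s • a) b = s • cr a b := by
  apply ext3 <;> simp [cr] <;> ring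

theorem cr_smul_right (s : ℝ) (a b : E3) : cr a (s • b) = s • cr a b := by
  apply ext3 <;> simp [cr] <;> ring

theorem cr_neg_left (a b : E3) : cr (-a) b = -cr a b := by
  apply ext3 <;> simp [cr] <;> ring

theorem cr_neg_right (a b : E3) : cr a (-b) = -cr a b := by
  apply ext3 <;> simp [cr] <;> ring

@[simp] theorem cr_zero_left (b : E3) : cr 0 b = 0 := by
  apply ext3 <;> simp [cr]

@[simp] theorem cr_zero_right (a : E3) : cr a 0 = 0 := by
  apply ext3 <;> simp [cr]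

theorem cr_comm (a b : E3) : cr a b = -cr b a := by
  apply ext3 <;> simp [cr] <;> ring

@[simp] theorem cr_self (a : E3) : cr a a = 0 := by
  apply ext3 <;> simp [cr] <;> ring

theorem inner_cr_left (a b : E3) : ⟪cr a b, a⟫ = 0 := by
  simp only [inner3, cr, v3_0, v3_1, v3_2]
  ring

theorem inner_cr_right (a b : E3) : ⟪cr a b, b⟫ = 0 := by
  simp only [inner3, cr, v3_0, v3_1, v3_2]
  ring

theorem inner_cr_cyc (a b c : E3) : ⟪cr a b, c⟫ = ⟪cr b c, a⟫ := by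
  simp only [inner3, cr, v3_0, v3_1, v3_2]
  ring

theorem norm_cr_sq (a b : E3) : ‖cr a b‖ ^ 2 = ‖a‖ ^ 2 * ‖b‖ ^ 2 - ⟪a, b⟫ ^ 2 := by
  simp only [inner3, norm_sq3, cr, v3_0, v3_1, v3_2]
  ring

theorem norm_cr_le (a b : E3) : ‖cr a b‖ ≤ ‖a‖ * ‖b‖ := by
  refine abs_le_of_sq_le_sq' ?_ (by positivity) |>.2
  rw [norm_cr_sq, mul_pow]
  linarith [sq_nonneg ⟪a, b⟫]

/-- independence -/
theorem comb_ne_zero {a b : E3} (h : cr a b ≠ 0) {s t : ℝ} (hst : s • a + t • b = 0) :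
    s = 0 ∧ t = 0 := by
  have h1 := congrArg (fun x => cr x b) hst
  have h2 := congrArg (fun x => cr a x) hst
  simp only [cr_add_left, cr_add_right, cr_smul_left, cr_smul_right, cr_self, smul_zero, add_zero,
    zero_add, cr_zero_left, cr_zero_right] at h1 h2
  exact ⟨(smul_eq_zero.1 h1).resolve_right h, (smul_eq_zero.1 h2).resolve_right h⟩

/-- decomposition along `a, b, a × b` -/
theorem exists_comb {a b : E3} (h : cr a b ≠ 0) (ξ : E3) :
    ∃ s t r : ℝ, ξ = s • a + t • b + r • cr a b := by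
  have hn : ‖cr a b‖ ^ 2 ≠ 0 := pow_ne_zero _ (norm_ne_zero_iff.2 h)
  have key : (‖cr a b‖ ^ 2) • ξ =
      ⟪cr b (cr a b), ξ⟫ • a + ⟪cr (cr a b) a, ξ⟫ • b + ⟪cr a b, ξ⟫ • cr a b := by
    rw [norm_sq3]
    apply ext3 <;>
      simp only [inner3, cr, v3_0, v3_1, v3_2, PiLp.add_apply, PiLp.smul_apply, smul_eq_mul] <;> ring
  refine ⟨(‖cr a b‖ ^ 2)⁻¹ * ⟪cr b (cr a b), ξ⟫, (‖cr a b‖ ^ 2)⁻¹ * ⟪cr (cr a b) a, ξ⟫,
    (‖cr a b‖ ^ 2)⁻¹ * ⟪cr a b, ξ⟫, ?_⟩
  rw [mul_smul, mul_smul, mul_smul, ← smul_add, ← smul_add, ← key, inv_smul_smul₀ hn]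

theorem contDiff_cr {n : WithTop ℕ∞} : ContDiff ℝ n fun p : E3 × E3 => cr p.1 p.2 := by
  rw [contDiff_euclidean]
  intro i
  fin_cases i <;> simp [cr] <;> fun_prop

theorem ContDiffAt.cr' {X : Type*} [NormedAddCommGroup X] [NormedSpace ℝ X] {n : WithTop ℕ∞}
    {f g : X → E3} {x : X} (hf : ContDiffAt ℝ n f x) (hg : ContDiffAt ℝ n g x) :
    ContDiffAt ℝ n (fun y => cr (f y) (g y)) x := by
  exact contDiff_cr.contDiffAt.comp x (hf.prodMk hg)

theorem contDiff_tn {n : WithTop ℕ∞} : ContDiff ℝ n fun p : E3 × E3 => tn p.1 p.2 := by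
  exact ((ContinuousLinearMap.smulRightL ℝ E3 E3).contDiff.comp
    ((innerSL ℝ : E3 →L[ℝ] E3 →L[ℝ] ℝ).contDiff.comp contDiff_snd)).clm_apply contDiff_fst

theorem contDiffAt_v3 {X : Type*} [NormedAddCommGroup X] [NormedSpace ℝ X] {n : WithTop ℕ∞}
    {f g h : X → ℝ} {x : X} (hf : ContDiffAt ℝ n f x) (hg : ContDiffAt ℝ n g x)
    (hh : ContDiffAt ℝ n h x) : ContDiffAt ℝ n (fun y => v3 (f y) (g y) (h y)) x := by
  rw [contDiffAt_euclidean]
  intro i
  fin_cases i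
  · simpa using hf
  · simpa using hg
  · simpa using hh

theorem norm_tn (a b : E3) : ‖tn a b‖ = ‖a‖ * ‖b‖ := by
  rw [tn, ContinuousLinearMap.norm_smulRight_apply, innerSL_apply_norm, mul_comm]

theorem tr_tn (a b : E3) : tr (tn a b) = tn b a := by
  symm
  rw [ContinuousLinearMap.eq_adjoint_iff]
  intro x y
  rw [tn_apply, tn_apply, real_inner_smul_left, real_inner_smul_right, real_inner_comm x a, mul_comm]

theorem sym_iff {σ : M3} : Sym σ ↔ tr σ = σ := by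
  rw [eq_comm, ContinuousLinearMap.eq_adjoint_iff]
  rfl

/-! ### part b -/

theorem algb_decomp (ξ : E3) : ξ = ξ 0 • ee 0 + ξ 1 • ee 1 + ξ 2 • ee 2 := by
  refine ext3 ?_ ?_ ?_ <;> simp [ee_apply]

theorem algb_apply (A : M3) (ξ : E3) (i : Fin 3) :
    A ξ i = A (ee 0) i * ξ 0 + A (ee 1) i * ξ 1 + A (ee 2) i * ξ 2 := by
  conv_lhs => rw [algb_decomp ξ]
  simp only [map_add, map_smul, PiLp.add_apply, PiLp.smul_apply, smul_eq_mul]
  ring

theorem algb_tr_apply (A : M3) (p : E3) (j : Fin 3) :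
    tr A p j = A (ee j) 0 * p 0 + A (ee j) 1 * p 1 + A (ee j) 2 * p 2 := by
  rw [← inner_ee, ContinuousLinearMap.adjoint_inner_left, inner3]
  ring

theorem algb_ext {A B : M3} (h : ∀ j i, A (ee j) i = B (ee j) i) : A = B := by
  ext ξ i
  rw [algb_apply A, algb_apply B, h, h, h]

theorem row_eq (A : M3) (i : Fin 3) : row A i = tr A (ee i) := by
  refine ext3 ?_ ?_ ?_ <;> rw [← inner_ee (tr A (ee i)), ContinuousLinearMap.adjoint_inner_left,
    real_inner_comm, inner_ee] <;> simp [row]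

theorem apply_eq_row (A : M3) (ξ : E3) (i : Fin 3) : A ξ i = ⟪row A i, ξ⟫ := by
  rw [algb_apply, inner3]
  simp [row]

theorem algb_det (A : M3) : A.det =
    A (ee 0) 0 * A (ee 1) 1 * A (ee 2) 2 - A (ee 0) 0 * A (ee 2) 1 * A (ee 1) 2 -
      A (ee 1) 0 * A (ee 0) 1 * A (ee 2) 2 + A (ee 1) 0 * A (ee 2) 1 * A (ee 0) 2 +
      A (ee 2) 0 * A (ee 0) 1 * A (ee 1) 2 - A (ee 2) 0 * A (ee 1) 1 * A (ee 0) 2 := by
  have h := LinearMap.det_toMatrix (EuclideanSpace.basisFun (Fin 3) ℝ).toBasis (A : E3 →ₗ[ℝ] E3)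
  rw [ContinuousLinearMap.det, ← h, Matrix.det_fin_three]
  simp [LinearMap.toMatrix_apply, ee]

theorem det_eq (A : M3) : A.det = ⟪cr (row A 0) (row A 1), row A 2⟫ := by
  rw [algb_det, inner3]
  simp [cr, row]
  ring

theorem det_comp (A B : M3) : (A ∘L B).det = A.det * B.det := by
  exact LinearMap.det_comp (A : E3 →ₗ[ℝ] E3) (B : E3 →ₗ[ℝ] E3)

theorem det_tr (A : M3) : (tr A).det = A.det := by
  rw [algb_det, algb_det]
  simp only [algb_tr_apply]
  simp [ee_apply]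
  ring

theorem det_smul3 (s : ℝ) (A : M3) : (s • A).det = s ^ 3 * A.det := by
  rw [algb_det, algb_det]
  simp only [ContinuousLinearMap.smul_apply, PiLp.smul_apply, smul_eq_mul]
  ring

theorem det_one_add_tn (s : ℝ) (a b : E3) : ((1 : M3) + s • tn a b).det = 1 + s * ⟪a, b⟫ := by
  rw [algb_det, inner3]
  simp only [ContinuousLinearMap.add_apply, ContinuousLinearMap.smul_apply, tn_apply, inner_ee,
    ContinuousLinearMap.one_apply, PiLp.add_apply, PiLp.smul_apply, smul_eq_mul]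
  simp [ee_apply]
  ring

theorem adj_apply (A : M3) (X : E3) : adj A X = X 0 • cr (row A 1) (row A 2) +
    X 1 • cr (row A 2) (row A 0) + X 2 • cr (row A 0) (row A 1) := by
  simp only [adj, ContinuousLinearMap.add_apply, tn_apply]
  rw [real_inner_comm X, real_inner_comm X, real_inner_comm X, inner_ee, inner_ee, inner_ee]

theorem comp_adj (A : M3) : A ∘L adj A = A.det • (1 : M3) := by
  ext ξ i
  rw [ContinuousLinearMap.comp_apply, algb_apply, adj_apply, algb_det]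
  fin_cases i <;> simp [cr, row] <;> ring

theorem adj_comp (A : M3) : adj A ∘L A = A.det • (1 : M3) := by
  ext ξ i
  rw [ContinuousLinearMap.comp_apply, adj_apply, algb_apply A ξ 0, algb_apply A ξ 1,
    algb_apply A ξ 2, algb_det]
  fin_cases i <;> simp [cr, row] <;> ring

theorem adj_one : adj (1 : M3) = 1 := by
  have h := adj_comp (1 : M3)
  have h1 : (1 : M3).det = 1 := by
    rw [algb_det]; simp [ee_apply]
  rw [h1, one_smul] at h
  simpa [ContinuousLinearMap.one_def] using h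

theorem adj_cr (A : M3) (p q : E3) : adj A (cr p q) = cr (tr A p) (tr A q) := by
  rw [adj_apply]
  refine ext3 ?_ ?_ ?_ <;> simp [cr, row, algb_tr_apply] <;> ring

theorem inner_adj (A : M3) (p X : E3) : ⟪tr A p, adj A X⟫ = A.det * ⟪p, X⟫ := by
  rw [ContinuousLinearMap.adjoint_inner_left, ← ContinuousLinearMap.comp_apply, comp_adj]
  simp [inner_smul_right]

/-- `adj(A)ᵀ Aᵀ = det A` -/
theorem tr_adj_tr (A : M3) (p : E3) : tr (adj A) (tr A p) = A.det • p := by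
  refine ext_inner_right ℝ fun X => ?_
  rw [ContinuousLinearMap.adjoint_inner_left, inner_adj, real_inner_smul_left]

theorem algb_norm_ee (i : Fin 3) : ‖ee i‖ = 1 := by simp [ee]

theorem algb_norm_row (A : M3) (i : Fin 3) : ‖row A i‖ ≤ ‖A‖ := by
  rw [row_eq]
  calc ‖tr A (ee i)‖ ≤ ‖tr A‖ * ‖ee i‖ := (tr A).le_opNorm _
    _ = ‖A‖ := by rw [algb_norm_ee, mul_one, LinearIsometryEquiv.norm_map]

theorem algb_norm_cr_le (a b : E3) : ‖cr a b‖ ≤ ‖a‖ * ‖b‖ := by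
  have h : ‖cr a b‖ ^ 2 ≤ (‖a‖ * ‖b‖) ^ 2 := by
    rw [mul_pow, norm_sq3, norm_sq3, norm_sq3]
    simp only [cr, v3_0, v3_1, v3_2]
    nlinarith [sq_nonneg (a 0 * b 0 + a 1 * b 1 + a 2 * b 2)]
  exact (pow_le_pow_iff_left₀ (norm_nonneg _) (by positivity) two_ne_zero).1 h

theorem norm_adj_le (A : M3) : ‖adj A‖ ≤ 3 * ‖A‖ ^ 2 := by
  have key : ∀ i j k : Fin 3, ‖tn (cr (row A i) (row A j)) (ee k)‖ ≤ ‖A‖ ^ 2 := by
    intro i j k
    have h1 : ‖tn (cr (row A i) (row A j)) (ee k)‖ = ‖cr (row A i) (row A j)‖ := by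
      simp [tn, ContinuousLinearMap.norm_smulRight_apply, algb_norm_ee]
    rw [h1, sq]
    exact (algb_norm_cr_le _ _).trans
      (mul_le_mul (algb_norm_row A i) (algb_norm_row A j) (norm_nonneg _) (norm_nonneg _))
  have h1 := key 1 2 0
  have h2 := key 2 0 1
  have h3 := key 0 1 2
  have h4 := norm_add₃_le (a := tn (cr (row A 1) (row A 2)) (ee 0))
    (b := tn (cr (row A 2) (row A 0)) (ee 1)) (c := tn (cr (row A 0) (row A 1)) (ee 2))
  unfold adj
  linarith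

theorem algb_contDiff_entry {n : WithTop ℕ∞} (j i : Fin 3) :
    ContDiff ℝ n fun A : M3 => A (ee j) i := by
  have h1 : ContDiff ℝ n fun A : M3 => A (ee j) :=
    (ContinuousLinearMap.apply ℝ E3 (ee j)).contDiff
  exact (contDiff_euclidean.1 h1) i

theorem algb_contDiff_crrow {n : WithTop ℕ∞} (i j : Fin 3) :
    ContDiff ℝ n fun A : M3 => cr (row A i) (row A j) := by
  refine contDiff_euclidean.2 fun k => ?_
  fin_cases k <;> simp [cr, row] <;>
    exact ((algb_contDiff_entry _ _).mul (algb_contDiff_entry _ _)).sub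
      ((algb_contDiff_entry _ _).mul (algb_contDiff_entry _ _))

theorem contDiff_adj {n : WithTop ℕ∞} : ContDiff ℝ n adj := by
  have key : ∀ i j k : Fin 3, ContDiff ℝ n fun A : M3 => tn (cr (row A i) (row A j)) (ee k) := by
    intro i j k
    exact (ContinuousLinearMap.smulRightL ℝ E3 E3 (innerSL ℝ (ee k))).contDiff.comp
      (algb_contDiff_crrow i j)
  exact ((key 1 2 0).add (key 2 0 1)).add (key 0 1 2)

theorem contDiff_det {n : WithTop ℕ∞} : ContDiff ℝ n fun A : M3 => A.det := by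
  simp only [algb_det]
  have e := fun j i => algb_contDiff_entry (n := n) j i
  exact (((((((e 0 0).mul (e 1 1)).mul (e 2 2)).sub (((e 0 0).mul (e 2 1)).mul (e 1 2))).sub
    (((e 1 0).mul (e 0 1)).mul (e 2 2))).add (((e 1 0).mul (e 2 1)).mul (e 0 2))).add
    (((e 2 0).mul (e 0 1)).mul (e 1 2))).sub (((e 2 0).mul (e 1 1)).mul (e 0 2))

theorem contDiff_tr {n : WithTop ℕ∞} : ContDiff ℝ n fun A : M3 => tr A := by
  have h : (fun A : M3 => tr A) = fun A : M3 =>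
      tn (row A 0) (ee 0) + tn (row A 1) (ee 1) + tn (row A 2) (ee 2) := by
    funext A
    ext ξ i
    simp only [ContinuousLinearMap.add_apply, tn_apply, algb_tr_apply, PiLp.add_apply,
      PiLp.smul_apply, smul_eq_mul]
    rw [real_inner_comm ξ, real_inner_comm ξ, real_inner_comm ξ, inner_ee, inner_ee, inner_ee]
    fin_cases i <;> simp [row] <;> ring
  have hr : ∀ i : Fin 3, ContDiff ℝ n fun A : M3 => row A i := by
    intro i
    refine contDiff_euclidean.2 fun k => ?_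
    fin_cases k <;> simp [row] <;> exact algb_contDiff_entry _ _
  have key : ∀ i : Fin 3, ContDiff ℝ n fun A : M3 => tn (row A i) (ee i) := fun i =>
    (ContinuousLinearMap.smulRightL ℝ E3 E3 (innerSL ℝ (ee i))).contDiff.comp (hr i)
  rw [h]
  exact ((key 0).add (key 1)).add (key 2)

/-- if `A` is the inverse of `M`, the pull-back by `A` is the push-forward by `M` -/
theorem pull_eq_push {A M : M3} (h : A ∘L M = 1) (s : M3) :
    (A.det)⁻¹ • (adj A ∘L s ∘L tr (adj A)) = push M s := by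
  have h1 : (1 : M3).det = 1 := by
    rw [algb_det]; simp [ee_apply]
  have hd : A.det * M.det = 1 := by rw [← det_comp, h, h1]
  have hA : A.det ≠ 0 := left_ne_zero_of_mul_eq_one hd
  have hadj : adj A = A.det • M := by
    have h2 : (adj A ∘L A) ∘L M = adj A := by
      rw [ContinuousLinearMap.comp_assoc, h]; rfl
    rw [adj_comp] at h2
    rw [← h2]
    ext ξ i
    simp
  have hM : (M.det)⁻¹ = A.det := (eq_inv_of_mul_eq_one_left hd).symm
  rw [hadj, push, hM]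
  ext ξ i
  simp only [map_smul, ContinuousLinearMap.smul_apply, ContinuousLinearMap.comp_apply,
    PiLp.smul_apply, smul_eq_mul]
  field_simp

theorem exists_equiv {A : M3} (h : A.det ≠ 0) : ∃ e : E3 ≃L[ℝ] E3, (e : M3) = A :=
  ⟨A.toContinuousLinearEquivOfDetNeZero h, A.coe_toContinuousLinearEquivOfDetNeZero h⟩

/-! ### part c: cones -/

theorem Cone.mono {c c' : ℝ} {E₁ E₂ J₁ J₂ : E3} (h : Cone c E₁ E₂ J₁ J₂) (hc : c' ≤ c) :
    Cone c' E₁ E₂ J₁ J₂ :=
  ⟨h.sym, fun s t => (mul_le_mul_of_nonneg_right hc (by positivity)).trans (h.pos s t), h.ind⟩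

theorem Cone.lin {c : ℝ} {E₁ E₂ J₁ J₂ : E3} (h : Cone c E₁ E₂ J₁ J₂) {p q r s : ℝ}
    (hd : p * s - q * r ≠ 0) :
    Cone c (p • E₁ + q • E₂) (r • E₁ + s • E₂) (p • J₁ + q • J₂) (r • J₁ + s • J₂) := by
  refine ⟨?_, fun a b => ?_, ?_⟩
  · simp only [inner_add_left, inner_add_right, real_inner_smul_left, real_inner_smul_right, h.sym]
    ring
  · have e : ∀ X Y : E3, a • (p • X + q • Y) + b • (r • X + s • Y) =
        (a * p + b * r) • X + (a * q + b * s) • Y := fun X Y => by module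
    rw [e, e]
    exact h.pos _ _
  · have e : cr (p • E₁ + q • E₂) (r • E₁ + s • E₂) = (p * s - q * r) • cr E₁ E₂ :=
      ext3 (by simp [cr]; ring) (by simp [cr]; ring) (by simp [cr]; ring)
    rw [e]
    exact smul_ne_zero hd h.ind

theorem Cone.self {E₁ E₂ : E3} (h : cr E₁ E₂ ≠ 0) : Cone (1 / 2) E₁ E₂ E₁ E₂ :=
  ⟨real_inner_comm _ _, fun s t => by rw [real_inner_self_eq_norm_sq]; linarith, h⟩

theorem Cone.pull {c c₀ L : ℝ} (hc : 0 < c) (hc₀ : 0 < c₀) (hL : 0 < L) :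
    ∃ c' : ℝ, 0 < c' ∧ ∀ (E₁ E₂ J₁ J₂ : E3) (A : M3) (s : ℝ), Cone c E₁ E₂ J₁ J₂ → ‖A‖ ≤ L →
      (s = 1 ∨ s = -1) → c₀ ≤ s * A.det →
      Cone c' (tr A E₁) (tr A E₂) (s • adj A J₁) (s • adj A J₂) := by
  have hK : 0 < L ^ 2 + (3 * L ^ 2) ^ 2 := by positivity
  refine ⟨c₀ * c / (L ^ 2 + (3 * L ^ 2) ^ 2), by positivity, fun E₁ E₂ J₁ J₂ A s h hA hs hd =>
    ⟨?_, fun a b => ?_, fun h0 => ?_⟩⟩
  · rw [real_inner_smul_right, real_inner_smul_right, inner_adj, inner_adj, h.sym]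
  · have e1 : a • tr A E₁ + b • tr A E₂ = tr A (a • E₁ + b • E₂) := by rw [map_add, map_smul, map_smul]
    have e2 : a • s • adj A J₁ + b • s • adj A J₂ = s • adj A (a • J₁ + b • J₂) := by
      rw [map_add, map_smul, map_smul]
      module
    have hp := h.pos a b
    rw [e1, e2, real_inner_smul_right, inner_adj, ← mul_assoc]
    generalize a • E₁ + b • E₂ = E at hp ⊢
    generalize a • J₁ + b • J₂ = J at hp ⊢
    have h1 : ‖tr A E‖ ≤ L * ‖E‖ := by
      refine ((tr A).le_opNorm E).trans (mul_le_mul_of_nonneg_right ?_ (norm_nonneg _))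
      rwa [LinearIsometryEquiv.norm_map]
    have h2 : ‖s • adj A J‖ ≤ 3 * L ^ 2 * ‖J‖ := by
      have : ‖s‖ = 1 := by rcases hs with rfl | rfl <;> simp
      rw [norm_smul, this, one_mul]
      refine ((adj A).le_opNorm J).trans (mul_le_mul_of_nonneg_right ((norm_adj_le A).trans ?_)
        (norm_nonneg _))
      have := pow_le_pow_left₀ (norm_nonneg _) hA 2
      linarith
    have h3 := pow_le_pow_left₀ (norm_nonneg _) h1 2
    have h4 := pow_le_pow_left₀ (norm_nonneg _) h2 2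
    have h5 : ‖tr A E‖ ^ 2 + ‖s • adj A J‖ ^ 2 ≤ (L ^ 2 + (3 * L ^ 2) ^ 2) * (‖E‖ ^ 2 + ‖J‖ ^ 2) := by
      rw [mul_pow] at h3 h4
      nlinarith [mul_nonneg (sq_nonneg L) (sq_nonneg ‖J‖),
        mul_nonneg (sq_nonneg (3 * L ^ 2)) (sq_nonneg ‖E‖)]
    calc _ ≤ c₀ * c / (L ^ 2 + (3 * L ^ 2) ^ 2) *
          ((L ^ 2 + (3 * L ^ 2) ^ 2) * (‖E‖ ^ 2 + ‖J‖ ^ 2)) :=
          mul_le_mul_of_nonneg_left h5 (by positivity)
      _ = c₀ * (c * (‖E‖ ^ 2 + ‖J‖ ^ 2)) := by field_simp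
      _ ≤ _ := mul_le_mul hd hp (by positivity) (hc₀.le.trans hd)
  · rw [← adj_cr] at h0
    have e := DFunLike.congr_fun (comp_adj A) (cr E₁ E₂)
    rw [ContinuousLinearMap.comp_apply, h0, map_zero] at e
    have hd0 : A.det ≠ 0 := fun h1 => by
      rw [h1, mul_zero] at hd
      linarith
    exact smul_ne_zero hd0 h.ind (by simpa using e.symm)

theorem algc_ineq {da db Va Vb κ κ' : ℝ} (hκ : κ ∈ Icc (1 / 32 : ℝ) 1)
    (hκ' : κ' ∈ Icc (1 / 32 : ℝ) 1)
    (h : |Va - κ * da| + |Vb - κ' * db| ≤ (|da| + |db|) / 256) :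
    1 / 1000 * (da ^ 2 + db ^ 2 + Va ^ 2 + Vb ^ 2) ≤ da * Va + db * Vb := by
  obtain ⟨ea, rfl⟩ : ∃ e, Va = κ * da + e := ⟨Va - κ * da, by ring⟩
  obtain ⟨eb, rfl⟩ : ∃ e, Vb = κ' * db + e := ⟨Vb - κ' * db, by ring⟩
  rw [add_sub_cancel_left, add_sub_cancel_left] at h
  have h1 : (|ea| + |eb|) ^ 2 ≤ ((|da| + |db|) / 256) ^ 2 := pow_le_pow_left₀ (by positivity) h 2
  have h2 : ea ^ 2 + eb ^ 2 ≤ (da ^ 2 + db ^ 2) / 32768 := by
    nlinarith [sq_abs ea, sq_abs eb, sq_abs da, sq_abs db, sq_nonneg (|da| - |db|),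
      mul_nonneg (abs_nonneg ea) (abs_nonneg eb)]
  have h3 : ∀ k d : ℝ, k ∈ Icc (1 / 32 : ℝ) 1 → (k * d) ^ 2 ≤ d ^ 2 ∧ d ^ 2 / 32 ≤ k * d ^ 2 :=
    fun k d hk => ⟨by
      rw [mul_pow]
      exact mul_le_of_le_one_left (sq_nonneg d) (pow_le_one₀ (by linarith [hk.1]) hk.2),
      by nlinarith [mul_le_mul_of_nonneg_right hk.1 (sq_nonneg d)]⟩
  obtain ⟨a1, a2⟩ := h3 κ da hκ
  obtain ⟨b1, b2⟩ := h3 κ' db hκ'
  nlinarith [sq_nonneg (κ * da - ea), sq_nonneg (κ' * db - eb), sq_nonneg (da + 128 * ea),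
    sq_nonneg (db + 128 * eb), sq_nonneg da, sq_nonneg db]

/-- spectator `t`: only the horizontal components matter -/
theorem cone_of_diag {dt da db Va Vb κ κ' : ℝ} (hκ : κ ∈ Icc (1 / 32 : ℝ) 1)
    (hκ' : κ' ∈ Icc (1 / 32 : ℝ) 1) (hne : da ≠ 0 ∨ db ≠ 0)
    (h : |Va - κ * da| + |Vb - κ' * db| ≤ (|da| + |db|) / 256) :
    Cone (1 / 1000) (ee 0) (v3 dt da db) (ee 0) (v3 dt Va Vb) := by
  refine ⟨by simp [inner3, ee_apply], fun s t => ?_, fun h0 => ?_⟩
  · have h1 := mul_le_mul_of_nonneg_left (algc_ineq hκ hκ' h) (sq_nonneg t)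
    rw [norm_sq3, norm_sq3, inner3]
    simp only [PiLp.add_apply, PiLp.smul_apply, smul_eq_mul, ee_apply, v3_0, v3_1, v3_2]
    simp only [Fin.isValue, if_true, one_ne_zero, if_false, Fin.reduceEq]
    nlinarith [sq_nonneg (s * 1 + t * dt)]
  · have h1 := congrArg (fun v : E3 => v 1) h0
    have h2 := congrArg (fun v : E3 => v 2) h0
    simp [cr, ee_apply] at h1 h2
    tauto

end Crest.Agent.R83
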