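import Crest.Agent.R83.Null

/-!
# Row 83: amplitudes of the modes (functions of one variable)

`amp` is born on `[-148, -147]`, decays with rate `1/4` on `[-148, 0]`, changes its rate on `[0, 6]`,
decays with rate `1` on `[6, 80]` and dies on `[79, 80]`.  `amp1 = amp'`,
`amp'' = kap · amp - gb - gd`.

* part a: `lip_comp_clamp`, `Lip.mul`, `Lip.comp`; bounds by `nlinarith` on `[0, 1]`.
* part b: off the junction points every `cl` is locally the identity or a constant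
  (`cl_lt`, `cl_mid`, `cl_gt`); treat the seven intervals, rewriting with `EventuallyEq`.
-/

namespace Crest.Agent.R83

open MeasureTheory Set Metric Filter Topology
open scoped Gradient RealInnerProductSpace NNReal

/-- clamp to `[a, b]` -/
noncomputable def cl (a b s : ℝ) : ℝ := max a (min s b)

noncomputable def chi (s : ℝ) : ℝ := 10 * cl 0 1 s ^ 3 - 15 * cl 0 1 s ^ 4 + 6 * cl 0 1 s ^ 5
noncomputable def chi1 (s : ℝ) : ℝ := 30 * cl 0 1 s ^ 2 * (1 - cl 0 1 s) ^ 2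
noncomputable def chi2 (s : ℝ) : ℝ := 60 * cl 0 1 s * (1 - cl 0 1 s) * (1 - 2 * cl 0 1 s)

noncomputable def Bm (s : ℝ) : ℝ :=
  Real.exp (-cl (-148) 0 s / 4) * (1 - cl 0 6 s / 8) ^ 2 * Real.exp (6 - cl 6 80 s)

noncomputable def rho (s : ℝ) : ℝ := (1 / 4) / (1 - cl 0 6 s / 8)

noncomputable def kap (s : ℝ) : ℝ :=
  if s < 0 then 1 / 16 else if s < 6 then (1 / 32) / (1 - s / 8) ^ 2 else 1

noncomputable def amp (s : ℝ) : ℝ := chi (s + 148) * Bm s * (1 - chi (s - 79))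

noncomputable def amp1 (s : ℝ) : ℝ := chi1 (s + 148) * Bm s * (1 - chi (s - 79)) -
  chi (s + 148) * (rho s * Bm s) * (1 - chi (s - 79)) - chi (s + 148) * Bm s * chi1 (s - 79)

noncomputable def gb (s : ℝ) : ℝ := -(chi2 (s + 148) - chi1 (s + 148) / 2) * Bm s
noncomputable def gd (s : ℝ) : ℝ := (chi2 (s - 79) - 2 * chi1 (s - 79)) * Bm s

/-- junction points -/
def Jn : Set ℝ := {-148, -147, 0, 6, 79, 80}

/-- Lipschitz and bounded -/
def LipB {X : Type*} [PseudoMetricSpace X] (f : X → ℝ) : Prop := Lip f ∧ ∃ M, ∀ x, |f x| ≤ M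

/-! ### part a -/

theorem cl_mem {a b : ℝ} (hab : a ≤ b) (s : ℝ) : cl a b s ∈ Icc a b := by
  exact ⟨le_max_left _ _, max_le hab (min_le_right _ _)⟩

theorem cl_of_le {a b s : ℝ} (hs : s ≤ a) : cl a b s = a := by
  exact max_eq_left ((min_le_left _ _).trans hs)

theorem cl_of_ge {a b s : ℝ} (hab : a ≤ b) (hs : b ≤ s) : cl a b s = b := by
  rw [cl, min_eq_right hs, max_eq_right hab]

theorem cl_of_mem {a b s : ℝ} (h1 : a ≤ s) (h2 : s ≤ b) : cl a b s = s := by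
  rw [cl, min_eq_left h2, max_eq_right h1]

theorem lip_cl (a b : ℝ) : Lip (cl a b) := by
  exact (Lip.const a).max (Lip.min ⟨1, LipschitzWith.id⟩ (Lip.const b))

section
variable {X : Type*} [PseudoMetricSpace X] {f g : X → ℝ}

theorem LipB.const (c : ℝ) : LipB fun _ : X => c := by
  exact ⟨Lip.const c, |c|, fun _ => le_rfl⟩

theorem LipB.add (hf : LipB f) (hg : LipB g) : LipB fun x => f x + g x := by
  obtain ⟨h1, M, hM⟩ := hf
  obtain ⟨h2, N, hN⟩ := hg
  exact ⟨h1.add h2, M + N, fun x => (abs_add_le _ _).trans (add_le_add (hM x) (hN x))⟩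

theorem LipB.sub (hf : LipB f) (hg : LipB g) : LipB fun x => f x - g x := by
  obtain ⟨h1, M, hM⟩ := hf
  obtain ⟨h2, N, hN⟩ := hg
  exact ⟨h1.sub h2, M + N, fun x => (abs_sub _ _).trans (add_le_add (hM x) (hN x))⟩

theorem LipB.mul (hf : LipB f) (hg : LipB g) : LipB fun x => f x * g x := by
  refine ⟨hf.1.mul hg.1 hf.2 hg.2, ?_⟩
  obtain ⟨M, hM⟩ := hf.2
  obtain ⟨N, hN⟩ := hg.2
  exact ⟨M * N, fun x => (abs_mul _ _).trans_le
    (mul_le_mul (hM x) (hN x) (abs_nonneg _) ((abs_nonneg _).trans (hM x)))⟩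

theorem LipB.comp {Y : Type*} [PseudoMetricSpace Y] {F : Y → X} (hf : LipB f) (hF : Lip F) :
    LipB fun y => f (F y) := by
  obtain ⟨h1, M, hM⟩ := hf
  exact ⟨h1.comp hF, M, fun y => hM _⟩

end

theorem lipB_sin : LipB Real.sin := by
  exact ⟨⟨1, Real.lipschitzWith_sin⟩, 1, Real.abs_sin_le_one⟩

theorem lipB_cos : LipB Real.cos := by
  exact ⟨⟨1, Real.lipschitzWith_cos⟩, 1, Real.abs_cos_le_one⟩

theorem lipB_chi : LipB chi ∧ LipB chi1 ∧ LipB chi2 := by
  exact ⟨lip_comp_clamp (φ := fun c => 10 * c ^ 3 - 15 * c ^ 4 + 6 * c ^ 5) zero_le_one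
      fun _ _ => by fun_prop,
    lip_comp_clamp (φ := fun c => 30 * c ^ 2 * (1 - c) ^ 2) zero_le_one fun _ _ => by fun_prop,
    lip_comp_clamp (φ := fun c => 60 * c * (1 - c) * (1 - 2 * c)) zero_le_one fun _ _ => by fun_prop⟩

theorem lipB_amp : LipB amp ∧ LipB amp1 ∧ LipB gb ∧ LipB gd := by
  have hB : LipB Bm :=
    (LipB.mul (lip_comp_clamp (φ := fun c => Real.exp (-c / 4)) (by norm_num) fun _ _ => by fun_prop)
      (lip_comp_clamp (φ := fun c => (1 - c / 8) ^ 2) (by norm_num) fun _ _ => by fun_prop)).mul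
      (lip_comp_clamp (φ := fun c => Real.exp (6 - c)) (by norm_num) fun _ _ => by fun_prop)
  have hr : LipB rho := lip_comp_clamp (φ := fun c => (1 / 4) / (1 - c / 8)) (by norm_num)
    fun s hs => contDiffAt_const.div (by fun_prop) (by linarith [hs.2] : 0 < 1 - s / 8).ne'
  have p1 : Lip fun s : ℝ => s + 148 := Lip.add ⟨1, LipschitzWith.id⟩ (Lip.const _)
  have p2 : Lip fun s : ℝ => s - 79 := Lip.sub ⟨1, LipschitzWith.id⟩ (Lip.const _)
  obtain ⟨c0, c1, c2⟩ := lipB_chi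
  have d0 := (LipB.const 1).sub (c0.comp p2)
  refine ⟨((c0.comp p1).mul hB).mul d0, ((((c1.comp p1).mul hB).mul d0).sub
    (((c0.comp p1).mul (hr.mul hB)).mul d0)).sub (((c0.comp p1).mul hB).mul (c1.comp p2)), ?_,
    ((c2.comp p2).sub ((LipB.const 2).mul (c1.comp p2))).mul hB⟩
  rw [show gb = fun s => (1 / 2 * chi1 (s + 148) - chi2 (s + 148)) * Bm s from
    funext fun s => by unfold gb; ring]
  exact (((LipB.const (1 / 2)).mul (c1.comp p1)).sub (c2.comp p1)).mul hB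

theorem chi_of_le {s : ℝ} (hs : s ≤ 0) : chi s = 0 ∧ chi1 s = 0 ∧ chi2 s = 0 := by
  simp [chi, chi1, chi2, cl_of_le hs]

theorem chi_of_ge {s : ℝ} (hs : 1 ≤ s) : chi s = 1 ∧ chi1 s = 0 ∧ chi2 s = 0 := by
  simp only [chi, chi1, chi2, cl_of_ge zero_le_one hs]
  norm_num

theorem ampa_chi (s : ℝ) : chi s = cl 0 1 s ^ 3 * (6 * (cl 0 1 s - 5 / 4) ^ 2 + 5 / 8) := by
  unfold chi
  ring

theorem ampa_chi' (s : ℝ) :
    1 - chi s = (1 - cl 0 1 s) ^ 3 * (1 + 3 * cl 0 1 s + 6 * cl 0 1 s ^ 2) := by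
  unfold chi
  ring

theorem chi_mem (s : ℝ) : chi s ∈ Icc (0 : ℝ) 1 := by
  obtain ⟨h0, h1⟩ := cl_mem zero_le_one s
  have h2 := sub_nonneg.2 h1
  refine ⟨?_, sub_nonneg.1 ?_⟩
  · rw [ampa_chi]
    positivity
  · rw [ampa_chi']
    positivity

theorem chi_pos {s : ℝ} (hs : 0 < s) : 0 < chi s := by
  have h0 : 0 < cl 0 1 s := lt_max_of_lt_right (lt_min hs one_pos)
  rw [ampa_chi]
  positivity

theorem chi_lt_one {s : ℝ} (hs : s < 1) : chi s < 1 := by
  have h0 := (cl_mem zero_le_one s).1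
  have h1 : 0 < 1 - cl 0 1 s := sub_pos.2 (max_lt one_pos (min_lt_of_left_lt hs))
  rw [← sub_pos, ampa_chi']
  positivity

theorem abs_chi1_le (s : ℝ) : |chi1 s| ≤ 2 := by
  obtain ⟨h0, h1⟩ := cl_mem zero_le_one s
  unfold chi1
  generalize cl 0 1 s = c at h0 h1
  have h2 : 0 ≤ c * (1 - c) := mul_nonneg h0 (sub_nonneg.2 h1)
  have h3 : c * (1 - c) ≤ 1 / 4 := by nlinarith [sq_nonneg (c - 1 / 2)]
  rw [abs_of_nonneg (by positivity)]
  nlinarith [mul_le_mul h3 h3 h2 (by norm_num)]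

theorem abs_chi2_le (s : ℝ) : |chi2 s| ≤ 6 := by
  obtain ⟨h0, h1⟩ := cl_mem zero_le_one s
  unfold chi2
  generalize cl 0 1 s = c at h0 h1
  have h2 := mul_nonneg (sq_nonneg (1 - 2 * c - 4 / 7)) (by linarith : 0 ≤ 1 - 2 * c + 8 / 7)
  have h3 := mul_nonneg (sq_nonneg (2 * c - 1 - 4 / 7)) (by linarith : 0 ≤ 2 * c - 1 + 8 / 7)
  exact abs_le.2 ⟨by linarith, by linarith⟩

theorem amp_zero {s : ℝ} (hs : s ≤ -148 ∨ 80 ≤ s) : amp s = 0 ∧ amp1 s = 0 ∧ gb s = 0 ∧ gd s = 0 := by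
  unfold amp amp1 gb gd
  rcases hs with hs | hs
  · obtain ⟨a1, a2, a3⟩ := chi_of_le (s := s + 148) (by linarith)
    obtain ⟨b1, b2, b3⟩ := chi_of_le (s := s - 79) (by linarith)
    simp [a1, a2, a3, b2, b3]
  · obtain ⟨a1, a2, a3⟩ := chi_of_ge (s := s + 148) (by linarith)
    obtain ⟨b1, b2, b3⟩ := chi_of_ge (s := s - 79) (by linarith)
    simp [a2, a3, b1, b2, b3]

theorem ampa_Bm_pos (s : ℝ) : 0 < Bm s := by
  have h : 0 < 1 - cl 0 6 s / 8 := by linarith [(cl_mem (a := 0) (b := 6) (by norm_num) s).2]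
  unfold Bm
  positivity

theorem amp_pos {s : ℝ} (h1 : -148 < s) (h2 : s < 80) : 0 < amp s := by
  exact mul_pos (mul_pos (chi_pos (by linarith)) (ampa_Bm_pos s)) (sub_pos.2 (chi_lt_one (by linarith)))

theorem amp_ge_birth {s : ℝ} (h1 : 6 ≤ s) (h2 : s ≤ 13 / 2) : 1 / 32 ≤ amp s := by
  rw [amp, (chi_of_ge (by linarith)).1, (chi_of_le (by linarith)).1, Bm,
    cl_of_ge (by norm_num) (by linarith), cl_of_ge (by norm_num) h1, cl_of_mem h1 (by linarith),
    neg_zero, zero_div, Real.exp_zero]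
  linarith [Real.add_one_le_exp (6 - s)]

theorem amp_ge_death {s : ℝ} (h1 : -2 ≤ s) (h2 : s ≤ 0) : 1 ≤ amp s := by
  rw [amp, (chi_of_ge (by linarith)).1, (chi_of_le (by linarith)).1, Bm,
    cl_of_mem (by linarith) h2, cl_of_le h2, cl_of_le (by linarith), sub_self, Real.exp_zero]
  linarith [Real.add_one_le_exp (-s / 4)]

theorem gb_zero {s : ℝ} (hs : s ≤ -148 ∨ -147 ≤ s) : gb s = 0 := by
  unfold gb
  rcases hs with hs | hs
  · obtain ⟨-, a2, a3⟩ := chi_of_le (s := s + 148) (by linarith)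
    simp [a2, a3]
  · obtain ⟨-, a2, a3⟩ := chi_of_ge (s := s + 148) (by linarith)
    simp [a2, a3]

theorem gd_zero {s : ℝ} (hs : s ≤ 79 ∨ 80 ≤ s) : gd s = 0 := by
  unfold gd
  rcases hs with hs | hs
  · obtain ⟨-, a2, a3⟩ := chi_of_le (s := s - 79) (by linarith)
    simp [a2, a3]
  · obtain ⟨-, a2, a3⟩ := chi_of_ge (s := s - 79) (by linarith)
    simp [a2, a3]

theorem abs_gb_le (s : ℝ) : |gb s| ≤ 7 * Real.exp 37 := by
  have a1 := abs_le.1 (abs_chi1_le (s + 148))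
  have a2 := abs_le.1 (abs_chi2_le (s + 148))
  obtain ⟨b1, -⟩ := cl_mem (a := -148) (b := 0) (by norm_num) s
  obtain ⟨b2, b3⟩ := cl_mem (a := 0) (b := 6) (by norm_num) s
  obtain ⟨b4, -⟩ := cl_mem (a := 6) (b := 80) (by norm_num) s
  have hB : Bm s ≤ Real.exp 37 * 1 * 1 :=
    mul_le_mul (mul_le_mul (Real.exp_le_exp.2 (by linarith)) (pow_le_one₀ (by linarith) (by linarith))
      (sq_nonneg _) (Real.exp_pos _).le) (Real.exp_le_one_iff.2 (by linarith)) (Real.exp_pos _).le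
      (by positivity)
  rw [gb, abs_mul, abs_of_pos (ampa_Bm_pos s)]
  exact mul_le_mul (abs_le.2 ⟨by linarith, by linarith⟩) (by linarith) (ampa_Bm_pos s).le (by norm_num)

theorem abs_gd_le (s : ℝ) : |gd s| ≤ Real.exp (-73) := by
  rcases le_total s 79 with hs | hs
  · rw [gd_zero (Or.inl hs), abs_zero]
    exact (Real.exp_pos _).le
  have a1 := abs_le.1 (abs_chi1_le (s - 79))
  have a2 := abs_le.1 (abs_chi2_le (s - 79))
  have b1 : 79 ≤ cl 6 80 s := le_max_of_le_right (le_min hs (by norm_num))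
  have b2 : Real.exp (6 - cl 6 80 s) ≤ Real.exp (-73) := Real.exp_le_exp.2 (by linarith)
  have hB : Bm s ≤ Real.exp (-73) / 10 := by
    rw [Bm, cl_of_ge (by norm_num) (by linarith), cl_of_ge (by norm_num) (by linarith), neg_zero,
      zero_div, Real.exp_zero]
    linarith [Real.exp_pos (-73)]
  rw [gd, abs_mul, abs_of_pos (ampa_Bm_pos s)]
  refine (mul_le_mul (b := 10) (abs_le.2 ⟨by linarith, by linarith⟩) hB (ampa_Bm_pos s).le
    (by norm_num)).trans_eq ?_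
  ring

theorem kap_mem (s : ℝ) : kap s ∈ Icc (1 / 32 : ℝ) 1 := by
  unfold kap
  split_ifs with h1 h2
  · constructor <;> norm_num
  · have h3 : 0 < 1 - s / 8 := by linarith
    have h4 := not_lt.1 h1
    constructor
    · rw [le_div_iff₀ (by positivity)]
      nlinarith
    · rw [div_le_iff₀ (by positivity)]
      nlinarith
  · constructor <;> norm_num

/-! ### part b -/

theorem cl_lt {a b s : ℝ} (hs : s < a) : cl a b =ᶠ[𝓝 s] fun _ => a :=
  (eventually_lt_nhds hs).mono fun _ h => cl_of_le h.le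

theorem cl_gt {a b s : ℝ} (hab : a ≤ b) (hs : b < s) : cl a b =ᶠ[𝓝 s] fun _ => b :=
  (eventually_gt_nhds hs).mono fun _ h => cl_of_ge hab h.le

theorem cl_mid {a b s : ℝ} (h1 : a < s) (h2 : s < b) : cl a b =ᶠ[𝓝 s] fun x => x :=
  ((eventually_gt_nhds h1).and (eventually_lt_nhds h2)).mono fun _ h => cl_of_mem h.1.le h.2.le

theorem contDiffAt_cl {a b s : ℝ} (hab : a ≤ b) (h1 : s ≠ a) (h2 : s ≠ b) :
    ContDiffAt ℝ 2 (cl a b) s := by
  rcases h1.lt_or_gt with h1 | h1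
  · exact contDiffAt_const.congr_of_eventuallyEq (cl_lt h1)
  rcases h2.lt_or_gt with h2 | h2
  · exact contDiffAt_id.congr_of_eventuallyEq (cl_mid h1 h2)
  · exact contDiffAt_const.congr_of_eventuallyEq (cl_gt hab h2)

theorem ampb_cl {s : ℝ} (h0 : s ≠ 0) (h1 : s ≠ 1) :
    ∃ e, HasDerivAt (cl 0 1) e s ∧ cl 0 1 s * (1 - cl 0 1 s) * (e - 1) = 0 := by
  rcases h0.lt_or_gt with h0 | h0
  · exact ⟨0, (hasDerivAt_const s 0).congr_of_eventuallyEq (cl_lt h0), by simp [cl_of_le h0.le]⟩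
  rcases h1.lt_or_gt with h1 | h1
  · exact ⟨1, (hasDerivAt_id s).congr_of_eventuallyEq (cl_mid h0 h1), by simp⟩
  · exact ⟨0, (hasDerivAt_const s 1).congr_of_eventuallyEq (cl_gt zero_le_one h1),
      by simp [cl_of_ge zero_le_one h1.le]⟩

theorem chi_smooth {s : ℝ} (h0 : s ≠ 0) (h1 : s ≠ 1) :
    ContDiffAt ℝ 2 chi s ∧ ContDiffAt ℝ 2 chi1 s ∧ ContDiffAt ℝ 2 chi2 s ∧
      HasDerivAt chi (chi1 s) s ∧ HasDerivAt chi1 (chi2 s) s := by
  have hc := contDiffAt_cl zero_le_one h0 h1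
  obtain ⟨e, he, h⟩ := ampb_cl h0 h1
  refine ⟨?_, ?_, ?_, ?_, ?_⟩
  · unfold chi; fun_prop
  · unfold chi1; fun_prop
  · unfold chi2; fun_prop
  · refine ((((he.fun_pow 3).const_mul 10).fun_sub ((he.fun_pow 4).const_mul 15)).fun_add
      ((he.fun_pow 5).const_mul 6)).congr_deriv ?_
    simp only [chi1]
    push_cast
    linear_combination 30 * cl 0 1 s * (1 - cl 0 1 s) * h
  · refine (((he.fun_pow 2).const_mul 30).fun_mul ((he.const_sub 1).fun_pow 2)).congr_deriv ?_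
    simp only [chi2]
    push_cast
    linear_combination 60 * (1 - 2 * cl 0 1 s) * h

theorem ampb_Jn {s : ℝ} (hs : s ∉ Jn) : s ≠ -148 ∧ s ≠ -147 ∧ s ≠ 0 ∧ s ≠ 6 ∧ s ≠ 79 ∧ s ≠ 80 := by
  simpa only [Jn, mem_insert_iff, mem_singleton_iff, not_or] using hs

theorem amp_smooth {s : ℝ} (hs : s ∉ Jn) :
    ContDiffAt ℝ 2 amp s ∧ ContDiffAt ℝ 2 amp1 s ∧ ContDiffAt ℝ 2 gb s ∧ ContDiffAt ℝ 2 gd s := by
  obtain ⟨j1, j2, j3, j4, j5, j6⟩ := ampb_Jn hs
  obtain ⟨a0, a1, a2, -⟩ := chi_smooth (s := s + 148) (fun h => j1 (by linarith)) fun h => j2 (by linarith)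
  obtain ⟨d0, d1, d2, -⟩ := chi_smooth (s := s - 79) (fun h => j5 (by linarith)) fun h => j6 (by linarith)
  have p : ContDiffAt ℝ 2 (fun x : ℝ => x + 148) s := by fun_prop
  have m : ContDiffAt ℝ 2 (fun x : ℝ => x - 79) s := by fun_prop
  have a0 : ContDiffAt ℝ 2 (fun x => chi (x + 148)) s := ContDiffAt.comp (g := chi) s a0 p
  have a1 : ContDiffAt ℝ 2 (fun x => chi1 (x + 148)) s := ContDiffAt.comp (g := chi1) s a1 p
  have a2 : ContDiffAt ℝ 2 (fun x => chi2 (x + 148)) s := ContDiffAt.comp (g := chi2) s a2 p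
  have d0 : ContDiffAt ℝ 2 (fun x => chi (x - 79)) s := ContDiffAt.comp (g := chi) s d0 m
  have d1 : ContDiffAt ℝ 2 (fun x => chi1 (x - 79)) s := ContDiffAt.comp (g := chi1) s d1 m
  have d2 : ContDiffAt ℝ 2 (fun x => chi2 (x - 79)) s := ContDiffAt.comp (g := chi2) s d2 m
  have c1 := contDiffAt_cl (by norm_num) j1 j3
  have c2 := contDiffAt_cl (by norm_num) j3 j4
  have c3 := contDiffAt_cl (by norm_num) j4 j6
  have hB : ContDiffAt ℝ 2 Bm s := by unfold Bm; fun_prop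
  have hρ : ContDiffAt ℝ 2 rho s := by
    refine contDiffAt_const.div (contDiffAt_const.sub (c2.div_const 8)) ?_
    have := (cl_mem (a := 0) (b := 6) (by norm_num) s).2
    linarith
  exact ⟨(a0.mul hB).mul (contDiffAt_const.sub d0),
    (((a1.mul hB).mul (contDiffAt_const.sub d0)).sub
      ((a0.mul (hρ.mul hB)).mul (contDiffAt_const.sub d0))).sub ((a0.mul hB).mul d1),
    (a2.sub (a1.div_const 2)).neg.mul hB, (d2.sub (contDiffAt_const.mul d1)).mul hB⟩

theorem ampb_two {f g F G : ℝ → ℝ} {k f' g' s : ℝ} (h : ∀ᶠ x in 𝓝 s, f x = F x ∧ g x = G x)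
    (hF : HasDerivAt F f' s) (hG : HasDerivAt G g' s) (e1 : f' = -G s) (e2 : g' = -(k * F s)) :
    HasDerivAt f (-g s) s ∧ HasDerivAt g (-(k * f s)) s := by
  rw [h.self_of_nhds.1, h.self_of_nhds.2, ← e1, ← e2]
  exact ⟨hF.congr_of_eventuallyEq (h.mono fun _ h => h.1), hG.congr_of_eventuallyEq (h.mono fun _ h => h.2)⟩

/-- on `(-148, 80)` off the junctions `Bm' = -rho Bm`, `(rho Bm)' = -kap Bm` -/
theorem Bm_deriv {s : ℝ} (hs : s ∉ Jn) (h1 : -148 < s) (h2 : s < 80) :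
    HasDerivAt Bm (-(rho s * Bm s)) s ∧ HasDerivAt (fun x => rho x * Bm x) (-(kap s * Bm s)) s := by
  obtain ⟨-, -, j3, j4, -⟩ := ampb_Jn hs
  rcases j3.lt_or_gt with h0 | h0
  · have hE := (((hasDerivAt_id s).neg).div_const 4).exp
    refine ampb_two (g := fun x => rho x * Bm x) ?_ hE (hE.const_mul (1 / 4)) (by ring) ?_
    · filter_upwards [cl_mid h1 h0, cl_lt (b := 6) h0, cl_lt (b := 80) (show s < 6 by linarith)]
        with x e1 e2 e3
      simp [Bm, rho, e1, e2, e3]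
    · rw [kap, if_pos h0]; ring
  rcases j4.lt_or_gt with h6 | h6
  · have hE := ((hasDerivAt_id s).div_const 8).const_sub 1
    refine ampb_two (g := fun x => rho x * Bm x) ?_ (hE.fun_pow 2) (hE.const_mul (1 / 4))
      (by simp only [id]; push_cast; ring) ?_
    · filter_upwards [cl_gt (a := -148) (by norm_num) h0, cl_mid h0 h6, cl_lt (b := 80) h6,
        eventually_lt_nhds h6] with x e1 e2 e3 e4
      have : 1 - x / 8 ≠ 0 := by linarith
      simp only [Bm, rho, e1, e2, e3, id, neg_zero, zero_div, sub_self, Real.exp_zero, one_mul, mul_one,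
        true_and]
      rw [sq, ← mul_assoc, div_mul_cancel₀ _ this]
    · have : 1 - s / 8 ≠ 0 := by linarith
      rw [kap, if_neg h0.le.not_gt, if_pos h6, id, div_mul_cancel₀ _ (pow_ne_zero 2 this)]
      ring
  · have hE := (((hasDerivAt_id s).const_sub 6).exp).const_mul (1 / 16)
    refine ampb_two (g := fun x => rho x * Bm x) ?_ hE hE (by ring) ?_
    · filter_upwards [cl_gt (a := -148) (by norm_num) h0, cl_gt (a := 0) (by norm_num) h6,
        cl_mid h6 h2] with x e1 e2 e3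
      simp only [Bm, rho, e1, e2, e3, id]
      norm_num
    · rw [kap, if_neg h0.le.not_gt, if_neg h6.le.not_gt]; ring

theorem amp_deriv {s : ℝ} (hs : s ∉ Jn) :
    HasDerivAt amp (amp1 s) s ∧ HasDerivAt amp1 (kap s * amp s - gb s - gd s) s := by
  obtain ⟨j1, j2, -, -, j5, j6⟩ := ampb_Jn hs
  by_cases h : s < -148 ∨ 80 < s
  · have hz : ∀ᶠ x in 𝓝 s, amp x = 0 ∧ amp1 x = 0 ∧ gb x = 0 ∧ gd x = 0 := by
      rcases h with h | h
      · exact (eventually_lt_nhds h).mono fun _ h => amp_zero (Or.inl h.le)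
      · exact (eventually_gt_nhds h).mono fun _ h => amp_zero (Or.inr h.le)
    obtain ⟨e1, e2, e3, e4⟩ := hz.self_of_nhds
    rw [e1, e2, e3, e4, mul_zero, sub_zero, sub_zero]
    exact ⟨(hasDerivAt_const s 0).congr_of_eventuallyEq (hz.mono fun _ h => h.1),
      (hasDerivAt_const s 0).congr_of_eventuallyEq (hz.mono fun _ h => h.2.1)⟩
  rw [not_or, not_lt, not_lt] at h
  obtain ⟨hB, hR⟩ := Bm_deriv hs (h.1.lt_of_ne' j1) (h.2.lt_of_ne j6)
  obtain ⟨-, -, -, a0, a1⟩ := chi_smooth (s := s + 148) (fun h => j1 (by linarith)) fun h => j2 (by linarith)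
  obtain ⟨-, -, -, d0, d1⟩ := chi_smooth (s := s - 79) (fun h => j5 (by linarith)) fun h => j6 (by linarith)
  have a0 := a0.comp_add_const s 148
  have a1 := a1.comp_add_const s 148
  have d0 := d0.comp_sub_const s 79
  have d1 := d1.comp_sub_const s 79
  refine ⟨((a0.fun_mul hB).fun_mul (d0.const_sub 1)).congr_deriv (by rw [amp1]; ring),
    ((((a1.fun_mul hB).fun_mul (d0.const_sub 1)).fun_sub ((a0.fun_mul hR).fun_mul (d0.const_sub 1))).fun_sub
      ((a0.fun_mul hB).fun_mul d1)).congr_deriv ?_⟩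
  rw [amp, gb, gd]
  rcases le_total s 0 with h0 | h0
  · obtain ⟨e1, e2, e3⟩ := chi_of_le (s := s - 79) (by linarith)
    rw [e1, e2, e3, rho, cl_of_le h0]
    ring
  obtain ⟨e1, e2, e3⟩ := chi_of_ge (s := s + 148) (by linarith)
  rw [e1, e2, e3]
  rcases le_total s 6 with h6 | h6
  · rw [(chi_of_le (s := s - 79) (by linarith)).2.1]
    ring
  · rw [rho, cl_of_ge (by norm_num) h6]
    ring

end Crest.Agent.R83
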