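import Crest.Agent.R83.Alg

/-!
# Row 83: classical calculus

* `grad_comp`: chain rule, `inner_gradient_left`-type lemmas; `∇ f x = v3 (pd 0 ..) ..`.
* `dv_fx`: `div (∇F × ∇G) = 0` by symmetry of second derivatives (`ContDiffAt.isSymmSndFDerivAt`).
* `piola`: `adj (DΦ) X(Φ) = Σ_i X_i(Φ) ∇Φ_{i+1} × ∇Φ_{i+2}` (`adj_apply`, `row_fderiv`), then
  `dv_smul`, `dv_fx`, `grad_comp`, `inner_adj`/`det_eq`.
* `integral_dv_zero`: the field `φ • J` (zero off `tsupport φ`) is globally `C¹` with compact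
  support; `∫ ∂_i (φ J_i) = 0` (`integral_fderiv_eq_zero`-type lemma / `integral_bilinear_hasLineDerivAt_right_eq_neg_left_of_integrable`).
-/

namespace Crest.Agent.R83

open MeasureTheory Set Metric Filter Topology
open scoped Gradient RealInnerProductSpace NNReal
open Crest.Agent.R80 (L2 nr)

/-! ### part a -/

theorem inner_grad (f : E3 → ℝ) (x v : E3) : ⟪∇ f x, v⟫ = fderiv ℝ f x v := by
  exact inner_gradient_left

theorem grad_apply (f : E3 → ℝ) (x : E3) (i : Fin 3) : ∇ f x i = pd i f x := by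
  rw [← inner_ee, inner_grad, pd]

theorem grad_eq (f : E3 → ℝ) (x : E3) : ∇ f x = v3 (pd 0 f x) (pd 1 f x) (pd 2 f x) := by
  exact ext3 (by rw [grad_apply, v3_0]) (by rw [grad_apply, v3_1]) (by rw [grad_apply, v3_2])

theorem norm_grad (f : E3 → ℝ) (x : E3) : ‖∇ f x‖ = ‖fderiv ℝ f x‖ := by
  exact LinearIsometryEquiv.norm_map _ _

theorem grad_congr {f g : E3 → ℝ} {x : E3} (h : f =ᶠ[𝓝 x] g) : ∇ f x = ∇ g x := by
  exact h.gradient_eq

theorem grad_congr' {f g : E3 → ℝ} {x : E3} (h : f =ᶠ[𝓝 x] g) : ∇ f =ᶠ[𝓝 x] ∇ g := by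
  exact h.gradient

theorem grad_add {f g : E3 → ℝ} {x : E3} (hf : DifferentiableAt ℝ f x) (hg : DifferentiableAt ℝ g x) :
    ∇ (fun y => f y + g y) x = ∇ f x + ∇ g x := by
  refine ext_inner_right ℝ fun v => ?_
  rw [inner_add_left, inner_grad, inner_grad, inner_grad, fderiv_fun_add hf hg]; rfl

theorem grad_sub {f g : E3 → ℝ} {x : E3} (hf : DifferentiableAt ℝ f x) (hg : DifferentiableAt ℝ g x) :
    ∇ (fun y => f y - g y) x = ∇ f x - ∇ g x := by
  refine ext_inner_right ℝ fun v => ?_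
  rw [inner_sub_left, inner_grad, inner_grad, inner_grad, fderiv_fun_sub hf hg]; rfl

theorem grad_mul {f g : E3 → ℝ} {x : E3} (hf : DifferentiableAt ℝ f x) (hg : DifferentiableAt ℝ g x) :
    ∇ (fun y => f y * g y) x = f x • ∇ g x + g x • ∇ f x := by
  refine ext_inner_right ℝ fun v => ?_
  rw [inner_add_left, real_inner_smul_left, real_inner_smul_left, inner_grad, inner_grad, inner_grad,
    fderiv_fun_mul hf hg]; rfl

/-- no differentiability needed -/
theorem grad_affine (a b : ℝ) (f : E3 → ℝ) (x : E3) : ∇ (fun y => a * f y + b) x = a • ∇ f x := by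
  refine ext_inner_right ℝ fun v => ?_
  rw [real_inner_smul_left, inner_grad, inner_grad, fderiv_add_const]
  have h : fderiv ℝ (a • f) = a • fderiv ℝ f := fderiv_const_smul_field a
  exact congrArg (fun L : E3 → E3 →L[ℝ] ℝ => L x v) h

theorem grad_lin {f g : E3 → ℝ} {x : E3} (a b k : ℝ) (hf : DifferentiableAt ℝ f x)
    (hg : DifferentiableAt ℝ g x) : ∇ (fun y => a * f y + b * g y + k) x = a • ∇ f x + b • ∇ g x := by
  refine ext_inner_right ℝ fun v => ?_
  rw [inner_add_left, real_inner_smul_left, real_inner_smul_left, inner_grad, inner_grad, inner_grad,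
    (((hf.hasFDerivAt.const_mul a).fun_add (hg.hasFDerivAt.const_mul b)).add_const k).fderiv]; rfl

theorem calca_clm (L : E3 →L[ℝ] ℝ) (x v : E3) : ⟪∇ L x, v⟫ = L v := by
  rw [inner_grad, L.fderiv]

theorem grad_coord (i : Fin 3) (x : E3) : ∇ (fun y : E3 => y i) x = ee i := by
  refine ext_inner_right ℝ fun v => ?_
  rw [real_inner_comm v (ee i), inner_ee]
  exact calca_clm (EuclideanSpace.proj i) x v

theorem grad_inner (a x : E3) : ∇ (fun y : E3 => ⟪a, y⟫) x = a := by
  exact ext_inner_right ℝ fun v => calca_clm (innerSL ℝ a) x v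

theorem grad_comp {f : E3 → ℝ} {Φ : E3 → E3} {x : E3} (hf : DifferentiableAt ℝ f (Φ x))
    (hΦ : DifferentiableAt ℝ Φ x) : ∇ (f ∘ Φ) x = tr (fderiv ℝ Φ x) (∇ f (Φ x)) := by
  refine ext_inner_right ℝ fun v => ?_
  rw [ContinuousLinearMap.adjoint_inner_left, inner_grad, inner_grad, fderiv_comp x hf hΦ]; rfl

theorem grad_comp_real {g : ℝ → ℝ} {g' : ℝ} {f : E3 → ℝ} {x : E3} (hg : HasDerivAt g g' (f x))
    (hf : DifferentiableAt ℝ f x) : ∇ (fun y => g (f y)) x = g' • ∇ f x := by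
  refine ext_inner_right ℝ fun v => ?_
  have h : HasFDerivAt (fun y => g (f y)) (g' • fderiv ℝ f x) x :=
    hg.comp_hasFDerivAt x hf.hasFDerivAt
  rw [real_inner_smul_left, inner_grad, inner_grad, h.fderiv]; rfl

theorem row_fderiv {Φ : E3 → E3} {x : E3} (hΦ : DifferentiableAt ℝ Φ x) (i : Fin 3) :
    row (fderiv ℝ Φ x) i = ∇ (fun y => Φ y i) x := by
  have h : HasFDerivAt (fun y => Φ y i)
      ((EuclideanSpace.proj i : E3 →L[ℝ] ℝ).comp (fderiv ℝ Φ x)) x :=
    (EuclideanSpace.proj i : E3 →L[ℝ] ℝ).hasFDerivAt.comp x hΦ.hasFDerivAt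
  rw [grad_eq, pd, pd, pd, h.fderiv]; rfl

/-- Jacobian of a map given by three functions -/
theorem det_fderiv_v3 {f g h : E3 → ℝ} {x : E3} (hf : DifferentiableAt ℝ f x)
    (hg : DifferentiableAt ℝ g x) (hh : DifferentiableAt ℝ h x) :
    (fderiv ℝ (fun y => v3 (f y) (g y) (h y)) x).det = ⟪fx f g x, ∇ h x⟫ := by
  have hΦ : DifferentiableAt ℝ (fun y => v3 (f y) (g y) (h y)) x := by
    rw [differentiableAt_euclidean]
    intro i
    fin_cases i
    · simpa using hf
    · simpa using hg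
    · simpa using hh
  rw [det_eq, row_fderiv hΦ, row_fderiv hΦ, row_fderiv hΦ]
  simp only [v3_0, v3_1, v3_2]
  rfl

/-- the Riesz isomorphism as a real continuous linear map -/
noncomputable def calca_rz : (E3 →L[ℝ] ℝ) →L[ℝ] E3 :=
  (InnerProductSpace.toDual ℝ E3).symm.toContinuousLinearEquiv.toContinuousLinearMap

theorem calca_grad (f : E3 → ℝ) : ∇ f = calca_rz ∘ fderiv ℝ f := rfl

theorem contDiffAt_grad {n : ℕ} {f : E3 → ℝ} {x : E3} (hf : ContDiffAt ℝ (n + 1 : ℕ) f x) :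
    ContDiffAt ℝ n (∇ f) x := by
  rw [calca_grad]
  exact calca_rz.contDiff.contDiffAt.comp x (hf.fderiv_right (by push_cast; rfl))

theorem contDiffAt_grad1 {f : E3 → ℝ} {x : E3} (hf : ContDiffAt ℝ 2 f x) :
    ContDiffAt ℝ 1 (∇ f) x := by
  exact contDiffAt_grad (n := 1) hf

theorem continuous_grad {f : E3 → ℝ} (hf : ContDiff ℝ 1 f) : Continuous (∇ f) := by
  rw [calca_grad]
  exact calca_rz.continuous.comp (hf.continuous_fderiv one_ne_zero)

theorem measurable_grad (f : E3 → ℝ) : Measurable (∇ f) := by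
  rw [calca_grad]
  exact calca_rz.continuous.measurable.comp (measurable_fderiv ℝ f)

theorem measurable_fx (F G : E3 → ℝ) : Measurable (fx F G) := by
  exact (contDiff_cr (n := 0)).continuous.measurable.comp
    ((measurable_grad F).prodMk (measurable_grad G))

theorem measurable_sg : Measurable sg := by
  have h : Measurable Real.sign :=
    Measurable.ite (measurableSet_lt measurable_id measurable_const) measurable_const
      (Measurable.ite (measurableSet_lt measurable_const measurable_id) measurable_const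
        measurable_const)
  exact h.comp (EuclideanSpace.proj (2 : Fin 3) : E3 →L[ℝ] ℝ).continuous.measurable

theorem grad_eq_zero_of_notMem {f : E3 → ℝ} {x : E3} (hx : x ∉ tsupport f) : ∇ f x = 0 := by
  rw [calca_grad, Function.comp_apply, fderiv_of_notMem_tsupport ℝ hx, map_zero]

theorem fx_comp {F G : E3 → ℝ} {Φ : E3 → E3} {x : E3} (hF : DifferentiableAt ℝ F (Φ x))
    (hG : DifferentiableAt ℝ G (Φ x)) (hΦ : DifferentiableAt ℝ Φ x) :
    fx (F ∘ Φ) (G ∘ Φ) x = adj (fderiv ℝ Φ x) (fx F G (Φ x)) := by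
  rw [fx, fx, adj_cr, grad_comp hF hΦ, grad_comp hG hΦ]

theorem contDiffAt_fx {F G : E3 → ℝ} {x : E3} (hF : ContDiffAt ℝ 2 F x) (hG : ContDiffAt ℝ 2 G x) :
    ContDiffAt ℝ 1 (fx F G) x := by
  exact ContDiffAt.cr' (contDiffAt_grad1 hF) (contDiffAt_grad1 hG)

/-! ### part b -/

theorem dv_congr {X Y : E3 → E3} {x : E3} (h : X =ᶠ[𝓝 x] Y) : dv X x = dv Y x := by
  unfold dv
  rw [h.fderiv_eq]

theorem dv_add {X Y : E3 → E3} {x : E3} (hX : DifferentiableAt ℝ X x) (hY : DifferentiableAt ℝ Y x) :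
    dv (fun y => X y + Y y) x = dv X x + dv Y x := by
  simp only [dv, fderiv_fun_add hX hY, ContinuousLinearMap.add_apply, PiLp.add_apply,
    Finset.sum_add_distrib]

theorem dv_sub {X Y : E3 → E3} {x : E3} (hX : DifferentiableAt ℝ X x) (hY : DifferentiableAt ℝ Y x) :
    dv (fun y => X y - Y y) x = dv X x - dv Y x := by
  simp only [dv, fderiv_fun_sub hX hY, ContinuousLinearMap.sub_apply, PiLp.sub_apply,
    Finset.sum_sub_distrib]

theorem dv_smul {f : E3 → ℝ} {X : E3 → E3} {x : E3} (hf : DifferentiableAt ℝ f x)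
    (hX : DifferentiableAt ℝ X x) : dv (fun y => f y • X y) x = f x * dv X x + ⟪∇ f x, X x⟫ := by
  simp only [dv, fderiv_fun_smul hf hX, ContinuousLinearMap.add_apply, PiLp.add_apply,
    ContinuousLinearMap.smul_apply, PiLp.smul_apply, ContinuousLinearMap.smulRight_apply, smul_eq_mul,
    Fin.sum_univ_three, inner3, grad_apply, pd]
  ring

theorem dv_const_smul (s : ℝ) {X : E3 → E3} {x : E3} (hX : DifferentiableAt ℝ X x) :
    dv (fun y => s • X y) x = s * dv X x := by
  simp only [dv, fderiv_fun_const_smul hX, ContinuousLinearMap.smul_apply, PiLp.smul_apply, smul_eq_mul,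
    Finset.mul_sum]

theorem calcb_contDiffAt_crd {n : WithTop ℕ∞} {X : E3 → E3} {x : E3} (hX : ContDiffAt ℝ n X x) (i : Fin 3) :
    ContDiffAt ℝ n (fun y => X y i) x :=
  (EuclideanSpace.proj i : E3 →L[ℝ] ℝ).contDiff.contDiffAt.comp x hX

theorem calcb_diff_crd {X : E3 → E3} {x : E3} (hX : DifferentiableAt ℝ X x) (i : Fin 3) :
    DifferentiableAt ℝ (fun y => X y i) x :=
  (EuclideanSpace.proj i : E3 →L[ℝ] ℝ).differentiableAt.comp x hX

theorem calcb_dv_eq {X : E3 → E3} {x : E3} (hX : DifferentiableAt ℝ X x) :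
    dv X x = pd 0 (fun y => X y 0) x + pd 1 (fun y => X y 1) x + pd 2 (fun y => X y 2) x := by
  have h : ∀ i, pd i (fun y => X y i) x = fderiv ℝ X x (ee i) i := fun i =>
    DFunLike.congr_fun
      ((EuclideanSpace.proj i : E3 →L[ℝ] ℝ).hasFDerivAt.comp x hX.hasFDerivAt).fderiv (ee i)
  rw [h, h, h, dv, Fin.sum_univ_three]

theorem calcb_diff_fderiv {F : E3 → ℝ} {x : E3} (hF : ContDiffAt ℝ 2 F x) :
    DifferentiableAt ℝ (fderiv ℝ F) x :=
  (hF.fderiv_right (m := 1) (by norm_num)).differentiableAt one_ne_zero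

theorem calcb_diff_pd {F : E3 → ℝ} {x : E3} (hF : ContDiffAt ℝ 2 F x) (j : Fin 3) :
    DifferentiableAt ℝ (pd j F) x :=
  (calcb_diff_fderiv hF).clm_apply (differentiableAt_const _)

theorem calcb_pd_comm {F : E3 → ℝ} {x : E3} (hF : ContDiffAt ℝ 2 F x) (i j : Fin 3) :
    pd i (pd j F) x = pd j (pd i F) x := by
  have h : ∀ i j, pd i (pd j F) x = fderiv ℝ (fderiv ℝ F) x (ee i) (ee j) := fun i j => by
    have := fderiv_clm_apply (calcb_diff_fderiv hF) (differentiableAt_const (ee j))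
    show fderiv ℝ (fun y => fderiv ℝ F y (ee j)) x (ee i) = _
    rw [this]
    simp
  rw [h, h]
  exact (hF.isSymmSndFDerivAt (by simp)).eq _ _

theorem calcb_pd_det {a b c d : E3 → ℝ} {x : E3} (ha : DifferentiableAt ℝ a x)
    (hb : DifferentiableAt ℝ b x) (hc : DifferentiableAt ℝ c x) (hd : DifferentiableAt ℝ d x) (i : Fin 3) :
    pd i (fun y => a y * b y - c y * d y) x =
      a x * pd i b x + b x * pd i a x - (c x * pd i d x + d x * pd i c x) := by
  simp only [pd]
  rw [fderiv_fun_sub (ha.fun_mul hb) (hc.fun_mul hd), fderiv_fun_mul ha hb, fderiv_fun_mul hc hd]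
  simp

theorem dv_fx {F G : E3 → ℝ} {x : E3} (hF : ContDiffAt ℝ 2 F x) (hG : ContDiffAt ℝ 2 G x) :
    dv (fx F G) x = 0 := by
  rw [calcb_dv_eq ((contDiffAt_fx hF hG).differentiableAt one_ne_zero)]
  have f := calcb_diff_pd hF
  have g := calcb_diff_pd hG
  simp only [fx, cr, v3_0, v3_1, v3_2, grad_apply]
  rw [calcb_pd_det (f _) (g _) (f _) (g _), calcb_pd_det (f _) (g _) (f _) (g _),
    calcb_pd_det (f _) (g _) (f _) (g _), calcb_pd_comm hF 1 0, calcb_pd_comm hF 2 0, calcb_pd_comm hF 2 1,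
    calcb_pd_comm hG 1 0, calcb_pd_comm hG 2 0, calcb_pd_comm hG 2 1]
  ring

theorem piola {Φ X : E3 → E3} {x : E3} (hΦ : ContDiffAt ℝ 2 Φ x) (hX : DifferentiableAt ℝ X (Φ x)) :
    dv (fun y => adj (fderiv ℝ Φ y) (X (Φ y))) x = (fderiv ℝ Φ x).det * dv X (Φ x) := by
  have hd : DifferentiableAt ℝ Φ x := hΦ.differentiableAt (by norm_num)
  have hc := calcb_contDiffAt_crd hΦ
  have hev : (fun y => adj (fderiv ℝ Φ y) (X (Φ y))) =ᶠ[𝓝 x] fun y =>
      X (Φ y) 0 • fx (fun z => Φ z 1) (fun z => Φ z 2) y + X (Φ y) 1 • fx (fun z => Φ z 2) (fun z => Φ z 0) y +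
        X (Φ y) 2 • fx (fun z => Φ z 0) (fun z => Φ z 1) y := by
    filter_upwards [hΦ.eventually (by simp)] with y hy
    have hy' : DifferentiableAt ℝ Φ y := hy.differentiableAt (by norm_num)
    simp only [adj_apply, row_fderiv hy', fx]
  have hs : ∀ i, DifferentiableAt ℝ (fun y => X (Φ y) i) x := fun i => (calcb_diff_crd hX i).comp x hd
  have hf : ∀ i j, DifferentiableAt ℝ (fx (fun z => Φ z i) (fun z => Φ z j)) x := fun i j =>
    (contDiffAt_fx (hc i) (hc j)).differentiableAt one_ne_zero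
  have hg : ∀ i, ∇ (fun y => X (Φ y) i) x = tr (fderiv ℝ Φ x) (∇ (fun z => X z i) (Φ x)) := fun i =>
    grad_comp (calcb_diff_crd hX i) hd
  have e0 : fx (fun z => Φ z 1) (fun z => Φ z 2) x = adj (fderiv ℝ Φ x) (ee 0) := by
    simp [adj_apply, row_fderiv hd, fx, ee_apply]
  have e1 : fx (fun z => Φ z 2) (fun z => Φ z 0) x = adj (fderiv ℝ Φ x) (ee 1) := by
    simp [adj_apply, row_fderiv hd, fx, ee_apply]
  have e2 : fx (fun z => Φ z 0) (fun z => Φ z 1) x = adj (fderiv ℝ Φ x) (ee 2) := by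
    simp [adj_apply, row_fderiv hd, fx, ee_apply]
  rw [dv_congr hev, dv_add (((hs 0).fun_smul (hf _ _)).fun_add ((hs 1).fun_smul (hf _ _)))
    ((hs 2).fun_smul (hf _ _)), dv_add ((hs 0).fun_smul (hf _ _)) ((hs 1).fun_smul (hf _ _)),
    dv_smul (hs 0) (hf _ _), dv_smul (hs 1) (hf _ _), dv_smul (hs 2) (hf _ _), dv_fx (hc _) (hc _),
    dv_fx (hc _) (hc _), dv_fx (hc _) (hc _), hg, hg, hg, e0, e1, e2, inner_adj, inner_adj, inner_adj,
    inner_ee, inner_ee, inner_ee, grad_apply, grad_apply, grad_apply, calcb_dv_eq hX]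
  ring

theorem Good.lin {c : ℝ} {u v : E3 → ℝ} {J K : E3 → E3} {x : E3} (h : Good c u v J K x)
    {p q r s : ℝ} (k k' : ℝ) (hd : p * s - q * r ≠ 0) :
    Good c (fun y => p * u y + q * v y + k) (fun y => r * u y + s * v y + k')
      (fun y => p • J y + q • K y) (fun y => r • J y + s • K y) x := by
  have hu := h.su.differentiableAt (by norm_num)
  have hv := h.sv.differentiableAt (by norm_num)
  have hJ := h.sJ.differentiableAt one_ne_zero
  have hK := h.sK.differentiableAt one_ne_zero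
  have d : ∀ a b : ℝ, dv (fun y => a • J y + b • K y) x = 0 := fun a b => by
    rw [dv_add (hJ.fun_const_smul a) (hK.fun_const_smul b), dv_const_smul a hJ, dv_const_smul b hK, h.dJ,
      h.dK, mul_zero, mul_zero, add_zero]
  refine ⟨((contDiffAt_const.mul h.su).add (contDiffAt_const.mul h.sv)).add contDiffAt_const,
    ((contDiffAt_const.mul h.su).add (contDiffAt_const.mul h.sv)).add contDiffAt_const,
    (h.sJ.const_smul p).add (h.sK.const_smul q), (h.sJ.const_smul r).add (h.sK.const_smul s), d p q, d r s,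
    ?_⟩
  rw [grad_lin p q k hu hv, grad_lin r s k' hu hv]
  exact h.cone.lin hd

theorem Good.congr {c : ℝ} {u v u' v' : E3 → ℝ} {J K J' K' : E3 → E3} {x : E3}
    (h : Good c u v J K x) (hu : u' =ᶠ[𝓝 x] u) (hv : v' =ᶠ[𝓝 x] v) (hJ : J' =ᶠ[𝓝 x] J)
    (hK : K' =ᶠ[𝓝 x] K) : Good c u' v' J' K' x := by
  refine ⟨h.su.congr_of_eventuallyEq hu, h.sv.congr_of_eventuallyEq hv, h.sJ.congr_of_eventuallyEq hJ,
    h.sK.congr_of_eventuallyEq hK, (dv_congr hJ).trans h.dJ, (dv_congr hK).trans h.dK, ?_⟩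
  rw [grad_congr hu, grad_congr hv, hJ.eq_of_nhds, hK.eq_of_nhds]
  exact h.cone

theorem Good.mono {c c' : ℝ} {u v : E3 → ℝ} {J K : E3 → E3} {x : E3} (h : Good c u v J K x)
    (hc : c' ≤ c) : Good c' u v J K x := by
  exact ⟨h.su, h.sv, h.sJ, h.sK, h.dJ, h.dK, h.cone.mono hc⟩

/-! ### part c -/

theorem calcc_cont {Z : E3 → E3} (hZ : ContDiff ℝ 1 Z) (hc : HasCompactSupport Z) (i : Fin 3) :
    Integrable fun x => fderiv ℝ Z x (ee i) i := by
  have h1 : Continuous fun x => fderiv ℝ Z x (ee i) i :=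
    (EuclideanSpace.proj i : E3 →L[ℝ] ℝ).continuous.comp
      ((hZ.continuous_fderiv one_ne_zero).clm_apply continuous_const)
  refine h1.integrable_of_hasCompactSupport (HasCompactSupport.intro hc fun x hx => ?_)
  rw [fderiv_of_notMem_tsupport ℝ hx]
  rfl

theorem calcc_int {Z : E3 → E3} (hZ : ContDiff ℝ 1 Z) (hc : HasCompactSupport Z) :
    Integrable (dv Z) :=
  integrable_finsetSum _ fun i _ => calcc_cont hZ hc i

theorem calcc_dv0 {Z : E3 → E3} (hZ : ContDiff ℝ 1 Z) (hc : HasCompactSupport Z) :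
    ∫ x, dv Z x = 0 := by
  unfold dv
  rw [integral_finsetSum _ fun i _ => calcc_cont hZ hc i]
  refine Finset.sum_eq_zero fun i _ => ?_
  have h1 : Integrable fun x => Z x i :=
    (EuclideanSpace.proj i : E3 →L[ℝ] ℝ).integrable_comp
      (hZ.continuous.integrable_of_hasCompactSupport hc)
  have := integral_bilinear_hasFDerivAt_right_eq_neg_left_of_integrable (μ := volume)
    (f := fun _ : E3 => (1 : ℝ)) (f' := fun _ => 0) (g := fun x => Z x i)
    (g' := fun x => (EuclideanSpace.proj i : E3 →L[ℝ] ℝ).comp (fderiv ℝ Z x)) (v := ee i)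
    (B := ContinuousLinearMap.mul ℝ ℝ) (by simp) (by simpa using calcc_cont hZ hc i) (by simpa using h1)
    (fun x _ => hasFDerivAt_const _ _) fun x _ =>
      (EuclideanSpace.proj i : E3 →L[ℝ] ℝ).hasFDerivAt.comp x
        (hZ.differentiable one_ne_zero x).hasFDerivAt
  simpa using this

theorem calcc_gen {O C : Set E3} (hC : IsCompact C) (hCO : C ⊆ O) {f : E3 → ℝ} {X : E3 → E3}
    (h : ∀ x ∈ C, ContDiffAt ℝ 1 f x ∧ ContDiffAt ℝ 1 X x ∧ dv X x = 0)
    (h0 : ∀ x, x ∉ C → f x • X x = 0 ∧ ⟪X x, ∇ f x⟫ = 0) : ∫ x in O, ⟪X x, ∇ f x⟫ = 0 := by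
  have he : ∀ x, x ∉ C → (fun y => f y • X y) =ᶠ[𝓝 x] fun _ => 0 := fun x hx => by
    filter_upwards [hC.isClosed.isOpen_compl.mem_nhds hx] with y hy using (h0 y hy).1
  have hZ : ContDiff ℝ 1 fun y => f y • X y := contDiff_iff_contDiffAt.2 fun x => by
    by_cases hx : x ∈ C
    · exact (h x hx).1.smul (h x hx).2.1
    · exact contDiffAt_const.congr_of_eventuallyEq (he x hx)
  rw [setIntegral_eq_integral_of_forall_compl_eq_zero fun x hx => (h0 x fun h' => hx (hCO h')).2,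
    ← calcc_dv0 hZ (HasCompactSupport.intro hC fun x hx => (h0 x hx).1)]
  refine integral_congr_ae (Eventually.of_forall fun x => ?_)
  by_cases hx : x ∈ C
  · obtain ⟨h1, h2, h3⟩ := h x hx
    simp only [dv_smul (h1.differentiableAt one_ne_zero) (h2.differentiableAt one_ne_zero), h3,
      mul_zero, zero_add, real_inner_comm]
  · simp only [dv_congr (he x hx), (h0 x hx).2]
    simp [dv]

/-- a classical divergence free field is weakly divergence free -/
theorem integral_dv_zero {O : Set E3} (hO : IsOpen O) {J : E3 → E3}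
    (hJ : ∀ x ∈ O, ContDiffAt ℝ 1 J x ∧ dv J x = 0) {φ : E3 → ℝ} (hφ : ContDiff ℝ 1 φ)
    (hc : HasCompactSupport φ) (hs : tsupport φ ⊆ O) : ∫ x in O, ⟪J x, ∇ φ x⟫ = 0 := by
  have _ := hO
  refine calcc_gen hc hs (fun x hx => ⟨hφ.contDiffAt, hJ x (hs hx)⟩) fun x hx => ?_
  rw [image_eq_zero_of_notMem_tsupport hx, grad_eq_zero_of_notMem hx, zero_smul, inner_zero_right]
  exact ⟨rfl, rfl⟩

/-- a compactly supported divergence free field against a function which is `C¹` on `O`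
(multiply `ψ` by a smooth cut-off equal to one near `C`, `exists_contDiff_tsupport_subset` /
`exists_contMDiff_support_eq`-type lemma, and use `integral_dv_zero`) -/
theorem integral_dv_zero' {O C : Set E3} (hO : IsOpen O) (hC : IsCompact C) (hCO : C ⊆ O)
    {X : E3 → E3} (hX : ∀ x ∈ O, ContDiffAt ℝ 1 X x ∧ dv X x = 0) (h0 : ∀ x, x ∉ C → X x = 0)
    {ψ : E3 → ℝ} (hψ : ∀ x ∈ O, ContDiffAt ℝ 1 ψ x) : ∫ x in O, ⟪X x, ∇ ψ x⟫ = 0 := by
  have _ := hO
  refine calcc_gen hC hCO (fun x hx => ⟨hψ x (hCO hx), hX x (hCO hx)⟩) fun x hx => ?_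
  rw [h0 x hx, smul_zero, inner_zero_left]
  exact ⟨rfl, rfl⟩

/-- uniformly small test functions with bounded gradients have weakly small gradients
(approximate `X` by a smooth compactly supported field, `MemLp.exist_eLpNorm_sub_le`, and
integrate by parts) -/
theorem weak_small {X : E3 → E3} (hX : L2 univ X) (M : ℝ) {ε : ℝ} (hε : 0 < ε) :
    ∃ δ : ℝ, 0 < δ ∧ ∀ φ : E3 → ℝ, ContDiff ℝ 1 φ → HasCompactSupport φ → (∀ x, |φ x| ≤ δ) →
      nr univ (∇ φ) ≤ M → |∫ x, ⟪∇ φ x, X x⟫| ≤ ε := by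
  have hM : 0 < |M| + 1 := by positivity
  have hη : 0 < ε / 2 / (|M| + 1) := by positivity
  obtain ⟨g, hg1, hg2, hg3⟩ := MemLp.exist_eLpNorm_sub_le (by norm_num) (by norm_num) hX hη
  have hg : ContDiff ℝ 1 g := hg2.of_le (by exact_mod_cast le_top)
  have hgL : L2 univ g := (hg.continuous.memLp_of_hasCompactSupport hg1).restrict _
  have hD : L2 univ fun x => X x - g x := hX.sub hgL
  have hDn : nr univ (fun x => X x - g x) ≤ ε / 2 / (|M| + 1) := by
    unfold nr
    rw [← toReal_eLpNorm hD.aestronglyMeasurable]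
    exact ENNReal.toReal_le_of_le_ofReal hη.le hg3
  have hI := calcc_int hg hg1
  have hK : 0 < (∫ x, ‖dv g x‖) + 1 := by
    have : 0 ≤ ∫ x, ‖dv g x‖ := integral_nonneg fun _ => norm_nonneg _
    linarith
  refine ⟨ε / 2 / ((∫ x, ‖dv g x‖) + 1), by positivity, fun φ hφ hc hδ hn => ?_⟩
  have hφL : L2 univ (∇ φ) := ((continuous_grad hφ).memLp_of_hasCompactSupport
    (HasCompactSupport.intro hc fun x hx => grad_eq_zero_of_notMem hx)).restrict _
  have hi : ∀ {Y : E3 → E3}, L2 univ Y → Integrable fun x => ⟪∇ φ x, Y x⟫ := fun hY => by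
    rw [← integrableOn_univ]
    exact (R80.L2.integrableOn_mul_real hφL.norm hY.norm).mono'
      (hφL.aestronglyMeasurable.inner hY.aestronglyMeasurable)
      (Eventually.of_forall fun x => norm_inner_le_norm _ _)
  have hb : ∀ x, ‖φ x * dv g x‖ ≤ ε / 2 / ((∫ x, ‖dv g x‖) + 1) * ‖dv g x‖ := fun x => by
    rw [norm_mul]
    exact mul_le_mul_of_nonneg_right (hδ x) (norm_nonneg _)
  have h1 : |∫ x, ⟪∇ φ x, X x - g x⟫| ≤ ε / 2 := by
    have a1 := R80.L2_cs hφL hD
    rw [Measure.restrict_univ] at a1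
    have a2 := norm_integral_le_of_norm_le (f := fun x => ⟪∇ φ x, X x - g x⟫)
      (integrableOn_univ.1 (R80.L2.integrableOn_mul_real hφL.norm hD.norm))
      (Eventually.of_forall fun x => norm_inner_le_norm _ _)
    refine a2.trans (a1.trans ((mul_le_mul (hn.trans ((le_abs_self M).trans (lt_add_one _).le)) hDn
      (R80.nr_nonneg _ _) hM.le).trans_eq (mul_div_cancel₀ _ hM.ne')))
  have h2 : |∫ x, φ x * dv g x| ≤ ε / 2 := by
    refine (norm_integral_le_of_norm_le (hI.norm.const_mul _) (Eventually.of_forall hb)).trans ?_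
    rw [integral_const_mul, div_mul_eq_mul_div, div_le_iff₀ hK]
    nlinarith
  have h3 : (∫ x, φ x * dv g x) + ∫ x, ⟪∇ φ x, g x⟫ = 0 := by
    rw [← integral_add (f := fun x => φ x * dv g x) ((hI.norm.const_mul _).mono'
      (hφ.continuous.aestronglyMeasurable.mul hI.aestronglyMeasurable) (Eventually.of_forall hb)) (hi hgL),
      ← calcc_dv0 (hφ.smul hg) hc.smul_right]
    exact integral_congr_ae (Eventually.of_forall fun x =>
      (dv_smul (hφ.differentiable one_ne_zero x) (hg.differentiable one_ne_zero x)).symm)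
  have h4 : ∫ x, ⟪∇ φ x, X x - g x⟫ = (∫ x, ⟪∇ φ x, X x⟫) - ∫ x, ⟪∇ φ x, g x⟫ := by
    simp only [inner_sub_right]
    exact integral_sub (hi hX) (hi hgL)
  rw [abs_le] at h1 h2 ⊢
  constructor <;> linarith [h1.1, h1.2, h2.1, h2.2]

/-- global inverse of a map close to the identity (`ApproximatesLinearOn.toHomeomorph`,
`Homeomorph.contDiff_symm`; `‖A - 1‖ ≤ 1/2` makes `A` a unit) -/
theorem exists_inv {Θ : E3 → E3} (hΘ : ContDiff ℝ 2 Θ)
    (h : ∀ x, ‖fderiv ℝ Θ x - 1‖ ≤ 1 / 2) :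
    ∃ Φ : E3 → E3, ContDiff ℝ 2 Φ ∧ (∀ x, Φ (Θ x) = x) ∧ (∀ x, Θ (Φ x) = x) ∧
      ∀ x, fderiv ℝ Φ (Θ x) ∘L fderiv ℝ Θ x = 1 := by
  have hd : Differentiable ℝ Θ := hΘ.differentiable (by norm_num)
  have hap : ApproximatesLinearOn Θ (ContinuousLinearEquiv.refl ℝ E3 : E3 →L[ℝ] E3) univ (1 / 2) := by
    intro x _ y _
    have := (convex_univ (𝕜 := ℝ) (E := E3)).norm_image_sub_le_of_norm_fderiv_le' (φ := 1)
      (fun z _ => hd z) (fun z _ => h z) (mem_univ y) (mem_univ x)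
    simpa using this
  have hN : (1 / 2 : ℝ≥0) < ‖((ContinuousLinearEquiv.refl ℝ E3).symm : E3 →L[ℝ] E3)‖₊⁻¹ := by
    have : ‖((ContinuousLinearEquiv.refl ℝ E3).symm : E3 →L[ℝ] E3)‖₊ = 1 :=
      ContinuousLinearMap.nnnorm_id
    rw [this]; norm_num
  set e := ApproximatesLinearOn.toHomeomorph Θ hap (Or.inr hN) with he
  have hcoe : (e : E3 → E3) = Θ := rfl
  have hu : ∀ x, ‖1 - fderiv ℝ Θ x‖ < 1 := fun x => by
    rw [norm_sub_rev]; linarith [h x]
  have hΦ : ContDiff ℝ 2 (e.symm : E3 → E3) := by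
    refine e.contDiff_symm
      (f₀' := fun x => ContinuousLinearEquiv.ofUnit (Units.oneSub _ (hu x))) (fun x => ?_) hΘ
    have : ((ContinuousLinearEquiv.ofUnit (Units.oneSub _ (hu x)) : E3 ≃L[ℝ] E3) : E3 →L[ℝ] E3) =
        fderiv ℝ Θ x := by
      ext1 v
      simp [ContinuousLinearEquiv.ofUnit]
    rw [this]
    exact (hd x).hasFDerivAt
  refine ⟨e.symm, hΦ, e.symm_apply_apply, e.apply_symm_apply, fun x => ?_⟩
  rw [← fderiv_comp x (hΦ.differentiable (by norm_num) _) (hd x)]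
  have : (e.symm : E3 → E3) ∘ Θ = id := funext e.symm_apply_apply
  rw [this, fderiv_id]
  rfl

/-- change of variables, lower bound (`lintegral_image_eq_lintegral_abs_det_fderiv_mul` or the
Bochner version `integral_image_eq_integral_abs_det_fderiv_smul`) -/
theorem cov_lower {Θ Φ : E3 → E3} (hΘ : ContDiff ℝ 1 Θ) (hΦ : Continuous Φ)
    (h1 : ∀ x, Φ (Θ x) = x) (h2 : ∀ x, Θ (Φ x) = x) {x₀ : E3} {r : ℝ}
    (hid : ∀ x, x ∉ ball x₀ r → Θ x = x) (hd : ∀ x, 1 / 2 ≤ (fderiv ℝ Θ x).det)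
    {g : E3 → ℝ} (hg : ContinuousOn g (closedBall x₀ r)) (h0 : ∀ x, 0 ≤ g x) :
    (1 / 2) * ∫ x in ball x₀ r, g x ≤ ∫ x in ball x₀ r, g (Φ x) := by
  have hinj : Function.Injective Θ := Function.LeftInverse.injective h1
  have him : Θ '' ball x₀ r = ball x₀ r := by
    ext y
    constructor
    · rintro ⟨x, hx, rfl⟩
      by_contra hn
      exact hn (by rwa [hinj (hid _ hn)])
    · intro hy
      refine ⟨Φ y, ?_, h2 y⟩
      by_contra hn
      have := hid _ hn
      rw [h2] at this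
      exact hn (this ▸ hy)
  have hdf : Differentiable ℝ Θ := hΘ.differentiable (by norm_num)
  have hcv := integral_image_eq_integral_abs_det_fderiv_smul volume (measurableSet_ball (x := x₀) (ε := r))
    (fun x _ => (hdf x).hasFDerivAt.hasFDerivWithinAt) hinj.injOn (fun y => g (Φ y))
  rw [him] at hcv
  rw [hcv, ← integral_const_mul]
  have hi : IntegrableOn g (ball x₀ r) :=
    (hg.integrableOn_compact (isCompact_closedBall _ _)).mono_set ball_subset_closedBall
  have hc : Continuous fun x => |(fderiv ℝ Θ x).det| :=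
    (ContinuousLinearMap.continuous_det.comp (hΘ.continuous_fderiv (by norm_num))).abs
  have hi2 : IntegrableOn (fun x => |(fderiv ℝ Θ x).det| * g x) (ball x₀ r) :=
    ((hc.continuousOn.mul hg).integrableOn_compact (isCompact_closedBall _ _)).mono_set
      ball_subset_closedBall
  simp only [h1, smul_eq_mul]
  exact integral_mono (hi.const_mul _) hi2 fun x =>
    mul_le_mul_of_nonneg_right ((hd x).trans (le_abs_self _)) (h0 x)

end Crest.Agent.R83
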