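import Crest.Prelude.Def_Conductivity
import Crest.Agent.R80.L2

/-!
# Row 83 (S0111): non-uniqueness in the Calderón problem for `L^∞` conductivities -- definitions, plan

* `Energy`: if all `γ`-solutions are constant on the support of the source of a bounded potential `w`
  (structure `Shield`), then `γ` and `(1+w)² γ` have the same boundary energies (`v = ℓ + (u-ℓ)/(1+w)`).
* `Tree`: a `Node` (two potentials `G true`, `G false` on `Q` minus two similar copies of ratio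
  `lam > 1/2`) gives a `Shield` by self-similar repetition.
* `Alg`, `Calc`, `Spec`, `Osc`, `Move`, `Loc`, `Pert`, `Lim`, `Iso`: convex integration: two smooth
  solutions of an anisotropic equation (`Good`) are replaced by solutions of an isotropic one.
* `Lip`, `Null`, `Wall`: Lipschitz calculus, weakly divergence free fields `∇F × ∇G`.
* `Amp`, `LogP`, `Prof`, `Leg`: the model leg: the field `d` dies in finite time, spectator `t`.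
* `GDefs`, `Geo`, `Dome`, `Plane`, `Fields`, `Flux`, `Main`: geometry of the node, assembly.

`L2 U f`, `nr U f` (the `L²(U)` norm) come from `R80.L2` (read that toolkit).
-/

namespace Crest.Agent.R83

open MeasureTheory Set Metric Filter Topology
open scoped Gradient RealInnerProductSpace NNReal
open Crest.Agent.R80 (L2 nr)

abbrev E3 : Type := EuclideanSpace ℝ (Fin 3)
abbrev M3 : Type := E3 →L[ℝ] E3

/-- coordinate vector -/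
noncomputable def ee (i : Fin 3) : E3 := EuclideanSpace.single i 1

/-- vector with given coordinates -/
noncomputable def v3 (a b c : ℝ) : E3 := !₂[a, b, c]

/-- cross product -/
noncomputable def cr (a b : E3) : E3 :=
  v3 (a 1 * b 2 - a 2 * b 1) (a 2 * b 0 - a 0 * b 2) (a 0 * b 1 - a 1 * b 0)

/-- `i`-th row of the matrix of `A` -/
noncomputable def row (A : M3) (i : Fin 3) : E3 := v3 (A (ee 0) i) (A (ee 1) i) (A (ee 2) i)

/-- `a ⊗ b : ξ ↦ ⟪b, ξ⟫ a` -/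
noncomputable def tn (a b : E3) : M3 := (innerSL ℝ b).smulRight a

/-- adjugate -/
noncomputable def adj (A : M3) : M3 :=
  tn (cr (row A 1) (row A 2)) (ee 0) + tn (cr (row A 2) (row A 0)) (ee 1) +
    tn (cr (row A 0) (row A 1)) (ee 2)

/-- transpose -/
noncomputable abbrev tr (A : M3) : M3 := ContinuousLinearMap.adjoint A

/-- partial derivative -/
noncomputable def pd (i : Fin 3) (f : E3 → ℝ) (x : E3) : ℝ := fderiv ℝ f x (ee i)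

/-- divergence -/
noncomputable def dv (X : E3 → E3) (x : E3) : ℝ := ∑ i, fderiv ℝ X x (ee i) i

/-- the vector field of the two-form `dF ∧ dG` -/
noncomputable def fx (F G : E3 → ℝ) (x : E3) : E3 := cr (∇ F x) (∇ G x)

/-- sign of the last coordinate (the mirror is `x 2 = 0`) -/
noncomputable def sg (x : E3) : ℝ := Real.sign (x 2)

/-- Lipschitz with some constant -/
def Lip {α β : Type*} [PseudoEMetricSpace α] [PseudoEMetricSpace β] (f : α → β) : Prop :=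
  ∃ K : ℝ≥0, LipschitzWith K f

/-! ### two fields with fluxes -/

/-- the fluxes `J₁, J₂` are obtained from the independent gradients `E₁, E₂` by a symmetric
uniformly elliptic matrix -/
structure Cone (c : ℝ) (E₁ E₂ J₁ J₂ : E3) : Prop where
  sym : ⟪E₁, J₂⟫ = ⟪E₂, J₁⟫
  pos : ∀ s t : ℝ, c * (‖s • E₁ + t • E₂‖ ^ 2 + ‖s • J₁ + t • J₂‖ ^ 2) ≤
    ⟪s • E₁ + t • E₂, s • J₁ + t • J₂⟫
  ind : cr E₁ E₂ ≠ 0

/-- at `x`, `u`, `v` are classical solutions with fluxes `J`, `K` -/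
structure Good (c : ℝ) (u v : E3 → ℝ) (J K : E3 → E3) (x : E3) : Prop where
  su : ContDiffAt ℝ 2 u x
  sv : ContDiffAt ℝ 2 v x
  sJ : ContDiffAt ℝ 1 J x
  sK : ContDiffAt ℝ 1 K x
  dJ : dv J x = 0
  dK : dv K x = 0
  cone : Cone c (∇ u x) (∇ v x) (J x) (K x)

/-- `f` is a uniform limit of `C¹` functions compactly supported in `Ω` whose gradients tend to `F`
in `L²` -/
structure H1 (Ω : Set E3) (f : E3 → ℝ) (F : E3 → E3) : Prop where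
  l2 : L2 univ F
  apx : ∀ δ : ℝ, 0 < δ → ∃ g : E3 → ℝ, ContDiff ℝ 1 g ∧ HasCompactSupport g ∧ tsupport g ⊆ Ω ∧
    (∀ x, |g x - f x| ≤ δ) ∧ nr univ (fun x => ∇ g x - F x) ≤ δ

/-- `∫ γ ⟪F, ∇ψ⟫` -/
noncomputable def pr (γ : E3 → ℝ) (F : E3 → E3) (ψ : E3 → ℝ) : ℝ := ∫ x, γ x * ⟪F x, ∇ ψ x⟫

/-- `J` is weakly divergence free on `U` (Lipschitz test functions) -/
def DF (J : E3 → E3) (U : Set E3) : Prop :=
  ∀ ψ : E3 → ℝ, Lip ψ → HasCompactSupport ψ → tsupport ψ ⊆ U → ∫ x, ⟪J x, ∇ ψ x⟫ = 0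

/-- measurable and locally bounded on `U` -/
structure LB (J : E3 → E3) (U : Set E3) : Prop where
  meas : Measurable J
  bd : ∀ C : Set E3, IsCompact C → C ⊆ U → ∃ M : ℝ, ∀ x ∈ C, ‖J x‖ ≤ M

/-! ### states of the convex integration -/

def Sym (σ : M3) : Prop := ∀ a b : E3, ⟪σ a, b⟫ = ⟪a, σ b⟫

/-- `Ψ(σ) = λ_max + λ_max² / det σ < S` -/
def EllS (S : ℝ) (σ : M3) : Prop :=
  ∃ c Λ : ℝ, 0 < c ∧ (∀ ξ : E3, c * ‖ξ‖ ^ 2 ≤ ⟪σ ξ, ξ⟫) ∧ (∀ ξ : E3, ⟪σ ξ, ξ⟫ ≤ Λ * ‖ξ‖ ^ 2) ∧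
    0 < σ.det ∧ Λ + Λ ^ 2 / σ.det < S

/-- push-forward of a conductivity tensor by a map with derivative `M` -/
noncomputable def push (M s : M3) : M3 := (M.det)⁻¹ • (M ∘L s ∘L tr M)

/-- best isotropic conductivity for the pair of fields `a, b` -/
noncomputable def gam (σ : M3) (a b : E3) : ℝ := (⟪σ a, a⟫ + ⟪σ b, b⟫) / (‖a‖ ^ 2 + ‖b‖ ^ 2)

/-- defect of isotropy -/
noncomputable def dfc (σ : M3) (a b : E3) : ℝ :=
  ‖σ a - gam σ a b • a‖ ^ 2 + ‖σ b - gam σ a b • b‖ ^ 2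

structure St where
  u : E3 → ℝ
  v : E3 → ℝ
  σ : E3 → M3

noncomputable def St.J (z : St) (x : E3) : E3 := z.σ x (∇ z.u x)
noncomputable def St.K (z : St) (x : E3) : E3 := z.σ x (∇ z.v x)
noncomputable def St.gam (z : St) (x : E3) : ℝ := R83.gam (z.σ x) (∇ z.u x) (∇ z.v x)
noncomputable def St.D (z : St) (x : E3) : ℝ := dfc (z.σ x) (∇ z.u x) (∇ z.v x)

structure St.Val0 (z : St) (x : E3) : Prop where
  su : ContDiffAt ℝ 2 z.u x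
  sv : ContDiffAt ℝ 2 z.v x
  sJ : ContDiffAt ℝ 1 z.J x
  sK : ContDiffAt ℝ 1 z.K x
  dJ : dv z.J x = 0
  dK : dv z.K x = 0
  cσ : ContinuousAt z.σ x
  sym : Sym (z.σ x)
  ind : cr (∇ z.u x) (∇ z.v x) ≠ 0

structure St.Val (S : ℝ) (z : St) (x : E3) : Prop extends z.Val0 x where
  ell : EllS S (z.σ x)

/-- `z'` agrees with `z` off `C` and is uniformly `δ`-close -/
structure St.Near (z z' : St) (C : Set E3) (δ : ℝ) : Prop where
  eq : ∀ x, x ∉ C → z'.u x = z.u x ∧ z'.v x = z.v x ∧ z'.σ x = z.σ x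
  cl : ∀ x, |z'.u x - z.u x| ≤ δ ∧ |z'.v x - z.v x| ≤ δ

/-- squared change of the gradients -/
noncomputable def St.gain (z z' : St) (x : E3) : ℝ :=
  ‖∇ z'.u x - ∇ z.u x‖ ^ 2 + ‖∇ z'.v x - ∇ z.v x‖ ^ 2

/-- pull-back of a state by `Φ` -/
noncomputable def St.pull (Φ : E3 → E3) (z : St) : St where
  u := z.u ∘ Φ
  v := z.v ∘ Φ
  σ := fun x => ((fderiv ℝ Φ x).det)⁻¹ •
    (adj (fderiv ℝ Φ x) ∘L z.σ (Φ x) ∘L tr (adj (fderiv ℝ Φ x)))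

/-- add a symmetric divergence free tensor `T` given in the coordinates `Y` -/
noncomputable def St.addT (Y : E3 → E3) (T : E3 → M3) (z : St) : St where
  u := z.u
  v := z.v
  σ := fun x => z.σ x + ((fderiv ℝ Y x).det)⁻¹ •
    (adj (fderiv ℝ Y x) ∘L T (Y x) ∘L tr (adj (fderiv ℝ Y x)))

/-! ### shields and nodes -/

structure Shield (γ w : E3 → ℝ) (W : E3 → E3) : Prop where
  meas : Measurable γ
  bd : ∃ S : ℝ, 1 ≤ S ∧ ∀ x, S⁻¹ ≤ γ x ∧ γ x ≤ S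
  h1 : H1 (ball 0 (5 / 2)) w W
  small : ∀ x, |w x| ≤ 1 / 2
  van : ∀ x, x ∉ ball (0 : E3) (5 / 2) → W x = 0
  key : ∀ (u : ℕ → E3 → ℝ) (M C : ℝ), (∀ n, ContDiff ℝ 1 (u n)) →
    (∀ n, ∀ x ∈ ball (0 : E3) 3, |u n x| ≤ M) → (∀ n, nr (ball 0 3) (∇ (u n)) ≤ C) →
    (∀ f F, H1 (ball 0 (5 / 2)) f F → (∀ x, x ∉ ball (0 : E3) (5 / 2) → F x = 0) →
      Tendsto (fun n => pr γ F (u n)) atTop (𝓝 0)) →
    ∃ ℓ : ℕ → ℝ, (∀ n, |ℓ n| ≤ M) ∧ ∀ φ : E3 → ℝ, ContDiff ℝ 1 φ →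
      Tendsto (fun n => pr γ W fun x => (u n x - ℓ n) * φ x) atTop (𝓝 0)

/-- the two similarities -/
structure Sim where
  lam : ℝ
  O : E3 ≃ₗᵢ[ℝ] E3
  p : Bool → E3

noncomputable def Sim.S (s : Sim) (i : Bool) (x : E3) : E3 := s.p i + s.lam • s.O x
noncomputable def Sim.I (s : Sim) (i : Bool) (x : E3) : E3 := s.lam⁻¹ • s.O.symm (x - s.p i)

structure Node (s : Sim) (Q : Set E3) (γ₀ : E3 → ℝ) (G : Bool → E3 → ℝ) (E : Bool → E3 → E3)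
    (m : (E3 → ℝ) → ℝ) : Prop where
  l1 : 1 / 2 < s.lam
  l2 : s.lam < 1
  hp : ∀ i, ‖s.p i‖ ≤ (1 - s.lam) * (5 / 2)
  mQ : MeasurableSet Q
  Qb : Q ⊆ ball 0 (9 / 4)
  sub : ∀ i x, s.I i x ∈ Q → x ∈ Q
  dis : ∀ x, s.I true x ∈ Q → s.I false x ∉ Q
  meas : Measurable γ₀
  bd : ∃ S : ℝ, 1 ≤ S ∧ ∀ x, S⁻¹ ≤ γ₀ x ∧ γ₀ x ≤ S
  h1 : ∀ i, H1 (ball 0 (5 / 2)) (G i) (E i)
  G0 : ∀ i x, x ∉ Q → G i x = 0
  E0 : ∀ i x, x ∉ Q ∨ s.I true x ∈ Q ∨ s.I false x ∈ Q → E i x = 0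
  flux : ∀ i ψ, ContDiff ℝ 1 ψ → pr γ₀ (E i) ψ = m (ψ ∘ s.S i) - m ψ
  lin : ∀ (a b : ℝ) (φ ψ : E3 → ℝ), ContDiff ℝ 1 φ → ContDiff ℝ 1 ψ →
    m (fun x => a * φ x + b * ψ x) = a * m φ + b * m ψ
  mbd : ∀ (ψ : E3 → ℝ) (M : ℝ), ContDiff ℝ 1 ψ → (∀ x ∈ Q, |ψ x| ≤ M) →
    |m ψ| ≤ (m fun _ => 1) * M
  nt : 0 < volume {x | x ∈ Q ∧ s.I true x ∉ Q ∧ s.I false x ∉ Q ∧ G true x ≠ G false x}

/-! ### the model leg, coordinates `(t, a, b) = (y 0, y 1, y 2)` -/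

/-- `w = e^{-t + i a} / 2` -/
noncomputable def ww (t a : ℝ) : ℂ := (1 / 2 : ℂ) * Complex.exp (-(t : ℂ) + (a : ℂ) * Complex.I)

/-- flux of the dying field: `dβ ∧ db + da ∧ dα + dΞ ∧ dt` -/
noncomputable def Jd (α β Ξ : E3 → ℝ) (y : E3) : E3 :=
  cr (∇ β y) (ee 2) + cr (ee 1) (∇ α y) + cr (∇ Ξ y) (ee 0)

/-- total length of a leg -/
def TT : ℝ := 155

structure Leg (c : ℝ) (d α β Ξ : E3 → ℝ) : Prop where
  ld : Lip d
  lα : Lip α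
  lβ : Lip β
  lΞ : Lip Ξ
  zero : ∀ y : E3, TT ≤ y 0 → d y = 0 ∧ α y = 0 ∧ β y = 0 ∧ Ξ y = 0
  init : ∀ y : E3, 0 ≤ y 0 → y 0 ≤ 1 → d y = Real.log ‖1 + ww (y 0) (y 1)‖ ∧
    β y = -Complex.arg (1 + ww (y 0) (y 1)) ∧ α y = 0 ∧ Ξ y = 0
  wa : ∀ y : E3, y 1 = 0 ∨ y 1 = Real.pi → β y = 0 ∧ Ξ y = 0
  wb : ∀ y : E3, y 2 = 0 ∨ y 2 = Real.pi → α y = 0 ∧ Ξ y = 0
  good : ∀ᵐ y : E3, 0 < y 0 → y 0 < TT → ∀ᶠ y' in 𝓝 y, ContDiffAt ℝ 2 d y' ∧ ContDiffAt ℝ 2 α y' ∧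
    ContDiffAt ℝ 2 β y' ∧ ContDiffAt ℝ 2 Ξ y' ∧ Cone c (ee 0) (∇ d y') (ee 0) (Jd α β Ξ y')

end Crest.Agent.R83
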