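import Crest.Agent.R83.Geo

/-!
# Row 83: the flux average over the dome

`Js = sg • (∇as × ∇bs)` is weakly divergence free off the origin (`wall`, `NN_wall`).
* `m_in`: `ψ' - tent(NN) ψ` (`LB.integral_add`, `lip_cut_mul`) has compact support avoiding `0` and vanishes
  near `frontier {NN < 1} ⊆ {NN = 1}`: `DF.setIntegral`.
* `m_out`: replace `ψ'` by `cl 0 1 (4 NN - 1) * ψ'` (same on the open set `{1 < NN}`); the integral over
  the whole space vanishes, `{NN = 1}` is null (`ae_NN_ne`), `m_in`.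
* `Js_NN`: where `NN` is locally affine with gradient `a`,
  `⟪∇as × ∇bs, ∇NN⟫ = π² / (6 NN²) · a 2`.
* `mF_nonneg`: `χ_δ(s) = cl 0 1 ((s - 1) / δ + 2) * tent s`, `m_in` with `ψ' = χ_δ(NN) ψ`; a.e. on `{1 - 2δ < NN < 1}`
  `∇ψ' = χ_δ'(NN) ψ ∇NN + χ_δ ∇ψ` with `χ_δ' ≥ 0` (`ae_NN_ne` removes the kinks), and `∇ψ' = 0` on
  `{NN < 1 - 2δ}`; so `mF ψ ≥ -C · vol {1 - 2δ ≤ NN < 1} → 0` (or dominated convergence).
* `mF_bd`: `mF_nonneg` for `M ± ψ` and `mF_lin`.
* `dome_sim`: `Sim.grad_comp_I`, `Sim.grad_comp_S`, `cr (rot a) (rot b) = rot (cr a b)`,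
  `Sim.integral_comp_I` applied to an indicator function.
-/

namespace Crest.Agent.R83

open MeasureTheory Set Metric Filter Topology
open scoped Gradient RealInnerProductSpace NNReal

/-! ### part a -/

theorem ll_as : LocallyLipschitzOn ({0}ᶜ : Set E3) as ∧ LocallyLipschitzOn ({0}ᶜ : Set E3) bs := by
  have hN : LocallyLipschitzOn ({0}ᶜ : Set E3) NN := lip_NN.loc _
  have hc : ∀ c : ℝ, LocallyLipschitzOn ({0}ᶜ : Set E3) fun _ : E3 => c := fun c => (Lip.const c).loc _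
  have h0 : ∀ x ∈ ({0}ᶜ : Set E3), NN x ≠ 0 := fun x hx => (NN_pos hx).ne'
  exact ⟨ll_div (ll_mul (hc _) (ll_sub (hc _) (ll_div ((Lip.coord 0).loc _) (ll_mul (hc _) hN)
      fun x hx => mul_ne_zero (by norm_num) (h0 x hx)))) (hc 2) fun _ _ => two_ne_zero,
    ll_div (ll_mul (hc _) (ll_sub (hc _) (ll_div ((Lip.coord 1).loc _) hN h0))) (hc 2)
      fun _ _ => two_ne_zero⟩

theorem df_Js : DF Js {0}ᶜ := by
  have key : ∀ t N : ℝ, 0 < N → N = |t| → Real.pi * (1 - t / N) / 2 ∈ ({0, Real.pi} : Finset ℝ) := by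
    intro t N hN h
    rcases le_total 0 t with ht | ht
    · rw [abs_of_nonneg ht] at h
      rw [← h, div_self hN.ne']
      simp
    · rw [abs_of_nonpos ht] at h
      rw [show t = -N by linarith, neg_div, div_self hN.ne',
        show Real.pi * (1 - -1) / 2 = Real.pi by ring]
      simp
  refine wall isOpen_compl_singleton ll_as.1 ll_as.2 {0, Real.pi} {0, Real.pi} fun x hx h2 => ?_
  have hN := NN_pos hx
  rcases NN_wall h2 with h | h
  · exact Or.inr (key _ _ hN h)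
  · exact Or.inl (key _ _ (by linarith) h)

theorem lb_Js : LB Js {0}ᶜ := by
  exact lb_fx isOpen_compl_singleton ll_as.1 ll_as.2

theorem domea_lip_tent : Lip fun y : E3 => tent (NN y) :=
  (Lip.const 0).max ((Lip.const 1).min (((lip_NN.const_mul 4).sub (Lip.const 2)).min
    ((Lip.const 6).sub (lip_NN.const_mul 4))))

theorem domea_tent_one {s : ℝ} (h : |s - 1| < 1 / 4) : tent s = 1 := by
  obtain ⟨h1, h2⟩ := abs_lt.1 h
  rw [tent, min_eq_left (le_min (by linarith) (by linarith)), max_eq_right zero_le_one]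

theorem domea_tent_supp :
    tsupport (fun y : E3 => tent (NN y)) ⊆ {x | 1 / 2 ≤ NN x ∧ NN x ≤ 3 / 2} := by
  refine closure_minimal (fun x hx => ?_) (isCompact_NN _ _).isClosed
  by_contra h
  refine hx (max_eq_left ((min_le_right _ _).trans ?_))
  rcases not_and_or.1 h with h | h
  · exact (min_le_left _ _).trans (by linarith [not_le.1 h])
  · exact (min_le_right _ _).trans (by linarith [not_le.1 h])

theorem tent_test {ψ : E3 → ℝ} (hψ : ContDiff ℝ 1 ψ) : Lip (fun y => tent (NN y) * ψ y) ∧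
    HasCompactSupport (fun y => tent (NN y) * ψ y) ∧
      tsupport (fun y => tent (NN y) * ψ y) ⊆ {0}ᶜ := by
  have hc : HasCompactSupport fun y : E3 => tent (NN y) :=
    (isCompact_NN _ _).of_isClosed_subset (isClosed_tsupport _) domea_tent_supp
  refine ⟨lip_cut_mul isOpen_univ domea_lip_tent hc (subset_univ _) (ll_of_contDiff hψ _),
    hc.mul_right, (tsupport_mul_subset_left.trans domea_tent_supp).trans fun x hx h0 => ?_⟩
  have h1 : 1 / 2 ≤ NN x := hx.1
  rw [mem_singleton_iff.1 h0, NN_zero] at h1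
  norm_num at h1

theorem m_in {ψ ψ' : E3 → ℝ} (hψ : ContDiff ℝ 1 ψ) (hl : Lip ψ') (hc : HasCompactSupport ψ')
    (h0 : tsupport ψ' ⊆ {0}ᶜ) {η : ℝ} (hη : 0 < η) (h : ∀ x, |NN x - 1| < η → ψ' x = ψ x) :
    ∫ x in {x | NN x < 1}, ⟪Js x, ∇ ψ' x⟫ = mF ψ := by
  obtain ⟨t1, t2, t3⟩ := tent_test hψ
  have e1 := lb_Js.integral_add (A := {x | NN x < 1}) hl hc h0 t1 t2 t3 1 (-1)
  have hs : tsupport (fun y => 1 * ψ' y + -1 * (tent (NN y) * ψ y)) ⊆
      tsupport ψ' ∪ tsupport fun y => tent (NN y) * ψ y := by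
    refine closure_minimal (fun x hx => ?_) ((isClosed_tsupport _).union (isClosed_tsupport _))
    by_contra h'
    rw [mem_union, not_or] at h'
    refine hx ?_
    have h2 := image_eq_zero_of_notMem_tsupport h'.2
    simp only [image_eq_zero_of_notMem_tsupport h'.1, h2, mul_zero, add_zero]
  have e2 := df_Js.setIntegral (A := {x | NN x < 1}) (isOpen_lt lip_NN.continuous continuous_const)
    ((hl.const_mul 1).add (t1.const_mul (-1)))
    ((hc.union t2).of_isClosed_subset (isClosed_tsupport _) hs) (hs.trans (union_subset h0 t3))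
    (disjoint_right.2 fun x hx => by
      have h1 : NN x = 1 := frontier_lt_subset_eq lip_NN.continuous continuous_const hx
      have h2 : ∀ᶠ y in 𝓝 x, |NN y - 1| < min η (1 / 4) :=
        ((lip_NN.continuous.sub continuous_const).abs.continuousAt).eventually_lt continuousAt_const
          (by simpa [h1] using hη)
      refine notMem_tsupport_iff_eventuallyEq.2 (h2.mono fun y hy => ?_)
      simp only [h y (hy.trans_le (min_le_left _ _)), domea_tent_one (hy.trans_le (min_le_right _ _)),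
        Pi.zero_apply]
      ring)
  rw [e2] at e1
  unfold mF
  linarith

theorem m_out {ψ ψ' : E3 → ℝ} (hψ : ContDiff ℝ 1 ψ) (hl : Lip ψ') (hc : HasCompactSupport ψ')
    {η : ℝ} (hη : 0 < η) (h : ∀ x, |NN x - 1| < η → ψ' x = ψ x) :
    ∫ x in {x | 1 < NN x}, ⟪Js x, ∇ ψ' x⟫ = -mF ψ := by
  have hχ : Lip fun x : E3 => cl 0 1 (4 * NN x - 1) :=
    (lip_cl 0 1).comp ((lip_NN.const_mul 4).sub (Lip.const 1))
  have l2 : Lip fun x => ψ' x * cl 0 1 (4 * NN x - 1) :=
    lip_cut_mul isOpen_univ hl hc (subset_univ _) (hχ.loc _)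
  have c2 : HasCompactSupport fun x => ψ' x * cl 0 1 (4 * NN x - 1) := hc.mul_right
  have s2 : tsupport (fun x => ψ' x * cl 0 1 (4 * NN x - 1)) ⊆ {0}ᶜ := by
    have : tsupport (fun x : E3 => cl 0 1 (4 * NN x - 1)) ⊆ {x | 1 / 4 ≤ NN x} := by
      refine closure_minimal (fun x hx => ?_) (isClosed_le continuous_const lip_NN.continuous)
      by_contra h'
      have h2 : NN x < 1 / 4 := not_le.1 h'
      exact hx (cl_of_le (by linarith))
    refine (tsupport_mul_subset_right.trans this).trans fun x hx h0 => ?_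
    have h1 : 1 / 4 ≤ NN x := hx
    rw [mem_singleton_iff.1 h0, NN_zero] at h1
    norm_num at h1
  have hone : ∀ x, 1 / 2 < NN x → ψ' x * cl 0 1 (4 * NN x - 1) = ψ' x := fun x hx => by
    rw [cl_of_ge zero_le_one (by linarith), mul_one]
  have e1 := m_in hψ l2 c2 s2 (lt_min hη one_half_pos) fun x hx => by
    rw [hone x (by linarith [(abs_lt.1 (hx.trans_le (min_le_right _ _))).1]),
      h x (hx.trans_le (min_le_left _ _))]
  have hA : MeasurableSet {x : E3 | NN x < 1} :=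
    (isOpen_lt lip_NN.continuous continuous_const).measurableSet
  have e2 := integral_add_compl hA (lb_Js.integrable l2 c2 s2)
  rw [df_Js _ l2 c2 s2, e1] at e2
  have e3 : ({x : E3 | NN x < 1}ᶜ : Set E3) =ᵐ[volume] {x | 1 < NN x} := by
    filter_upwards [ae_NN_ne 1] with x hx
    refine propext ⟨fun h' => lt_of_le_of_ne (not_lt.1 h') hx.symm, fun h' => not_lt.2 (le_of_lt h')⟩
  rw [setIntegral_congr_set e3] at e2
  rw [← eq_neg_of_add_eq_zero_right e2]
  refine setIntegral_congr_fun (isOpen_lt continuous_const lip_NN.continuous).measurableSet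
    fun x hx => ?_
  have hx' : 1 / 2 < NN x := lt_trans (by norm_num) (show 1 < NN x from hx)
  have h2 : (fun x => ψ' x * cl 0 1 (4 * NN x - 1)) =ᶠ[𝓝 x] ψ' :=
    (continuousAt_const.eventually_lt lip_NN.continuous.continuousAt hx').mono hone
  simp only [h2.gradient_eq]

theorem mF_lin (a b : ℝ) {φ ψ : E3 → ℝ} (hφ : ContDiff ℝ 1 φ) (hψ : ContDiff ℝ 1 ψ) :
    mF (fun x => a * φ x + b * ψ x) = a * mF φ + b * mF ψ := by
  obtain ⟨s1, s2, s3⟩ := tent_test hφ
  obtain ⟨t1, t2, t3⟩ := tent_test hψ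
  unfold mF
  rw [← lb_Js.integral_add s1 s2 s3 t1 t2 t3 a b]
  congr 1
  funext x
  congr 2
  funext y
  ring

theorem domea_cr_rot (a b : E3) : cr (rot a) (rot b) = rot (cr a b) := by
  have h : ∀ x : E3, rot x = v3 (-x 1) (x 0) (x 2) := fun _ => rfl
  refine ext3 ?_ ?_ ?_ <;> simp [h, cr] <;> ring

theorem domea_sg_I (i : Bool) (x : E3) : sg (sim.I i x) = sg x := by
  have h : sim.I i x 2 = 20 / 11 * x 2 := by simp [sim_I]
  unfold sg
  rw [h]
  rcases lt_trichotomy (x 2) 0 with h0 | h0 | h0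
  · rw [Real.sign_of_neg h0, Real.sign_of_neg (by linarith)]
  · rw [h0, mul_zero]
  · rw [Real.sign_of_pos h0, Real.sign_of_pos (by linarith)]

theorem dome_sim (i : Bool) (ψ : E3 → ℝ) :
    ∫ x in {x | NN (sim.I i x) < 1}, ⟪sg x • fx (as ∘ sim.I i) (bs ∘ sim.I i) x, ∇ ψ x⟫ =
      ∫ x in {x | NN x < 1}, ⟪Js x, ∇ (ψ ∘ sim.S i) x⟫ := by
  have hl : 0 < sim.lam := by norm_num [sim]
  have hA : MeasurableSet {x : E3 | NN x < 1} :=
    (isOpen_lt lip_NN.continuous continuous_const).measurableSet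
  have hB : MeasurableSet {x : E3 | NN (sim.I i x) < 1} :=
    (isOpen_lt (lip_NN.comp (sim.lip_I i)).continuous continuous_const).measurableSet
  have e1 := Sim.integral_comp_I hl i
    (indicator {x | NN x < 1} fun x => ⟪Js x, ∇ (ψ ∘ sim.S i) x⟫)
  rw [integral_indicator hA] at e1
  refine mul_left_cancel₀ (pow_pos hl 3).ne' ?_
  rw [← e1, ← integral_indicator hB, ← integral_const_mul]
  refine integral_congr_ae (Eventually.of_forall fun x => ?_)
  by_cases hx : NN (sim.I i x) < 1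
  · simp only [indicator_of_mem (show x ∈ {x | NN (sim.I i x) < 1} from hx),
      indicator_of_mem (show sim.I i x ∈ {x | NN x < 1} from hx)]
    have hO : sim.O = rot := rfl
    rw [Js, fx, fx, Sim.grad_comp_I hl, Sim.grad_comp_I hl, Sim.grad_comp_S hl, Sim.S_I hl,
      domea_sg_I, cr_smul_left, cr_smul_right, hO, domea_cr_rot, real_inner_smul_right,
      ← rot.inner_map_map _ (rot.symm _), rot.apply_symm_apply, map_smul]
    simp only [real_inner_smul_left]
    field_simp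
  · simp only [indicator_of_notMem (show x ∉ {x | NN (sim.I i x) < 1} from hx),
      indicator_of_notMem (show sim.I i x ∉ {x | NN x < 1} from hx), mul_zero]

/-! ### part b -/

theorem domeb_grad {N : E3 → ℝ} {x : E3} (hN : DifferentiableAt ℝ N x) (h0 : N x ≠ 0) (i : Fin 3)
    (a b : ℝ) : ∇ (fun y => a * (y i * (N y)⁻¹) + b) x =
      a • (x i • (-(N x ^ 2)⁻¹) • ∇ N x + (N x)⁻¹ • ee i) := by
  rw [grad_affine, grad_mul (f := fun y : E3 => y i) (by fun_prop) (hN.fun_inv h0), grad_coord,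
    grad_comp_real (hasDerivAt_inv h0) hN]

theorem Js_NN : ∀ᵐ x : E3, DifferentiableAt ℝ NN x ∧ 0 ≤ ⟪Js x, ∇ NN x⟫ := by
  filter_upwards [aeAff_NN.smooth, ae_coord_ne 2 0] with x ⟨h1, h2, _⟩ h3
  have hd := h1.differentiableAt (by norm_num)
  have h0 : 0 < NN x := (abs_pos.2 h3).trans_le (coord_le_NN x).2.2
  refine ⟨hd, ?_⟩
  have ea : as = fun y => -(Real.pi / 3) * (y 0 * (NN y)⁻¹) + Real.pi / 2 := by
    funext y; simp only [as, div_eq_mul_inv, mul_inv]; ring
  have eb : bs = fun y => -(Real.pi / 2) * (y 1 * (NN y)⁻¹) + Real.pi / 2 := by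
    funext y; simp only [bs, div_eq_mul_inv]; ring
  have e : ⟪Js x, ∇ NN x⟫ = Real.pi ^ 2 / 6 * (NN x)⁻¹ ^ 2 * (sg x * ∇ NN x 2) := by
    rw [Js, fx, ea, eb, domeb_grad hd h0.ne', domeb_grad hd h0.ne', inner3]
    simp [cr, ee_apply]
    ring
  rw [e]
  exact mul_nonneg (by positivity) (by linarith)

/-- the steep cut-off -/
noncomputable def domeb_g (δ s : ℝ) : ℝ := cl 0 1 (min ((s - 1) / δ + 2) (6 - 4 * s))

theorem domeb_zero {δ s : ℝ} (hδ : 0 < δ) (h : s ≤ 1 - 2 * δ ∨ 3 / 2 ≤ s) : domeb_g δ s = 0 := by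
  refine cl_of_le (min_le_iff.2 (h.imp (fun h => ?_) fun h => by linarith))
  rw [← le_sub_iff_add_le, div_le_iff₀ hδ]
  linarith

theorem domeb_one {δ s : ℝ} (hδ : 0 < δ) (h4 : δ < 1 / 4) (h : |s - 1| < δ) : domeb_g δ s = 1 := by
  obtain ⟨h1, h2⟩ := abs_lt.1 h
  refine cl_of_ge zero_le_one (le_min ?_ (by linarith))
  rw [← sub_le_iff_le_add, le_div_iff₀ hδ]
  linarith

theorem domeb_deriv {δ s : ℝ} (hδ : 0 < δ) (h : s < 1) (h1 : s ≠ 1 - δ) (h2 : s ≠ 1 - 2 * δ) :
    ∃ e, 0 ≤ e ∧ HasDerivAt (domeb_g δ) e s := by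
  obtain ⟨e, he, hd⟩ : ∃ e, 0 ≤ e ∧ HasDerivAt (cl 0 1) e ((s - 1) / δ + 2) := by
    rcases lt_trichotomy ((s - 1) / δ + 2) 0 with h0 | h0 | h0
    · exact ⟨0, le_rfl, (hasDerivAt_const _ 0).congr_of_eventuallyEq (cl_lt h0)⟩
    · exact absurd (by field_simp at h0; linarith) h2
    rcases lt_trichotomy ((s - 1) / δ + 2) 1 with h3 | h3 | h3
    · exact ⟨1, zero_le_one, (hasDerivAt_id _).congr_of_eventuallyEq (cl_mid h0 h3)⟩
    · exact absurd (by field_simp at h3; linarith) h1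
    · exact ⟨0, le_rfl, (hasDerivAt_const _ 1).congr_of_eventuallyEq (cl_gt zero_le_one h3)⟩
  refine ⟨e * (1 / δ), by positivity, (hd.comp s
    ((((hasDerivAt_id s).sub_const 1).div_const δ).add_const 2)).congr_of_eventuallyEq ?_⟩
  filter_upwards [eventually_lt_nhds h] with t ht
  have : (t - 1) / δ ≤ 0 := div_nonpos_of_nonpos_of_nonneg (by linarith) hδ.le
  rw [domeb_g, min_eq_left (by linarith)]
  rfl

theorem domeb_ge {ψ : E3 → ℝ} (hψ : ContDiff ℝ 1 ψ) (h : ∀ x ∈ QQ, 0 ≤ ψ x) {δ : ℝ} (hδ : 0 < δ)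
    (h4 : δ < 1 / 4) (hi : IntegrableOn (fun x => domeb_g δ (NN x) * ⟪Js x, ∇ ψ x⟫) {x | NN x < 1}) :
    ∫ x in {x | NN x < 1}, domeb_g δ (NN x) * ⟪Js x, ∇ ψ x⟫ ≤ mF ψ := by
  have hl : Lip fun x => domeb_g δ (NN x) := (lip_cl 0 1).comp
    ((((lip_NN.sub (Lip.const 1)).div_const δ).add (Lip.const 2)).min
      ((Lip.const 6).sub (lip_NN.const_mul 4)))
  have hz : ∀ x ∉ {x | 1 / 2 ≤ NN x ∧ NN x ≤ 3 / 2}, domeb_g δ (NN x) = 0 := fun x hx =>
    domeb_zero hδ ((not_and_or.1 hx).imp (fun h => by linarith [not_le.1 h]) fun h => (not_le.1 h).le)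
  have hc : HasCompactSupport fun x => domeb_g δ (NN x) := .intro (isCompact_NN _ _) hz
  have hl' := lip_cut_mul isOpen_univ hl hc (subset_univ _) (ll_of_contDiff hψ _)
  have hs : tsupport (fun x => domeb_g δ (NN x) * ψ x) ⊆ {0}ᶜ := by
    refine tsupport_mul_subset_left.trans ((closure_minimal (Function.support_subset_iff'.2 hz)
      (isCompact_NN (1 / 2) (3 / 2)).isClosed).trans ?_)
    rintro x hx rfl
    have := hx.1
    rw [NN_zero] at this
    linarith
  rw [← m_in hψ hl' hc.mul_right hs hδ fun x hx => by rw [domeb_one hδ h4 hx, one_mul]]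
  refine setIntegral_mono_on_ae hi (lb_Js.integrable hl' hc.mul_right hs).integrableOn
    (isOpen_lt lip_NN.continuous continuous_const).measurableSet ?_
  filter_upwards [Js_NN, ae_NN_ne (1 - δ), ae_NN_ne (1 - 2 * δ)] with x ⟨hd, h0⟩ h1 h2 hx
  obtain ⟨e, he, hg⟩ := domeb_deriv hδ hx h1 h2
  rw [grad_mul (f := fun x => domeb_g δ (NN x)) (hg.differentiableAt.comp x hd)
    (hψ.differentiable one_ne_zero x), grad_comp_real hg hd, inner_add_right, real_inner_smul_right,
    real_inner_smul_right, real_inner_smul_right]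
  exact le_add_of_nonneg_right (mul_nonneg (h x (le_of_lt hx)) (mul_nonneg he h0))

theorem mF_nonneg {ψ : E3 → ℝ} (hψ : ContDiff ℝ 1 ψ) (h : ∀ x ∈ QQ, 0 ≤ ψ x) : 0 ≤ mF ψ := by
  have hK := isCompact_NN (1 / 2) 1
  obtain ⟨M, hM⟩ := lb_Js.bd _ hK (by
    rintro x hx rfl
    have := hx.1
    rw [NN_zero] at this
    linarith)
  obtain ⟨L, hL⟩ := hK.exists_bound_of_continuousOn (continuous_grad hψ).continuousOn
  have hA : MeasurableSet {x | NN x < 1} := (isOpen_lt lip_NN.continuous continuous_const).measurableSet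
  have : IsFiniteMeasure (volume.restrict {x | NN x < 1}) := isFiniteMeasure_restrict.2
    ((measure_mono (t := QQ) fun x (hx : NN x < 1) => hx.le).trans_lt isCompact_QQ.measure_lt_top).ne
  have hm : ∀ δ, AEStronglyMeasurable (fun x => domeb_g δ (NN x) * ⟪Js x, ∇ ψ x⟫)
      (volume.restrict {x | NN x < 1}) := fun δ => by
    have h1 := (lip_cl 0 1).continuous
    have h2 := lip_NN.continuous
    have h3 : Continuous fun x => domeb_g δ (NN x) := by unfold domeb_g; fun_prop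
    exact (h3.measurable.mul (lb_Js.meas.inner (measurable_grad ψ))).aestronglyMeasurable
  have hδ : ∀ᶠ δ in 𝓝[>] (0 : ℝ), 0 < δ ∧ δ < 1 / 4 := Ioo_mem_nhdsGT (by norm_num)
  have hb : ∀ δ, 0 < δ ∧ δ < 1 / 4 → ∀ᵐ x ∂(volume.restrict {x | NN x < 1}),
      ‖domeb_g δ (NN x) * ⟪Js x, ∇ ψ x⟫‖ ≤ |M| * |L| := fun δ hδ => by
    refine (ae_restrict_mem hA).mono fun x hx => ?_
    rcases le_total (NN x) (1 / 2) with h2 | h2
    · rw [domeb_zero hδ.1 (Or.inl (by linarith [hδ.2])), zero_mul, norm_zero]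
      positivity
    · have h3 := cl_mem zero_le_one (min ((NN x - 1) / δ + 2) (6 - 4 * NN x))
      rw [norm_mul, domeb_g, Real.norm_of_nonneg h3.1]
      refine (mul_le_of_le_one_left (norm_nonneg _) h3.2).trans ((norm_inner_le_norm _ _).trans ?_)
      exact mul_le_mul ((hM x ⟨h2, le_of_lt hx⟩).trans (le_abs_self _))
        ((hL x ⟨h2, le_of_lt hx⟩).trans (le_abs_self _)) (norm_nonneg _) (abs_nonneg _)
  have key := tendsto_integral_filter_of_dominated_convergence (f := fun _ => 0) (l := 𝓝[>] (0 : ℝ))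
    (fun _ => |M| * |L|) (Eventually.of_forall hm) (hδ.mono hb) (integrable_const _)
    ((ae_restrict_mem hA).mono fun x hx => tendsto_const_nhds.congr' (by
      filter_upwards [Ioo_mem_nhdsGT (half_pos (sub_pos.2 (show NN x < 1 from hx)))] with δ hδ
      rw [domeb_zero hδ.1 (Or.inl (by linarith [hδ.2])), zero_mul]))
  rw [integral_zero] at key
  exact le_of_tendsto key (hδ.mono fun δ hδ =>
    domeb_ge hψ h hδ.1 hδ.2 (Integrable.of_bound (hm δ) _ (hb δ hδ)))

theorem mF_bd {ψ : E3 → ℝ} {M : ℝ} (hψ : ContDiff ℝ 1 ψ) (h : ∀ x ∈ QQ, |ψ x| ≤ M) :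
    |mF ψ| ≤ (mF fun _ => 1) * M := by
  have key : ∀ s : ℝ, |s| = 1 → 0 ≤ M * (mF fun _ => 1) + s * mF ψ := fun s hs => by
    rw [← mF_lin M s contDiff_const hψ]
    refine mF_nonneg (contDiff_const.add (contDiff_const.mul hψ)) fun x hx => ?_
    have h1 := neg_abs_le (s * ψ x)
    rw [abs_mul, hs] at h1
    linarith [h x hx]
  have h1 := key 1 abs_one
  have h2 := key (-1) (by simp)
  exact abs_le.2 ⟨by linarith, by linarith⟩

end Crest.Agent.R83
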