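import Crest.Agent.R83.Lip

/-!
# Row 83: a shield gives equal boundary energies

No limit of minimizing sequences is needed.  `B = ball 0 3`, `bf γ F G = ∫_B γ ⟪F, G⟫`.
* `exists_trunc`: `κ s = ∫ t in 0..s, ρ t`, `ρ t = max 0 (min 1 (M + 1 - |t|))`.
* `exists_minSeq`: `E = sInf` of the energies; truncate a minimizing sequence with `κ` (`M` a bound of
  `|φ|` on the sphere), `∇(κ ∘ w) = κ'(w) ∇w`.
* `MinSeq.ortho`: for `z` vanishing on the sphere `E ≤ E(u_n + t z) = E_n + 2 t b + t² E(z)` for all `t`,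
  hence `b² ≤ (E_n - E) E(z) ≤ (E_n - E) S (nr B ∇z)²` (`discrim_le_zero`); `η n = √(S (E_n - E))`;
  pass to `V0` by `abs_bf_le`.
* `V0_mul`: `z_k = g_k z`.  `V0_div`: `z_k = (u - ℓ) ((1 + g_k)⁻¹ - 1)`, `|g_k - w| ≤ δ ≤ 1/4`.
* `bf_VV`: expand; `∇((u - ℓ) z) = (u - ℓ) ∇z + z ∇u`.
* `VV_tendsto`: `(1+w) ∇z + z W = ∇u_n + (∇z - ∇u_n) + (w ∇z + z W)`, the last two are in `V0` with
  bounded norm.
* `energy_eq`: `v_m` minimizing for `γ₁ = (1+w)² γ` (bounds `4 S`):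
  `bf γ₁ ∇v_m V_n = E(v_m) + bf γ₁ ∇v_m (V_n - ∇v_m)`, `V_n - ∇v_m = (V_n - ∇u_n) + (∇u_n - ∇v_m) ∈ V0`
  with norm bounded uniformly in `n, m`; let `n → ∞` (`VV_tendsto` with `z = v_m`), then `m → ∞`.
-/

namespace Crest.Agent.R83

open MeasureTheory Set Metric Filter Topology
open scoped Gradient RealInnerProductSpace NNReal
open Crest.Agent.R80 (L2 nr)
open Crest.AnalysisR.PDE.Calderon

/-- measurable and bounded between `S⁻¹` and `S` -/
structure Cond (S : ℝ) (γ : E3 → ℝ) : Prop where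
  one : 1 ≤ S
  meas : Measurable γ
  bd : ∀ x, S⁻¹ ≤ γ x ∧ γ x ≤ S

noncomputable def bf (γ : E3 → ℝ) (F G : E3 → E3) : ℝ := ∫ x in ball (0 : E3) 3, γ x * ⟪F x, G x⟫

/-- closure in `L²(B)` of the gradients of `C¹` functions vanishing on the sphere -/
structure V0 (Z : E3 → E3) : Prop where
  l2 : L2 (ball 0 3) Z
  apx : ∀ δ : ℝ, 0 < δ → ∃ z : E3 → ℝ, ContDiff ℝ 1 z ∧ (∀ x : E3, ‖x‖ = 3 → z x = 0) ∧
    nr (ball 0 3) (fun x => ∇ z x - Z x) ≤ δ

structure MinSeq (γ φ : E3 → ℝ) (u : ℕ → E3 → ℝ) (E : ℝ) : Prop where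
  comp : ∀ n, IsCompetitor φ (u n)
  bd : ∃ M : ℝ, ∀ n, ∀ x ∈ ball (0 : E3) 3, |u n x| ≤ M
  lim : Tendsto (fun n => ballEnergy γ (u n)) atTop (𝓝 E)
  inf : ∀ w, IsCompetitor φ w → E ≤ ballEnergy γ w

/-- the gradient of `ℓ + (u - ℓ) / (1 + w)` -/
noncomputable def VV (w : E3 → ℝ) (W : E3 → E3) (u : E3 → ℝ) (ℓ : ℝ) (x : E3) : E3 :=
  (1 + w x)⁻¹ • ∇ u x - ((u x - ℓ) / (1 + w x) ^ 2) • W x

variable {S : ℝ} {γ : E3 → ℝ}

/-! ### part a: `pr`, `bf` -/

theorem Cond.abs_le (h : Cond S γ) (x : E3) : |γ x| ≤ S := by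
  have h0 : 0 < S⁻¹ := inv_pos.2 (by linarith [h.one])
  rw [abs_of_pos (h0.trans_le (h.bd x).1)]
  exact (h.bd x).2

theorem abs_bf_le (h : Cond S γ) {F G : E3 → E3} (hF : L2 (ball 0 3) F) (hG : L2 (ball 0 3) G) :
    |bf γ F G| ≤ S * (nr (ball 0 3) F * nr (ball 0 3) G) := by
  exact (abs_integral_mul_inner_le h.meas h.abs_le hF hG).2

theorem bf_comm (γ : E3 → ℝ) (F G : E3 → E3) : bf γ F G = bf γ G F := by
  unfold bf
  simp only [real_inner_comm]

theorem bf_add (h : Cond S γ) {F G G' : E3 → E3} (hF : L2 (ball 0 3) F) (hG : L2 (ball 0 3) G)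
    (hG' : L2 (ball 0 3) G') : bf γ F (fun x => G x + G' x) = bf γ F G + bf γ F G' := by
  unfold bf
  simp only [inner_add_right, mul_add]
  exact integral_add (abs_integral_mul_inner_le h.meas h.abs_le hF hG).1
    (abs_integral_mul_inner_le h.meas h.abs_le hF hG').1

theorem bf_sub (h : Cond S γ) {F G G' : E3 → E3} (hF : L2 (ball 0 3) F) (hG : L2 (ball 0 3) G)
    (hG' : L2 (ball 0 3) G') : bf γ F (fun x => G x - G' x) = bf γ F G - bf γ F G' := by
  unfold bf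
  simp only [inner_sub_right, mul_sub]
  exact integral_sub (abs_integral_mul_inner_le h.meas h.abs_le hF hG).1
    (abs_integral_mul_inner_le h.meas h.abs_le hF hG').1

theorem bf_self (γ u : E3 → ℝ) : bf γ (∇ u) (∇ u) = ballEnergy γ u := by
  unfold bf ballEnergy
  simp only [real_inner_self_eq_norm_sq]

theorem energy_bounds (h : Cond S γ) {u : E3 → ℝ} (hu : ContDiff ℝ 1 u) :
    S⁻¹ * nr (ball 0 3) (∇ u) ^ 2 ≤ ballEnergy γ u ∧ ballEnergy γ u ≤ S * nr (ball 0 3) (∇ u) ^ 2 := by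
  have hl : L2 (ball 0 3) (∇ u) := l2_grad measurableSet_ball isBounded_ball hu
  have hi := (abs_integral_mul_inner_le h.meas h.abs_le hl hl).1
  simp only [real_inner_self_eq_norm_sq] at hi
  rw [R80.nr_sq hl, ← integral_const_mul, ← integral_const_mul]
  unfold ballEnergy
  exact ⟨integral_mono (hl.integrableOn_sq.const_mul _) hi fun x =>
      mul_le_mul_of_nonneg_right (h.bd x).1 (sq_nonneg _),
    integral_mono hi (hl.integrableOn_sq.const_mul _) fun x =>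
      mul_le_mul_of_nonneg_right (h.bd x).2 (sq_nonneg _)⟩

theorem pr_eq_bf (γ : E3 → ℝ) {F : E3 → E3} (h0 : ∀ x, x ∉ ball (0 : E3) 3 → F x = 0) (ψ : E3 → ℝ) :
    pr γ F ψ = bf γ F (∇ ψ) := by
  unfold pr bf
  refine (setIntegral_eq_integral_of_forall_compl_eq_zero fun x hx => ?_).symm
  rw [h0 x hx, inner_zero_left, mul_zero]

theorem pr_congr {γ' : E3 → ℝ} {F : E3 → E3} (h : ∀ x, F x = 0 ∨ γ x = γ' x) (ψ : E3 → ℝ) :
    pr γ F ψ = pr γ' F ψ := by
  unfold pr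
  refine integral_congr_ae (Eventually.of_forall fun x => ?_)
  rcases h x with h1 | h1 <;> simp [h1]

theorem pr_smul (γ : E3 → ℝ) (c : ℝ) (F : E3 → E3) (ψ : E3 → ℝ) :
    pr γ (fun x => c • F x) ψ = c * pr γ F ψ := by
  unfold pr
  rw [← integral_const_mul]
  refine integral_congr_ae (Eventually.of_forall fun x => ?_)
  simp only [real_inner_smul_left]
  ring

theorem pr_sub_const (γ : E3 → ℝ) (F : E3 → E3) (ψ : E3 → ℝ) (ℓ : ℝ) :
    pr γ F (fun x => ψ x - ℓ) = pr γ F ψ := by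
  unfold pr
  refine integral_congr_ae (Eventually.of_forall fun x => ?_)
  have e : (fun x => ψ x - ℓ) = fun y => 1 * ψ y + -ℓ := by funext y; ring
  simp only [e, grad_affine, one_smul]

theorem pr_add (h : Cond S γ) {F G : E3 → E3} (hF : L2 univ F) (hG : L2 univ G)
    (hF0 : ∀ x, x ∉ ball (0 : E3) 3 → F x = 0) (hG0 : ∀ x, x ∉ ball (0 : E3) 3 → G x = 0)
    {ψ : E3 → ℝ} (hψ : ContDiff ℝ 1 ψ) : pr γ (fun x => F x + G x) ψ = pr γ F ψ + pr γ G ψ := by
  have hl : L2 (ball 0 3) (∇ ψ) := l2_grad measurableSet_ball isBounded_ball hψ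
  rw [pr_eq_bf γ (fun x hx => by rw [hF0 x hx, hG0 x hx, add_zero]), pr_eq_bf γ hF0, pr_eq_bf γ hG0,
    bf_comm, bf_add h hl (hF.mono_set (subset_univ _)) (hG.mono_set (subset_univ _)),
    bf_comm γ F, bf_comm γ G]

theorem pr_sub (h : Cond S γ) {F G : E3 → E3} (hF : L2 univ F) (hG : L2 univ G)
    (hF0 : ∀ x, x ∉ ball (0 : E3) 3 → F x = 0) (hG0 : ∀ x, x ∉ ball (0 : E3) 3 → G x = 0)
    {ψ : E3 → ℝ} (hψ : ContDiff ℝ 1 ψ) : pr γ (fun x => F x - G x) ψ = pr γ F ψ - pr γ G ψ := by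
  have hl : L2 (ball 0 3) (∇ ψ) := l2_grad measurableSet_ball isBounded_ball hψ
  rw [pr_eq_bf γ (fun x hx => by rw [hF0 x hx, hG0 x hx, sub_zero]), pr_eq_bf γ hF0, pr_eq_bf γ hG0,
    bf_comm, bf_sub h hl (hF.mono_set (subset_univ _)) (hG.mono_set (subset_univ _)),
    bf_comm γ F, bf_comm γ G]

theorem abs_pr_le (h : Cond S γ) {F : E3 → E3} (hF : L2 univ F)
    (hF0 : ∀ x, x ∉ ball (0 : E3) 3 → F x = 0) {ψ : E3 → ℝ} (hψ : ContDiff ℝ 1 ψ) :
    |pr γ F ψ| ≤ S * (nr univ F * nr (ball 0 3) (∇ ψ)) := by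
  have hl : L2 (ball 0 3) (∇ ψ) := l2_grad measurableSet_ball isBounded_ball hψ
  rw [pr_eq_bf γ hF0]
  refine (abs_bf_le h (hF.mono_set (subset_univ _)) hl).trans ?_
  exact mul_le_mul_of_nonneg_left (mul_le_mul_of_nonneg_right (R80.nr_mono_set (subset_univ _) hF)
    (R80.nr_nonneg _ _)) (by linarith [h.one])

theorem V0.add {Z Z' : E3 → E3} (h : V0 Z) (h' : V0 Z') : V0 fun x => Z x + Z' x := by
  refine ⟨h.l2.add' h'.l2, fun δ hδ => ?_⟩
  obtain ⟨z, hz, hz0, hz1⟩ := h.apx (δ / 2) (half_pos hδ)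
  obtain ⟨z', hz', hz0', hz1'⟩ := h'.apx (δ / 2) (half_pos hδ)
  refine ⟨fun x => z x + z' x, hz.add hz', fun x hx => by simp [hz0 x hx, hz0' x hx], ?_⟩
  have e : (fun x => ∇ (fun y => z y + z' y) x - (Z x + Z' x)) =
      fun x => (∇ z x - Z x) + (∇ z' x - Z' x) := by
    funext x
    rw [grad_add (hz.differentiable one_ne_zero x) (hz'.differentiable one_ne_zero x)]
    abel
  rw [e]
  refine (R80.nr_add_le ((l2_grad measurableSet_ball isBounded_ball hz).sub' h.l2)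
    ((l2_grad measurableSet_ball isBounded_ball hz').sub' h'.l2)).trans ?_
  linarith

theorem V0.congr {Z Z' : E3 → E3} (h : V0 Z) (h' : ∀ x, Z' x = Z x) : V0 Z' := by
  rwa [show Z' = Z from funext h']

theorem V0_sub {φ u z : E3 → ℝ} (hu : IsCompetitor φ u) (hz : IsCompetitor φ z) :
    V0 fun x => ∇ u x - ∇ z x := by
  refine ⟨(l2_grad measurableSet_ball isBounded_ball hu.1).sub'
    (l2_grad measurableSet_ball isBounded_ball hz.1), fun δ hδ => ?_⟩
  refine ⟨fun x => u x - z x, hu.1.sub hz.1, fun x hx => by simp [hu.2 x hx, hz.2 x hx], ?_⟩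
  have e : (fun x => ∇ (fun y => u y - z y) x - (∇ u x - ∇ z x)) = fun _ => (0 : E3) := by
    funext x
    rw [grad_sub (hu.1.differentiable one_ne_zero x) (hz.1.differentiable one_ne_zero x), sub_self]
  rw [e, R80.nr_zero]
  exact hδ.le

theorem V0_of_H1 {f : E3 → ℝ} {F : E3 → E3} (h : H1 (ball 0 (5 / 2)) f F) : V0 F := by
  refine ⟨h.l2.mono_set (subset_univ _), fun δ hδ => ?_⟩
  obtain ⟨g, hg, hc, hs, -, h2⟩ := h.apx δ hδ
  refine ⟨g, hg, fun x hx => image_eq_zero_of_notMem_tsupport fun hx' => ?_, ?_⟩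
  · have := mem_ball_zero_iff.1 (hs hx')
    rw [hx] at this
    norm_num at this
  · exact (R80.nr_mono_set (subset_univ _) ((l2_grad_cs hg hc).sub' h.l2)).trans h2

/-! ### part b: minimizing sequences -/

theorem exists_trunc (M : ℝ) : ∃ κ : ℝ → ℝ, ContDiff ℝ 1 κ ∧ (∀ s, |s| ≤ M → κ s = s) ∧
    (∀ s, |deriv κ s| ≤ 1) ∧ ∃ M' : ℝ, ∀ s, |κ s| ≤ M' := by
  let ρ : ℝ → ℝ := fun t => max 0 (min 1 (M + 1 - |t|))
  have hρ : Continuous ρ := by fun_prop
  have hρ0 : ∀ t, 0 ≤ ρ t := fun t => le_max_left _ _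
  have hρ1 : ∀ t, ρ t ≤ 1 := fun t => max_le zero_le_one (min_le_left _ _)
  have hd : ∀ s, HasDerivAt (fun s => ∫ t in (0 : ℝ)..s, ρ t) (ρ s) s := fun s =>
    (hρ.integral_hasStrictDerivAt 0 s).hasDerivAt
  have hd' : deriv (fun s => ∫ t in (0 : ℝ)..s, ρ t) = ρ := funext fun s => (hd s).deriv
  have hcs : HasCompactSupport ρ := by
    refine HasCompactSupport.intro (isCompact_closedBall (0 : ℝ) (M + 1)) fun t ht => ?_
    rw [mem_closedBall_zero_iff, Real.norm_eq_abs, not_le] at ht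
    exact max_eq_left ((min_le_right _ _).trans (by linarith))
  have hint : Integrable ρ := hρ.integrable_of_hasCompactSupport hcs
  refine ⟨fun s => ∫ t in (0 : ℝ)..s, ρ t, ?_, fun s hs => ?_, fun s => ?_, ∫ t, ‖ρ t‖, fun s => ?_⟩
  · rw [contDiff_one_iff_deriv, hd']
    exact ⟨fun s => (hd s).differentiableAt, hρ⟩
  · have : ∫ t in (0 : ℝ)..s, ρ t = ∫ _ in (0 : ℝ)..s, (1 : ℝ) := by
      refine intervalIntegral.integral_congr fun t ht => ?_
      have h1 : |t| ≤ |s| := by simpa using abs_sub_left_of_mem_uIcc ht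
      simp only [ρ]
      rw [min_eq_left (by linarith), max_eq_right zero_le_one]
    simp only [this]
    simp
  · rw [hd', abs_of_nonneg (hρ0 s)]
    exact hρ1 s
  · rw [← Real.norm_eq_abs]
    exact intervalIntegral.norm_integral_le_integral_norm_uIoc.trans
      (setIntegral_le_integral hint.norm (Eventually.of_forall fun t => norm_nonneg _))

theorem energyb_int (h : Cond S γ) {u : E3 → ℝ} (hu : ContDiff ℝ 1 u) :
    IntegrableOn (fun x => γ x * ‖∇ u x‖ ^ 2) (ball 0 3) := by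
  have hl : L2 (ball 0 3) (∇ u) := l2_grad measurableSet_ball isBounded_ball hu
  have hi := (abs_integral_mul_inner_le h.meas h.abs_le hl hl).1
  simpa only [real_inner_self_eq_norm_sq] using hi

theorem exists_minSeq (h : Cond S γ) {φ : E3 → ℝ} (hφ : ContDiff ℝ 1 φ) :
    ∃ u E, MinSeq γ φ u E := by
  let A : Set ℝ := ballEnergy γ '' {w | IsCompetitor φ w}
  have hne : A.Nonempty := ⟨_, φ, ⟨hφ, fun _ _ => rfl⟩, rfl⟩
  have hS : 0 < S⁻¹ := inv_pos.2 (by linarith [h.one])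
  have hbd : BddBelow A := ⟨0, by
    rintro _ ⟨w, hw, rfl⟩
    exact le_trans (by positivity) (energy_bounds h hw.1).1⟩
  obtain ⟨e, -, he, heA⟩ := exists_seq_tendsto_sInf hne hbd
  choose w hw hwe using heA
  obtain ⟨M, hM⟩ := (isCompact_sphere (0 : E3) 3).exists_bound_of_continuousOn
    hφ.continuous.continuousOn
  obtain ⟨κ, hκ, hκ1, hκ2, M', hM'⟩ := exists_trunc M
  have hcomp : ∀ n, IsCompetitor φ fun x => κ (w n x) := fun n =>
    ⟨hκ.comp (hw n).1, fun x hx => by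
      show κ (w n x) = φ x
      rw [(hw n).2 x hx]
      exact hκ1 _ (hM x (mem_sphere_zero_iff_norm.2 hx))⟩
  have hinf : ∀ w, IsCompetitor φ w → sInf A ≤ ballEnergy γ w := fun w hw =>
    csInf_le hbd ⟨w, hw, rfl⟩
  refine ⟨fun n x => κ (w n x), sInf A, hcomp, ⟨M', fun n x _ => hM' _⟩, ?_, hinf⟩
  refine tendsto_of_tendsto_of_tendsto_of_le_of_le tendsto_const_nhds he
    (fun n => hinf _ (hcomp n)) fun n => ?_
  rw [← hwe n]
  unfold ballEnergy
  refine integral_mono (energyb_int h (hcomp n).1) (energyb_int h (hw n).1) fun x => ?_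
  refine mul_le_mul_of_nonneg_left ?_ (hS.le.trans (h.bd x).1)
  rw [grad_comp_real (hκ.differentiable one_ne_zero _).hasDerivAt
    ((hw n).1.differentiable one_ne_zero x), norm_smul, Real.norm_eq_abs]
  exact pow_le_pow_left₀ (by positivity) (mul_le_of_le_one_left (norm_nonneg _) (hκ2 _)) 2

theorem MinSeq.grad_bd (h : Cond S γ) {φ : E3 → ℝ} {u : ℕ → E3 → ℝ} {E : ℝ} (hu : MinSeq γ φ u E) :
    ∃ C : ℝ, ∀ n, nr (ball 0 3) (∇ (u n)) ≤ C := by
  obtain ⟨B, hB⟩ := hu.lim.bddAbove_range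
  have hS : 0 < S := by linarith [h.one]
  refine ⟨Real.sqrt (S * B), fun n => Real.le_sqrt_of_sq_le ?_⟩
  have h1 := (energy_bounds h (hu.comp n).1).1.trans (hB ⟨n, rfl⟩)
  rwa [inv_mul_le_iff₀ hS] at h1

theorem energyb_smul (γ : E3 → ℝ) (t : ℝ) (F G : E3 → E3) :
    bf γ F (fun x => t • G x) = t * bf γ F G := by
  unfold bf
  rw [← integral_const_mul]
  refine integral_congr_ae (Eventually.of_forall fun x => ?_)
  simp only [real_inner_smul_right]
  ring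

theorem MinSeq.ortho (h : Cond S γ) {φ : E3 → ℝ} {u : ℕ → E3 → ℝ} {E : ℝ} (hu : MinSeq γ φ u E) :
    ∃ η : ℕ → ℝ, Tendsto η atTop (𝓝 0) ∧ (∀ n, 0 ≤ η n) ∧
      ∀ n Z, V0 Z → |bf γ (∇ (u n)) Z| ≤ η n * nr (ball 0 3) Z := by
  have hS : 0 < S := by linarith [h.one]
  refine ⟨fun n => Real.sqrt (S * (ballEnergy γ (u n) - E)), ?_, fun n => Real.sqrt_nonneg _,
    fun n Z hZ => ?_⟩
  · have := ((hu.lim.sub_const E).const_mul S).sqrt
    simpa using this
  have hc : 0 ≤ ballEnergy γ (u n) - E := sub_nonneg.2 (hu.inf _ (hu.comp n))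
  have hun := (hu.comp n).1
  have hlu : L2 (ball 0 3) (∇ (u n)) := l2_grad measurableSet_ball isBounded_ball hun
  set η := Real.sqrt (S * (ballEnergy γ (u n) - E)) with hη
  have hη0 : 0 ≤ η := Real.sqrt_nonneg _
  have smooth : ∀ z : E3 → ℝ, ContDiff ℝ 1 z → (∀ x : E3, ‖x‖ = 3 → z x = 0) →
      |bf γ (∇ (u n)) (∇ z)| ≤ η * nr (ball 0 3) (∇ z) := by
    intro z hz hz0
    have hlz : L2 (ball 0 3) (∇ z) := l2_grad measurableSet_ball isBounded_ball hz
    have hq : ∀ t : ℝ, 0 ≤ ballEnergy γ z * (t * t) + 2 * bf γ (∇ (u n)) (∇ z) * t +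
        (ballEnergy γ (u n) - E) := by
      intro t
      have h1 := hu.inf (fun y => 1 * u n y + t * z y + 0)
        ⟨by fun_prop, fun x hx => by simp [(hu.comp n).2 x hx, hz0 x hx]⟩
      have e : ∇ (fun y => 1 * u n y + t * z y + 0) = fun x => ∇ (u n) x + t • ∇ z x := by
        funext x
        rw [grad_lin 1 t 0 (hun.differentiable one_ne_zero x) (hz.differentiable one_ne_zero x),
          one_smul]
      have hlt : L2 (ball 0 3) fun x => t • ∇ z x := hlz.const_smul t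
      rw [← bf_self, e, bf_add h (hlu.add' hlt) hlu hlt, energyb_smul, bf_comm γ _ (∇ (u n)),
        bf_comm γ _ (∇ z), bf_add h hlu hlu hlt, bf_add h hlz hlu hlt, energyb_smul, energyb_smul,
        bf_self, bf_self, bf_comm γ (∇ z)] at h1
      linarith
    have h2 := discrim_le_zero hq
    unfold discrim at h2
    have h3 := mul_le_mul_of_nonneg_right (energy_bounds h hz).2 hc
    refine abs_le_of_sq_le_sq' ?_ (mul_nonneg hη0 (R80.nr_nonneg _ _)) |> abs_le.2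
    rw [mul_pow, hη, Real.sq_sqrt (mul_nonneg hS.le hc)]
    nlinarith
  refine le_of_forall_pos_le_add fun ε hε => ?_
  have hK : 0 < η + S * nr (ball 0 3) (∇ (u n)) + 1 := by
    have := mul_nonneg hS.le (R80.nr_nonneg (ball 0 3) (∇ (u n)))
    linarith
  obtain ⟨z, hz, hz0, hz1⟩ := hZ.apx _ (div_pos hε hK)
  set δ := ε / (η + S * nr (ball 0 3) (∇ (u n)) + 1) with hδ
  have hδ0 : 0 < δ := div_pos hε hK
  have hδε : δ * (η + S * nr (ball 0 3) (∇ (u n)) + 1) = ε := div_mul_cancel₀ _ hK.ne'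
  have hlz : L2 (ball 0 3) (∇ z) := l2_grad measurableSet_ball isBounded_ball hz
  have h1 := smooth z hz hz0
  have h2 := abs_bf_le h hlu (hlz.sub' hZ.l2)
  rw [bf_sub h hlu hlz hZ.l2] at h2
  have h3 := R80.nr_le_add_sub hlz hZ.l2
  have h4 : η * nr (ball 0 3) (∇ z) ≤ η * (nr (ball 0 3) Z + δ) :=
    mul_le_mul_of_nonneg_left (by linarith) hη0
  have h5 : S * (nr (ball 0 3) (∇ (u n)) * nr (ball 0 3) fun x => ∇ z x - Z x) ≤
      S * (nr (ball 0 3) (∇ (u n)) * δ) :=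
    mul_le_mul_of_nonneg_left (mul_le_mul_of_nonneg_left hz1 (R80.nr_nonneg _ _)) hS.le
  have h6 := abs_sub_abs_le_abs_sub (bf γ (∇ (u n)) Z) (bf γ (∇ (u n)) (∇ z))
  rw [abs_sub_comm] at h6
  nlinarith

/-! ### part c -/

variable {w : E3 → ℝ} {W : E3 → E3}

theorem energyc_smul {a : E3 → ℝ} (ha : Continuous a) {F : E3 → E3} (hF : L2 (ball 0 3) F) {C : ℝ}
    (hC : 0 ≤ C) (h : ∀ x ∈ ball (0 : E3) 3, |a x| ≤ C) :
    L2 (ball 0 3) (fun x => a x • F x) ∧ nr (ball 0 3) (fun x => a x • F x) ≤ C * nr (ball 0 3) F := by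
  have hb : ∀ᵐ x : E3, x ∈ ball (0 : E3) 3 → ‖a x • F x‖ ≤ C * ‖F x‖ :=
    Eventually.of_forall fun x hx => by
      rw [norm_smul]
      exact mul_le_mul_of_nonneg_right (h x hx) (norm_nonneg _)
  exact ⟨R80.L2.of_le' measurableSet_ball (hF.norm'.rmul C)
    (ha.aestronglyMeasurable.smul hF.aestronglyMeasurable) hb,
    R80.nr_le_mul_of_le measurableSet_ball hF hC hb⟩

theorem energyc_bd {a : E3 → ℝ} (ha : Continuous a) :
    ∃ C, 0 ≤ C ∧ ∀ x ∈ ball (0 : E3) 3, |a x| ≤ C := by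
  obtain ⟨C, hC⟩ := R80.L2_bound (U := ball (0 : E3) 3) isBounded_ball ha
  exact ⟨|C|, abs_nonneg _, fun x hx => (hC x hx).trans (le_abs_self C)⟩

theorem energyc_l2 {a : E3 → ℝ} (ha : Continuous a) {F : E3 → E3} (hF : L2 (ball 0 3) F) :
    L2 (ball 0 3) fun x => a x • F x := by
  obtain ⟨C, hC, h⟩ := energyc_bd ha
  exact (energyc_smul ha hF hC h).1

/-- chain and product rule in `V0` -/
theorem energyc_gen (h : H1 (ball 0 (5 / 2)) w W) {ψ ψ' : ℝ → ℝ} {L : ℝ} (hL : 0 ≤ L) (h0 : ψ 0 = 0)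
    {P : ℝ → Prop} (hP : ∀ x s, |s - w x| ≤ 1 / 4 → P s) (hc : ∀ s, P s → ContDiffAt ℝ 1 ψ s)
    (hd : ∀ s, P s → HasDerivAt ψ (ψ' s) s) (hc' : ∀ s, P s → ContinuousAt ψ' s)
    (hl : ∀ a b, P a → P b → |ψ a - ψ b| ≤ L * |a - b| ∧ |ψ' a| ≤ L ∧ |ψ' a - ψ' b| ≤ L * |a - b|)
    {z : E3 → ℝ} (hz : ContDiff ℝ 1 z) :
    V0 fun x => ψ (w x) • ∇ z x + (z x * ψ' (w x)) • W x := by
  have hw := h.continuous
  have hPw : ∀ x, P (w x) := fun x => hP x _ (by simp)
  have c1 : ∀ {g : E3 → ℝ}, Continuous g → (∀ x, P (g x)) → Continuous fun x => ψ (g x) :=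
    fun hg hp => continuous_iff_continuousAt.2 fun x =>
      (hc _ (hp x)).continuousAt.comp hg.continuousAt
  have c2 : ∀ {g : E3 → ℝ}, Continuous g → (∀ x, P (g x)) → Continuous fun x => ψ' (g x) :=
    fun hg hp => continuous_iff_continuousAt.2 fun x => (hc' _ (hp x)).comp hg.continuousAt
  have lz : L2 (ball 0 3) (∇ z) := l2_grad measurableSet_ball isBounded_ball hz
  have lW : L2 (ball 0 3) W := h.l2.mono_set (subset_univ _)
  refine ⟨(energyc_l2 (c1 hw hPw) lz).add' (energyc_l2 (hz.continuous.mul (c2 hw hPw)) lW),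
    fun δ₀ hδ₀ => ?_⟩
  obtain ⟨M, hM0, hM⟩ := energyc_bd hz.continuous
  have n1 := R80.nr_nonneg (ball 0 3) (∇ z)
  have n2 := R80.nr_nonneg (ball 0 3) W
  obtain ⟨K, hK⟩ : ∃ K, K = L * nr (ball 0 3) (∇ z) + M * L + M * L * nr (ball 0 3) W := ⟨_, rfl⟩
  have hK0 : 0 ≤ K := by rw [hK]; positivity
  obtain ⟨δ, hδ, hδ1, hδ2⟩ : ∃ δ : ℝ, 0 < δ ∧ δ ≤ 1 / 4 ∧ δ * K ≤ δ₀ := by
    refine ⟨min (1 / 4) (δ₀ / (K + 1)), by positivity, min_le_left _ _, ?_⟩
    refine (mul_le_mul_of_nonneg_right (min_le_right _ _) hK0).trans ?_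
    rw [div_mul_eq_mul_div, div_le_iff₀ (by linarith)]
    nlinarith
  obtain ⟨g, hg, hgc, hgs, hg1, hg2⟩ := h.apx δ hδ
  have hPg : ∀ x, P (g x) := fun x => hP x _ ((hg1 x).trans hδ1)
  have hψg : ContDiff ℝ 1 fun x => ψ (g x) :=
    contDiff_iff_contDiffAt.2 fun x => (hc _ (hPg x)).comp x hg.contDiffAt
  refine ⟨fun x => ψ (g x) * z x, hψg.mul hz, fun x hx => ?_, ?_⟩
  · have : g x = 0 := image_eq_zero_of_notMem_tsupport fun hx' => by
      have := mem_ball_zero_iff.1 (hgs hx')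
      rw [hx] at this
      norm_num at this
    simp only [this, h0, zero_mul]
  have e : (fun x => ∇ (fun x => ψ (g x) * z x) x - (ψ (w x) • ∇ z x + (z x * ψ' (w x)) • W x)) =
      fun x => ((ψ (g x) - ψ (w x)) • ∇ z x + (z x * ψ' (g x)) • (∇ g x - W x)) +
        (z x * (ψ' (g x) - ψ' (w x))) • W x := by
    funext x
    rw [grad_mul (hψg.differentiable one_ne_zero x) (hz.differentiable one_ne_zero x),
      grad_comp_real (hd _ (hPg x)) (hg.differentiable one_ne_zero x)]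
    module
  have lg : L2 univ fun x => ∇ g x - W x := (l2_grad_cs hg hgc).sub' h.l2
  obtain ⟨a1, a2⟩ := energyc_smul ((c1 hg.continuous hPg).sub (c1 hw hPw)) lz
    (by positivity : 0 ≤ L * δ) fun x _ =>
      (hl _ _ (hPg x) (hPw x)).1.trans (mul_le_mul_of_nonneg_left (hg1 x) hL)
  obtain ⟨b1, b2⟩ := energyc_smul (hz.continuous.mul (c2 hg.continuous hPg))
    (lg.mono_set (subset_univ _)) (by positivity : 0 ≤ M * L) fun x hx => by
      rw [Pi.mul_apply, abs_mul]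
      exact mul_le_mul (hM x hx) (hl _ _ (hPg x) (hPw x)).2.1 (abs_nonneg _) hM0
  obtain ⟨d1, d2⟩ := energyc_smul (hz.continuous.mul ((c2 hg.continuous hPg).sub (c2 hw hPw))) lW
    (by positivity : 0 ≤ M * (L * δ)) fun x hx => by
      rw [Pi.mul_apply, abs_mul]
      exact mul_le_mul (hM x hx) ((hl _ _ (hPg x) (hPw x)).2.2.trans
        (mul_le_mul_of_nonneg_left (hg1 x) hL)) (abs_nonneg _) hM0
  have b3 := mul_le_mul_of_nonneg_left ((R80.nr_mono_set (subset_univ (ball 0 3)) lg).trans hg2)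
    (by positivity : 0 ≤ M * L)
  rw [e]
  refine (R80.nr_add_le (a1.add' b1) d1).trans ((add_le_add
    ((R80.nr_add_le a1 b1).trans (add_le_add a2 (b2.trans b3))) d2).trans ?_)
  rw [hK] at hδ2
  linarith

theorem V0_mul (h : H1 (ball 0 (5 / 2)) w W) {z : E3 → ℝ} (hz : ContDiff ℝ 1 z) :
    V0 fun x => w x • ∇ z x + z x • W x := by
  refine (energyc_gen h (ψ := fun s => s) (ψ' := fun _ => 1) (P := fun _ => True) zero_le_one rfl
    (fun _ _ _ => trivial) (fun _ _ => contDiffAt_id) (fun s _ => hasDerivAt_id s)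
    (fun _ _ => continuousAt_const) (fun a b _ _ => by simp) hz).congr fun x => ?_
  rw [mul_one]

theorem V0_div (h : H1 (ball 0 (5 / 2)) w W) (hs : ∀ x, |w x| ≤ 1 / 2) {u : E3 → ℝ}
    (hu : ContDiff ℝ 1 u) (ℓ : ℝ) : V0 fun x => VV w W u ℓ x - ∇ u x := by
  have hp : ∀ s : ℝ, |s| ≤ 3 / 4 → 1 / 4 ≤ 1 + s := fun s hs => by linarith [(abs_le.1 hs).1]
  have hn : ∀ s : ℝ, |s| ≤ 3 / 4 → 1 + s ≠ 0 := fun s hs => by linarith [hp s hs]
  have hi : ∀ s : ℝ, |s| ≤ 3 / 4 → 0 < (1 + s)⁻¹ ∧ (1 + s)⁻¹ ≤ 4 := fun s hs => by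
    have := hp s hs
    refine ⟨by positivity, ?_⟩
    rw [inv_le_comm₀ (by linarith) (by norm_num)]
    linarith
  refine (energyc_gen h (ψ := fun s => (1 + s)⁻¹ - 1) (ψ' := fun s => -(1 + s)⁻¹ ^ 2) (L := 128)
    (P := fun s => |s| ≤ 3 / 4) (by norm_num) (by simp) (fun x s hx => ?_)
    (fun s hs => ((contDiffAt_const.add contDiffAt_id).inv (hn s hs)).sub contDiffAt_const)
    (fun s hs => ?_) (fun s hs => ?_) (fun a b ha hb => ?_)
    (z := fun x => u x - ℓ) (hu.sub contDiff_const)).congr fun x => ?_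
  · have := abs_sub_abs_le_abs_sub s (w x)
    linarith [hs x]
  · have := (((hasDerivAt_id s).const_add 1).inv (hn s hs)).sub_const 1
    refine this.congr_deriv ?_
    simp [div_eq_mul_inv]
  · exact (((continuousAt_const.add continuousAt_id).inv₀ (hn s hs)).pow 2).neg
  · obtain ⟨a1, a2⟩ := hi a ha
    obtain ⟨b1, b2⟩ := hi b hb
    have e : (1 + a)⁻¹ - (1 + b)⁻¹ = -((1 + a)⁻¹ * (1 + b)⁻¹ * (a - b)) := by
      have := hn a ha
      have := hn b hb
      field_simp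
      ring
    have k : |(1 + a)⁻¹ - (1 + b)⁻¹| ≤ 16 * |a - b| := by
      rw [e, abs_neg, abs_mul, abs_of_pos (mul_pos a1 b1)]
      exact mul_le_mul_of_nonneg_right (by nlinarith) (abs_nonneg _)
    have k0 := abs_nonneg (a - b)
    refine ⟨?_, ?_, ?_⟩
    · rw [sub_sub_sub_cancel_right]
      linarith
    · rw [abs_neg, abs_of_nonneg (sq_nonneg _)]
      nlinarith
    · have e2 : -(1 + a)⁻¹ ^ 2 - -(1 + b)⁻¹ ^ 2 =
          -(((1 + a)⁻¹ + (1 + b)⁻¹) * ((1 + a)⁻¹ - (1 + b)⁻¹)) := by ring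
      rw [e2, abs_neg, abs_mul, abs_of_pos (add_pos a1 b1)]
      calc _ ≤ 8 * (16 * |a - b|) := mul_le_mul (by linarith) k (abs_nonneg _) (by norm_num)
        _ = _ := by ring
  · have e : (fun x => u x - ℓ) = fun y => 1 * u y + -ℓ := by funext y; ring
    have e2 : ∇ (fun x => u x - ℓ) x = ∇ u x := by rw [e, grad_affine, one_smul]
    rw [e2, VV, div_eq_mul_inv, ← inv_pow]
    module

theorem nr_VV_le (h : H1 (ball 0 (5 / 2)) w W) (hs : ∀ x, |w x| ≤ 1 / 2) {u : E3 → ℝ}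
    (hu : ContDiff ℝ 1 u) {ℓ M : ℝ} (hM : ∀ x ∈ ball (0 : E3) 3, |u x - ℓ| ≤ M) :
    L2 (ball 0 3) (VV w W u ℓ) ∧
      nr (ball 0 3) (VV w W u ℓ) ≤ 2 * nr (ball 0 3) (∇ u) + 4 * M * nr univ W := by
  have hw := h.continuous
  have hp : ∀ x, 1 / 2 ≤ 1 + w x := fun x => by linarith [(abs_le.1 (hs x)).1]
  have hn : ∀ x, 1 + w x ≠ 0 := fun x => by linarith [hp x]
  have hM0 : 0 ≤ M := (abs_nonneg _).trans (hM 0 (by simp))
  obtain ⟨a1, a2⟩ := energyc_smul (a := fun x => (1 + w x)⁻¹) ((continuous_const.add hw).inv₀ hn)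
    (l2_grad measurableSet_ball isBounded_ball hu) zero_le_two fun x _ => by
      have := hp x
      rw [abs_of_pos (by positivity), inv_le_comm₀ (by linarith) (by norm_num)]
      linarith
  obtain ⟨b1, b2⟩ := energyc_smul (a := fun x => (u x - ℓ) / (1 + w x) ^ 2)
    ((hu.continuous.sub continuous_const).div ((continuous_const.add hw).pow 2)
      fun x => pow_ne_zero 2 (hn x))
    (h.l2.mono_set (subset_univ _)) (by positivity : 0 ≤ 4 * M) fun x hx => by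
      have h1 := hp x
      have h2 : 1 / 4 ≤ (1 + w x) ^ 2 := by nlinarith
      rw [abs_div, abs_of_pos (by positivity : 0 < (1 + w x) ^ 2), div_le_iff₀ (by positivity)]
      nlinarith [hM x hx]
  have b3 := mul_le_mul_of_nonneg_left (R80.nr_mono_set (subset_univ (ball 0 3)) h.l2)
    (by positivity : 0 ≤ 4 * M)
  exact ⟨a1.sub' b1, (R80.nr_sub_le a1 b1).trans (add_le_add a2 (b2.trans b3))⟩

theorem bf_VV (hγ : Cond S γ) (h : H1 (ball 0 (5 / 2)) w W) (hs : ∀ x, |w x| ≤ 1 / 2)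
    (hv : ∀ x, x ∉ ball (0 : E3) (5 / 2) → W x = 0) {u z : E3 → ℝ} (hu : ContDiff ℝ 1 u)
    (hz : ContDiff ℝ 1 z) (ℓ : ℝ) :
    bf (fun x => (1 + w x) ^ 2 * γ x) (VV w W u ℓ) (∇ z) =
      bf γ (∇ u) (fun x => ∇ z x + (w x • ∇ z x + z x • W x)) - pr γ W fun x => (u x - ℓ) * z x := by
  have hn : ∀ x, 1 + w x ≠ 0 := fun x => by linarith [(abs_le.1 (hs x)).1]
  have huz : ContDiff ℝ 1 fun x => (u x - ℓ) * z x := (hu.sub contDiff_const).mul hz
  have i1 := (abs_integral_mul_inner_le hγ.meas hγ.abs_le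
    (l2_grad measurableSet_ball (isBounded_ball (x := (0 : E3)) (r := 3)) hu)
    ((l2_grad measurableSet_ball isBounded_ball hz).add' (V0_mul h hz).l2)).1
  have i2 := (abs_integral_mul_inner_le hγ.meas hγ.abs_le (h.l2.mono_set (subset_univ _))
    (l2_grad measurableSet_ball (isBounded_ball (x := (0 : E3)) (r := 3)) huz)).1
  rw [pr_eq_bf γ fun x hx => hv x fun hx' => hx (ball_subset_ball (by norm_num) hx')]
  unfold bf
  rw [← integral_sub i1 i2]
  refine integral_congr_ae (Eventually.of_forall fun x => ?_)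
  have e : (fun x => u x - ℓ) = fun y => 1 * u y + -ℓ := by funext y; ring
  have e2 : ∇ (fun x => u x - ℓ) x = ∇ u x := by rw [e, grad_affine, one_smul]
  have := hn x
  simp only []
  rw [grad_mul ((hu.sub contDiff_const).differentiable one_ne_zero x)
    (hz.differentiable one_ne_zero x), e2, VV]
  simp only [inner_sub_left, inner_add_right, real_inner_smul_left, real_inner_smul_right,
    real_inner_comm (W x) (∇ u x)]
  field_simp
  ring

/-! ### part d -/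

theorem Shield.cond (h : Shield γ w W) : ∃ S : ℝ, Cond S γ ∧ Cond (4 * S) fun x => (1 + w x) ^ 2 * γ x := by
  obtain ⟨S, hS, hb⟩ := h.bd
  have hS0 : 0 < S⁻¹ := inv_pos.2 (by linarith)
  refine ⟨S, ⟨hS, h.meas, hb⟩, by linarith,
    ((measurable_const.add h.h1.continuous.measurable).pow_const 2).mul h.meas, fun x => ?_⟩
  obtain ⟨h1, h2⟩ := abs_le.1 (h.small x)
  obtain ⟨h3, h4⟩ := hb x
  have h5 : 1 / 4 ≤ (1 + w x) ^ 2 := by nlinarith
  have h6 : (1 + w x) ^ 2 ≤ 4 := by nlinarith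
  constructor
  · rw [mul_inv, ← one_div 4]
    exact mul_le_mul h5 h3 hS0.le (sq_nonneg _)
  · exact mul_le_mul h6 h4 (hS0.le.trans h3) (by norm_num)

theorem VV_tendsto (h : Shield γ w W) {φ : E3 → ℝ} {u : ℕ → E3 → ℝ} {E : ℝ} (hu : MinSeq γ φ u E) :
    ∃ (ℓ : ℕ → ℝ) (M : ℝ), (∀ n, ∀ x ∈ ball (0 : E3) 3, |u n x - ℓ n| ≤ M) ∧
      ∀ z, IsCompetitor φ z →
        Tendsto (fun n => bf (fun x => (1 + w x) ^ 2 * γ x) (VV w W (u n) (ℓ n)) (∇ z)) atTop (𝓝 E) := by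
  obtain ⟨S, hS, -⟩ := h.cond
  obtain ⟨M, hM⟩ := hu.bd
  obtain ⟨C, hC⟩ := hu.grad_bd hS
  obtain ⟨η, hη, hη0, ho⟩ := hu.ortho hS
  have hsub : ∀ x : E3, x ∉ ball (0 : E3) 3 → x ∉ ball (0 : E3) (5 / 2) := fun x hx hx' =>
    hx (ball_subset_ball (by norm_num) hx')
  obtain ⟨ℓ, hℓ, hk⟩ := h.key u M C (fun n => (hu.comp n).1) hM hC fun f F hF hv => by
    refine squeeze_zero_norm (a := fun n => η n * nr (ball 0 3) F) (fun n => ?_)
      (by simpa using hη.mul_const (nr (ball 0 3) F))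
    rw [pr_eq_bf γ fun x hx => hv x (hsub x hx), bf_comm]
    exact ho n F (V0_of_H1 hF)
  refine ⟨ℓ, M + M, fun n x hx => (abs_sub _ _).trans (add_le_add (hM n x hx) (hℓ n)), fun z hz => ?_⟩
  have hY := V0_mul h.h1 hz.1
  have hl : ∀ n, L2 (ball 0 3) (∇ (u n)) := fun n =>
    l2_grad measurableSet_ball isBounded_ball (hu.comp n).1
  have hlz : L2 (ball 0 3) (∇ z) := l2_grad measurableSet_ball isBounded_ball hz.1
  have hZ := fun n => (V0_sub hz (hu.comp n)).add hY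
  have e : ∀ n, bf (fun x => (1 + w x) ^ 2 * γ x) (VV w W (u n) (ℓ n)) (∇ z) =
      ballEnergy γ (u n) + bf γ (∇ (u n)) (fun x => (∇ z x - ∇ (u n) x) + (w x • ∇ z x + z x • W x)) -
        pr γ W fun x => (u n x - ℓ n) * z x := fun n => by
    rw [bf_VV hS h.h1 h.small h.van (hu.comp n).1 hz.1, ← bf_self, ← bf_add hS (hl n) (hl n) (hZ n).l2]
    congr 2
    funext x
    abel
  have h2 : Tendsto (fun n => bf γ (∇ (u n))
      (fun x => (∇ z x - ∇ (u n) x) + (w x • ∇ z x + z x • W x))) atTop (𝓝 0) := by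
    refine squeeze_zero_norm (a := fun n => η n * (nr (ball 0 3) (∇ z) + C +
      nr (ball 0 3) fun x => w x • ∇ z x + z x • W x)) (fun n => ?_) (by simpa using hη.mul_const _)
    refine (ho n _ (hZ n)).trans (mul_le_mul_of_nonneg_left ?_ (hη0 n))
    refine (R80.nr_add_le (hlz.sub' (hl n)) hY.l2).trans ?_
    have := R80.nr_sub_le hlz (hl n)
    linarith [hC n]
  simp only [e]
  simpa using (hu.lim.add h2).sub (hk z hz.1)

theorem energy_eq (h : Shield γ w W) {φ : E3 → ℝ} {u v : ℕ → E3 → ℝ} {E E' : ℝ} (hu : MinSeq γ φ u E)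
    (hv : MinSeq (fun x => (1 + w x) ^ 2 * γ x) φ v E') : E = E' := by
  obtain ⟨S, hS, hS'⟩ := h.cond
  obtain ⟨ℓ, M, hM, hV⟩ := VV_tendsto h hu
  obtain ⟨C, hC⟩ := hu.grad_bd hS
  obtain ⟨C', hC'⟩ := hv.grad_bd hS'
  obtain ⟨η, hη, hη0, ho⟩ := hv.ortho hS'
  have hl : ∀ m, L2 (ball 0 3) (∇ (v m)) := fun m =>
    l2_grad measurableSet_ball isBounded_ball (hv.comp m).1
  have key : ∀ m, |E - ballEnergy (fun x => (1 + w x) ^ 2 * γ x) (v m)| ≤
      η m * (2 * C + 4 * M * nr univ W + C') := fun m => by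
    refine le_of_tendsto' ((hV (v m) (hv.comp m)).sub_const _).abs fun n => ?_
    obtain ⟨h1, h2⟩ := nr_VV_le h.h1 h.small (hu.comp n).1 (hM n)
    have hZ : V0 fun x => VV w W (u n) (ℓ n) x - ∇ (v m) x :=
      ((V0_div h.h1 h.small (hu.comp n).1 (ℓ n)).add (V0_sub (hu.comp n) (hv.comp m))).congr
        fun x => by abel
    rw [bf_comm, ← bf_self, ← bf_sub hS' (hl m) h1 (hl m)]
    refine (ho m _ hZ).trans (mul_le_mul_of_nonneg_left ?_ (hη0 m))
    have := R80.nr_sub_le h1 (hl m)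
    linarith [hC n, hC' m]
  have := le_of_tendsto_of_tendsto' (hv.lim.const_sub E).abs (hη.mul_const _) key
  rw [zero_mul] at this
  exact sub_eq_zero.1 (abs_nonpos_iff.1 this)

theorem shield_same (h : Shield γ w W) : SameBoundaryEnergies γ fun x => (1 + w x) ^ 2 * γ x := by
  intro φ hφ
  obtain ⟨S, hS, hS'⟩ := h.cond
  obtain ⟨u, E, hu⟩ := exists_minSeq hS hφ
  obtain ⟨v, E', hv⟩ := exists_minSeq hS' hφ
  obtain rfl := energy_eq h hu hv
  constructor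
  · intro z hz ε hε
    obtain ⟨m, hm⟩ := (hv.lim.eventually_lt_const
      (show E < ballEnergy γ z + ε by linarith [hu.inf z hz])).exists
    exact ⟨v m, hv.comp m, hm⟩
  · intro z hz ε hε
    obtain ⟨m, hm⟩ := (hu.lim.eventually_lt_const
      (show E < ballEnergy (fun x => (1 + w x) ^ 2 * γ x) z + ε by linarith [hv.inf z hz])).exists
    exact ⟨u m, hu.comp m, hm⟩

end Crest.Agent.R83
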