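import Crest.Agent.R83.Pull
import Crest.Agent.R83.Dome

/-!
# Row 83: the two potentials and their fluxes

`UU = Ul 1 ∪ Ul (-1) ∪ Uo ∪ Uc`.  On `Ul e`, `Ul (-e)`, `Uo` the definitions of `vv`, `JJ` reduce to one branch
(`norm_sub_add`).  On `Uc` all branches agree with the last one: `tc_log`, `tou_log`, `Leg.init`,
`ov_child` (with `-e` in place of `e`), `ov_out`; for the fluxes the identities hold near the point, use
`grad_congr`, `grad_affine`, `Jp_init`, and `grad_add` (here differentiability of `zx` is needed).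
* `lb_JJ`: the norm of `JJ` is at most the sum of the norms of the five fields, each `LB` on `UU`;
  measurability: `Measurable.ite` (`zx` is measurable: `zt`, `XX`, `ph`, `BB` continuous; `(Th x) 2` is not used).
* `df_JJ`: `DF.of_local`, `df_leg` (walls: `zt_wall`, `bb_wall`, `ac_wall`, `bc_wall`, `ao_wall`, `th_wall`),
  `DF.congr` with `ll_ae_diff`.
* `lip_Gx`: `ll_of_local` with the cover `UU`, `{zt < 33/40, ± x 0 > 0}`, `{1 < zt}`; `lip_of_ll`.
* `good_vv`: `L` from `ll_fderiv_bound` on the compact set `{33/40 ≤ zt ≤ 1}`; `gm_Th`, `ae_comp` (with `Th`) for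
  `gm_Pc`, `gm_Po`, `gm_Zm` and `y 1 ≠ BB (y 0)` (null: `gm_Zm`, `ae_comp`, `ae_coord_ne 1 0`);
  `GM.comp`; `leg_pull`, `core_pull`, `Good.lin`, `Good.congr`, `Good.mono`.
-/

namespace Crest.Agent.R83

open MeasureTheory Set Metric Filter Topology
open scoped Gradient RealInnerProductSpace NNReal

variable {c e : ℝ} {d α β Ξ : E3 → ℝ} {x : E3}

/-! ### part a -/

theorem continuous_zx : Continuous zx := by
  have h : zx = fun x : E3 => zz (v3 (x 0) (zt x) 0) := by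
    funext x
    simp [zx, zz, Th]
  have hz := lip_zt.continuous
  rw [h]
  refine lip_zz.continuous.comp ?_
  unfold v3
  fun_prop

theorem isOpen_Ul (e : ℝ) : IsOpen (Ul e) := by
  exact isOpen_UU.inter (isOpen_lt (continuous_zx.sub continuous_const).norm continuous_const)

theorem isOpen_Uo : IsOpen Uo := by
  exact isOpen_UU.inter (isOpen_lt continuous_const (continuous_zx.sub continuous_const).norm)

theorem isOpen_Uc : IsOpen Uc := by
  exact isOpen_UU.inter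
    ((isOpen_lt continuous_const (continuous_zx.sub continuous_const).norm).inter
      ((isOpen_lt continuous_const (continuous_zx.add continuous_const).norm).inter
        (isOpen_lt (continuous_zx.sub continuous_const).norm continuous_const)))
theorem fieldsa_neg (he : e = 1 ∨ e = -1) : -e = 1 ∨ -e = -1 := by
  rcases he with rfl | rfl <;> simp

theorem fieldsa_sub (z : ℂ) (e : ℝ) : z - ((-e : ℝ) : ℂ) = z + e := by
  push_cast
  ring

theorem fieldsa_add (z : ℂ) (e : ℝ) : z + ((-e : ℝ) : ℂ) = z - e := by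
  push_cast
  ring


theorem UU_cover (he : e = 1 ∨ e = -1) (hx : x ∈ UU) : x ∈ Ul e ∨ x ∈ Ul (-e) ∨ x ∈ Uo ∨ x ∈ Uc := by
  by_cases h1 : ‖zx x - e‖ < 1
  · exact Or.inl ⟨hx, h1⟩
  by_cases h2 : ‖zx x - ((-e : ℝ) : ℂ)‖ < 1
  · exact Or.inr (Or.inl ⟨hx, h2⟩)
  by_cases h3 : 4 < ‖zx x - 1‖
  · exact Or.inr (Or.inr (Or.inl ⟨hx, h3⟩))
  refine Or.inr (Or.inr (Or.inr ⟨hx, ?_⟩))
  rw [fieldsa_sub] at h2
  rw [not_lt] at h1 h2 h3
  rcases he with rfl | rfl
  · simp only [Complex.ofReal_one] at h1 h2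
    exact ⟨by linarith, by linarith, by linarith⟩
  · simp only [Complex.ofReal_neg, Complex.ofReal_one, sub_neg_eq_add, ← sub_eq_add_neg] at h1 h2
    exact ⟨by linarith, by linarith, by linarith⟩

theorem vv_own (d α β Ξ : E3 → ℝ) (hx : x ∈ Ul e) : vv d e x = -min (tc e (Th x)) TT ∧
    JJ α β Ξ e x = -(sg x • J0 (Pc e ∘ Th) x) := by
  exact ⟨by rw [vv, if_pos hx.2], by rw [JJ, if_pos hx.2]⟩

theorem vv_other (d α β Ξ : E3 → ℝ) (he : e = 1 ∨ e = -1) (hx : x ∈ Ul (-e)) :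
    vv d e x = Real.log 2 + d (Pc (-e) (Th x)) ∧
      JJ α β Ξ e x = sg x • Jp α β Ξ (Pc (-e) ∘ Th) x := by
  have h1 := ((norm_sub_add (fieldsa_neg he) (zx x)).1 hx.2).1
  have h2 := hx.2
  rw [fieldsa_add] at h1
  rw [fieldsa_sub] at h2
  exact ⟨by rw [vv, if_neg (not_lt.2 h1.le), if_pos h2], by rw [JJ, if_neg (not_lt.2 h1.le), if_pos h2]⟩

theorem vv_out (d α β Ξ : E3 → ℝ) (he : e = 1 ∨ e = -1) (hx : x ∈ Uo) :
    vv d e x = Real.log 4 + min (tou (Th x)) TT + (1 - e) / 2 * d (Po (Th x)) ∧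
      JJ α β Ξ e x = sg x • J0 (Po ∘ Th) x + ((1 - e) / 2) • sg x • Jp α β Ξ (Po ∘ Th) x := by
  obtain ⟨h1, h2⟩ := (norm_sub_add he (zx x)).2 hx.2
  have h1' : ¬‖zx x - e‖ < 1 := by linarith
  have h2' : ¬‖zx x + e‖ < 1 := by linarith
  exact ⟨by rw [vv, if_neg h1', if_neg h2', if_pos hx.2], by rw [JJ, if_neg h1', if_neg h2', if_pos hx.2]⟩
theorem fieldsa_core (he : e = 1 ∨ e = -1) (hx : x ∈ Uc) : 5 / 6 < ‖zx x - e‖ := by
  rcases he with rfl | rfl
  · simpa using hx.2.1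
  · simpa using hx.2.2.1

theorem fieldsa_min {t : ℝ} (h : t ≤ 1) : min t TT = t :=
  min_eq_left (h.trans (by norm_num [TT]))


theorem vv_core (h : Leg c d α β Ξ) (he : e = 1 ∨ e = -1) (hx : x ∈ Uc) :
    vv d e x = lg (zx x - e) := by
  have hy := Th_mem_DD hx.1
  by_cases h1 : ‖zx x - e‖ < 1
  · obtain ⟨a1, a2, -⟩ := tc_log he hy (fieldsa_core he hx) h1
    rw [vv, if_pos h1, fieldsa_min a2, a1, neg_neg, zx]
  by_cases h2 : ‖zx x + e‖ < 1
  · have he' := fieldsa_neg he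
    have h2' : ‖zx x - ((-e : ℝ) : ℂ)‖ < 1 := by rwa [fieldsa_sub]
    have h3 := fieldsa_core he' hx
    obtain ⟨a1, a2, a3⟩ := tc_log he' hy h3 h2'
    have a0 := tc_pos he' hy h2'
    have hd := (h.init (Pc (-e) (Th x)) (by simpa [Pc] using a0.le) (by simpa [Pc] using a2)).1
    have hz : zx x - ((-e : ℝ) : ℂ) ≠ 0 := norm_pos_iff.1 (lt_trans (by norm_num) h3)
    have ho := (ov_child he' hz h2').1
    rw [fieldsa_add] at ho
    rw [vv, if_neg h1, if_pos h2, ho, hd]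
    simp only [Pc, v3_0, v3_1, a1, a3, θc, zx]
  by_cases h3 : 4 < ‖zx x - 1‖
  · obtain ⟨a1, a2, a3⟩ := tou_log hy h3 hx.2.2.2
    have a0 := tou_pos (y := Th x) h3
    have hd := (h.init (Po (Th x)) (by simpa [Po] using a0.le) (by simpa [Po] using a2)).1
    have ho := (ov_out (zz_im_nonneg hy) h3).1
    rw [vv, if_neg h1, if_neg h2, if_pos h3, fieldsa_min a2, hd]
    simp only [Po, v3_0, v3_1, a1, a3]
    rcases he with rfl | rfl
    · simp [zx]
    · rw [fieldsa_sub, Complex.ofReal_one, zx, ho]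
      ring
  · rw [vv, if_neg h1, if_neg h2, if_neg h3]

theorem fieldsa2_neg (he : e = 1 ∨ e = -1) : -e = 1 ∨ -e = -1 := by
  rcases he with rfl | rfl <;> simp

theorem fieldsa2_side (he : e = 1 ∨ e = -1) (hx : zt x < 7 / 8) (h : ¬0 < e * x 0) : 0 < -e * x 0 := by
  obtain ⟨i, hi⟩ := zt_side hx
  rcases he with rfl | rfl <;> rcases sb_cases i with h1 | h1 <;> rw [h1] at hi <;> linarith

theorem ll_vv (h : Leg c d α β Ξ) (he : e = 1 ∨ e = -1) : LocallyLipschitzOn UU (vv d e) := by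
  have hmin : Lip fun t : ℝ => min t TT := Lip.min ⟨1, LipschitzWith.id⟩ (Lip.const _)
  refine ll_of_local fun x hx => ?_
  rcases UU_cover he hx with h1 | h1 | h1 | h1
  · exact ⟨_, _, isOpen_Ul e, h1, (ll_lip_comp hmin.neg (ll_coord (ll_Pc he) 0)).mono fun _ hy => hy.1,
      fun y hy => (vv_own d α β Ξ hy).1⟩
  · exact ⟨_, _, isOpen_Ul (-e), h1, (ll_add ((Lip.const _).loc _)
      (ll_lip_comp h.ld (ll_Pc (fieldsa2_neg he)))).mono fun _ hy => hy.1,
      fun y hy => (vv_other d α β Ξ he hy).1⟩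
  · exact ⟨_, _, isOpen_Uo, h1, (ll_add (ll_add ((Lip.const _).loc _)
      (ll_lip_comp hmin (ll_coord ll_Po 0))) (ll_lip_comp (h.ld.const_mul _) ll_Po)).mono
      fun _ hy => hy.1, fun y hy => (vv_out d α β Ξ he hy).1⟩
  · exact ⟨_, _, isOpen_Uc, h1, (ll_lg_th he).1.mono fun _ hy => hy.1, fun y hy => vv_core h he hy⟩

theorem Gx_eq (h : Leg c d α β Ξ) (he : e = 1 ∨ e = -1) (hx : x ∈ UU) :
    Gx d e x = TT + Real.log 4 - vv d e x := by
  have hD := Th_mem_DD hx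
  unfold Gx
  split_ifs with h1 h2 h3
  · have h4 : x ∈ Ul e :=
      ⟨hx, (zz_near he hD (show zt x < 17 / 20 by linarith) h2).trans (by norm_num)⟩
    rw [(vv_own d α β Ξ h4).1, min_eq_right (tc_ge e (y := Th x) h1).1]
    ring
  · have h4 : x ∈ Ul (-e) := ⟨hx, (zz_near (fieldsa2_neg he) hD (show zt x < 17 / 20 by linarith)
      (fieldsa2_side (x := x) he (by linarith) h2)).trans (by norm_num)⟩
    rw [(vv_other d α β Ξ he h4).1, (h.zero (Pc (-e) (Th x)) (tc_ge (-e) (y := Th x) h1).1).1,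
      show (4 : ℝ) = 2 ^ 2 by norm_num, Real.log_pow]
    push_cast
    ring
  · have h4 : x ∈ Uo :=
      ⟨hx, lt_of_lt_of_le (by norm_num) (zz_out hD (show 39 / 40 < zt x by linarith))⟩
    rw [(vv_out d α β Ξ he h4).1, min_eq_right (tou_ge (y := Th x) h3).1,
      (h.zero (Po (Th x)) (tou_ge (y := Th x) h3).1).1]
    ring
  · rfl

theorem Gx_zero (d : E3 → ℝ) (e : ℝ) (hx : 1 ≤ zt x) : Gx d e x = 0 := by
  rw [Gx, if_neg (by linarith), if_pos hx]

theorem fieldsa2_loc (d : E3 → ℝ) (he : e = 1 ∨ e = -1) (hx : zt x < 33 / 40 ∨ 1 < zt x) :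
    ∃ (V : Set E3) (k : ℝ), IsOpen V ∧ x ∈ V ∧ ∀ y ∈ V, Gx d e y = k := by
  have hz := lip_zt.continuous
  have hV : ∀ a : ℝ, IsOpen {y : E3 | zt y < 33 / 40 ∧ 0 < a * y 0} := fun a =>
    (isOpen_lt hz continuous_const).inter (isOpen_lt continuous_const
      (by fun_prop : Continuous fun y : E3 => a * y 0))
  rcases hx with hx | hx
  · by_cases h : 0 < e * x 0
    · exact ⟨_, _, hV e, ⟨hx, h⟩, fun y hy => by rw [Gx, if_pos hy.1.le, if_pos hy.2]⟩
    · exact ⟨_, _, hV (-e), ⟨hx, fieldsa2_side he (by linarith) h⟩, fun y hy => by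
        rw [Gx, if_pos hy.1.le, if_neg (by linarith [hy.2])]⟩
  · exact ⟨{y | 1 < zt y}, 0, isOpen_lt continuous_const hz, hx, fun y hy => Gx_zero d e (le_of_lt hy)⟩

theorem lip_Gx (h : Leg c d α β Ξ) (he : e = 1 ∨ e = -1) : Lip (Gx d e) := by
  refine lip_of_ll isOpen_univ (ll_of_local fun x _ => ?_) (HasCompactSupport.intro isCompact_QQ
    fun x hx => Gx_zero d e (le_of_not_ge fun h' => hx (mem_QQ.2 h'))) (subset_univ _)
  by_cases hx : x ∈ UU
  · exact ⟨_, _, isOpen_UU, hx, ll_sub ((Lip.const _).loc _) (ll_vv h he), fun y hy => Gx_eq h he hy⟩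
  · obtain ⟨V, k, h1, h2, h3⟩ := fieldsa2_loc d he (x := x) (by
      by_contra h'
      push Not at h'
      exact hx ⟨by linarith [h'.1], by linarith [h'.2]⟩)
    exact ⟨V, _, h1, h2, (Lip.const k).loc _, h3⟩

theorem grad_Gx_zero (d : E3 → ℝ) (he : e = 1 ∨ e = -1) : ∀ᵐ x : E3, x ∉ RR → ∇ (Gx d e) x = 0 := by
  filter_upwards [ae_zt_ne (33 / 40), ae_zt_ne 1] with x h1 h2 hx
  obtain ⟨V, k, hV, hxV, h3⟩ := fieldsa2_loc d he (x := x) (by
    by_contra h'
    push Not at h'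
    exact hx ⟨lt_of_le_of_ne h'.1 h1.symm, lt_of_le_of_ne h'.2 h2⟩)
  rw [grad_congr (g := fun _ => k) (eventually_of_mem (hV.mem_nhds hxV) h3)]
  exact gradient_fun_const _ _

/-! ### part b -/

theorem fieldsb_fx {F G F' G' : E3 → ℝ} (a k b l : ℝ) (hF : ∀ᶠ y in 𝓝 x, F y = a * F' y + k)
    (hG : ∀ᶠ y in 𝓝 x, G y = b * G' y + l) : fx F G x = (a * b) • fx F' G' x := by
  rw [fx, fx, grad_congr hF, grad_congr hG, grad_affine, grad_affine, cr_smul_left, cr_smul_right,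
    smul_smul]

theorem fieldsb_neg (he : e = 1 ∨ e = -1) : -e = 1 ∨ -e = -1 := by
  rcases he with rfl | rfl <;> simp

theorem fieldsb_far (he : e = 1 ∨ e = -1) (hx : x ∈ Uc) : 5 / 6 < ‖zz (Th x) - e‖ := by
  rcases he with rfl | rfl
  · simpa [zx] using hx.2.1
  · simpa [zx] using hx.2.2.1

theorem fieldsb_diff (he : e = 1 ∨ e = -1) (hx : x ∈ Uc) (hd : DifferentiableAt ℝ zx x) :
    DifferentiableAt ℝ (fun y => th (zx y - e)) x := by
  have h1 : zx x - e ≠ 0 := norm_pos_iff.1 (lt_trans (by norm_num) (fieldsb_far he hx))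
  have h2 : 0 ≤ (zx x - e).im := by simpa [zx] using zz_im_nonneg (Th_mem_DD hx.1)
  exact DifferentiableAt.comp (g := th) (f := fun y => zx y - e) x
    ((contDiffAt_th h1 h2).differentiableAt two_ne_zero) (hd.sub_const _)

theorem JJ_core (h : Leg c d α β Ξ) (he : e = 1 ∨ e = -1) (hx : x ∈ Uc)
    (hd : DifferentiableAt ℝ zx x) : JJ α β Ξ e x = sg x • fx (fun y => th (zx y - e)) bb x := by
  have hU : ∀ᶠ y in 𝓝 x, y ∈ Uc := isOpen_Uc.mem_nhds hx
  have he2 : e * e = 1 := by rcases he with rfl | rfl <;> norm_num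
  unfold JJ
  split_ifs with h1 h2 h3
  · have hV : ∀ᶠ y in 𝓝 x, y ∈ Ul e := (isOpen_Ul e).mem_nhds ⟨hx.1, h1⟩
    rw [J0, fieldsb_fx (F' := fun y => th (zx y - e)) (G' := bb) e (Real.pi / 2 - e * (Real.pi / 2))
      (-e) (Real.pi / 2 + e * (Real.pi / 2)) ?_ (Eventually.of_forall fun y => ?_), mul_neg, he2,
      neg_one_smul, smul_neg, neg_neg]
    · filter_upwards [hU, hV] with y y1 y2
      simp only [Function.comp, Pc, v3_1]
      rw [(tc_log he (Th_mem_DD y1.1) (fieldsb_far he y1) y2.2).2.2, θc, zx]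
      ring
    · simp only [Function.comp, Pc, v3_2, bc, Th]
      ring
  · have he' := fieldsb_neg he
    have hV : ∀ᶠ y in 𝓝 x, y ∈ Ul (-e) :=
      (isOpen_Ul (-e)).mem_nhds ⟨hx.1, by simpa using h2⟩
    rw [Jp_init h, fieldsb_fx (F' := fun y => th (zx y - e)) (G' := bb) e
      (-(e * (Real.pi / 2 * (1 + e)))) e (Real.pi / 2 - e * (Real.pi / 2)) ?_
      (Eventually.of_forall fun y => ?_), he2, one_smul]
    · filter_upwards [hU, hV] with y y1 y2
      obtain ⟨t1, -, t2⟩ := tc_log he' (Th_mem_DD y1.1) (fieldsb_far he' y1) y2.2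
      have h3 := (ov_child he' (norm_pos_iff.1 (lt_trans (by norm_num) (fieldsb_far he' y1))) y2.2).2
      simp only [Function.comp, Pc, v3_0, v3_1]
      rw [t1, t2, θc, show zx y - e = zz (Th y) + ((-e : ℝ) : ℂ) by simp [zx, sub_eq_add_neg], h3]
      generalize Complex.arg _ = A
      linear_combination A * he2
    · simp only [Function.comp, Pc, v3_2, bc, Th]
      ring
    · filter_upwards [hU, hV] with y y1 y2
      simp only [Function.comp, Pc, v3_0]
      exact ⟨(tc_pos he' (Th_mem_DD y1.1) y2.2).le,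
        (tc_log he' (Th_mem_DD y1.1) (fieldsb_far he' y1) y2.2).2.1⟩
  · have hV : ∀ᶠ y in 𝓝 x, y ∈ Uo := isOpen_Uo.mem_nhds ⟨hx.1, h3⟩
    have e0 : J0 (Po ∘ Th) x = fx (fun y => th (zx y - (1 : ℝ))) bb x := by
      rw [J0, fieldsb_fx (F' := fun y => th (zx y - (1 : ℝ))) (G' := bb) 1 0 1 0 ?_
        (Eventually.of_forall fun y => ?_), mul_one, one_smul]
      · filter_upwards [hU, hV] with y y1 y2
        simp only [Function.comp, Po, v3_1]
        rw [(tou_log (Th_mem_DD y1.1) y2.2 y1.2.2.2).2.2]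
        simp [zx]
      · simp [Po, Th]
    rcases he with rfl | rfl
    · rw [e0]
      simp
    · have e1 : Jp α β Ξ (Po ∘ Th) x =
          fx (fun y => th (zx y - (-1 : ℝ)) - th (zx y - (1 : ℝ))) bb x := by
        rw [Jp_init h, fieldsb_fx (F' := fun y => th (zx y - (-1 : ℝ)) - th (zx y - (1 : ℝ))) (G' := bb)
          1 0 1 0 ?_ (Eventually.of_forall fun y => ?_), mul_one, one_smul]
        · filter_upwards [hU, hV] with y y1 y2
          obtain ⟨t1, -, t2⟩ := tou_log (Th_mem_DD y1.1) y2.2 y1.2.2.2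
          have h4 := (ov_out (zz_im_nonneg (Th_mem_DD y1.1)) y2.2).2
          simp only [Function.comp, Po, v3_0, v3_1]
          rw [t1, t2]
          simp only [zx, Complex.ofReal_neg, Complex.ofReal_one, sub_neg_eq_add, h4]
          ring
        · simp [Po, Th]
        · filter_upwards [hU, hV] with y y1 y2
          simp only [Function.comp, Po, v3_0]
          exact ⟨(tou_pos y2.2).le, (tou_log (Th_mem_DD y1.1) y2.2 y1.2.2.2).2.1⟩
      rw [e0, e1, fx, fx, fx, grad_sub (fieldsb_diff (Or.inr rfl) hx hd) (fieldsb_diff (Or.inl rfl) hx hd),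
        show ((1 : ℝ) - -1) / 2 = 1 by norm_num, one_smul, ← smul_add, ← cr_add_left, add_sub_cancel]
  · rfl

theorem lb_JJ (h : Leg c d α β Ξ) (he : e = 1 ∨ e = -1) : LB (JJ α β Ξ e) UU := by
  have b1 : LB (fun x => -(sg x • J0 (Pc e ∘ Th) x)) UU := by
    simpa only [neg_one_smul] using (lb_leg h isOpen_UU (ll_Pc he)).1.smul (-1)
  have b2 := (lb_leg h isOpen_UU (ll_Pc (fieldsb_neg he))).2
  have b3 := (lb_leg h isOpen_UU ll_Po).1.add ((lb_leg h isOpen_UU ll_Po).2.smul ((1 - e) / 2))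
  have b4 := lb_fx isOpen_UU (ll_lg_th he).2 ll_bb
  refine ⟨Measurable.ite
    (measurableSet_lt (continuous_zx.sub continuous_const).norm.measurable measurable_const) b1.meas
    (Measurable.ite
      (measurableSet_lt (continuous_zx.add continuous_const).norm.measurable measurable_const) b2.meas
      (Measurable.ite
        (measurableSet_lt measurable_const (continuous_zx.sub continuous_const).norm.measurable)
        b3.meas b4.meas)), fun C hC hCU => ?_⟩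
  obtain ⟨M₁, h1⟩ := b1.bd C hC hCU
  obtain ⟨M₂, h2⟩ := b2.bd C hC hCU
  obtain ⟨M₃, h3⟩ := b3.bd C hC hCU
  obtain ⟨M₄, h4⟩ := b4.bd C hC hCU
  refine ⟨max (max M₁ M₂) (max M₃ M₄), fun x hx => ?_⟩
  unfold JJ
  split_ifs
  · exact le_max_of_le_left (le_max_of_le_left (h1 x hx))
  · exact le_max_of_le_left (le_max_of_le_right (h2 x hx))
  · exact le_max_of_le_right (le_max_of_le_left (h3 x hx))
  · exact le_max_of_le_right (le_max_of_le_right (h4 x hx))

theorem fieldsb_wall (hx : x ∈ UU) (h0 : x 2 = 0) :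
    Th x 1 = BB (Th x 0) ∨ (Th x 2 = 0 ∨ Th x 2 = Real.pi) := by
  simp only [Th, v3_0, v3_1, v3_2]
  rcases zt_wall h0 with h | h
  · exact Or.inr (bb_wall (lt_trans (by norm_num) hx.1) h)
  · exact Or.inl h

theorem fieldsb_leg (h : Leg c d α β Ξ) (he : e = 1 ∨ e = -1) :
    DF (fun x => sg x • J0 (Pc e ∘ Th) x) (Ul e) ∧
      DF (fun x => sg x • Jp α β Ξ (Pc e ∘ Th) x) (Ul e) :=
  df_leg h (isOpen_Ul e) ((ll_Pc he).mono fun _ hx => hx.1) fun x hx h0 => by
    simp only [Function.comp, Pc, v3_1, v3_2]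
    exact (fieldsb_wall hx.1 h0).imp (ac_wall he (Th_mem_DD hx.1) hx.2) (bc_wall he)

theorem df_JJ (h : Leg c d α β Ξ) (he : e = 1 ∨ e = -1) : DF (JJ α β Ξ e) UU := by
  refine DF.of_local (lb_JJ h he) fun x hx => ?_
  rcases UU_cover he hx with h1 | h1 | h1 | h1
  · refine ⟨_, isOpen_Ul e, h1, fun _ hy => hy.1,
      ((fieldsb_leg h he).1.smul (-1)).congr (Eventually.of_forall fun y hy => ?_)⟩
    rw [(vv_own d α β Ξ hy).2, neg_one_smul]
  · exact ⟨_, isOpen_Ul (-e), h1, fun _ hy => hy.1, (fieldsb_leg h (fieldsb_neg he)).2.congr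
      (Eventually.of_forall fun y hy => (vv_other d α β Ξ he hy).2)⟩
  · have hs : Uo ⊆ UU := fun _ hy => hy.1
    have b := lb_leg h isOpen_Uo (ll_Po.mono hs)
    have f := df_leg h isOpen_Uo (ll_Po.mono hs) fun y hy h0 => by
      simp only [Function.comp, Po, v3_1, v3_2]
      exact (fieldsb_wall hy.1 h0).imp_left (ao_wall (Th_mem_DD hy.1) hy.2)
    exact ⟨_, isOpen_Uo, h1, hs, (f.1.add (f.2.smul ((1 - e) / 2)) b.1 (b.2.smul _)).congr
      (Eventually.of_forall fun y hy => (vv_out d α β Ξ he hy).2)⟩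
  · have hs : Uc ⊆ UU := fun _ hy => hy.1
    have f := wall isOpen_Uc ((ll_lg_th he).2.mono hs) (ll_bb.mono hs) {0, Real.pi} {0, Real.pi}
      fun y hy h0 => by
        simp only [Finset.mem_insert, Finset.mem_singleton]
        refine (fieldsb_wall hy.1 h0).imp (th_wall he (Th_mem_DD hy.1)) fun h2 => ?_
        simpa only [Th, v3_2] using h2
    refine ⟨_, isOpen_Uc, h1, hs, f.congr ?_⟩
    filter_upwards [ll_ae_diff isOpen_UU ll_zx] with y hy hyc using JJ_core h he hyc (hy hyc.1)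

/-! ### part c -/

theorem fieldsc_ae {Q : E3 → Prop} (h : ∀ᵐ y : E3, Q y) : ∀ᵐ x : E3, x ∈ UU → Q (Th x) := by
  filter_upwards [ae_comp h Th, gm_Th] with x h1 h2 hx
  have h3 := (h2 hx).2.self_of_nhds
  refine h1 (h3.1.of_le (by norm_num)) fun h0 => ?_
  have h4 := h3.2
  rw [h0] at h4
  norm_num at h4

theorem fieldsc_bd {F : E3 → E3} (hF : LocallyLipschitzOn UU F) :
    ∃ L : ℝ, 0 < L ∧ ∀ x ∈ RR, ∀ᶠ y in 𝓝 x, ‖fderiv ℝ F y‖ ≤ L := by
  obtain ⟨L, hL, h⟩ := ll_fderiv_bound isOpen_UU hF (isCompact_zt (33 / 40) 1)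
    fun x hx => ⟨by linarith [hx.1], by linarith [hx.2]⟩
  refine ⟨L, hL, fun x hx => ?_⟩
  filter_upwards [isOpen_RR.mem_nhds hx] with y hy
  exact h y ⟨hy.1.le, hy.2.le⟩

theorem fieldsc_leg (hc : 0 < c) (h : Leg c d α β Ξ) {P : E3 → E3} {c₁ : ℝ} (hc₁ : 0 < c₁)
    (hP : LocallyLipschitzOn UU (P ∘ Th)) {A : E3 → Prop} (hg : ∀ᵐ y : E3, y ∈ DD → A y → GM 1 c₁ P y) :
    ∃ c' : ℝ, 0 < c' ∧ ∀ᵐ x : E3, x ∈ RR → A (Th x) → 0 < P (Th x) 0 → P (Th x) 0 < TT →
      ∀ᶠ y in 𝓝 x, Good c' (fun z => P (Th z) 0) (fun z => d (P (Th z)))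
        (fun z => sg z • J0 (P ∘ Th) z) (fun z => sg z • Jp α β Ξ (P ∘ Th) z) y := by
  obtain ⟨L, hL, hb⟩ := fieldsc_bd hP
  obtain ⟨c', hc', h1⟩ := leg_pull hc h (c₀ := 1 / 40 * c₁) (by positivity) hL
  refine ⟨c', hc', ?_⟩
  filter_upwards [h1 (P ∘ Th), gm_Th, fieldsc_ae hg] with x h2 h3 h4 hx hA h5 h6
  have hU := RR_sub_UU hx
  obtain ⟨h7, h8⟩ := sg_cases (h3 hU).1
  filter_upwards [h2 (sg x) h7 (GM.comp (by norm_num) hc₁ (h3 hU).2 (h4 hU (Th_mem_DD hU) hA)) (hb x hx) h5 h6,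
    h8.eventually_nhds] with y hy hy'
  refine hy.congr .rfl .rfl ?_ ?_
  · filter_upwards [hy'] with z hz
    rw [hz]
  · filter_upwards [hy'] with z hz
    rw [hz]

theorem fieldsc_core : ∃ c' : ℝ, 0 < c' ∧ ∀ᵐ x : E3, x ∈ RR →
    ∀ᶠ y in 𝓝 x, DifferentiableAt ℝ zx y ∧
      Good c' (fun z => lg (zx z - (1 : ℝ))) (fun z => lg (zx z - (-1 : ℝ)))
        (fun z => sg z • fx (fun w => th (zx w - (1 : ℝ))) bb z)
        (fun z => sg z • fx (fun w => th (zx w - (-1 : ℝ))) bb z) y := by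
  obtain ⟨L, hL, hb⟩ := fieldsc_bd ll_Zm
  obtain ⟨c', hc', h1⟩ := core_pull (c₀ := 1 / 40 * (1 / 8)) (by positivity) hL
  refine ⟨c', hc', ?_⟩
  have e1 : ∀ w, cz ((Zm ∘ Th) w) = zx w := fun w => by simp [cz, Zm, zx]
  have e2 : (fun w => (Zm ∘ Th) w 2) = bb := by
    funext w
    simp [Zm, Th]
  filter_upwards [gm_Th, fieldsc_ae gm_Zm, ae_comp (ae_coord_ne 1 0) (Zm ∘ Th)] with x h3 h4 h5 hx
  have hU := RR_sub_UU hx
  obtain ⟨h7, h8⟩ := sg_cases (h3 hU).1
  have hg := GM.comp (by norm_num) (by norm_num) (h3 hU).2 (h4 hU)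
  have h9 : 0 < (Zm ∘ Th) x 1 := by
    have h10 := hg.self_of_nhds
    refine lt_of_le_of_ne ?_ (h5 (h10.1.of_le (by norm_num)) fun h0 => ?_).symm
    · simpa [Zm] using zz_im_nonneg (Th_mem_DD hU)
    · have h11 := h10.2
      rw [h0] at h11
      norm_num at h11
  have h10 := h1 (Zm ∘ Th) x (sg x) h7 hg (hb x hx) h9
  simp only [e1, e2] at h10
  filter_upwards [h10, h8.eventually_nhds, hg] with y hy hy' hy''
  refine ⟨?_, hy.congr .rfl .rfl ?_ ?_⟩
  · have h11 := hy''.1.differentiableAt (by norm_num)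
    have e3 : zx = fun w => ((Zm ∘ Th) w 0 : ℝ) + ((Zm ∘ Th) w 1 : ℝ) * Complex.I := by
      funext w
      simp [Zm, zx]
    rw [e3]
    exact (Complex.ofRealCLM.differentiableAt.comp y (calcb_diff_crd h11 0)).add
      ((Complex.ofRealCLM.differentiableAt.comp y (calcb_diff_crd h11 1)).mul_const _)
  · filter_upwards [hy'] with z hz
    rw [hz]
  · filter_upwards [hy'] with z hz
    rw [hz]

theorem good_vv (hc : 0 < c) (h : Leg c d α β Ξ) : ∃ c' : ℝ, 0 < c' ∧ ∀ᵐ x : E3, x ∈ RR →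
    ∀ᶠ y in 𝓝 x, Good c' (vv d 1) (vv d (-1)) (JJ α β Ξ 1) (JJ α β Ξ (-1)) y := by
  obtain ⟨c1, hc1, h1⟩ := fieldsc_leg hc h (by norm_num) (ll_Pc (Or.inl rfl)) (gm_Pc (Or.inl rfl))
  obtain ⟨c2, hc2, h2⟩ := fieldsc_leg hc h (by norm_num) (ll_Pc (Or.inr rfl)) (gm_Pc (Or.inr rfl))
  obtain ⟨c3, hc3, h3⟩ := fieldsc_leg hc h (by norm_num) ll_Po gm_Po
  obtain ⟨c4, hc4, h4⟩ := fieldsc_core
  refine ⟨min (min c1 c2) (min c3 c4), by positivity, ?_⟩
  have hT1 : ∀ z, Th z 1 = zt z := fun z => by simp [Th]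
  have hlt : ∀ {e : ℝ}, (e = 1 ∨ e = -1) → ∀ z ∈ RR, tc e (Th z) < TT := fun he z hz =>
    tc_lt he (Th_mem_DD (RR_sub_UU hz)) (by rw [hT1]; exact hz.1)
  have hlt' : ∀ z ∈ RR, tou (Th z) < TT := fun z hz =>
    tou_lt (Th_mem_DD (RR_sub_UU hz)) (by rw [hT1]; exact hz.2)
  have hP : ∀ (e : ℝ) y, Pc e y 0 = tc e y := fun e y => by simp [Pc]
  have hP' : ∀ y, Po y 0 = tou y := fun y => by simp [Po]
  filter_upwards [h1, h2, h3, h4] with x h1 h2 h3 h4 hx
  have hU := RR_sub_UU hx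
  have hD := Th_mem_DD hU
  have hR : ∀ᶠ y in 𝓝 x, y ∈ RR := isOpen_RR.mem_nhds hx
  rcases UU_cover (Or.inl rfl) hU with hV | hV | hV | hV
  · have hV' : ∀ᶠ y in 𝓝 x, y ∈ Ul 1 := (isOpen_Ul 1).mem_nhds hV
    filter_upwards [h1 hx hV.2 (by rw [hP]; exact tc_pos (Or.inl rfl) hD hV.2)
      (by rw [hP]; exact hlt (Or.inl rfl) x hx), (hR.and hV').eventually_nhds] with y hy hy'
    refine ((hy.lin (p := -1) (q := 0) (r := 0) (s := 1) 0 (Real.log 2) (by norm_num)).congr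
      ?_ ?_ ?_ ?_).mono ((min_le_left _ _).trans (min_le_left _ _)) <;> filter_upwards [hy'] with z hz
    · rw [(vv_own d α β Ξ hz.2).1, hP, min_eq_left (hlt (Or.inl rfl) z hz.1).le]
      ring
    · rw [(vv_other d α β Ξ (Or.inr rfl) (by rw [neg_neg]; exact hz.2)).1, neg_neg]
      ring
    · rw [(vv_own d α β Ξ hz.2).2]
      module
    · rw [(vv_other d α β Ξ (Or.inr rfl) (by rw [neg_neg]; exact hz.2)).2, neg_neg]
      module
  · have hV' : ∀ᶠ y in 𝓝 x, y ∈ Ul (-1) := (isOpen_Ul (-1)).mem_nhds hV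
    filter_upwards [h2 hx hV.2 (by rw [hP]; exact tc_pos (Or.inr rfl) hD hV.2)
      (by rw [hP]; exact hlt (Or.inr rfl) x hx), (hR.and hV').eventually_nhds] with y hy hy'
    refine ((hy.lin (p := 0) (q := 1) (r := -1) (s := 0) (Real.log 2) 0 (by norm_num)).congr
      ?_ ?_ ?_ ?_).mono ((min_le_left _ _).trans (min_le_right _ _)) <;> filter_upwards [hy'] with z hz
    · rw [(vv_other d α β Ξ (Or.inl rfl) hz.2).1]
      ring
    · rw [(vv_own d α β Ξ hz.2).1, hP, min_eq_left (hlt (Or.inr rfl) z hz.1).le]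
      ring
    · rw [(vv_other d α β Ξ (Or.inl rfl) hz.2).2]
      module
    · rw [(vv_own d α β Ξ hz.2).2]
      module
  · have hV' : ∀ᶠ y in 𝓝 x, y ∈ Uo := isOpen_Uo.mem_nhds hV
    filter_upwards [h3 hx hV.2 (by rw [hP']; exact tou_pos hV.2)
      (by rw [hP']; exact hlt' x hx), (hR.and hV').eventually_nhds] with y hy hy'
    refine ((hy.lin (p := 1) (q := 0) (r := 1) (s := 1) (Real.log 4) (Real.log 4) (by norm_num)).congr
      ?_ ?_ ?_ ?_).mono ((min_le_right _ _).trans (min_le_left _ _)) <;> filter_upwards [hy'] with z hz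
    · rw [(vv_out d α β Ξ (Or.inl rfl) hz.2).1, hP', min_eq_left (hlt' z hz.1).le]
      ring
    · rw [(vv_out d α β Ξ (Or.inr rfl) hz.2).1, hP', min_eq_left (hlt' z hz.1).le]
      ring
    · rw [(vv_out d α β Ξ (Or.inl rfl) hz.2).2]
      module
    · rw [(vv_out d α β Ξ (Or.inr rfl) hz.2).2]
      module
  · have hV' : ∀ᶠ y in 𝓝 x, y ∈ Uc := isOpen_Uc.mem_nhds hV
    have h5 := h4 hx
    filter_upwards [h5, (h5.and hV').eventually_nhds] with y hy hy'
    refine (hy.2.congr ?_ ?_ ?_ ?_).mono ((min_le_right _ _).trans (min_le_right _ _)) <;>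
      filter_upwards [hy'] with z hz
    · exact vv_core h (Or.inl rfl) hz.2
    · exact vv_core h (Or.inr rfl) hz.2
    · exact JJ_core h (Or.inl rfl) hz.2 hz.1.1
    · exact JJ_core h (Or.inr rfl) hz.2 hz.1.1

end Crest.Agent.R83
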