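import Crest.Agent.R83.Fields

/-!
# Row 83: the flux identity

* `JJ_in`: for `zt x < 33/40`, on the side of the child `i` (`zz_near`, `vv_own`, `tc_ge`, `as_I`) near `x`
  `ac ∘ Th = π/2 - e (bs ∘ I - π/2)`, `bc ∘ Th = π/2 - e (as ∘ I - π/2)` (`grad_affine`, `cr_comm`); on the other
  side `vv_other`, `Jp_dead`; `child_zt`, `zt_eq_child` identify the sides.
* `JJ_out`: `zz_out`, `vv_out`, `tou_ge`, `Jp_dead`, `zt_eq_NN`.
* `flux_JJ`: `ψ' = χ(zt) ψ`, `χ = cl 0 1 (200 (s - 81/100)) * cl 0 1 (200 (102/100 - s))`, is Lipschitz with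
  compact support in `{81/100 ≤ zt ≤ 102/100} ⊆ UU` and equals `ψ` for `163/200 ≤ zt ≤ 203/200`.
  `0 = ∫ ⟪JJ, ∇ψ'⟫ = ∫_{zt < 33/40} + ∫_RR + ∫_{1 < zt}` (`ae_zt_ne`); off `UU` the gradient of `ψ'` vanishes.
  First term: `JJ_in`, `dome_sim`, `m_in` for `ψ' ∘ S i` (`zt (S i 0) = 0`); last term: `JJ_out`, `m_out`.
-/

namespace Crest.Agent.R83

open MeasureTheory Set Metric Filter Topology
open scoped Gradient RealInnerProductSpace NNReal

variable {c e : ℝ} {d α β Ξ : E3 → ℝ} {x : E3}

/-! ### part a -/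

theorem JJ_in (h : Leg c d α β Ξ) (i : Bool) (hx : x ∈ UU) (hz : zt x < 33 / 40) :
    JJ α β Ξ (sb i) x =
      if NN (sim.I i x) < 1 then sg x • fx (as ∘ sim.I i) (bs ∘ sim.I i) x else 0 := by
  have he := sb_cases i
  have hD := Th_mem_DD hx
  have h1 : Th x 1 < 17 / 20 := by
    rw [Th, v3_1]
    linarith
  have hc := lip_zt.continuous.continuousAt (x := x)
  have ev1 := hc.eventually (gt_mem_nhds hz)
  obtain ⟨j, hj⟩ := zt_side (x := x) (by linarith)
  have hs : 0 < sb i * x 0 ∨ 0 < -sb i * x 0 := by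
    rcases he with h1 | h1 <;> rcases sb_cases j with h2 | h2 <;> simp_all
  rcases hs with hs | hs
  · have hN := zt_eq_child (i := i) (by linarith) hs
    have hU : x ∈ Ul (sb i) := ⟨hx, (zz_near he hD h1 hs).trans (by norm_num)⟩
    have ev2 := hc.eventually (lt_mem_nhds (show 0 < zt x by linarith [hx.1]))
    have hc0 : Continuous fun y : E3 => sb i * y 0 := by fun_prop
    have ev3 := hc0.continuousAt.eventually (lt_mem_nhds hs)
    have ea : (fun y => (Pc (sb i) ∘ Th) y 1) =ᶠ[𝓝 x]
        fun y => -sb i * (bs ∘ sim.I i) y + (Real.pi / 2 + sb i * (Real.pi / 2)) := by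
      filter_upwards [ev1, ev2, ev3] with y y1 y2 y3
      simp only [Function.comp_apply, Pc, v3_1]
      rw [(tc_ge (sb i) (y := Th y) y1.le).2, (as_I y2 (by linarith) y3).2]
      simp only [Lc, Th, v3_0, v3_1]
      ring
    have eb : (fun y => (Pc (sb i) ∘ Th) y 2) =ᶠ[𝓝 x]
        fun y => -sb i * (as ∘ sim.I i) y + (Real.pi / 2 + sb i * (Real.pi / 2)) := by
      filter_upwards [ev1, ev2, ev3] with y y1 y2 y3
      simp only [Function.comp_apply, Pc, v3_2]
      rw [(as_I y2 (by linarith) y3).1]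
      simp only [bc, Th, v3_2]
      ring
    have e2 : -sb i * -sb i = 1 := by rcases he with h | h <;> rw [h] <;> norm_num
    rw [if_pos (by linarith), (vv_own d α β Ξ hU).2, J0, fx, fx, grad_congr ea, grad_congr eb,
      grad_affine, grad_affine, cr_smul_left, cr_smul_right, smul_smul (-sb i), e2, one_smul,
      cr_comm, smul_neg, neg_neg]
  · have he' : -sb i = 1 ∨ -sb i = -1 := by rcases he with h | h <;> rw [h] <;> norm_num
    have hU : x ∈ Ul (-sb i) := ⟨hx, (zz_near he' hD h1 hs).trans (by norm_num)⟩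
    rw [if_neg fun hN => by linarith [(child_zt (i := i) (x := x) (by linarith)).1],
      (vv_other d α β Ξ he hU).2, Jp_dead h, smul_zero]
    filter_upwards [ev1] with y y1
    exact (tc_ge (-sb i) (y := Th y) y1.le).1

theorem JJ_out (h : Leg c d α β Ξ) (he : e = 1 ∨ e = -1) (hx : x ∈ UU) (hz : 1 < zt x) :
    JJ α β Ξ e x = Js x := by
  have hU : x ∈ Uo := ⟨hx, lt_of_lt_of_le (by norm_num) (zz_out (Th_mem_DD hx) (by
    rw [Th, v3_1]
    linarith))⟩
  have ev := (lip_zt.continuous.continuousAt (x := x)).eventually (lt_mem_nhds hz)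
  have ea : (fun y => (Po ∘ Th) y 1) =ᶠ[𝓝 x] as := by
    filter_upwards [ev] with y y1
    simp only [Function.comp_apply, Po, v3_1]
    rw [(tou_ge (y := Th y) y1.le).2, as, ← zt_eq_NN (Or.inl (by linarith))]
    rfl
  have eb : (fun y => (Po ∘ Th) y 2) =ᶠ[𝓝 x] bs := by
    filter_upwards [ev] with y y1
    rw [bs, ← zt_eq_NN (Or.inl (by linarith))]
    rfl
  rw [(vv_out d α β Ξ he hU).2, Jp_dead h, smul_zero, smul_zero, add_zero, Js, J0, fx, fx,
    grad_congr ea, grad_congr eb]
  filter_upwards [ev] with y y1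
  exact (tou_ge (y := Th y) y1.le).1

/-! ### part b -/

/-- the cut-off -/
noncomputable def fluxb_chi (s : ℝ) : ℝ := cl 0 1 (min (200 * s - 162) (204 - 200 * s))

theorem fluxb_zero {s : ℝ} (h : s ≤ 81 / 100 ∨ 102 / 100 ≤ s) : fluxb_chi s = 0 :=
  cl_of_le (min_le_iff.2 (h.imp (fun h => by linarith) fun h => by linarith))

theorem fluxb_one {s : ℝ} (h1 : 163 / 200 ≤ s) (h2 : s ≤ 203 / 200) : fluxb_chi s = 1 :=
  cl_of_ge zero_le_one (le_min (by linarith) (by linarith))

theorem fluxb_lip : Lip fluxb_chi := by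
  have h : Lip fun s : ℝ => 200 * s := Lip.const_mul 200 ⟨1, LipschitzWith.id⟩
  exact (lip_cl 0 1).comp ((h.sub (Lip.const _)).min ((Lip.const _).sub h))

theorem flux_JJ (h : Leg c d α β Ξ) (i : Bool) {ψ : E3 → ℝ} (hψ : ContDiff ℝ 1 ψ) :
    ∫ x in RR, ⟪JJ α β Ξ (sb i) x, ∇ ψ x⟫ = mF ψ - mF (ψ ∘ sim.S i) := by
  have he := sb_cases i
  have hlam : 0 < sim.lam := by norm_num [sim]
  have hzc : Continuous zt := lip_zt.continuous
  set C : Set E3 := {x | 81 / 100 ≤ zt x ∧ zt x ≤ 102 / 100} with hC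
  have hCc : IsCompact C := isCompact_zt _ _
  have hCU : C ⊆ UU := fun x hx => ⟨by linarith [hx.1], by linarith [hx.2]⟩
  have hz : ∀ x, x ∉ C → fluxb_chi (zt x) = 0 := fun x hx =>
    fluxb_zero ((not_and_or.1 hx).imp (fun h => (not_le.1 h).le) fun h => (not_le.1 h).le)
  set ψ' : E3 → ℝ := fun y => fluxb_chi (zt y) * ψ y with hψ'
  have hz' : ∀ x, x ∉ C → ψ' x = 0 := fun x hx => by simp only [hψ', hz x hx, zero_mul]
  have hl : Lip ψ' := lip_cut_mul isOpen_univ (fluxb_lip.comp lip_zt) (HasCompactSupport.intro hCc hz)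
    (subset_univ _) (ll_of_contDiff hψ _)
  have hc : HasCompactSupport ψ' := HasCompactSupport.intro hCc hz'
  have hs : tsupport ψ' ⊆ UU := (closure_minimal (s := Function.support ψ')
    (fun x hx => by_contra fun hn => hx (hz' x hn)) hCc.isClosed).trans hCU
  have hg : ∀ x, x ∉ UU → ∇ ψ' x = 0 := fun x hx => grad_eq_zero_of_notMem fun h' => hx (hs h')
  have h1 : ∀ x, 163 / 200 ≤ zt x → zt x ≤ 203 / 200 → ψ' x = ψ x := fun x a b => by
    simp only [hψ', fluxb_one a b, one_mul]
  set f : E3 → ℝ := fun x => ⟪JJ α β Ξ (sb i) x, ∇ ψ' x⟫ with hf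
  have hi : Integrable f := (lb_JJ h he).integrable hl hc hs
  have h0 : ∫ x, f x = 0 := df_JJ h he ψ' hl hc hs
  have mA : MeasurableSet {x | zt x < 33 / 40} := (isOpen_lt hzc continuous_const).measurableSet
  have mB : MeasurableSet {x | 1 < zt x} := (isOpen_lt continuous_const hzc).measurableSet
  have mR : MeasurableSet RR := isOpen_RR.measurableSet
  have hsplit : ∫ x, f x = (∫ x in {x | zt x < 33 / 40}, f x) + (∫ x in RR, f x) +
      ∫ x in {x | 1 < zt x}, f x := by
    rw [← integral_indicator mA, ← integral_indicator mR, ← integral_indicator mB,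
      ← integral_add (hi.indicator mA) (hi.indicator mR),
      ← integral_add ((hi.indicator mA).fun_add (hi.indicator mR)) (hi.indicator mB)]
    refine integral_congr_ae ?_
    filter_upwards [ae_zt_ne (33 / 40), ae_zt_ne 1] with x a b
    simp only [indicator_apply, RR, mem_ofPred_eq]
    rcases a.lt_or_gt with a | a
    · rw [if_pos a, if_neg fun h => a.not_gt h.1, if_neg (by linarith)]; ring
    · rcases b.lt_or_gt with b | b
      · rw [if_neg a.not_gt, if_pos ⟨a, b⟩, if_neg b.not_gt]; ring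
      · rw [if_neg a.not_gt, if_neg fun h => b.not_gt h.2, if_pos b]; ring
  have eR : ∫ x in RR, f x = ∫ x in RR, ⟪JJ α β Ξ (sb i) x, ∇ ψ x⟫ := by
    refine setIntegral_congr_fun mR fun x hx => ?_
    have : ψ' =ᶠ[𝓝 x] ψ := (isOpen_RR.eventually_mem hx).mono fun y hy =>
      h1 y (by linarith [hy.1]) (by linarith [hy.2])
    simp only [hf, grad_congr this]
  have eB : ∫ x in {x | 1 < zt x}, f x = -mF ψ := by
    have e : {x | 1 < zt x} = {x | 1 < NN x} := by
      ext x
      simp only [mem_ofPred_eq]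
      exact ⟨fun a => by rwa [← zt_eq_NN (Or.inl (by linarith))],
        fun a => by rwa [zt_eq_NN (Or.inr (by linarith))]⟩
    rw [← m_out hψ hl hc (η := 1 / 100) (by norm_num) fun x hx => ?_, ← e]
    · refine setIntegral_congr_fun mB fun x hx => ?_
      by_cases hU : x ∈ UU
      · simp only [hf, JJ_out h he hU hx]
      · simp only [hf, hg x hU, inner_zero_right]
    · obtain ⟨a, b⟩ := abs_lt.1 hx
      have := zt_eq_NN (x := x) (Or.inr (by linarith))
      exact h1 x (by linarith) (by linarith)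
  have eA : ∫ x in {x | zt x < 33 / 40}, f x = mF (ψ ∘ sim.S i) := by
    have hS : ∀ x, NN x < 35 / 33 → zt (sim.S i x) = 33 / 40 * NN x := fun x hx => by
      have := (child_zt (i := i) (x := sim.S i x) (by rwa [Sim.I_S hlam])).2
      rwa [Sim.I_S hlam] at this
    have hcl : IsClosed (sim.S i ⁻¹' C) := hCc.isClosed.preimage (sim.lip_S i).continuous
    have hsub : tsupport (ψ' ∘ sim.S i) ⊆ sim.S i ⁻¹' C :=
      closure_minimal (fun x hx => by_contra fun hn => hx (hz' _ hn)) hcl
    have mA' : MeasurableSet {x | NN (sim.I i x) < 1} :=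
      (isOpen_lt (lip_NN.comp (sim.lip_I i)).continuous continuous_const).measurableSet
    rw [← m_in (ψ' := ψ' ∘ sim.S i) (hψ.comp (sim.contDiff_S i)) (hl.comp (sim.lip_S i))
      ((hCc.image (sim.lip_I i).continuous).of_isClosed_subset (isClosed_tsupport _)
        fun x hx => ⟨_, hsub hx, Sim.I_S hlam i x⟩)
      (fun x hx h0 => ?_) (η := 1 / 100) (by norm_num) fun x hx => ?_, ← dome_sim,
      ← integral_indicator mA, ← integral_indicator mA']
    · refine integral_congr_ae (Eventually.of_forall fun x => ?_)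
      simp only [indicator_apply, mem_ofPred_eq]
      by_cases hU : x ∈ UU
      · by_cases a : zt x < 33 / 40
        · rw [if_pos a]
          simp only [hf, JJ_in h i hU a]
          split_ifs
          · rfl
          · exact inner_zero_left _
        · rw [if_neg a, if_neg fun b => a (by rw [(child_zt (i := i) (by linarith)).2]; linarith)]
      · simp only [hf, hg x hU, inner_zero_right, ite_self]
    · have a := (hsub hx).1
      rw [mem_singleton_iff.1 h0, hS 0 (by rw [NN_zero]; norm_num), NN_zero] at a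
      norm_num at a
    · obtain ⟨a, b⟩ := abs_lt.1 hx
      have := hS x (by linarith)
      exact h1 _ (by linarith) (by linarith)
  rw [h0, eA, eR, eB] at hsplit
  linarith

end Crest.Agent.R83
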