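import Crest.Agent.R83.Null

/-!
# Row 83: weakly divergence free fields

* `nl`: for `F, ψ ∈ C²`, `G` Lipschitz: `⟪∇F × ∇G, ∇ψ⟫ = ⟪∇ψ × ∇F, ∇G⟫ = Σ_k X_k ∂_k G` with
  `X = fx ψ F` of class `C¹`, compact support, `dv X = 0`; `LipschitzWith.integral_lineDeriv_mul_eq`.
  Then approximate `F` and `ψ` with `lip_moll` (dominated convergence on a fixed ball).
* `wall0`: `κ_δ(s) = s - Σ_{c ∈ C} clamp (s - c) (-δ) δ` is Lipschitz, locally constant near `C`
  (for `2δ <` the gaps of `C`), locally `s + const` away from the closed `δ`-neighbourhood.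
  `F_δ = κ_δ ∘ F`, `G_δ`: by compactness of `tsupport ψ`, `fx F_δ G_δ = 0` on
  `tsupport ψ ∩ {|x 2| < ε}`.  Apply `nl` to `clamp (x 2 / ε') (-1) 1 * ψ`, `ε' < ε`.  Let `δ → 0`:
  `∇F_δ → ∇F` a.e. (`ae_fderiv_zero` on the level sets), `‖∇F_δ‖` bounded.
* `wall`: `ll_extend` and `wall0`.
* `DF.of_local`: compactness of `tsupport ψ` and `DF.union` (split `ψ = ρ ψ + (1-ρ) ψ`,
  `ρ` smooth with compact support in `U`, equal to one near `tsupport ψ \ V`).
-/

namespace Crest.Agent.R83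

open MeasureTheory Set Metric Filter Topology
open scoped Gradient RealInnerProductSpace NNReal
open Crest.Agent.R80 (L2 nr)

/-! ### part a -/

theorem nl {F G : E3 → ℝ} (hF : Lip F) (hG : Lip G) : DF (fx F G) univ := by
  intro ψ hψ hc _
  obtain ⟨KF, hF⟩ := hF
  obtain ⟨KG, hG⟩ := hG
  obtain ⟨Kψ, hψ⟩ := hψ
  obtain ⟨f, hf1, -, hf3, hf4, -⟩ := lip_moll hF
  obtain ⟨g, hg1, -, hg3, hg4, -⟩ := lip_moll hG
  obtain ⟨φ, hφ1, -, hφ3, hφ4, hφ5⟩ := lip_moll hψ
  have hC : IsCompact (cthickening 1 (tsupport ψ)) := hc.isCompact.cthickening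
  have hs : ∀ k, tsupport (φ k) ⊆ cthickening 1 (tsupport ψ) := fun k => by
    refine closure_minimal (fun x hx => ?_) isClosed_cthickening
    by_contra hxC
    refine hx (hφ5 k x fun y hy => ?_)
    by_contra hy0
    refine hxC (mem_cthickening_of_dist_le x y 1 _ (subset_tsupport ψ hy0) ?_)
    rw [dist_comm]
    refine (mem_closedBall.1 hy).trans ?_
    rw [div_le_one (by positivity)]
    linarith [(Nat.cast_nonneg k : (0 : ℝ) ≤ k)]
  have h0 : ∀ k, ∫ x, ⟪fx (f k) (g k) x, ∇ (φ k) x⟫ = 0 := fun k => by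
    have := integral_dv_zero isOpen_univ (J := fx (f k) (g k))
      (fun x _ => ⟨contDiffAt_fx (hf1 k).contDiffAt (hg1 k).contDiffAt,
        dv_fx (hf1 k).contDiffAt (hg1 k).contDiffAt⟩) ((hφ1 k).of_le (by norm_num))
      (hC.of_isClosed_subset (isClosed_tsupport _) (hs k)) (subset_univ _)
    rwa [Measure.restrict_univ] at this
  have hlim : Tendsto (fun k => ∫ x, ⟪fx (f k) (g k) x, ∇ (φ k) x⟫) atTop
      (𝓝 (∫ x, ⟪fx F G x, ∇ ψ x⟫)) := by
    refine tendsto_integral_of_dominated_convergence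
      ((cthickening 1 (tsupport ψ)).indicator fun _ => (KF : ℝ) * KG * Kψ) (fun k => ?_) ?_
      (fun k => Eventually.of_forall fun x => ?_) ?_
    · exact ((measurable_fx _ _).inner (measurable_grad _)).aestronglyMeasurable
    · exact (integrable_indicator_iff hC.measurableSet).2 (integrableOn_const hC.measure_lt_top.ne)
    · by_cases hx : x ∈ cthickening 1 (tsupport ψ)
      · rw [indicator_of_mem hx]
        refine (norm_inner_le_norm _ _).trans (mul_le_mul ?_ (hφ3 k x) (norm_nonneg _) (by positivity))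
        exact (norm_cr_le _ _).trans (mul_le_mul (hf3 k x) (hg3 k x) (norm_nonneg _) (by positivity))
      · rw [indicator_of_notMem hx, grad_eq_zero_of_notMem fun h => hx (hs k h), inner_zero_right,
          norm_zero]
    · filter_upwards [hf4, hg4, hφ4] with x h1 h2 h3
      exact (((contDiff_cr (n := 0)).continuous.tendsto (∇ F x, ∇ G x)).comp
        (h1.prodMk_nhds h2)).inner h3
  simp only [h0] at hlim
  exact tendsto_nhds_unique hlim tendsto_const_nhds

/-! ### part b -/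

/-- clamp to `[-δ, δ]` -/
def wallb_cl (δ t : ℝ) : ℝ := max (-δ) (min t δ)

theorem wallb_cl_lip (δ : ℝ) : LipschitzWith 1 (wallb_cl δ) :=
  (LipschitzWith.id.min_const δ).const_max (-δ)

theorem wallb_cl_abs {δ : ℝ} (hδ : 0 ≤ δ) (t : ℝ) : |wallb_cl δ t| ≤ δ :=
  abs_le.2 ⟨le_max_left _ _, max_le (by linarith) (min_le_right _ _)⟩

theorem wallb_cl_in {δ t : ℝ} (h : |t| ≤ δ) : wallb_cl δ t = t := by
  obtain ⟨h1, h2⟩ := abs_le.1 h
  rw [wallb_cl, min_eq_left h2, max_eq_right h1]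

theorem wallb_cl_out {δ t : ℝ} (hδ : 0 ≤ δ) (h : δ < |t|) : wallb_cl δ t = δ * Real.sign t := by
  rcases lt_abs.1 h with h | h
  · rw [wallb_cl, min_eq_right h.le, max_eq_right (by linarith), Real.sign_of_pos (by linarith), mul_one]
  · rw [wallb_cl, min_eq_left (by linarith), max_eq_left (by linarith), Real.sign_of_neg (by linarith)]
    ring

theorem wallb_cl_far {δ t : ℝ} (_hδ : 0 ≤ δ) (h : δ < |t|) :
    ∀ᶠ s in 𝓝 t, wallb_cl δ s = wallb_cl δ t := by
  rcases lt_abs.1 h with h | h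
  · filter_upwards [eventually_gt_nhds h] with s hs
    rw [wallb_cl, wallb_cl, min_eq_right h.le, min_eq_right hs.le]
  · filter_upwards [eventually_lt_nhds (show t < -δ by linarith)] with s hs
    rw [wallb_cl, wallb_cl, max_eq_left ((min_le_left _ _).trans hs.le),
      max_eq_left ((min_le_left _ _).trans (by linarith))]

/-- flattening near the points of `C` -/
noncomputable def wallb_k (C : Finset ℝ) (δ s : ℝ) : ℝ := s - ∑ c ∈ C, wallb_cl δ (s - c)

theorem wallb_k_lip (C : Finset ℝ) (δ : ℝ) : LipschitzWith (1 + C.card) (wallb_k C δ) := by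
  have h : LipschitzWith C.card fun s : ℝ => ∑ c ∈ C, wallb_cl δ (s - c) := by
    induction C using Finset.induction_on with
    | empty => simp
    | insert a C ha ih =>
      simp only [Finset.sum_insert ha, Finset.card_insert_of_notMem ha]
      have h1 : LipschitzWith 1 fun s : ℝ => wallb_cl δ (s - a) := by
        have := (wallb_cl_lip δ).comp (LipschitzWith.id.sub (LipschitzWith.const a))
        rw [add_zero, one_mul] at this
        exact this
      simpa [add_comm] using h1.add ih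
  exact LipschitzWith.id.sub h

theorem wallb_k_far {C : Finset ℝ} {δ t : ℝ} (hδ : 0 ≤ δ) (h : ∀ c ∈ C, δ < |t - c|) :
    ∀ᶠ s in 𝓝 t, wallb_k C δ s = 1 * s + (wallb_k C δ t - t) := by
  have : ∀ᶠ s in 𝓝 t, ∀ c ∈ C, wallb_cl δ (s - c) = wallb_cl δ (t - c) :=
    (eventually_all_finset C).2 fun c hc =>
      ((continuous_sub_right c).tendsto t).eventually (wallb_cl_far hδ (h c hc))
  filter_upwards [this] with s hs
  rw [wallb_k, wallb_k, Finset.sum_congr rfl hs]
  ring

theorem wallb_k_near {C : Finset ℝ} {δ t : ℝ} (hδ : 0 < δ) (ht : t ∈ C)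
    (h : ∀ c ∈ C, c ≠ t → δ < |t - c|) : ∀ᶠ s in 𝓝 t, wallb_k C δ s = wallb_k C δ t := by
  have h1 := wallb_k_far (C := C.erase t) (t := t) hδ.le fun c hc =>
    h c (Finset.mem_of_mem_erase hc) (Finset.ne_of_mem_erase hc)
  have e : ∀ s, wallb_k C δ s = wallb_k (C.erase t) δ s - wallb_cl δ (s - t) := fun s => by
    rw [wallb_k, wallb_k, ← Finset.add_sum_erase C _ ht]
    ring
  filter_upwards [h1, closedBall_mem_nhds t hδ] with s hs hs'
  rw [e, e, hs, wallb_cl_in (by simpa [Real.dist_eq] using hs'), wallb_cl_in (by simpa using hδ.le)]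
  ring

theorem wallb_small (C : Finset ℝ) (t : ℝ) : ∀ᶠ δ in 𝓝[>] (0 : ℝ), ∀ c ∈ C, c ≠ t → δ < |t - c| :=
  (eventually_all_finset C).2 fun c _ => by
    by_cases h : c = t
    · exact Eventually.of_forall fun _ h' => absurd h h'
    · exact ((eventually_lt_nhds (abs_pos.2 (sub_ne_zero.2 (Ne.symm h)))).filter_mono
        nhdsWithin_le_nhds).mono fun _ h' _ => h'

theorem wallb_grad_near {F : E3 → ℝ} (hF : Continuous F) {C : Finset ℝ} {δ : ℝ} (hδ : 0 < δ) {x : E3}
    (ht : F x ∈ C) (h : ∀ c ∈ C, c ≠ F x → δ < |F x - c|) :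
    ∀ᶠ y in 𝓝 x, ∇ (fun y => wallb_k C δ (F y)) y = 0 := by
  have h1 : (fun y => wallb_k C δ (F y)) =ᶠ[𝓝 x] fun _ => wallb_k C δ (F x) :=
    (hF.tendsto x).eventually (wallb_k_near hδ ht h)
  filter_upwards [grad_congr' h1] with y hy
  rw [hy, gradient_fun_const]

theorem wallb_grad_ae {F : E3 → ℝ} (hF : Continuous F) (C : Finset ℝ) :
    ∀ᵐ x : E3, ∀ᶠ δ in 𝓝[>] (0 : ℝ), ∇ (fun y => wallb_k C δ (F y)) x = ∇ F x := by
  have h0 : ∀ᵐ x : E3, ∀ c ∈ C, F x = c → DifferentiableAt ℝ F x → fderiv ℝ F x = 0 :=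
    (eventually_all_finset C).2 fun c _ => ae_fderiv_zero F c
  filter_upwards [h0] with x hx
  filter_upwards [wallb_small C (F x), self_mem_nhdsWithin] with δ hδ hδ0
  by_cases ht : F x ∈ C
  · rw [(wallb_grad_near hF hδ0 ht hδ).self_of_nhds, eq_comm, ← norm_eq_zero, norm_grad, norm_eq_zero]
    by_cases hd : DifferentiableAt ℝ F x
    · exact hx _ ht rfl hd
    · exact fderiv_zero_of_not_differentiableAt hd
  · have h1 : (fun y => wallb_k C δ (F y)) =ᶠ[𝓝 x] fun y => 1 * F y + (wallb_k C δ (F x) - F x) :=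
      (hF.tendsto x).eventually (wallb_k_far (le_of_lt hδ0) fun c hc => hδ c hc fun e => ht (e ▸ hc))
    rw [grad_congr h1, grad_affine, one_smul]

theorem wallb_norm_grad {f : E3 → ℝ} {K : ℝ≥0} (h : LipschitzWith K f) (x : E3) : ‖∇ f x‖ ≤ K := by
  rw [norm_grad]
  exact norm_fderiv_le_of_lipschitz ℝ h

theorem wallb_flat {F G ψ : E3 → ℝ} (hF : Lip F) (hG : Lip G) (hψ : Lip ψ) (hc : HasCompactSupport ψ)
    (hw : ∀ x ∈ tsupport ψ, x 2 = 0 → ∀ᶠ y in 𝓝 x, fx F G y = 0) :
    ∫ x, ⟪sg x • fx F G x, ∇ ψ x⟫ = 0 := by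
  have hc2 : Continuous fun x : E3 => x 2 := (Lip.coord 2).continuous
  obtain ⟨a, ha, hK⟩ := IsCompact.exists_forall_le' (a := 0)
    (hc.isCompact.diff (isOpen_interior (s := {y | fx F G y = 0}))) hc2.abs.continuousOn
    (fun x hx => abs_pos.2 fun h0 => hx.2 (mem_interior_iff_mem_nhds.2 (hw x hx.1 h0)))
  have hε : 0 < a / 2 := by positivity
  have hl : Lip fun x : E3 => wallb_cl (a / 2) (x 2) * ψ x :=
    Lip.mul (Lip.comp ⟨1, wallb_cl_lip _⟩ (Lip.coord 2)) hψ ⟨_, fun x => wallb_cl_abs hε.le _⟩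
      (hc.exists_bound_of_continuous hψ.continuous)
  have hcs : HasCompactSupport fun x : E3 => wallb_cl (a / 2) (x 2) * ψ x := hc.mul_left
  have h0 := nl hF hG _ hl hcs (subset_univ _)
  have e : ∀ x, ⟪fx F G x, ∇ (fun x : E3 => wallb_cl (a / 2) (x 2) * ψ x) x⟫ =
      a / 2 * ⟪sg x • fx F G x, ∇ ψ x⟫ := fun x => by
    by_cases hx : x ∈ tsupport ψ
    · by_cases hz : fx F G x = 0
      · simp [hz]
      · have h1 : a / 2 < |x 2| := by
          have := hK x ⟨hx, fun h => hz (interior_subset (s := {y | fx F G y = 0}) h)⟩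
          linarith
        have h2 : (fun x : E3 => wallb_cl (a / 2) (x 2) * ψ x) =ᶠ[𝓝 x]
            fun y => wallb_cl (a / 2) (x 2) * ψ y + 0 := by
          filter_upwards [(hc2.tendsto x).eventually (wallb_cl_far hε.le h1)] with y hy
          rw [hy, add_zero]
        rw [grad_congr h2, grad_affine, wallb_cl_out hε.le h1, real_inner_smul_right,
          real_inner_smul_left, sg, mul_assoc]
    · rw [grad_eq_zero_of_notMem hx,
        grad_eq_zero_of_notMem fun h => hx (tsupport_mul_subset_right h)]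
      simp
  simp only [e, integral_const_mul] at h0
  exact (mul_eq_zero.1 h0).resolve_left hε.ne'

theorem wall0 {F G ψ : E3 → ℝ} (hF : Lip F) (hG : Lip G) (hψ : Lip ψ) (hc : HasCompactSupport ψ)
    (CF CG : Finset ℝ) (hw : ∀ x ∈ tsupport ψ, x 2 = 0 → F x ∈ CF ∨ G x ∈ CG) :
    ∫ x, ⟪sg x • fx F G x, ∇ ψ x⟫ = 0 := by
  obtain ⟨KF, hKF⟩ := id hF
  obtain ⟨KG, hKG⟩ := id hG
  obtain ⟨Kψ, hKψ⟩ := id hψ
  have lF := fun δ => (wallb_k_lip CF δ).comp hKF
  have lG := fun δ => (wallb_k_lip CG δ).comp hKG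
  have hi : Integrable fun x => ‖∇ ψ x‖ := by
    refine (integrableOn_iff_integrable_of_support_subset (s := tsupport ψ) fun x hx => ?_).1 ?_
    · by_contra h
      exact hx (by simp [grad_eq_zero_of_notMem h])
    · exact Measure.integrableOn_of_bounded (M := Kψ) hc.isCompact.measure_lt_top.ne
        (measurable_grad ψ).norm.aestronglyMeasurable
        (ae_of_all _ fun x => by simpa using wallb_norm_grad hKψ x)
  have key : Tendsto (fun δ => ∫ x, ⟪sg x • fx (fun y => wallb_k CF δ (F y))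
      (fun y => wallb_k CG δ (G y)) x, ∇ ψ x⟫) (𝓝[>] 0) (𝓝 (∫ x, ⟪sg x • fx F G x, ∇ ψ x⟫)) := by
    refine tendsto_integral_filter_of_dominated_convergence
      (fun x => (((1 + CF.card) * KF : ℝ≥0) * ((1 + CG.card) * KG : ℝ≥0) : ℝ) * ‖∇ ψ x‖)
      (Eventually.of_forall fun δ => ?_) (Eventually.of_forall fun δ => ae_of_all _ fun x => ?_)
      (hi.const_mul _) ?_
    · exact ((measurable_sg.smul (measurable_fx _ _)).inner (measurable_grad ψ)).aestronglyMeasurable
    · refine (norm_inner_le_norm _ _).trans (mul_le_mul_of_nonneg_right ?_ (norm_nonneg _))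
      have h1 : ‖sg x‖ ≤ 1 := by
        rcases Real.sign_apply_eq (x 2) with h | h | h <;> simp [sg, h]
      rw [norm_smul]
      refine (mul_le_of_le_one_left (norm_nonneg _) h1).trans ((norm_cr_le _ _).trans ?_)
      exact mul_le_mul (wallb_norm_grad (lF δ) x) (wallb_norm_grad (lG δ) x) (norm_nonneg _)
        (NNReal.coe_nonneg _)
    · filter_upwards [wallb_grad_ae hF.continuous CF, wallb_grad_ae hG.continuous CG] with x h1 h2
      refine tendsto_const_nhds.congr' ?_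
      filter_upwards [h1, h2] with δ e1 e2
      rw [fx, fx, e1, e2]
  refine tendsto_nhds_unique key (tendsto_const_nhds.congr' ?_)
  have sF := (eventually_all_finset CF).2 fun t _ => wallb_small CF t
  have sG := (eventually_all_finset CG).2 fun t _ => wallb_small CG t
  filter_upwards [sF, sG, self_mem_nhdsWithin] with δ h1 h2 hδ
  refine (wallb_flat ⟨_, lF δ⟩ ⟨_, lG δ⟩ hψ hc fun x hx h0 => ?_).symm
  rcases hw x hx h0 with h | h
  · filter_upwards [wallb_grad_near hF.continuous hδ h (h1 _ h)] with y hy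
    exact (congrArg (cr · _) hy).trans (cr_zero_left _)
  · filter_upwards [wallb_grad_near hG.continuous hδ h (h2 _ h)] with y hy
    exact (congrArg (cr _ ·) hy).trans (cr_zero_right _)

/-! ### part c -/

theorem wall {F G : E3 → ℝ} {U : Set E3} (hU : IsOpen U) (hF : LocallyLipschitzOn U F)
    (hG : LocallyLipschitzOn U G) (CF CG : Finset ℝ)
    (hw : ∀ x ∈ U, x 2 = 0 → F x ∈ CF ∨ G x ∈ CG) : DF (fun x => sg x • fx F G x) U := by
  intro ψ hψ hc hs
  obtain ⟨F', V, hF', hV, hCV, -, eF⟩ := ll_extend hU hF hc hs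
  obtain ⟨G', W, hG', hW, hCW, -, eG⟩ := ll_extend hU hG hc hs
  rw [← wall0 hF' hG' hψ hc CF CG fun x hx h0 => by
    rw [eF x (hCV hx), eG x (hCW hx)]; exact hw x (hs hx) h0]
  refine integral_congr_ae (Eventually.of_forall fun x => ?_)
  by_cases hx : x ∈ tsupport ψ
  · have h1 : ∇ F' x = ∇ F x := grad_congr (eventually_of_mem (hV.mem_nhds (hCV hx)) eF)
    have h2 : ∇ G' x = ∇ G x := grad_congr (eventually_of_mem (hW.mem_nhds (hCW hx)) eG)
    simp only [fx, h1, h2]
  · simp only [grad_eq_zero_of_notMem hx, inner_zero_right]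

theorem lb_fx {F G : E3 → ℝ} {U : Set E3} (hU : IsOpen U) (hF : LocallyLipschitzOn U F)
    (hG : LocallyLipschitzOn U G) : LB (fun x => sg x • fx F G x) U := by
  refine ⟨measurable_sg.smul (measurable_fx F G), fun C hC hCU => ?_⟩
  obtain ⟨L, hL, h1⟩ := ll_fderiv_bound hU hF hC hCU
  obtain ⟨L', -, h2⟩ := ll_fderiv_bound hU hG hC hCU
  refine ⟨L * L', fun x hx => ?_⟩
  have h3 : ‖sg x‖ ≤ 1 := by
    rcases Real.sign_apply_eq (x 2) with h | h | h <;> simp [sg, h]
  have h4 : ‖fx F G x‖ ≤ L * L' := by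
    refine (norm_cr_le _ _).trans ?_
    rw [norm_grad, norm_grad]
    exact mul_le_mul (h1 x hx) (h2 x hx) (norm_nonneg _) hL.le
  rw [norm_smul]
  exact (mul_le_of_le_one_left (norm_nonneg _) h3).trans h4

variable {J K : E3 → E3} {U V : Set E3}

theorem LB.mono (h : LB J U) (hV : V ⊆ U) : LB J V := by
  exact ⟨h.meas, fun C hC hCV => h.bd C hC (hCV.trans hV)⟩

theorem LB.add (h : LB J U) (h' : LB K U) : LB (fun x => J x + K x) U := by
  refine ⟨h.meas.add h'.meas, fun C hC hCU => ?_⟩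
  obtain ⟨M, hM⟩ := h.bd C hC hCU
  obtain ⟨M', hM'⟩ := h'.bd C hC hCU
  exact ⟨M + M', fun x hx => (norm_add_le _ _).trans (add_le_add (hM x hx) (hM' x hx))⟩

theorem LB.smul (s : ℝ) (h : LB J U) : LB (fun x => s • J x) U := by
  refine ⟨h.meas.const_smul s, fun C hC hCU => ?_⟩
  obtain ⟨M, hM⟩ := h.bd C hC hCU
  exact ⟨‖s‖ * M, fun x hx => by
    rw [norm_smul]; exact mul_le_mul_of_nonneg_left (hM x hx) (norm_nonneg _)⟩

theorem LB.of_local (hm : Measurable J)
    (h : ∀ x ∈ U, ∃ V K, IsOpen V ∧ x ∈ V ∧ LB K V ∧ ∀ y ∈ V, J y = K y) : LB J U := by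
  refine ⟨hm, fun C hC hCU => ?_⟩
  refine hC.induction_on (p := fun s => ∃ M : ℝ, ∀ x ∈ s, ‖J x‖ ≤ M) ⟨0, fun _ hx => hx.elim⟩
    (fun s t hst ⟨M, hM⟩ => ⟨M, fun x hx => hM x (hst hx)⟩) ?_ ?_
  · rintro s t ⟨M, hM⟩ ⟨M', hM'⟩
    exact ⟨max M M', fun x hx => hx.elim (fun hx => (hM x hx).trans (le_max_left _ _))
      fun hx => (hM' x hx).trans (le_max_right _ _)⟩
  · intro x hx
    obtain ⟨V, K, hV, hxV, hK, e⟩ := h x (hCU hx)
    obtain ⟨D, hD, hDV, hDc⟩ := local_compact_nhds (hV.mem_nhds hxV)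
    obtain ⟨M, hM⟩ := hK.bd D hDc hDV
    exact ⟨D, mem_nhdsWithin_of_mem_nhds hD, M, fun y hy => e y (hDV hy) ▸ hM y hy⟩

theorem LB.integrable (h : LB J U) {ψ : E3 → ℝ} (hψ : Lip ψ) (hc : HasCompactSupport ψ)
    (hs : tsupport ψ ⊆ U) : Integrable fun x => ⟪J x, ∇ ψ x⟫ := by
  obtain ⟨L, hL⟩ := hψ
  obtain ⟨M, hM⟩ := h.bd _ hc hs
  have hsub : Function.support (fun x => ⟪J x, ∇ ψ x⟫) ⊆ tsupport ψ := fun x hx =>
    by_contra fun hx' => hx (by simp only [grad_eq_zero_of_notMem hx', inner_zero_right])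
  rw [← integrableOn_iff_integrable_of_support_subset hsub]
  refine Measure.integrableOn_of_bounded (M := M * L) hc.isCompact.measure_lt_top.ne
    (h.meas.inner (measurable_grad ψ)).aestronglyMeasurable ?_
  refine (ae_restrict_iff' (isClosed_tsupport ψ).measurableSet).2 (Eventually.of_forall fun x hx => ?_)
  refine (norm_inner_le_norm _ _).trans ?_
  rw [norm_grad]
  exact mul_le_mul (hM x hx) (norm_fderiv_le_of_lipschitz ℝ hL) (norm_nonneg _)
    ((norm_nonneg _).trans (hM x hx))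

theorem DF.mono (h : DF J U) (hV : V ⊆ U) : DF J V := by
  exact fun ψ hψ hc hs => h ψ hψ hc (hs.trans hV)

theorem DF.congr (h : DF J U) (hK : ∀ᵐ x : E3, x ∈ U → K x = J x) : DF K U := by
  intro ψ hψ hc hs
  rw [← h ψ hψ hc hs]
  refine integral_congr_ae (hK.mono fun x hx => ?_)
  by_cases hx' : x ∈ tsupport ψ
  · simp only [hx (hs hx')]
  · simp only [grad_eq_zero_of_notMem hx', inner_zero_right]

theorem DF.add (h : DF J U) (h' : DF K U) (hb : LB J U) (hb' : LB K U) : DF (fun x => J x + K x) U := by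
  intro ψ hψ hc hs
  simp only [inner_add_left]
  rw [integral_add (hb.integrable hψ hc hs) (hb'.integrable hψ hc hs), h ψ hψ hc hs, h' ψ hψ hc hs,
    add_zero]

theorem DF.smul (s : ℝ) (h : DF J U) : DF (fun x => s • J x) U := by
  intro ψ hψ hc hs
  simp only [real_inner_smul_left]
  rw [integral_const_mul, h ψ hψ hc hs, mul_zero]

theorem wallc_add (h : LB J U) {A : Set E3} {φ ψ : E3 → ℝ} (hφ : Lip φ) (hφc : HasCompactSupport φ)
    (hφs : tsupport φ ⊆ U) (hψ : Lip ψ) (hψc : HasCompactSupport ψ) (hψs : tsupport ψ ⊆ U) (a b : ℝ) :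
    ∫ x in A, ⟪J x, ∇ (fun y => a * φ y + b * ψ y) x⟫ =
      a * (∫ x in A, ⟪J x, ∇ φ x⟫) + b * ∫ x in A, ⟪J x, ∇ ψ x⟫ := by
  rw [← integral_const_mul, ← integral_const_mul,
    ← integral_add ((h.integrable hφ hφc hφs).integrableOn.const_mul a)
      ((h.integrable hψ hψc hψs).integrableOn.const_mul b)]
  obtain ⟨_, h1⟩ := hφ
  obtain ⟨_, h2⟩ := hψ
  refine integral_congr_ae (ae_restrict_of_ae ?_)
  filter_upwards [h1.ae_differentiableAt (μ := volume), h2.ae_differentiableAt (μ := volume)] with x hx hx'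
  have := grad_lin a b 0 hx hx'
  simp only [add_zero] at this
  rw [this, inner_add_right, real_inner_smul_right, real_inner_smul_right]

theorem DF.union (hU : IsOpen U) (hV : IsOpen V) (h : DF J U) (h' : DF J V) (hb : LB J (U ∪ V)) :
    DF J (U ∪ V) := by
  intro ψ hψ hc hs
  obtain ⟨ρ, h0, h1, -⟩ := exists_contMDiffMap_zero_one_nhds_of_isClosed (n := 1)
    (modelWithCornersSelf ℝ E3) ((isClosed_tsupport ψ).sdiff hU) ((isClosed_tsupport ψ).sdiff hV)
    (disjoint_left.2 fun x hx hx' => (hs hx.1).elim hx.2 hx'.2)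
  have hρ : ContDiff ℝ 1 ρ := ρ.contMDiff.contDiff
  have l1 : Lip fun x => ψ x * ρ x := lip_cut_mul isOpen_univ hψ hc (subset_univ _) (ll_of_contDiff hρ _)
  have l2 : Lip fun x => ψ x * (1 - ρ x) :=
    lip_cut_mul isOpen_univ hψ hc (subset_univ _) (ll_of_contDiff (contDiff_const.sub hρ) _)
  have c1 : HasCompactSupport fun x => ψ x * ρ x := hc.mul_right
  have c2 : HasCompactSupport fun x => ψ x * (1 - ρ x) := hc.mul_right
  have s1 : tsupport (fun x => ψ x * ρ x) ⊆ U := fun x hx => by_contra fun hx' => by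
    refine notMem_tsupport_iff_eventuallyEq.2 ?_ hx
    filter_upwards [h0.filter_mono (nhds_le_nhdsSet (mem_sdiff_of_mem (tsupport_mul_subset_left hx) hx'))]
      with y hy
    simp [hy]
  have s2 : tsupport (fun x => ψ x * (1 - ρ x)) ⊆ V := fun x hx => by_contra fun hx' => by
    refine notMem_tsupport_iff_eventuallyEq.2 ?_ hx
    filter_upwards [h1.filter_mono (nhds_le_nhdsSet (mem_sdiff_of_mem (tsupport_mul_subset_left hx) hx'))]
      with y hy
    simp [hy]
  have key := wallc_add (A := univ) hb l1 c1 (s1.trans subset_union_left) l2 c2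
    (s2.trans subset_union_right) 1 1
  have e : (fun y => 1 * (ψ y * ρ y) + 1 * (ψ y * (1 - ρ y))) = ψ := funext fun y => by ring
  rw [e, Measure.restrict_univ, h _ l1 c1 s1, h' _ l2 c2 s2] at key
  rw [key]
  ring

theorem DF.of_local (hb : LB J U) (h : ∀ x ∈ U, ∃ V, IsOpen V ∧ x ∈ V ∧ V ⊆ U ∧ DF J V) : DF J U := by
  intro ψ hψ hc hs
  suffices ∃ V, IsOpen V ∧ tsupport ψ ⊆ V ∧ V ⊆ U ∧ DF J V by
    obtain ⟨V, -, hV, -, hJ⟩ := this
    exact hJ ψ hψ hc hV
  refine hc.isCompact.induction_on (p := fun s => ∃ V, IsOpen V ∧ s ⊆ V ∧ V ⊆ U ∧ DF J V)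
    ⟨∅, isOpen_empty, Subset.rfl, empty_subset _, fun φ _ _ hφ => ?_⟩
    (fun s t hst ⟨V, h1, h2, h3⟩ => ⟨V, h1, hst.trans h2, h3⟩) ?_ ?_
  · simp only [grad_eq_zero_of_notMem fun hx => hφ hx, inner_zero_right, integral_zero]
  · rintro s t ⟨V, h1, h2, h3, h4⟩ ⟨W, h1', h2', h3', h4'⟩
    exact ⟨V ∪ W, h1.union h1', union_subset_union h2 h2', union_subset h3 h3',
      DF.union h1 h1' h4 h4' (hb.mono (union_subset h3 h3'))⟩
  · intro x hx
    obtain ⟨V, h1, h2, h3, h4⟩ := h x (hs hx)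
    exact ⟨V, mem_nhdsWithin_of_mem_nhds (h1.mem_nhds h2), V, h1, Subset.rfl, h3, h4⟩

/-- additivity of gradients of Lipschitz functions under the integral -/
theorem LB.integral_add (h : LB J U) {A : Set E3} {φ ψ : E3 → ℝ} (hφ : Lip φ) (hφc : HasCompactSupport φ)
    (hφs : tsupport φ ⊆ U) (hψ : Lip ψ) (hψc : HasCompactSupport ψ) (hψs : tsupport ψ ⊆ U) (a b : ℝ) :
    ∫ x in A, ⟪J x, ∇ (fun y => a * φ y + b * ψ y) x⟫ =
      a * (∫ x in A, ⟪J x, ∇ φ x⟫) + b * ∫ x in A, ⟪J x, ∇ ψ x⟫ := by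
  exact wallc_add h hφ hφc hφs hψ hψc hψs a b

/-- a test function vanishing near the frontier of the open set `A`: `1_A ψ` is a test function -/
theorem DF.setIntegral (h : DF J U) {A : Set E3} (hA : IsOpen A) {ψ : E3 → ℝ} (hψ : Lip ψ)
    (hc : HasCompactSupport ψ) (hs : tsupport ψ ⊆ U) (hfr : Disjoint (tsupport ψ) (frontier A)) :
    ∫ x in A, ⟪J x, ∇ ψ x⟫ = 0 := by
  have hsub : tsupport (A.indicator ψ) ⊆ tsupport ψ := closure_mono (by
    rw [support_indicator]; exact inter_subset_right)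
  have hz : ∀ x, x ∉ A → ∃ V, IsOpen V ∧ x ∈ V ∧ ∀ y ∈ V, A.indicator ψ y = 0 := fun x hx => by
    by_cases hx' : x ∈ closure A
    · have : x ∉ tsupport ψ := fun h' => disjoint_left.1 hfr h' (by rw [hA.frontier_eq]; exact ⟨hx', hx⟩)
      exact ⟨(tsupport ψ)ᶜ, (isClosed_tsupport ψ).isOpen_compl, this,
        fun y hy => image_eq_zero_of_notMem_tsupport fun h' => hy (hsub h')⟩
    · exact ⟨(closure A)ᶜ, isClosed_closure.isOpen_compl, hx',
        fun y hy => indicator_of_notMem (fun h' => hy (subset_closure h')) _⟩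
  have hc' : HasCompactSupport (A.indicator ψ) := hc.isCompact.of_isClosed_subset (isClosed_tsupport _) hsub
  have hl : Lip (A.indicator ψ) := by
    refine lip_of_ll isOpen_univ (ll_of_local fun x _ => ?_) hc' (subset_univ _)
    by_cases hx : x ∈ A
    · exact ⟨A, ψ, hA, hx, hψ.loc A, fun y hy => indicator_of_mem hy _⟩
    · obtain ⟨V, h1, h2, h3⟩ := hz x hx
      exact ⟨V, fun _ => 0, h1, h2, (Lip.const 0).loc V, h3⟩
  rw [← h _ hl hc' (hsub.trans hs), ← integral_indicator hA.measurableSet]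
  refine integral_congr_ae (Eventually.of_forall fun x => ?_)
  by_cases hx : x ∈ A
  · have : ∇ (A.indicator ψ) x = ∇ ψ x :=
      grad_congr (eventually_of_mem (hA.mem_nhds hx) fun y hy => indicator_of_mem hy _)
    simp only [indicator_of_mem hx, this]
  · obtain ⟨V, h1, h2, h3⟩ := hz x hx
    have : ∇ (A.indicator ψ) x = 0 := grad_eq_zero_of_notMem
      (notMem_tsupport_iff_eventuallyEq.2 (eventually_of_mem (h1.mem_nhds h2) h3))
    simp only [indicator_of_notMem hx, this, inner_zero_right]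

end Crest.Agent.R83
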