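import Crest.Agent.R83.Tree
import Crest.Agent.R83.Wall
import Crest.Agent.R83.Amp

/-!
# Row 83: geometry of the node -- definitions

`Q = {NN ≤ 1}`, children `S i Q`, `R = {33/40 < zt < 1}` is the region between them.  The mirror is
`x 2 = 0`.  `Th x = (x 0, zt x, bb x) = (s, ζ, b)`; `zz (s, ζ, ·)` lies in the closed upper half plane.
Potentials `log ‖z ∓ 1‖` in the core, continued in three legs (`Pc 1`, `Pc (-1)`, `Po`).
Throughout `e = 1` or `e = -1`.
-/

namespace Crest.Agent.R83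

open MeasureTheory Set Metric Filter Topology
open scoped Gradient RealInnerProductSpace NNReal

/-- rotation by a right angle -/
noncomputable def rot : E3 ≃ₗᵢ[ℝ] E3 where
  toFun x := v3 (-x 1) (x 0) (x 2)
  invFun x := v3 (x 1) (-x 0) (x 2)
  map_add' x y := ext3 (by simp; ring) (by simp) (by simp)
  map_smul' c x := ext3 (by simp) (by simp) (by simp)
  left_inv x := ext3 (by simp) (by simp) (by simp)
  right_inv x := ext3 (by simp) (by simp) (by simp)
  norm_map' x := by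
    have h : ‖v3 (-x 1) (x 0) (x 2)‖ ^ 2 = ‖x‖ ^ 2 := by
      rw [norm_sq3, norm_sq3]; simp; ring
    exact (pow_left_inj₀ (norm_nonneg _) (norm_nonneg _) two_ne_zero).1 h

/-- sign attached to a child -/
noncomputable def sb (i : Bool) : ℝ := if i then 1 else -1

noncomputable def sim : Sim := ⟨11 / 20, rot, fun i => v3 (sb i * (7 / 10)) 0 0⟩

noncomputable def NN (x : E3) : ℝ := max (max |x 1| (|x 0| / (3 / 2)) + |x 2| / 20) |x 2|

noncomputable def BB (s : ℝ) : ℝ := min (3 / 2 * |(|s| - 7 / 10)|) (max (7 / 8) (|s| / (3 / 2)))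

noncomputable def mm (x : E3) : ℝ := max |x 1| (BB (x 0))

noncomputable def zt (x : E3) : ℝ :=
  min (max (mm x + 3 / 2 * |x 2| / 20) (3 / 2 * |x 2|)) (max (max (mm x) (7 / 8) + |x 2| / 20) |x 2|)

noncomputable def bb (x : E3) : ℝ := Real.pi * (1 - x 1 / zt x) / 2

noncomputable def Th (x : E3) : E3 := v3 (x 0) (zt x) (bb x)

def QQ : Set E3 := {x | NN x ≤ 1}
def RR : Set E3 := {x | 33 / 40 < zt x ∧ zt x < 1}
def UU : Set E3 := {x | 4 / 5 < zt x ∧ zt x < 41 / 40}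

/-! ### the dome `NN = 1` -/

noncomputable def as (x : E3) : ℝ := Real.pi * (1 - x 0 / (3 / 2 * NN x)) / 2
noncomputable def bs (x : E3) : ℝ := Real.pi * (1 - x 1 / NN x) / 2
noncomputable def Js (x : E3) : E3 := sg x • fx as bs x
noncomputable def tent (s : ℝ) : ℝ := max 0 (min 1 (min (4 * s - 2) (6 - 4 * s)))

/-- flux average over the dome -/
noncomputable def mF (ψ : E3 → ℝ) : ℝ :=
  ∫ x in {x | NN x < 1}, ⟪Js x, ∇ (fun y => tent (NN y) * ψ y) x⟫

/-! ### the plane, `y = (s, ζ, b)` -/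

noncomputable def XX (s : ℝ) : ℝ := s / (7 / 10) + 50 * (s - cl (-(13 / 10)) (13 / 10) s)
noncomputable def ph (s : ℝ) : ℝ := s / 4 + 120 * max (s - 7 / 8) 0
noncomputable def zz (y : E3) : ℂ := ⟨XX (y 0), ph (y 1) - ph (BB (y 0))⟩
noncomputable def lg (z : ℂ) : ℝ := Real.log ‖z‖
/-- argument, smooth across both halves of the real axis -/
noncomputable def th (z : ℂ) : ℝ := Real.pi / 2 + Complex.arg (-Complex.I * z)
noncomputable def tau (t : ℝ) : ℝ := cl 0 1 (t - 10)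

/-- the planar domain -/
def DD : Set E3 := {y | 4 / 5 < y 1 ∧ y 1 < 41 / 40 ∧ BB (y 0) ≤ y 1}

noncomputable def Zm (y : E3) : E3 := v3 (zz y).re (zz y).im (y 2)

noncomputable def tc (e : ℝ) (y : E3) : ℝ := max (-lg (zz y - e)) (TT - 10 ^ 4 * (y 1 - 33 / 40))
noncomputable def θc (e : ℝ) (y : E3) : ℝ := Real.pi / 2 + e * (th (zz y - e) - Real.pi / 2)
noncomputable def Lc (e : ℝ) (y : E3) : ℝ :=
  Real.pi / 2 - e * (Real.pi / 2 * (3 / 2 * (y 0 - e * (7 / 10)) / y 1))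
noncomputable def ac (e : ℝ) (y : E3) : ℝ := θc e y + tau (tc e y) * (Lc e y - θc e y)
noncomputable def bc (e : ℝ) (y : E3) : ℝ := Real.pi / 2 - e * (y 2 - Real.pi / 2)
noncomputable def Pc (e : ℝ) (y : E3) : E3 := v3 (tc e y) (ac e y) (bc e y)

noncomputable def tou (y : E3) : ℝ := max (lg (zz y - 1) - Real.log 4) (TT + 10 ^ 4 * (y 1 - 1))
noncomputable def Lo (y : E3) : ℝ := Real.pi * (1 - y 0 / (3 / 2 * y 1)) / 2
noncomputable def ao (y : E3) : ℝ := th (zz y - 1) + tau (tou y) * (Lo y - th (zz y - 1))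
noncomputable def Po (y : E3) : E3 := v3 (tou y) (ao y) (y 2)

/-! ### the fields -/

noncomputable def zx (x : E3) : ℂ := zz (Th x)

/-- pull-back of the flux of `t` -/
noncomputable def J0 (P : E3 → E3) (x : E3) : E3 := fx (fun y => P y 1) (fun y => P y 2) x

/-- pull-back of `Jd` -/
noncomputable def Jp (α β Ξ : E3 → ℝ) (P : E3 → E3) (x : E3) : E3 :=
  fx (fun y => β (P y)) (fun y => P y 2) x + fx (fun y => P y 1) (fun y => α (P y)) x +
    fx (fun y => Ξ (P y)) (fun y => P y 0) x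

noncomputable def vv (d : E3 → ℝ) (e : ℝ) (x : E3) : ℝ :=
  if ‖zx x - e‖ < 1 then -min (tc e (Th x)) TT
  else if ‖zx x + e‖ < 1 then Real.log 2 + d (Pc (-e) (Th x))
  else if 4 < ‖zx x - 1‖ then Real.log 4 + min (tou (Th x)) TT + (1 - e) / 2 * d (Po (Th x))
  else lg (zx x - e)

noncomputable def JJ (α β Ξ : E3 → ℝ) (e : ℝ) (x : E3) : E3 :=
  if ‖zx x - e‖ < 1 then -(sg x • J0 (Pc e ∘ Th) x)
  else if ‖zx x + e‖ < 1 then sg x • Jp α β Ξ (Pc (-e) ∘ Th) x
  else if 4 < ‖zx x - 1‖ then sg x • J0 (Po ∘ Th) x + ((1 - e) / 2) • sg x • Jp α β Ξ (Po ∘ Th) x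
  else sg x • fx (fun y => th (zx y - e)) bb x

noncomputable def Gx (d : E3 → ℝ) (e : ℝ) (x : E3) : ℝ :=
  if zt x ≤ 33 / 40 then (if 0 < e * x 0 then 2 * TT + Real.log 4 else TT + Real.log 2)
  else if 1 ≤ zt x then 0 else TT + Real.log 4 - vv d e x

def Ul (e : ℝ) : Set E3 := {x | x ∈ UU ∧ ‖zx x - e‖ < 1}
def Uo : Set E3 := {x | x ∈ UU ∧ 4 < ‖zx x - 1‖}
def Uc : Set E3 := {x | x ∈ UU ∧ 5 / 6 < ‖zx x - 1‖ ∧ 5 / 6 < ‖zx x + 1‖ ∧ ‖zx x - 1‖ < 5}

end Crest.Agent.R83
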