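import Crest.Agent.R83.GDefs

/-!
# Row 83: geometry of `NN`, `zt`, `Th`

* part a: case analysis on `max`, `min`, `|·|` (`max_cases`, `min_cases`, `abs_cases`) and `linarith`.
  Useful: `max (BB s) (7/8) = max (|s| / (3/2)) (7/8)` (`max_BB`); if `zt x < 7/8` then `zt x` is the
  first argument of the `min` and `BB (x 0) = 3/2 * ||x 0| - 7/10|`.
* part b: `AeAff` closure lemmas with the invariant `∃ k ∈ [1/20, 3/2], a 2 = k * sg x` (and `a 2 = 0` for
  `mm`); `det_fderiv_v3`, `∇ bb = -(π/2) (zt⁻¹ e₁ - (x 1 / zt²) ∇ zt)`, so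
  `det D Th = π / (2 zt) · ∂₂ zt`.
-/

namespace Crest.Agent.R83

open MeasureTheory Set Metric Filter Topology
open scoped Gradient RealInnerProductSpace NNReal

/-! ### part a -/

theorem sb_cases (i : Bool) : sb i = 1 ∨ sb i = -1 := by
  cases i <;> simp [sb]

theorem sim_S (i : Bool) (x : E3) :
    sim.S i x = v3 (sb i * (7 / 10) - 11 / 20 * x 1) (11 / 20 * x 0) (11 / 20 * x 2) := by
  change v3 (sb i * (7 / 10)) 0 0 + (11 / 20 : ℝ) • v3 (-x 1) (x 0) (x 2) = _
  exact ext3 (by simp; ring) (by simp) (by simp)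

theorem sim_I (i : Bool) (x : E3) :
    sim.I i x = v3 (20 / 11 * x 1) (-(20 / 11 * (x 0 - sb i * (7 / 10)))) (20 / 11 * x 2) := by
  change (11 / 20 : ℝ)⁻¹ • v3 ((x - v3 (sb i * (7 / 10)) 0 0) 1) (-(x - v3 (sb i * (7 / 10)) 0 0) 0)
    ((x - v3 (sb i * (7 / 10)) 0 0) 2) = _
  exact ext3 (by simp) (by simp; ring) (by simp)

theorem lip_NN : Lip NN := by
  exact (((Lip.coord 1).abs.max ((Lip.coord 0).abs.div_const _)).add ((Lip.coord 2).abs.div_const _)).max
    (Lip.coord 2).abs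

theorem lip_BB : Lip BB := by
  have h : Lip fun s : ℝ => |s| := Lip.abs ⟨1, LipschitzWith.id⟩
  exact ((h.sub (Lip.const _)).abs.const_mul _).min ((Lip.const _).max (h.div_const _))

theorem lip_zt : Lip zt := by
  have hm : Lip mm := (Lip.coord 1).abs.max (lip_BB.comp (Lip.coord 0))
  have h2 := (Lip.coord 2).abs
  exact ((hm.add ((h2.const_mul _).div_const _)).max (h2.const_mul _)).min
    (((hm.max (Lip.const _)).add (h2.div_const _)).max h2)

theorem coord_le_NN (x : E3) : |x 0| ≤ 3 / 2 * NN x ∧ |x 1| ≤ NN x ∧ |x 2| ≤ NN x := by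
  have h1 : max |x 1| (|x 0| / (3 / 2)) + |x 2| / 20 ≤ NN x := le_max_left _ _
  have h2 := le_max_left |x 1| (|x 0| / (3 / 2))
  have h3 := le_max_right |x 1| (|x 0| / (3 / 2))
  have h4 := abs_nonneg (x 2)
  exact ⟨by linarith, by linarith, le_max_right _ _⟩

theorem NN_pos {x : E3} (hx : x ≠ 0) : 0 < NN x := by
  by_contra h
  obtain ⟨h0, h1, h2⟩ := coord_le_NN x
  rw [not_lt] at h
  exact hx (ext3 (abs_nonpos_iff.1 (by linarith)) (abs_nonpos_iff.1 (by linarith))
    (abs_nonpos_iff.1 (by linarith)))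

theorem NN_zero : NN 0 = 0 := by
  simp [NN]

theorem NN_wall {x : E3} (h : x 2 = 0) : NN x = |x 1| ∨ 3 / 2 * NN x = |x 0| := by
  have e : NN x = max |x 1| (|x 0| / (3 / 2)) := by
    rw [NN, h, abs_zero, zero_div, add_zero, max_eq_left (le_max_of_le_left (abs_nonneg _))]
  rcases max_choice |x 1| (|x 0| / (3 / 2)) with h1 | h1
  · exact Or.inl (e.trans h1)
  · exact Or.inr (by rw [e, h1]; ring)

theorem isCompact_NN (a b : ℝ) : IsCompact {x | a ≤ NN x ∧ NN x ≤ b} := by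
  refine Metric.isCompact_of_isClosed_isBounded
    ((isClosed_le continuous_const lip_NN.continuous).inter (isClosed_le lip_NN.continuous continuous_const))
    ((isBounded_closedBall (x := (0 : E3)) (r := 3 * b)).subset fun x hx => ?_)
  obtain ⟨h0, h1, h2⟩ := coord_le_NN x
  have hb := hx.2
  have hN : 0 ≤ NN x := (abs_nonneg _).trans h2
  rw [mem_closedBall_zero_iff]
  refine le_trans (abs_le_of_sq_le_sq' ?_ (by linarith : 0 ≤ 3 * NN x)).2 (by linarith)
  rw [norm_sq3, ← sq_abs (x 0), ← sq_abs (x 1), ← sq_abs (x 2)]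
  nlinarith [abs_nonneg (x 0), abs_nonneg (x 1), abs_nonneg (x 2)]

theorem BB_nonneg (s : ℝ) : 0 ≤ BB s := by
  exact le_min (by positivity) (le_max_of_le_left (by norm_num))

theorem max_BB (s : ℝ) : max (BB s) (7 / 8) = max (|s| / (3 / 2)) (7 / 8) := by
  have := abs_nonneg s
  unfold BB
  generalize |s| = t at *
  rcases abs_cases (t - 7 / 10) with h | h <;> rw [h.1] <;> simp only [max_def, min_def] <;> split_ifs <;>
    linarith [h.2]

theorem BB_of_lt {s e : ℝ} (he : e = 1 ∨ e = -1) (h : BB s < 7 / 8) (hs : 0 < e * s) :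
    BB s = 3 / 2 * |s - e * (7 / 10)| := by
  have h1 : BB s = 3 / 2 * |(|s| - 7 / 10)| := by
    rcases min_choice (3 / 2 * |(|s| - 7 / 10)|) (max (7 / 8) (|s| / (3 / 2))) with h1 | h1
    · exact h1
    · exact absurd (h1.symm.trans_lt h) (not_lt.2 (le_max_left _ _))
  rw [h1]
  rcases he with rfl | rfl
  · rw [abs_of_pos (by linarith : 0 < s), one_mul]
  · rw [abs_of_neg (by linarith : s < 0), ← abs_neg]
    congr 2
    ring

theorem BB_of_gt {s : ℝ} (h : 7 / 8 < BB s) : BB s = |s| / (3 / 2) := by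
  have h1 := max_BB s
  rw [max_eq_left h.le] at h1
  rcases max_choice (|s| / (3 / 2)) (7 / 8) with h2 | h2
  · exact h1.trans h2
  · exact absurd (h1.trans h2) h.ne'

theorem geoa_mm (x : E3) : mm x ≤ zt x := by
  have h := abs_nonneg (x 2)
  have h1 := le_max_left (mm x) (7 / 8)
  exact le_min (le_max_of_le_left (by linarith)) (le_max_of_le_left (by linarith))

theorem le_zt (x : E3) : |x 1| ≤ zt x ∧ BB (x 0) ≤ zt x ∧ |x 2| ≤ zt x := by
  have h := abs_nonneg (x 2)
  exact ⟨(le_max_left _ _).trans (geoa_mm x), (le_max_right _ _).trans (geoa_mm x),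
    le_min (le_max_of_le_right (by linarith)) (le_max_right _ _)⟩

theorem zt_wall {x : E3} (h : x 2 = 0) : zt x = |x 1| ∨ zt x = BB (x 0) := by
  have h0 : 0 ≤ mm x := le_max_of_le_left (abs_nonneg _)
  have e : zt x = mm x := by
    refine le_antisymm ((min_le_left _ _).trans ?_) (geoa_mm x)
    rw [h]
    simpa using h0
  rw [e]
  exact max_choice _ _

theorem zt_eq_NN {x : E3} (h : 93 / 100 < zt x ∨ 93 / 100 < NN x) : zt x = NN x := by
  have e : max (mm x) (7 / 8) = max (max |x 1| (|x 0| / (3 / 2))) (7 / 8) := by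
    rw [mm, max_assoc, max_BB, max_assoc]
  have h2 := abs_nonneg (x 2)
  unfold zt NN at *
  generalize mm x = m at *
  generalize max |x 1| (|x 0| / (3 / 2)) = n at *
  generalize |x 2| = t at *
  simp only [max_def, min_def] at *
  rcases h with h | h <;> split_ifs at * <;> linarith

theorem NN_I (i : Bool) (x : E3) : 33 / 40 * NN (sim.I i x) =
    max (max |x 1| (3 / 2 * |x 0 - sb i * (7 / 10)|) + 3 / 2 * |x 2| / 20) (3 / 2 * |x 2|) := by
  have h : |(20 / 11 : ℝ)| = 20 / 11 := abs_of_pos (by norm_num)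
  rw [sim_I, NN, v3_0, v3_1, v3_2, abs_neg, abs_mul, abs_mul, abs_mul, h,
    mul_max_of_nonneg _ _ (by norm_num), mul_add, mul_max_of_nonneg _ _ (by norm_num),
    max_comm |x 1|]
  congr 1
  · congr 1
    · congr 1 <;> ring
    · ring
  · ring

theorem geoa2_snd (x : E3) : 7 / 8 ≤ max (max (mm x) (7 / 8) + |x 2| / 20) |x 2| :=
  le_max_of_le_left (le_add_of_le_of_nonneg (le_max_right _ _) (by positivity))

theorem geoa2_cont : Continuous zt := lip_zt.choose_spec.continuous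

theorem geoa2_NN_nonneg (x : E3) : 0 ≤ NN x := (abs_nonneg _).trans (coord_le_NN x).2.1

theorem zt_side {x : E3} (h : zt x < 7 / 8) : ∃ i, 0 < sb i * x 0 := by
  have hB := (le_zt x).2.1.trans_lt h
  rcases lt_trichotomy (x 0) 0 with h0 | h0 | h0
  · exact ⟨false, by simpa [sb] using h0⟩
  · rw [h0, BB] at hB
    norm_num [abs_of_pos] at hB
  · exact ⟨true, by simpa [sb] using h0⟩

theorem zt_eq_child {i : Bool} {x : E3} (h : zt x < 7 / 8) (hs : 0 < sb i * x 0) :
    zt x = 33 / 40 * NN (sim.I i x) := by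
  have hB := BB_of_lt (sb_cases i) ((le_zt x).2.1.trans_lt h) hs
  rw [NN_I, ← hB]
  rcases min_choice (max (mm x + 3 / 2 * |x 2| / 20) (3 / 2 * |x 2|))
    (max (max (mm x) (7 / 8) + |x 2| / 20) |x 2|) with h1 | h1
  · exact h1
  · exact absurd ((geoa2_snd x).trans h1.ge) (not_le.2 h)

theorem child_zt {i : Bool} {x : E3} (h : NN (sim.I i x) < 35 / 33) :
    0 < sb i * x 0 ∧ zt x = 33 / 40 * NN (sim.I i x) := by
  have h1 : 33 / 40 * NN (sim.I i x) < 7 / 8 := by linarith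
  have h2 := h1
  rw [NN_I] at h2
  have h3 : 3 / 2 * |x 0 - sb i * (7 / 10)| < 7 / 8 := by
    refine lt_of_le_of_lt ?_ h2
    exact le_max_of_le_left (le_add_of_le_of_nonneg (le_max_right _ _) (by positivity))
  have h4 := abs_lt.1 (show |x 0 - sb i * (7 / 10)| < 7 / 12 by linarith)
  have hs : 0 < sb i * x 0 := by
    rcases sb_cases i with e | e <;> rw [e] at h4 ⊢ <;> linarith [h4.1, h4.2]
  have h5 : BB (x 0) ≤ 3 / 2 * |x 0 - sb i * (7 / 10)| := by
    refine (min_le_left _ _).trans (le_of_eq ?_)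
    rcases sb_cases i with e | e <;> rw [e] at hs ⊢
    · rw [abs_of_pos (show 0 < x 0 by linarith), one_mul]
    · rw [abs_of_neg (show x 0 < 0 by linarith), ← abs_neg]
      congr 2; ring
  have hB := BB_of_lt (sb_cases i) (h5.trans_lt h3) hs
  refine ⟨hs, ?_⟩
  rw [← hB] at h2
  rw [NN_I, ← hB]
  exact min_eq_left (h2.le.trans (geoa2_snd x))

theorem isCompact_zt (a b : ℝ) : IsCompact {x | a ≤ zt x ∧ zt x ≤ b} := by
  refine (isCompact_NN 0 (max b 1)).of_isClosed_subset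
    (isClosed_Icc.preimage geoa2_cont) fun x hx => ⟨geoa2_NN_nonneg x, ?_⟩
  rcases le_or_gt (NN x) 1 with h | h
  · exact le_max_of_le_right h
  · exact le_max_of_le_left ((zt_eq_NN (Or.inr (by linarith))).ge.trans hx.2)

theorem isOpen_UU : IsOpen UU := by
  exact isOpen_Ioo.preimage geoa2_cont

theorem isOpen_RR : IsOpen RR := by
  exact isOpen_Ioo.preimage geoa2_cont

theorem RR_sub_UU : RR ⊆ UU := by
  exact fun x hx => ⟨by linarith [hx.1], by linarith [hx.2]⟩

theorem Th_mem_DD {x : E3} (hx : x ∈ UU) : Th x ∈ DD := by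
  refine ⟨?_, ?_, ?_⟩ <;> simp only [Th, v3_0, v3_1]
  exacts [hx.1, hx.2, (le_zt x).2.1]

theorem mem_QQ {x : E3} : x ∈ QQ ↔ zt x ≤ 1 := by
  change NN x ≤ 1 ↔ _
  constructor <;> intro h <;> by_contra h' <;> push Not at h'
  · linarith [zt_eq_NN (x := x) (Or.inl (by linarith))]
  · linarith [zt_eq_NN (x := x) (Or.inr (by linarith))]

theorem isCompact_QQ : IsCompact QQ := by
  convert isCompact_NN 0 1 using 1
  exact Set.ext fun x => ⟨fun h => ⟨geoa2_NN_nonneg x, h⟩, fun h => h.2⟩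

theorem QQ_sub_ball : QQ ⊆ ball 0 (9 / 4) := by
  intro x hx
  have h : NN x ≤ 1 := hx
  obtain ⟨h0, h1, h2⟩ := coord_le_NN x
  have h3 := norm_sq3 x
  rw [← sq_abs (x 0), ← sq_abs (x 1), ← sq_abs (x 2)] at h3
  rw [mem_ball_zero_iff]
  nlinarith [abs_nonneg (x 0), abs_nonneg (x 1), abs_nonneg (x 2), norm_nonneg x]

theorem mem_child {x : E3} : (sim.I true x ∈ QQ ∨ sim.I false x ∈ QQ) ↔ zt x ≤ 33 / 40 := by
  have key : ∀ i, sim.I i x ∈ QQ → zt x ≤ 33 / 40 := fun i h => by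
    have h' : NN (sim.I i x) ≤ 1 := h
    linarith [(child_zt (i := i) (x := x) (by linarith)).2]
  refine ⟨fun h => h.elim (key _) (key _), fun h => ?_⟩
  obtain ⟨i, hi⟩ := zt_side (x := x) (by linarith)
  have h1 : sim.I i x ∈ QQ := by
    change NN _ ≤ 1
    linarith [zt_eq_child (by linarith) hi]
  cases i
  exacts [Or.inr h1, Or.inl h1]

theorem QQ_sub (i : Bool) (x : E3) (h : sim.I i x ∈ QQ) : x ∈ QQ := by
  have h' : NN (sim.I i x) ≤ 1 := h
  exact mem_QQ.2 (by linarith [(child_zt (i := i) (x := x) (by linarith)).2])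

theorem QQ_dis (x : E3) (h : sim.I true x ∈ QQ) : sim.I false x ∉ QQ := by
  intro h'
  have a : NN (sim.I true x) ≤ 1 := h
  have b : NN (sim.I false x) ≤ 1 := h'
  have h1 := (child_zt (i := true) (x := x) (by linarith)).1
  have h2 := (child_zt (i := false) (x := x) (by linarith)).1
  simp only [sb, if_true, Bool.false_eq_true, if_false] at h1 h2
  linarith

theorem sim_hp (i : Bool) : ‖sim.p i‖ ≤ (1 - sim.lam) * (5 / 2) := by
  change ‖v3 (sb i * (7 / 10)) 0 0‖ ≤ (1 - 11 / 20) * (5 / 2)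
  have h := norm_sq3 (v3 (sb i * (7 / 10)) 0 0)
  rw [v3_0, v3_1, v3_2] at h
  rcases sb_cases i with e | e <;> rw [e] at h ⊢ <;> nlinarith

theorem as_I {i : Bool} {x : E3} (h0 : 0 < zt x) (h : zt x < 7 / 8) (hs : 0 < sb i * x 0) :
    as (sim.I i x) = bb x ∧
      bs (sim.I i x) = Real.pi / 2 + Real.pi / 2 * (3 / 2 * (x 0 - sb i * (7 / 10)) / zt x) := by
  have h1 : NN (sim.I i x) = 40 / 33 * zt x := by linarith [zt_eq_child h hs]
  rw [as, bs, bb, h1, sim_I, v3_0, v3_1]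
  constructor <;> field_simp <;> ring

theorem bb_wall {x : E3} (h0 : 0 < zt x) (h : zt x = |x 1|) : bb x = 0 ∨ bb x = Real.pi := by
  rw [bb]
  rcases abs_cases (x 1) with h1 | h1
  · left
    rw [← h1.1, ← h, div_self h0.ne']; ring
  · right
    rw [show x 1 = -zt x by linarith [h1.1], neg_div, div_self h0.ne']; ring

/-- points on the axis near the dome of the first child -/
theorem zt_axis {σ : ℝ} (h0 : 0 ≤ σ) (h1 : σ ≤ 1 / 50) :
    zt (v3 (5 / 4 + σ) 0 0) = 33 / 40 + 3 / 2 * σ := by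
  have hB : BB (5 / 4 + σ) = 33 / 40 + 3 / 2 * σ := by
    rw [BB, abs_of_nonneg (show 0 ≤ 5 / 4 + σ by linarith),
      abs_of_nonneg (show 0 ≤ 5 / 4 + σ - 7 / 10 by linarith),
      min_eq_left (le_max_of_le_left (by linarith))]
    ring
  rw [zt, mm, v3_0, v3_1, v3_2, hB, abs_zero, max_eq_right (show 0 ≤ 33 / 40 + 3 / 2 * σ by linarith),
    mul_zero, zero_div, add_zero, add_zero, max_eq_left (show 0 ≤ 33 / 40 + 3 / 2 * σ by linarith)]
  exact min_eq_left (le_max_of_le_left (le_max_left _ _))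

/-! ### part b -/

theorem sg_cases {x : E3} (h : x 2 ≠ 0) : (sg x = 1 ∨ sg x = -1) ∧ ∀ᶠ y in 𝓝 x, sg y = sg x := by
  have hc : Continuous fun y : E3 => y 2 := by fun_prop
  rcases lt_or_gt_of_ne h with h | h
  · refine ⟨Or.inr (Real.sign_of_neg h), ?_⟩
    filter_upwards [hc.continuousAt.eventually (gt_mem_nhds h)] with y hy
    rw [sg, sg, Real.sign_of_neg h, Real.sign_of_neg hy]
  · refine ⟨Or.inl (Real.sign_of_pos h), ?_⟩
    filter_upwards [hc.continuousAt.eventually (lt_mem_nhds h)] with y hy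
    rw [sg, sg, Real.sign_of_pos h, Real.sign_of_pos hy]

theorem geob_congr {f g : E3 → ℝ} {P : E3 → E3 → Prop} (h : AeAff f P) (e : ∀ x, g x = f x) :
    AeAff g P := by
  rwa [show g = f from funext e]

theorem geob_const (k : ℝ) : AeAff (fun _ => k) fun _ a => a 2 = 0 :=
  (AeAff.const k).imp (Eventually.of_forall fun _ a ha => by simp [ha])

theorem geob_coord {i : Fin 3} (hi : 2 ≠ i) : AeAff (fun x => x i) fun _ a => a 2 = 0 :=
  (AeAff.coord i).imp (Eventually.of_forall fun _ a ha => by rw [ha, ee_apply, if_neg hi])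

theorem geob_aff {f : E3 → ℝ} (h : AeAff f fun _ a => a 2 = 0) (p k : ℝ) :
    AeAff (fun x => p * f x + k) fun _ a => a 2 = 0 :=
  geob_congr (h.lin h p 0 k fun _ a b ha _ => by simp [ha]) fun x => by ring

theorem geob_abs {f : E3 → ℝ} (h : AeAff f fun _ a => a 2 = 0) :
    AeAff (fun x => |f x|) fun _ a => a 2 = 0 :=
  h.abs fun _ a ha => by simp [ha]

theorem geob_add {f : E3 → ℝ} (h : AeAff f fun _ a => a 2 = 0) {q : ℝ} (h1 : 1 / 20 ≤ q)
    (h2 : q ≤ 3 / 2) :
    AeAff (fun x => f x + q * |x 2|) fun x a => 1 / 20 ≤ sg x * a 2 ∧ sg x * a 2 ≤ 3 / 2 := by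
  have h3 := h.lin (R := fun x a => a 2 = q * sg x) (AeAff.abs_coord 2) 1 q 0
    fun x a b ha hb => by simp [ha, hb, ee_apply, sg]
  refine (geob_congr h3 fun x => by ring).imp ?_
  filter_upwards [ae_coord_ne 2 0] with x hx a ha
  rw [ha]
  rcases (sg_cases hx).1 with h4 | h4 <;> rw [h4] <;> constructor <;> linarith

theorem geob_mm : AeAff mm fun _ a => a 2 = 0 := by
  have h0 := geob_abs (geob_coord (i := 0) (by decide))
  have h1 := geob_abs (geob_coord (i := 1) (by decide))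
  refine geob_congr (h1.max ((geob_aff (geob_abs (geob_aff h0 1 (-(7 / 10)))) (3 / 2) 0).min
    ((geob_const (7 / 8)).max (geob_aff h0 (2 / 3) 0)))) fun x => ?_
  rw [mm, BB, one_mul, add_zero, add_zero, ← sub_eq_add_neg,
    show |x 0| / (3 / 2) = 2 / 3 * |x 0| by ring]

theorem geob_ne {f : E3 → ℝ} (h : AeAff f fun x a => 1 / 20 ≤ sg x * a 2 ∧ sg x * a 2 ≤ 3 / 2) (c : ℝ) :
    ∀ᵐ x : E3, f x ≠ c := by
  filter_upwards [h.smooth, ae_ne_of_pd f c] with x h1 h2
  refine h2 2 (h1.1.differentiableAt (by norm_num)) fun h0 => ?_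
  have h3 := h1.2.1
  rw [grad_apply, h0] at h3
  linarith

theorem aeAff_NN : AeAff NN fun x a => 1 / 20 ≤ sg x * a 2 ∧ sg x * a 2 ≤ 3 / 2 := by
  have h0 := geob_abs (geob_coord (i := 0) (by decide))
  have h1 := geob_abs (geob_coord (i := 1) (by decide))
  refine geob_congr ((geob_add (h1.max (geob_aff h0 (2 / 3) 0)) (q := 1 / 20) le_rfl (by norm_num)).max
    (geob_add (geob_const 0) (q := 1) (by norm_num) (by norm_num))) fun x => ?_
  rw [NN, one_mul, zero_add, add_zero, show |x 0| / (3 / 2) = 2 / 3 * |x 0| by ring,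
    show |x 2| / 20 = 1 / 20 * |x 2| by ring]

theorem aeAff_zt : AeAff zt fun x a => 1 / 20 ≤ sg x * a 2 ∧ sg x * a 2 ≤ 3 / 2 := by
  refine geob_congr (((geob_add geob_mm (q := 3 / 40) (by norm_num) (by norm_num)).max
    (geob_add (geob_const 0) (q := 3 / 2) (by norm_num) le_rfl)).min
    ((geob_add (geob_mm.max (geob_const (7 / 8))) (q := 1 / 20) le_rfl (by norm_num)).max
    (geob_add (geob_const 0) (q := 1) (by norm_num) (by norm_num)))) fun x => ?_
  rw [zt, one_mul, zero_add, zero_add, show 3 / 2 * |x 2| / 20 = 3 / 40 * |x 2| by ring,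
    show |x 2| / 20 = 1 / 20 * |x 2| by ring]

theorem ae_NN_ne (c : ℝ) : ∀ᵐ x : E3, NN x ≠ c :=
  geob_ne aeAff_NN c

theorem ae_zt_ne (c : ℝ) : ∀ᵐ x : E3, zt x ≠ c :=
  geob_ne aeAff_zt c

theorem ll_bb : LocallyLipschitzOn UU bb := by
  have h1 := ll_div ((Lip.coord 1).loc UU) (lip_zt.loc UU) fun x hx => by
    have := hx.1
    intro h
    linarith
  have h2 := ll_add (ll_mul ((Lip.const (-(Real.pi / 2))).loc UU) h1) ((Lip.const (Real.pi / 2)).loc UU)
  have e : bb = fun x => -(Real.pi / 2) * (x 1 / zt x) + Real.pi / 2 := by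
    funext x
    rw [bb]
    ring
  rwa [e]

theorem ll_Th : LocallyLipschitzOn UU Th :=
  ll_v3 ((Lip.coord 0).loc UU) (lip_zt.loc UU) ll_bb

theorem gm_Th : ∀ᵐ x : E3, x ∈ UU → x 2 ≠ 0 ∧ GM (sg x) (1 / 40) Th x := by
  filter_upwards [aeAff_zt.smooth, ae_coord_ne 2 0] with x h1 h2 hx
  refine ⟨h2, ?_⟩
  have hz : 0 < zt x := by linarith [hx.1]
  have e : bb = fun y => -(Real.pi / 2) * (y 1 * (zt y)⁻¹) + Real.pi / 2 := by
    funext y
    rw [bb]
    ring
  have c0 : ContDiffAt ℝ 2 (fun y : E3 => y 0) x := by fun_prop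
  have c1 : ContDiffAt ℝ 2 (fun y : E3 => y 1) x := by fun_prop
  have ci : ContDiffAt ℝ 2 (fun y : E3 => (zt y)⁻¹) x := h1.1.inv hz.ne'
  have cb : ContDiffAt ℝ 2 bb x := by
    rw [e]
    exact (contDiffAt_const.mul (c1.mul ci)).add contDiffAt_const
  have dz := h1.1.differentiableAt (by norm_num)
  have hg : ∇ bb x = -(Real.pi / 2) • (x 1 • (-(zt x ^ 2)⁻¹) • ∇ zt x + (zt x)⁻¹ • ee 1) := by
    rw [e, grad_affine, grad_mul (c1.differentiableAt (by norm_num)) (ci.differentiableAt (by norm_num)),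
      grad_coord, grad_comp_real (hasDerivAt_inv hz.ne') dz]
  have hd : (fderiv ℝ Th x).det = Real.pi / 2 * (∇ zt x 2 / zt x) := by
    refine (det_fderiv_v3 (c0.differentiableAt (by norm_num)) dz
      (cb.differentiableAt (by norm_num))).trans ?_
    rw [hg, fx, grad_coord, inner3]
    simp [cr, ee_apply]
    ring
  have key := GM.of_point (s := sg x) (c := 1 / 20) (by norm_num) (contDiffAt_v3 c0 h1.1 cb)
    (Θ := Th) ?_
  · exact key.mono (by norm_num)
  have e2 : sg x * (Real.pi / 2 * (∇ zt x 2 / zt x)) = Real.pi / 2 * (sg x * ∇ zt x 2) / zt x := by ring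
  rw [hd, e2, le_div_iff₀ hz]
  nlinarith [h1.2.1, hx.2, Real.pi_gt_three]

end Crest.Agent.R83
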