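import Crest.Agent.R83.Lim

/-!
# Row 83: isotropisation of two fields

* `init_state`: `σ = sigC k ∇u ∇v J K`; `z.J = J` on the open set `O`.
* `lim_grad`: `φ_k = u_k - u_0` is `C¹` with compact support in `O` (`Near.test`); `hs_cauchy` in
  `Lp E3 2 volume`; uniform limit `f`; `H1` directly from the definition; the increments tend to `0`.
* `iso`: `∫ D_k ≤ κ⁻¹ (‖∇φ_{k+1} - ∇φ_k‖² + …) → 0`; `weak_gam` with `γ_k = (Z k).gam`,
  `ι = Bool × {ψ // C¹}`, `h = ⟪∇u + F, ∇ψ⟫`, `w = nr O (∇ψ)`,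
  `ε_k = S (‖F - ∇φ_k‖ + ‖G - ∇φ'_k‖) + √(∫ D_k)`, `flux_const`.
-/

namespace Crest.Agent.R83

open MeasureTheory Set Metric Filter Topology
open scoped Gradient RealInnerProductSpace NNReal
open Crest.Agent.R80 (L2 nr)

/-! ### part a -/

theorem init_state {c : ℝ} (hc : 0 < c) : ∃ S : ℝ, 1 ≤ S ∧ ∀ (O : Set E3) (u v : E3 → ℝ)
    (J K : E3 → E3), IsOpen O → (∀ x ∈ O, Good c u v J K x) →
      ∃ z : St, z.u = u ∧ z.v = v ∧ ∀ x ∈ O, z.Val S x ∧ z.J x = J x ∧ z.K x = K x := by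
  obtain ⟨S, k, hS, hs⟩ := sigC_spec hc
  refine ⟨S, hS, fun O u v J K hO h => ?_⟩
  refine ⟨⟨u, v, fun x => sigC k (∇ u x) (∇ v x) (J x) (K x)⟩, rfl, rfl, fun x hx => ?_⟩
  have g := h x hx
  obtain ⟨s1, s2, s3, s4⟩ := hs _ _ _ _ g.cone
  have eJ : St.J ⟨u, v, fun x => sigC k (∇ u x) (∇ v x) (J x) (K x)⟩ =ᶠ[𝓝 x] J := by
    filter_upwards [hO.mem_nhds hx] with y hy using (hs _ _ _ _ (h y hy).cone).2.2.1
  have eK : St.K ⟨u, v, fun x => sigC k (∇ u x) (∇ v x) (J x) (K x)⟩ =ᶠ[𝓝 x] K := by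
    filter_upwards [hO.mem_nhds hx] with y hy using (hs _ _ _ _ (h y hy).cone).2.2.2
  exact ⟨⟨⟨g.su, g.sv, g.sJ.congr_of_eventuallyEq eJ, g.sK.congr_of_eventuallyEq eK,
    (dv_congr eJ).trans g.dJ, (dv_congr eK).trans g.dK,
    continuousAt_sigC hc k g.cone (contDiffAt_grad1 g.su).continuousAt (contDiffAt_grad1 g.sv).continuousAt
      g.sJ.continuousAt g.sK.continuousAt, s1, g.cone.ind⟩, s2⟩, s3, s4⟩

theorem lim_grad {O : Set E3} {φ : ℕ → E3 → ℝ} {δ M : ℝ} (hφ : ∀ k, ContDiff ℝ 1 (φ k) ∧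
      HasCompactSupport (φ k) ∧ tsupport (φ k) ⊆ O) (hb : ∀ k x, |φ k x| ≤ δ)
    (hs : ∀ k x, |φ (k + 1) x - φ k x| ≤ δ * (1 / 2) ^ (k + 1)) (hM : ∀ k, nr univ (∇ (φ k)) ≤ M)
    (ho : ∀ k, ∀ j ≤ k, |∫ x, ⟪∇ (φ (k + 1)) x - ∇ (φ k) x, ∇ (φ j) x⟫| ≤ (1 / 2 : ℝ) ^ k) :
    ∃ (f : E3 → ℝ) (F : E3 → E3), H1 O f F ∧ (∀ x, |f x| ≤ δ) ∧
      Tendsto (fun k => nr univ fun x => ∇ (φ k) x - F x) atTop (𝓝 0) := by
  have hL : ∀ k, L2 univ (∇ (φ k)) := fun k =>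
    ((continuous_grad (hφ k).1).memLp_of_hasCompactSupport
      (HasCompactSupport.intro (hφ k).2.1 fun x hx => grad_eq_zero_of_notMem hx)).restrict univ
  have hcau : CauchySeq fun k => (hL k).toLp (∇ (φ k)) := by
    refine hs_cauchy (M := M) (fun k => ?_) fun k j hj => ?_
    · rw [← R80.nr_eq_norm_toLp]; exact hM k
    · refine le_of_eq_of_le ?_ (ho k j hj)
      rw [MeasureTheory.L2.inner_def, ← setIntegral_univ (μ := volume)]
      congr 1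
      refine integral_congr_ae ?_
      filter_upwards [Lp.coeFn_sub ((hL (k + 1)).toLp _) ((hL k).toLp _), (hL (k + 1)).coeFn_toLp,
        (hL k).coeFn_toLp, (hL j).coeFn_toLp] with x h1 h2 h3 h4
      rw [h1, Pi.sub_apply, h2, h3, h4]
  obtain ⟨F, hF⟩ := cauchySeq_tendsto_of_complete hcau
  have hFL : L2 univ F := Lp.memLp F
  have hlim : Tendsto (fun k => nr univ fun x => ∇ (φ k) x - F x) atTop (𝓝 0) := by
    refine (tendsto_iff_norm_sub_tendsto_zero.1 hF).congr fun k => ?_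
    rw [R80.nr_eq_norm_toLp ((hL k).sub' hFL)]
    congr 1
    refine Lp.ext ?_
    filter_upwards [Lp.coeFn_sub ((hL k).toLp _) F, (hL k).coeFn_toLp, ((hL k).sub' hFL).coeFn_toLp]
      with x h1 h2 h3
    rw [h1, Pi.sub_apply, h2, h3]
  have hd : ∀ x k, dist (φ k x) (φ (k + 1) x) ≤ δ / 2 * (1 / 2) ^ k := fun x k => by
    rw [dist_comm, Real.dist_eq]
    exact (hs k x).trans_eq (by ring)
  choose f hf using fun x => cauchySeq_tendsto_of_complete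
    (cauchySeq_of_le_geometric (1 / 2) (δ / 2) (by norm_num) (hd x))
  have hu : ∀ x k, |φ k x - f x| ≤ δ * (1 / 2) ^ k := fun x k => by
    have := dist_le_of_le_geometric_of_tendsto (1 / 2) (δ / 2) (by norm_num) (hd x) (hf x) k
    rw [Real.dist_eq] at this
    exact this.trans_eq (by ring)
  refine ⟨f, F, ⟨hFL, fun η hη => ?_⟩, fun x => le_of_tendsto' (hf x).abs fun k => hb k x, hlim⟩
  have h2 : Tendsto (fun k : ℕ => δ * (1 / 2 : ℝ) ^ k) atTop (𝓝 (δ * 0)) :=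
    (tendsto_pow_atTop_nhds_zero_of_lt_one (by norm_num) (by norm_num)).const_mul δ
  rw [mul_zero] at h2
  obtain ⟨k, h3, h4⟩ := ((h2.eventually (gt_mem_nhds hη)).and (hlim.eventually (gt_mem_nhds hη))).exists
  exact ⟨φ k, (hφ k).1, (hφ k).2.1, (hφ k).2.2, fun x => (hu x k).trans h3.le, h4.le⟩

/-! ### part b -/

theorem isob_one {O : Set E3} (hm : MeasurableSet O) {u : E3 → ℝ} {U : ℕ → E3 → ℝ} {δ M : ℝ}
    (hu : L2 O (∇ u)) (hU : ∀ k, L2 O (∇ (U k))) (hM : ∀ k, nr O (∇ (U k)) ≤ M)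
    (hT : ∀ k, ContDiff ℝ 1 (fun x => U k x - u x) ∧ HasCompactSupport (fun x => U k x - u x) ∧
      tsupport (fun x => U k x - u x) ⊆ O ∧
      ∀ x ∈ O, ∇ (fun x => U k x - u x) x = ∇ (U k) x - ∇ u x)
    (hb : ∀ k x, |U k x - u x| ≤ δ) (hs : ∀ k x, |U (k + 1) x - U k x| ≤ δ * (1 / 2) ^ (k + 1))
    (ho : ∀ k, ∀ j ≤ k, |∫ x, ⟪∇ (fun y => U (k + 1) y - U k y) x, ∇ (fun y => U j y - u y) x⟫| ≤
      (1 / 2 : ℝ) ^ k) :
    ∃ (f : E3 → ℝ) (F : E3 → E3), H1 O f F ∧ (∀ x, |f x| ≤ δ) ∧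
      Tendsto (fun k => nr O fun x => ∇ (U k) x - (∇ u x + F x)) atTop (𝓝 0) ∧
      Tendsto (fun k => nr O fun x => ∇ (U (k + 1)) x - ∇ (U k) x) atTop (𝓝 0) := by
  obtain ⟨f, F, h1, h2, h3⟩ := lim_grad (O := O) (φ := fun k x => U k x - u x) (δ := δ)
    (M := M + nr O (∇ u)) (fun k => ⟨(hT k).1, (hT k).2.1, (hT k).2.2.1⟩) hb
    (fun k x => by simpa only [sub_sub_sub_cancel_right] using hs k x)
    (fun k => by
      have e : ∇ (fun x => U k x - u x) = O.indicator fun x => ∇ (U k) x - ∇ u x := by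
        funext x
        by_cases hx : x ∈ O
        · rw [indicator_of_mem hx, (hT k).2.2.2 x hx]
        · rw [indicator_of_notMem hx, grad_eq_zero_of_notMem fun h => hx ((hT k).2.2.1 h)]
      rw [e, R80.nr_indicator hm]
      exact (R80.nr_sub_le (hU k) hu).trans (add_le_add (hM k) le_rfl))
    (fun k j hj => by
      have e : ∀ x, ∇ (fun x => U (k + 1) x - u x) x - ∇ (fun x => U k x - u x) x =
          ∇ (fun y => U (k + 1) y - U k y) x := fun x => by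
        rw [← grad_sub ((hT (k + 1)).1.differentiable one_ne_zero x)
          ((hT k).1.differentiable one_ne_zero x)]
        simp only [sub_sub_sub_cancel_right]
      simp only [e]
      exact ho k j hj)
  have hA : L2 O fun x => ∇ u x + F x := hu.add' (h1.l2.mono_set (subset_univ _))
  have h4 : Tendsto (fun k => nr O fun x => ∇ (U k) x - (∇ u x + F x)) atTop (𝓝 0) := by
    refine squeeze_zero (fun k => R80.nr_nonneg _ _) (fun k => ?_) h3
    rw [R80.nr_congr hm (g := fun x => ∇ (fun x => U k x - u x) x - F x)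
      (Eventually.of_forall fun x hx => by rw [(hT k).2.2.2 x hx, sub_sub])]
    exact R80.nr_mono_set (subset_univ _) ((l2_grad_cs (hT k).1 (hT k).2.1).sub' h1.l2)
  refine ⟨f, F, h1, h2, h4, ?_⟩
  have h5 := (h4.comp (tendsto_add_atTop_nat 1)).add h4
  rw [add_zero] at h5
  refine squeeze_zero (fun k => R80.nr_nonneg _ _) (fun k => ?_) h5
  simpa only [sub_sub_sub_cancel_right, Function.comp_apply] using
    R80.nr_sub_le ((hU (k + 1)).sub' hA) ((hU k).sub' hA)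

theorem isob_inner {O : Set E3} (hm : MeasurableSet O) (hb : Bornology.IsBounded O) {A : E3 → E3}
    (hA : L2 O A) {ψ : E3 → ℝ} (hψ : ContDiff ℝ 1 ψ) : L2 O fun x => ⟪A x, ∇ ψ x⟫ := by
  obtain ⟨C, hC⟩ := R80.L2_bound hb (continuous_grad hψ)
  refine hA.of_le_mul (c := C)
    (hA.aestronglyMeasurable.inner (continuous_grad hψ).aestronglyMeasurable)
    (R80.ae_restrict_of hm (Eventually.of_forall fun x hx => ?_))
  refine (norm_inner_le_norm _ _).trans ?_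
  rw [mul_comm]
  exact mul_le_mul_of_nonneg_right (hC x hx) (norm_nonneg _)

theorem isob_est {O : Set E3} (hm : MeasurableSet O) {S : ℝ} (hS : 0 ≤ S) {γ D : E3 → ℝ}
    (hγm : AEStronglyMeasurable γ (volume.restrict O)) (hγ : ∀ x ∈ O, |γ x| ≤ S) {a A J p : E3 → E3}
    (ha : L2 O a) (hA : L2 O A) (hJ : L2 O J) (hp : L2 O p) (hD : IntegrableOn D O)
    (hle : ∀ x ∈ O, ‖J x - γ x • a x‖ ^ 2 ≤ D x) :
    |(∫ x in O, γ x * ⟪A x, p x⟫) - ∫ x in O, ⟪J x, p x⟫| ≤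
      (S * nr O (fun x => a x - A x) + √(∫ x in O, D x)) * nr O p := by
  have hn : ∀ (B : E3 → E3), ∀ᵐ x : E3, x ∈ O → ‖γ x • B x‖ ≤ S * ‖B x‖ := fun B =>
    Eventually.of_forall fun x hx => by
      rw [norm_smul]
      exact mul_le_mul_of_nonneg_right (hγ x hx) (norm_nonneg _)
  have hs : ∀ {B : E3 → E3}, L2 O B → L2 O fun x => γ x • B x := fun {B} hB =>
    hB.of_le_mul (c := S) (hγm.smul hB.aestronglyMeasurable) (R80.ae_restrict_of hm (hn B))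
  have key : ∀ {B : E3 → E3}, L2 O B → IntegrableOn (fun x => ⟪B x, p x⟫) O ∧
      |∫ x in O, ⟪B x, p x⟫| ≤ nr O B * nr O p := fun {B} hB => by
    simpa only [one_mul] using abs_integral_mul_inner_le (γ := fun _ => 1) (S := 1) measurable_const
      (fun _ => abs_one.le) hB hp
  have h1 := hs (ha.sub' hA)
  have h2 := hJ.sub' (hs ha)
  have e : (∫ x in O, γ x * ⟪A x, p x⟫) - ∫ x in O, ⟪J x, p x⟫ =
      -∫ x in O, ⟪γ x • (a x - A x) + (J x - γ x • a x), p x⟫ := by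
    have e1 := integral_sub (key (hs hA)).1 (key hJ).1
    simp only [real_inner_smul_left] at e1
    rw [← e1, ← integral_neg]
    congr 1
    funext x
    simp only [inner_add_left, inner_sub_left, real_inner_smul_left]
    ring
  rw [e, abs_neg]
  refine (key (h1.add' h2)).2.trans (mul_le_mul_of_nonneg_right ?_ (R80.nr_nonneg _ _))
  refine (R80.nr_add_le h1 h2).trans (add_le_add (R80.nr_le_mul_of_le hm (ha.sub' hA) hS (hn _)) ?_)
  refine Real.le_sqrt_of_sq_le ?_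
  rw [R80.nr_sq h2]
  exact setIntegral_mono_on h2.integrableOn_sq hD hm hle

theorem iso {c : ℝ} (hc : 0 < c) : ∃ S : ℝ, 1 ≤ S ∧ ∀ (O : Set E3) (u v : E3 → ℝ) (J K : E3 → E3),
    IsOpen O → Bornology.IsBounded O → (∀ x ∈ O, Good c u v J K x) → L2 O (∇ u) → L2 O (∇ v) →
      ∀ δ : ℝ, 0 < δ → ∃ (γ f g : E3 → ℝ) (F G : E3 → E3), Measurable γ ∧
        (∀ x, S⁻¹ ≤ γ x ∧ γ x ≤ S) ∧ H1 O f F ∧ H1 O g G ∧ (∀ x, |f x| ≤ δ ∧ |g x| ≤ δ) ∧
        ∀ ψ : E3 → ℝ, ContDiff ℝ 1 ψ →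
          ∫ x in O, γ x * ⟪∇ u x + F x, ∇ ψ x⟫ = ∫ x in O, ⟪J x, ∇ ψ x⟫ ∧
          ∫ x in O, γ x * ⟪∇ v x + G x, ∇ ψ x⟫ = ∫ x in O, ⟪K x, ∇ ψ x⟫ := by
  obtain ⟨S, hS, h₀⟩ := init_state hc
  refine ⟨S, hS, fun O u v J K hO hb hG hu hv δ hδ => ?_⟩
  have hS0 : 0 < S := by linarith
  have hm := hO.measurableSet
  obtain ⟨z, rfl, rfl, hz⟩ := h₀ O u v J K hO hG
  have hz' : ∀ x ∈ O, z.Val S x := fun x hx => (hz x hx).1
  obtain ⟨κ, Z, C, hκ, -, hZ⟩ := iter hS0 hO hz' hu hv hδ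
  have hV : ∀ k, ∀ x ∈ O, (Z k).Val S x := fun k => (hZ k).2.2.1
  have hN : ∀ k, z.Near (Z k) (C k) δ := fun k => (hZ k).2.2.2.1
  have hT := fun k => St.Near.test (hZ k).1 (hZ k).2.1 (hN k) hz' (hV k)
  have hL := fun k => St.Near.l2 hO (hZ k).1 (hZ k).2.1 (hN k) hz' (hV k) hu hv
  have hB := fun k => grad_bound hS0 hO (hZ k).1 (hZ k).2.1 (hN k) hz' (hV k) hu hv
  have hJ := fun k => St.l2_J hO (hV k) (hL k).1 (hL k).2
  obtain ⟨f, F, hf, hfδ, hF, hF'⟩ := isob_one (U := fun k => (Z k).u) hm hu (fun k => (hL k).1)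
    (fun k => (hB k).1)
    (fun k => ⟨(hT k).1.1, (hT k).1.2.1, (hT k).1.2.2.1.trans (hZ k).2.1, (hT k).1.2.2.2⟩)
    (fun k x => ((hN k).cl x).1) (fun k x => ((hZ k).2.2.2.2.1.cl x).1)
    fun k j hj => ((hZ k).2.2.2.2.2.2 j hj).1
  obtain ⟨g, G, hg, hgδ, hG1, hG'⟩ := isob_one (U := fun k => (Z k).v) hm hv (fun k => (hL k).2)
    (fun k => (hB k).2)
    (fun k => ⟨(hT k).2.1, (hT k).2.2.1, (hT k).2.2.2.1.trans (hZ k).2.1, (hT k).2.2.2.2⟩)
    (fun k x => ((hN k).cl x).2) (fun k x => ((hZ k).2.2.2.2.1.cl x).2)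
    fun k j hj => ((hZ k).2.2.2.2.2.2 j hj).2
  have hA : L2 O fun x => ∇ z.u x + F x := hu.add' (hf.l2.mono_set (subset_univ _))
  have hA' : L2 O fun x => ∇ z.v x + G x := hv.add' (hg.l2.mono_set (subset_univ _))
  have hγm : ∀ k, AEStronglyMeasurable (Z k).gam (volume.restrict O) := fun k =>
    ContinuousOn.aestronglyMeasurable
      (fun x hx => (hV k x hx).toVal0.continuousAt_D.2.continuousWithinAt) hm
  have hγ : ∀ k, ∀ x ∈ O, S⁻¹ ≤ (Z k).gam x ∧ (Z k).gam x ≤ S := fun k x hx =>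
    gam_bounds (hV k x hx).sym (hV k x hx).ell (hV k x hx).ind
  have hγa : ∀ k, ∀ x ∈ O, |(Z k).gam x| ≤ S := fun k x hx =>
    abs_le.2 ⟨by linarith [(hγ k x hx).1, inv_pos.2 hS0], (hγ k x hx).2⟩
  have hD : Tendsto (fun k => ∫ x in O, (Z k).D x) atTop (𝓝 0) := by
    have h1 := ((hF'.pow 2).add (hG'.pow 2)).const_mul κ⁻¹
    simp only [ne_eq, OfNat.ofNat_ne_zero, not_false_eq_true, zero_pow, add_zero, mul_zero] at h1
    refine squeeze_zero (fun k => integral_nonneg fun x => dfc_nonneg _ _ _) (fun k => ?_) h1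
    have a1 := (hL (k + 1)).1.sub' (hL k).1
    have a2 := (hL (k + 1)).2.sub' (hL k).2
    rw [le_inv_mul_iff₀ hκ, R80.nr_sq a1, R80.nr_sq a2,
      ← integral_add a1.integrableOn_sq a2.integrableOn_sq]
    exact (hZ k).2.2.2.2.2.1
  have hε := ((hF.add hG1).const_mul S).add hD.sqrt
  simp only [add_zero, mul_zero, Real.sqrt_zero] at hε
  obtain ⟨γ, hγ1, hγ2, hγ3⟩ := weak_gam hm hb ((inv_le_one_of_one_le₀ hS).trans hS) hγm hγ
    (ι := Bool × {ψ : E3 → ℝ // ContDiff ℝ 1 ψ})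
    (h := fun i x => ⟪cond i.1 (∇ z.u x + F x) (∇ z.v x + G x), ∇ i.2.1 x⟫)
    (t := fun i => ∫ x in O, ⟪cond i.1 (J x) (K x), ∇ i.2.1 x⟫) (w := fun i => nr O (∇ i.2.1))
    (by
      rintro ⟨_ | _, ψ, hψ⟩
      · exact isob_inner hm hb hA' hψ
      · exact isob_inner hm hb hA hψ)
    (fun i => R80.nr_nonneg _ _) hε
    (by
      rintro k ⟨b, ψ, hψ⟩
      have hp := l2_grad hm hb hψ
      obtain ⟨e1, e2⟩ := flux_const hO hb (hZ k).1 (hZ k).2.1 (hN k) hz' (hV k) hu hv hψ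
      rw [setIntegral_congr_fun hm (f := fun x => ⟪z.J x, ∇ ψ x⟫) (g := fun x => ⟪J x, ∇ ψ x⟫) fun x hx => by
        simp only [(hz x hx).2.1]] at e1
      rw [setIntegral_congr_fun hm (f := fun x => ⟪z.K x, ∇ ψ x⟫) (g := fun x => ⟪K x, ∇ ψ x⟫) fun x hx => by
        simp only [(hz x hx).2.2]] at e2
      have n1 := mul_nonneg hS0.le (R80.nr_nonneg O fun x => ∇ (Z k).u x - (∇ z.u x + F x))
      have n2 := mul_nonneg hS0.le (R80.nr_nonneg O fun x => ∇ (Z k).v x - (∇ z.v x + G x))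
      cases b
      · simp only [cond_false]
        rw [← e2]
        refine (isob_est hm hS0.le (hγm k) (hγa k) (hL k).2 hA' (hJ k).2.1 hp (hJ k).2.2
          fun x _ => le_add_of_nonneg_left (sq_nonneg _)).trans ?_
        exact mul_le_mul_of_nonneg_right (by linarith) (R80.nr_nonneg _ _)
      · simp only [cond_true]
        rw [← e1]
        refine (isob_est hm hS0.le (hγm k) (hγa k) (hL k).1 hA (hJ k).1 hp (hJ k).2.2
          fun x _ => le_add_of_nonneg_right (sq_nonneg _)).trans ?_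
        exact mul_le_mul_of_nonneg_right (by linarith) (R80.nr_nonneg _ _))
  exact ⟨γ, f, g, F, G, hγ1, hγ2, hf, hg, fun x => ⟨hfδ x, hgδ x⟩,
    fun ψ hψ => ⟨hγ3 (true, ⟨ψ, hψ⟩), hγ3 (false, ⟨ψ, hψ⟩)⟩⟩

end Crest.Agent.R83
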