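import Crest.Agent.R83.Prof

/-!
# Row 83: the model leg

* at every point only finitely many modes are alive: for `155 ≤ t` none (`sv n t ≥ 160`), for `t < 155`
  `sv n t → -∞`.
* stage `n`: `0 < sv n t < 80`; then `sv k t > 80` for `k < n` (`sv_succ`: `sv k = sv (k+1) / 2 + 80`) and
  `sv k t < -148` for `k ≥ n + 2` (`sv (n+1) < 0`, `sv (n+2) < -160`), so near `y` the sums reduce to the
  modes `n, n + 1` (`tsum_eq_sum`), `mB n = 0`, `mG (n + 1) = 0` near `y` (`mB_ev`, `mG_ev`).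
  `two_prof` with the even one of `n, n + 1` as first profile; `m = 2^(n+1)` for the dying mode `n`,
  `m = 2^n` for the mode `n + 1` being born (`2^(n+1) = 2 * 2^n`).
* `ae_stage`: off the countable set `⋃ n, {t | sv n t ∈ Jn}`; take the largest `n` with `0 < sv n t`.
-/

namespace Crest.Agent.R83

open MeasureTheory Set Metric Filter Topology
open scoped Gradient RealInnerProductSpace NNReal

noncomputable def Ld (y : E3) : ℝ := ∑' n, mD n y
noncomputable def Lα (y : E3) : ℝ := ∑' n, if Even n then 0 else mQ n y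
noncomputable def Lβ (y : E3) : ℝ := ∑' n, if Even n then mQ n y else 0
noncomputable def LΞ (y : E3) : ℝ := ∑' n, mX n y

/-- generic points of stage `n` -/
def Stage (n : ℕ) : Set E3 := {y | 0 < y 0 ∧ 0 < sv n (y 0) ∧ sv n (y 0) < 80 ∧ sv n (y 0) ∉ Jn ∧
  sv (n + 1) (y 0) ∉ Jn ∧ Real.sin (2 ^ n * y (dir n)) ≠ 0}

/-! ### part a -/

theorem lega_fin : Jn.Finite := by
  unfold Jn
  exact Set.toFinite _

theorem isOpen_stage (n : ℕ) : IsOpen (Stage n) := by
  have hJ : IsOpen Jnᶜ := lega_fin.isClosed.isOpen_compl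
  have h0 : Continuous fun y : E3 => y 0 := by fun_prop
  have h1 : Continuous fun y : E3 => Real.sin (2 ^ n * y (dir n)) := by fun_prop
  have hs : ∀ k, Continuous fun y : E3 => sv k (y 0) := fun k => by unfold sv; fun_prop
  exact (isOpen_lt continuous_const h0).inter ((isOpen_lt continuous_const (hs n)).inter
    ((isOpen_lt (hs n) continuous_const).inter ((hJ.preimage (hs n)).inter
      ((hJ.preimage (hs (n + 1))).inter (isOpen_ne_fun h1 continuous_const)))))

theorem lega_ev {t : ℝ} (ht : t < 155) : ∃ N, ∀ n ≥ N, sv n t ≤ -148 := by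
  obtain ⟨N, hN⟩ := eventually_atTop.1 ((tendsto_pow_atTop_atTop_of_one_lt (one_lt_two (α := ℝ))).eventually
    (eventually_ge_atTop (308 / (155 - t))))
  refine ⟨N, fun n hn => ?_⟩
  have := (div_le_iff₀ (by linarith)).1 (hN n hn)
  unfold sv
  linarith

theorem ae_stage : ∀ᵐ y : E3, 0 < y 0 → y 0 < TT → ∃ n, y ∈ Stage n := by
  classical
  have hc : (⋃ n, sv n ⁻¹' Jn).Countable := countable_iUnion fun n =>
    (lega_fin.preimage fun a _ b _ h => by
      have h2 : (2 : ℝ) ^ n ≠ 0 := by positivity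
      have := mul_left_cancel₀ h2 (add_right_cancel h)
      linarith).countable
  filter_upwards [ae_coord_notMem 0 hc, ae_all_iff.2 ae_sin_ne] with y h1 h2 h3 h4
  have hJ : ∀ n, sv n (y 0) ∉ Jn := fun n h => h1 (mem_iUnion.2 ⟨n, h⟩)
  have hex : ∃ n, sv (n + 1) (y 0) ≤ 0 := by
    obtain ⟨N, hN⟩ := lega_ev h4
    exact ⟨N, by linarith [hN (N + 1) N.le_succ]⟩
  have h5 := Nat.find_spec hex
  refine ⟨Nat.find hex, h3, ?_, lt_of_le_of_ne ?_ fun h => hJ _ (by rw [h]; simp [Jn]), hJ _, hJ _,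
    h2 _ _⟩
  · rcases hn : Nat.find hex with _ | k
    · unfold sv
      linarith
    · exact not_le.1 (Nat.find_min hex (by omega))
  · rw [sv_succ] at h5
    linarith

theorem lega_late {y : E3} (h : TT ≤ y 0) (n : ℕ) : mD n y = 0 ∧ mQ n y = 0 ∧ mX n y = 0 := by
  refine mode_late n ?_
  have := mul_nonneg (pow_nonneg zero_le_two n) (sub_nonneg.2 h)
  unfold sv
  unfold TT at this
  linarith

theorem mode_fin (y : E3) : ∃ N, ∀ n ≥ N, mD n y = 0 ∧ mQ n y = 0 ∧ mX n y = 0 := by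
  rcases le_or_gt TT (y 0) with h | h
  · exact ⟨0, fun n _ => lega_late h n⟩
  · obtain ⟨N, hN⟩ := lega_ev h
    refine ⟨N + 1, fun n hn => ?_⟩
    obtain ⟨k, rfl⟩ : ∃ k, n = k + 1 := ⟨n - 1, by omega⟩
    exact mode_early k (hN _ (by omega))

theorem lega_lip {f : ℕ → E3 → ℝ} {K : ℕ → ℝ} (hK : Summable K) (hf : ∀ y, ∃ N, ∀ n ≥ N, f n y = 0)
    (h : ∀ n x y, |f n x - f n y| ≤ K n * dist x y) : Lip fun y => ∑' n, f n y := by
  have hs : ∀ y, Summable fun n => f n y := fun y => by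
    obtain ⟨N, hN⟩ := hf y
    exact summable_of_ne_finset_zero (s := Finset.range N) fun n hn =>
      hN n (not_lt.1 fun h => hn (Finset.mem_range.2 h))
  refine ⟨_, LipschitzWith.of_dist_le' (K := ∑' n, K n) fun x y => ?_⟩
  rw [dist_eq_norm, ← (hs x).tsum_sub (hs y)]
  exact tsum_of_norm_bounded (hK.hasSum.mul_right _) fun n => h n x y

theorem leg_lip : Lip Ld ∧ Lip Lα ∧ Lip Lβ ∧ Lip LΞ := by
  obtain ⟨K, hK, h⟩ := mode_lip
  refine ⟨lega_lip hK (fun y => ?_) fun n x y => (h n x y).1, lega_lip hK (fun y => ?_) fun n x y => ?_,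
    lega_lip hK (fun y => ?_) fun n x y => ?_, lega_lip hK (fun y => ?_) fun n x y => (h n x y).2.2⟩
  · exact (mode_fin y).imp fun N hN n hn => (hN n hn).1
  · exact (mode_fin y).imp fun N hN n hn => by rw [(hN n hn).2.1, ite_self]
  · split_ifs
    · simpa using (abs_nonneg _).trans (h n x y).1
    · exact (h n x y).2.1
  · exact (mode_fin y).imp fun N hN n hn => by rw [(hN n hn).2.1, ite_self]
  · split_ifs
    · exact (h n x y).2.1
    · simpa using (abs_nonneg _).trans (h n x y).1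
  · exact (mode_fin y).imp fun N hN n hn => (hN n hn).2.2

theorem leg_zero {y : E3} (h : TT ≤ y 0) : Ld y = 0 ∧ Lα y = 0 ∧ Lβ y = 0 ∧ LΞ y = 0 := by
  simp [Ld, Lα, Lβ, LΞ, lega_late h]

theorem leg_init {y : E3} (h0 : 0 ≤ y 0) (h1 : y 0 ≤ 1) : Ld y = Real.log ‖1 + ww (y 0) (y 1)‖ ∧
    Lβ y = -Complex.arg (1 + ww (y 0) (y 1)) ∧ Lα y = 0 ∧ LΞ y = 0 := by
  have h : ∀ n, n ≠ 0 → mD n y = 0 ∧ mQ n y = 0 ∧ mX n y = 0 := fun n hn => by
    obtain ⟨k, rfl⟩ : ∃ k, n = k + 1 := ⟨n - 1, by omega⟩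
    refine mode_early k ?_
    have : (1 : ℝ) ≤ 2 ^ k := one_le_pow₀ one_le_two
    unfold sv
    rw [pow_succ]
    nlinarith
  obtain ⟨c0, c1, c2⟩ := chi_of_le (s := y 0 - 74) (by linarith)
  have hw : wy y = ww (y 0) (y 1) := by rw [wy, max_eq_left h0]
  rw [Ld, Lα, Lβ, LΞ, tsum_eq_single 0 fun n hn => (h n hn).1,
    tsum_eq_single 0 fun n hn => by rw [(h n hn).2.1, ite_self],
    tsum_eq_single 0 fun n hn => by rw [(h n hn).2.1, ite_self],
    tsum_eq_single 0 fun n hn => (h n hn).2.2]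
  simp [mD, mQ, mX, mB, mG, c0, c1, c2, lF, lA, hw]

theorem leg_wa {y : E3} (h : y 1 = 0 ∨ y 1 = Real.pi) : Lβ y = 0 ∧ LΞ y = 0 := by
  have hw := fun n => mode_wall n (i := 1) (by decide) h
  refine ⟨?_, by simp [LΞ, fun n => (hw n).1]⟩
  rw [Lβ, tsum_congr (g := fun _ => 0), tsum_zero]
  intro n
  split_ifs with hn
  · exact (hw n).2 (if_pos hn)
  · rfl

theorem leg_wb {y : E3} (h : y 2 = 0 ∨ y 2 = Real.pi) : Lα y = 0 ∧ LΞ y = 0 := by
  have hw := fun n => mode_wall n (i := 2) (by decide) h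
  refine ⟨?_, by simp [LΞ, fun n => (hw n).1]⟩
  rw [Lα, tsum_congr (g := fun _ => 0), tsum_zero]
  intro n
  split_ifs with hn
  · rfl
  · exact (hw n).2 (if_neg hn)

/-! ### part b -/

theorem legb_lt {k : ℕ} {t : ℝ} (d : ℕ) (h : 0 < sv (k + 1 + d) t) : 80 < sv k t := by
  induction d with
  | zero =>
    rw [add_zero, sv_succ] at h
    linarith
  | succ d ih =>
    rw [← add_assoc, sv_succ] at h
    exact ih (by linarith)

theorem legb_gt {n : ℕ} {t : ℝ} (h : sv n t < 80) (d : ℕ) : sv (n + 1 + d + 1) t < -160 := by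
  induction d with
  | zero =>
    rw [add_zero, sv_succ, sv_succ]
    linarith
  | succ d ih =>
    rw [← add_assoc, sv_succ]
    linarith

theorem legb_zero {n : ℕ} {y : E3} (h1 : 0 < sv n (y 0)) (h2 : sv n (y 0) < 80) {k : ℕ}
    (hk : k ∉ ({n, n + 1} : Finset ℕ)) : mD k y = 0 ∧ mQ k y = 0 ∧ mX k y = 0 := by
  simp only [Finset.mem_insert, Finset.mem_singleton, not_or] at hk
  rcases lt_or_gt_of_ne hk.1 with h | h
  · obtain ⟨d, rfl⟩ : ∃ d, n = k + 1 + d := ⟨n - (k + 1), by omega⟩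
    exact mode_late k (legb_lt d h1).le
  · obtain ⟨d, rfl⟩ : ∃ d, k = n + 1 + d + 1 := ⟨k - (n + 2), by omega⟩
    exact mode_early _ (by linarith [legb_gt h2 d])

theorem stage_sum {n : ℕ} {y : E3} (h1 : 0 < sv n (y 0)) (h2 : sv n (y 0) < 80) :
    Ld y = mD n y + mD (n + 1) y ∧ LΞ y = mX n y + mX (n + 1) y ∧
      Lβ y = (if Even n then mQ n y else mQ (n + 1) y) ∧
      Lα y = (if Even n then mQ (n + 1) y else mQ n y) := by
  have hne : n ≠ n + 1 := by omega
  refine ⟨?_, ?_, ?_, ?_⟩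
  · rw [Ld, tsum_eq_sum (s := {n, n + 1}) fun k hk => (legb_zero h1 h2 hk).1, Finset.sum_pair hne]
  · rw [LΞ, tsum_eq_sum (s := {n, n + 1}) fun k hk => (legb_zero h1 h2 hk).2.2, Finset.sum_pair hne]
  · rw [Lβ, tsum_eq_sum (s := {n, n + 1}) fun k hk => by rw [(legb_zero h1 h2 hk).2.1, ite_self],
      Finset.sum_pair hne]
    by_cases h : Even n <;> simp [h, Nat.even_add_one]
  · rw [Lα, tsum_eq_sum (s := {n, n + 1}) fun k hk => by rw [(legb_zero h1 h2 hk).2.1, ite_self],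
      Finset.sum_pair hne]
    by_cases h : Even n <;> simp [h, Nat.even_add_one]

theorem stage_good {n : ℕ} {y : E3} (h : y ∈ Stage n) : LegAt Ld Lα Lβ LΞ y := by
  have hev : ∀ᶠ x in 𝓝 y, Ld x = mD n x + mD (n + 1) x ∧ LΞ x = mX n x + mX (n + 1) x ∧
      Lβ x = (if Even n then mQ n x else mQ (n + 1) x) ∧
      Lα x = (if Even n then mQ (n + 1) x else mQ n x) := by
    filter_upwards [(isOpen_stage n).mem_nhds h] with x hx using stage_sum hx.2.1 hx.2.2.1
  obtain ⟨h0, h1, h2, hJ, hJ', hsin⟩ := h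
  have h3 : sv (n + 1) (y 0) < 0 := by
    rw [sv_succ]
    linarith
  have hB := mB_ev n (y := y) (Or.inr (by linarith))
  have hG := mG_ev (n + 1) (y := y) (Or.inl (by linarith))
  have p₁ := prof_late n h0 h1 hJ
  have p₂ := prof_early n h3 hJ'
  have b₁ := death_bound n hJ hJ'
  have b₂ := birth_bound n h0 hJ hJ'
  have hne := pd_mD_ne n h0 h1 h2 hJ hsin
  rw [(dir_succ n).1, (dir_succ n).2] at p₂
  have e2 : (2 : ℝ) ^ (n + 1) = 2 * 2 ^ n := by ring
  by_cases hn : Even n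
  · have d1 : dir n = 1 := if_pos hn
    have d2 : odir n = 2 := if_pos hn
    rw [d1, d2] at p₁ p₂ b₁ b₂
    rw [d1] at hne
    refine two_prof (m₁ := 2 ^ (n + 1)) (m₂ := 2 ^ n) (by positivity) (by positivity) p₁ p₂
      (hev.mono fun x hx => hx.1) (hev.mono fun x hx => hx.2.2.1.trans (if_pos hn))
      (hev.mono fun x hx => hx.2.2.2.trans (if_pos hn)) ?_ b₁ b₂ (Or.inl hne)
    filter_upwards [hev, hB, hG] with x hx hxB hxG
    rw [hx.2.1, mX, mX, hxB, hxG, (dir_succ n).2, d1, d2, if_pos hn,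
      if_neg (by simpa [Nat.even_add_one] using hn), ← e2]
    ring
  · have d1 : dir n = 2 := if_neg hn
    have d2 : odir n = 1 := if_neg hn
    rw [d1, d2] at p₁ p₂ b₁ b₂
    rw [d1] at hne
    refine two_prof (m₁ := 2 ^ n) (m₂ := 2 ^ (n + 1)) (by positivity) (by positivity) p₂ p₁
      (hev.mono fun x hx => hx.1.trans (add_comm _ _)) (hev.mono fun x hx => hx.2.2.1.trans (if_neg hn))
      (hev.mono fun x hx => hx.2.2.2.trans (if_neg hn)) ?_ b₂ b₁ (Or.inr hne)
    filter_upwards [hev, hB, hG] with x hx hxB hxG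
    rw [hx.2.1, mX, mX, hxB, hxG, (dir_succ n).2, d1, d2, if_neg hn,
      if_pos (by simpa [Nat.even_add_one] using hn), ← e2]
    ring

theorem exists_leg : ∃ (c : ℝ) (d α β Ξ : E3 → ℝ), 0 < c ∧ Leg c d α β Ξ :=
  ⟨1 / 1000, Ld, Lα, Lβ, LΞ, by norm_num, leg_lip.1, leg_lip.2.1, leg_lip.2.2.1, leg_lip.2.2.2,
    fun _ h => leg_zero h, fun _ h0 h1 => leg_init h0 h1, fun _ h => leg_wa h, fun _ h => leg_wb h, by
      filter_upwards [ae_stage] with y hy h0 h1
      obtain ⟨n, hn⟩ := hy h0 h1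
      filter_upwards [(isOpen_stage n).mem_nhds hn] with y' hy' using stage_good hy'⟩

end Crest.Agent.R83
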