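import Crest.Agent.R83.Plane

/-!
# Row 83: the coordinates in the legs

* part a: `-lg (z - e) ≤ log 10 < 10` (`zz_far`), `lg (z - 1) - log 4 ≤ log 34 < 10` (`zz_le`);
  `tau t = 0` for `t ≤ 10`, `1` for `t ≥ 11`.  If `tau (tc e y) ≠ 0` then `tc e y > 10` is the second
  argument of the `max`, so `ζ < 33/40 + 155/10⁴ < 7/8`; on the wall `ζ = BB s = 3/2 |s - 7e/10|`, so `Lc` and
  `θc` are both `0` or both `π` (`th_of_pos`, `th_of_neg`, `zz_re_lt_iff`).  Same for the outer leg, with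
  `ζ = BB s = |s| / (3/2)` (`BB_of_gt`).
* part b: `det_fderiv_v3`: for `P = (t, a, b')` with `t, a` independent of `y 2` and `∇b' = ε e₂`,
  `det = ε (∂₀t ∂₁a - ∂₁t ∂₀a)` (`det_plane`).  With `ZAff`, `∂₀ z = X' + i Ys`, `∂₁ z = i p'` and `pd_lg_th`:
  `∂₀lg ∂₁th - ∂₁lg ∂₀th = X' p' / |z - e|²`, `∂₀ th = ((X - e) Ys - Y X') / |z - e|²`.
  Null sets: the switching set of the `max` (`ae_ne_of_pd` for the difference of the two arguments, whose
  `∂₁` is nonzero since `p' / |z - e| ≤ 1210 < 10⁴`), and two values of `y 1` (kinks of `tau`).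
  In the first branch `tau = 0` near `y`; in the second `t` depends on `y 1` only, `∂₁ t = ∓10⁴`,
  `∂₀ a = (1 - τ) ∂₀θ + τ ∂₀L`.
-/

namespace Crest.Agent.R83

open MeasureTheory Set Metric Filter Topology
open scoped Gradient RealInnerProductSpace NNReal

variable {e : ℝ} {y : E3}

/-! ### part a -/

theorem tau_of_le {t : ℝ} (h : t ≤ 10) : tau t = 0 := by
  exact cl_of_le (by linarith)

theorem tau_of_ge {t : ℝ} (h : 11 ≤ t) : tau t = 1 := by
  exact cl_of_ge zero_le_one (by linarith)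

theorem neg_lg_lt (he : e = 1 ∨ e = -1) (hy : y ∈ DD) : -lg (zz y - e) < 10 := by
  have h := zz_far he hy
  have h0 : 0 < ‖zz y - e‖ := by linarith
  have h1 := Real.log_le_sub_one_of_pos (inv_pos.2 h0)
  have h2 : ‖zz y - e‖⁻¹ ≤ 10 := (inv_le_comm₀ h0 (by norm_num)).2 (by linarith)
  rw [Real.log_inv] at h1
  unfold lg; linarith

theorem legsa_lg_out (hy : y ∈ DD) : lg (zz y - 1) - Real.log 4 ≤ ‖zz y - 1‖ / 4 - 1 := by
  have h := zz_far (Or.inl rfl) hy
  rw [Complex.ofReal_one] at h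
  have h0 : 0 < ‖zz y - 1‖ := by linarith
  have h1 := Real.log_le_sub_one_of_pos (div_pos h0 four_pos)
  rwa [Real.log_div h0.ne' four_pos.ne'] at h1

theorem lg_out_lt (hy : y ∈ DD) : lg (zz y - 1) - Real.log 4 < 10 := by
  have h := legsa_lg_out hy
  have := zz_le hy
  linarith

theorem tc_pos (he : e = 1 ∨ e = -1) (hy : y ∈ DD) (h : ‖zz y - e‖ < 1) : 0 < tc e y := by
  have h0 : 0 < ‖zz y - e‖ := by linarith [zz_far he hy]
  exact lt_max_of_lt_left (neg_pos.2 (Real.log_neg h0 h))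

theorem tc_lt (he : e = 1 ∨ e = -1) (hy : y ∈ DD) (h : 33 / 40 < y 1) : tc e y < TT := by
  have := neg_lg_lt he hy
  exact max_lt (by unfold TT; linarith) (by linarith)

theorem tc_ge (e : ℝ) (h : y 1 ≤ 33 / 40) : TT ≤ tc e y ∧ ac e y = Lc e y := by
  have h1 : TT ≤ tc e y := le_max_of_le_right (by linarith)
  refine ⟨h1, ?_⟩
  rw [ac, tau_of_ge (le_trans (by norm_num [TT]) h1)]; ring

theorem tc_log (he : e = 1 ∨ e = -1) (hy : y ∈ DD) (h1 : 5 / 6 < ‖zz y - e‖) (h2 : ‖zz y - e‖ < 1) :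
    tc e y = -lg (zz y - e) ∧ tc e y ≤ 1 ∧ ac e y = θc e y := by
  have h0 : 0 < ‖zz y - e‖ := by linarith
  have h3 : 17 / 20 ≤ y 1 := by
    by_contra hc
    linarith [zz_near he hy (not_le.1 hc) (zz_side he h2)]
  have h4 : 0 < -lg (zz y - e) := neg_pos.2 (Real.log_neg h0 h2)
  have h5 : tc e y = -lg (zz y - e) := max_eq_left (by unfold TT; linarith)
  have h6 := Real.log_le_sub_one_of_pos (inv_pos.2 h0)
  have h7 : ‖zz y - e‖⁻¹ ≤ 2 := (inv_le_comm₀ h0 (by norm_num)).2 (by linarith)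
  rw [Real.log_inv] at h6
  have h8 : tc e y ≤ 1 := by rw [h5]; unfold lg; linarith
  refine ⟨h5, h8, ?_⟩
  rw [ac, tau_of_le (by linarith)]; ring

theorem legsa_th (he : e = 1 ∨ e = -1) (hy : y ∈ DD) (hw : y 1 = BB (y 0)) :
    (e * (7 / 10) < y 0 ∧ th (zz y - e) = 0) ∨ (y 0 < e * (7 / 10) ∧ th (zz y - e) = Real.pi) := by
  have hi : (zz y - e).im = 0 := by simpa using (zz_im_eq_zero_iff y).2 hw
  have hr : (zz y - e).re = (zz y).re - e := by simp
  rcases lt_trichotomy (zz y).re e with h | h | h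
  · exact Or.inr ⟨(zz_re_lt_iff he y).1 h, th_of_neg hi (by linarith)⟩
  · have h0 : zz y - e = 0 := Complex.ext (by rw [hr, h]; simp) hi
    have := zz_far he hy
    rw [h0, norm_zero] at this
    norm_num at this
  · exact Or.inl ⟨(zz_re_gt_iff he y).1 h, th_of_pos hi (by linarith)⟩

theorem ac_wall (he : e = 1 ∨ e = -1) (hy : y ∈ DD) (h : ‖zz y - e‖ < 1) (hw : y 1 = BB (y 0)) :
    ac e y = 0 ∨ ac e y = Real.pi := by
  have hp : 0 < y 1 := by linarith [hy.1]
  have key : ac e y = θc e y := by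
    rcases le_or_gt (tc e y) 10 with h1 | h1
    · rw [ac, tau_of_le h1]; ring
    have h2 : 10 < TT - 10 ^ 4 * (y 1 - 33 / 40) :=
      (lt_max_iff.1 h1).resolve_left (neg_lg_lt he hy).not_gt
    have h3 := BB_of_lt he (s := y 0) (by rw [← hw]; unfold TT at h2; linarith) (zz_side he h)
    rw [← hw] at h3
    have h4 : Lc e y = θc e y := by
      rcases legsa_th he hy hw with ⟨a, b⟩ | ⟨a, b⟩
      · rw [abs_of_pos (by linarith)] at h3
        rw [Lc, θc, b, ← h3, div_self hp.ne']; ring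
      · rw [abs_of_neg (by linarith)] at h3
        rw [Lc, θc, b, show 3 / 2 * (y 0 - e * (7 / 10)) = -y 1 by linarith, neg_div,
          div_self hp.ne']; ring
    rw [ac, h4]; ring
  rw [key, θc]
  rcases legsa_th he hy hw with ⟨-, b⟩ | ⟨-, b⟩ <;> rw [b] <;> rcases he with rfl | rfl
  · left; ring
  · right; ring
  · right; ring
  · left; ring

theorem bc_wall (he : e = 1 ∨ e = -1) (hw : y 2 = 0 ∨ y 2 = Real.pi) :
    bc e y = 0 ∨ bc e y = Real.pi := by
  rw [bc]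
  rcases hw with b | b <;> rw [b] <;> rcases he with rfl | rfl
  · right; ring
  · left; ring
  · left; ring
  · right; ring

theorem th_wall (he : e = 1 ∨ e = -1) (hy : y ∈ DD) (hw : y 1 = BB (y 0)) :
    th (zz y - e) = 0 ∨ th (zz y - e) = Real.pi := by
  exact (legsa_th he hy hw).imp And.right And.right

theorem tou_pos (h : 4 < ‖zz y - 1‖) : 0 < tou y := by
  exact lt_max_of_lt_left (sub_pos.2 (Real.log_lt_log four_pos h))

theorem tou_lt (hy : y ∈ DD) (h : y 1 < 1) : tou y < TT := by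
  have := lg_out_lt hy
  exact max_lt (by unfold TT; linarith) (by linarith)

theorem tou_ge (h : 1 ≤ y 1) : TT ≤ tou y ∧ ao y = Lo y := by
  have h1 : TT ≤ tou y := le_max_of_le_right (by linarith)
  refine ⟨h1, ?_⟩
  rw [ao, tau_of_ge (le_trans (by norm_num [TT]) h1)]; ring

theorem tou_log (hy : y ∈ DD) (h1 : 4 < ‖zz y - 1‖) (h2 : ‖zz y - 1‖ < 5) :
    tou y = lg (zz y - 1) - Real.log 4 ∧ tou y ≤ 1 ∧ ao y = th (zz y - 1) := by
  have h3 : y 1 ≤ 39 / 40 := by
    by_contra hc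
    linarith [zz_out hy (not_le.1 hc)]
  have h4 : 0 < lg (zz y - 1) - Real.log 4 := sub_pos.2 (Real.log_lt_log four_pos h1)
  have h5 : tou y = lg (zz y - 1) - Real.log 4 := max_eq_left (by unfold TT; linarith)
  have h8 : tou y ≤ 1 := by rw [h5]; linarith [legsa_lg_out hy]
  refine ⟨h5, h8, ?_⟩
  rw [ao, tau_of_le (by linarith)]; ring

theorem ao_wall (hy : y ∈ DD) (h : 4 < ‖zz y - 1‖) (hw : y 1 = BB (y 0)) :
    ao y = 0 ∨ ao y = Real.pi := by
  have hp : 0 < y 1 := by linarith [hy.1]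
  have hth := legsa_th (Or.inl rfl) hy hw
  rw [Complex.ofReal_one] at hth
  have key : ao y = th (zz y - 1) := by
    rcases le_or_gt (tou y) 10 with h1 | h1
    · rw [ao, tau_of_le h1]; ring
    have h2 : 10 < TT + 10 ^ 4 * (y 1 - 1) :=
      (lt_max_iff.1 h1).resolve_left (lg_out_lt hy).not_gt
    have h2' : 49 / 50 < y 1 := by unfold TT at h2; linarith
    have h3 := BB_of_gt (s := y 0) (by rw [← hw]; linarith)
    rw [← hw] at h3
    have h4 : Lo y = th (zz y - 1) := by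
      rcases hth with ⟨a, b⟩ | ⟨a, b⟩
      · rw [abs_of_pos (by linarith)] at h3
        rw [Lo, b, show y 0 = 3 / 2 * y 1 by linarith, div_self (by positivity)]; ring
      · have h5 : y 0 < 0 := by
          by_contra hc
          rw [abs_of_nonneg (not_lt.1 hc)] at h3
          linarith
        rw [abs_of_neg h5] at h3
        rw [Lo, b, show y 0 = -(3 / 2 * y 1) by linarith, neg_div, div_self (by positivity)]; ring
    rw [ao, h4]; ring
  rw [key]
  exact hth.imp And.right And.right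

/-! local Lipschitz continuity on `UU` (`ll_Th`, `lip_zz`, `ll_smooth_comp`, `Th_mem_DD`) -/

theorem ll_zx : LocallyLipschitzOn UU zx := by
  exact ll_lip_comp (g := zz) (F := Th) lip_zz ll_Th

theorem ll_lg_th (he : e = 1 ∨ e = -1) : LocallyLipschitzOn UU (fun x => lg (zx x - e)) ∧
    LocallyLipschitzOn UU fun x => th (zx x - e) := by
  have h0 : LocallyLipschitzOn UU fun x => zx x - e :=
    ll_smooth_comp (g := fun z : ℂ => z - e) ll_zx fun x _ => (contDiff_id.sub contDiff_const).contDiffAt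
  have h1 : ∀ x ∈ UU, zx x - e ≠ 0 := fun x hx h => by
    have := zz_far he (Th_mem_DD hx)
    rw [show zz (Th x) - e = 0 from h, norm_zero] at this
    norm_num at this
  refine ⟨ll_smooth_comp h0 fun x hx => (contDiffAt_lg (h1 x hx)).of_le (by norm_num),
    ll_smooth_comp h0 fun x hx => (contDiffAt_th (h1 x hx) ?_).of_le (by norm_num)⟩
  simpa [zx] using zz_im_nonneg (Th_mem_DD hx)

theorem legsa2_c (c : ℝ) : LocallyLipschitzOn UU fun _ : E3 => c := (Lip.const c).loc _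

theorem legsa2_tau : Lip tau :=
  (lip_cl 0 1).comp (Lip.sub (f := fun t : ℝ => t) ⟨1, LipschitzWith.id⟩ (Lip.const 10))

theorem legsa2_ne {x : E3} (hx : x ∈ UU) : Th x 1 ≠ 0 := by
  have := (Th_mem_DD hx).1
  intro h
  rw [h] at this
  norm_num at this

theorem ll_Pc (he : e = 1 ∨ e = -1) : LocallyLipschitzOn UU (Pc e ∘ Th) := by
  obtain ⟨h1, h2⟩ := ll_lg_th he
  have c := legsa2_c
  have t0 := ll_coord ll_Th 0
  have t1 := ll_coord ll_Th 1
  have t2 := ll_coord ll_Th 2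
  have a1 : LocallyLipschitzOn UU fun x => tc e (Th x) :=
    ll_max (ll_lip_comp (g := fun r : ℝ => -r) (Lip.neg ⟨1, LipschitzWith.id⟩) h1)
      (ll_sub (c _) (ll_mul (c _) (ll_sub t1 (c _))))
  have a2 : LocallyLipschitzOn UU fun x => θc e (Th x) :=
    ll_add (c _) (ll_mul (c _) (ll_sub h2 (c _)))
  have a3 : LocallyLipschitzOn UU fun x => Lc e (Th x) :=
    ll_sub (c _) (ll_mul (c _) (ll_mul (c _)
      (ll_div (ll_mul (c _) (ll_sub t0 (c _))) t1 fun x hx => legsa2_ne hx)))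
  exact ll_v3 a1 (ll_add a2 (ll_mul (ll_lip_comp legsa2_tau a1) (ll_sub a3 a2)))
    (ll_sub (c _) (ll_mul (c _) (ll_sub t2 (c _))))

theorem ll_Po : LocallyLipschitzOn UU (Po ∘ Th) := by
  obtain ⟨h1, h2⟩ := ll_lg_th (e := 1) (Or.inl rfl)
  rw [Complex.ofReal_one] at h1 h2
  have c := legsa2_c
  have t0 := ll_coord ll_Th 0
  have t1 := ll_coord ll_Th 1
  have t2 := ll_coord ll_Th 2
  have a1 : LocallyLipschitzOn UU fun x => tou (Th x) :=
    ll_max (ll_sub h1 (c _)) (ll_add (c _) (ll_mul (c _) (ll_sub t1 (c _))))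
  have a3 : LocallyLipschitzOn UU fun x => Lo (Th x) :=
    ll_div (ll_mul (c _) (ll_sub (c _) (ll_div t0 (ll_mul (c _) t1)
      fun x hx => mul_ne_zero (by norm_num) (legsa2_ne hx)))) (c _) fun x _ => two_ne_zero
  exact ll_v3 a1 (ll_add h2 (ll_mul (ll_lip_comp legsa2_tau a1) (ll_sub a3 h2))) t2

theorem ll_Zm : LocallyLipschitzOn UU (Zm ∘ Th) := by
  exact ll_lip_comp (g := Zm) (F := Th) lip_Zm ll_Th

/-! ### part b -/

theorem det_plane {t a b : E3 → ℝ} {ε : ℝ} (ht : DifferentiableAt ℝ t y) (ha : DifferentiableAt ℝ a y)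
    (hb : DifferentiableAt ℝ b y) (h0 : ∇ b y = ε • ee 2) :
    (fderiv ℝ (fun x => v3 (t x) (a x) (b x)) y).det = ε * (pd 0 t y * pd 1 a y - pd 1 t y * pd 0 a y) := by
  rw [det_fderiv_v3 ht ha hb, h0, real_inner_smul_right, inner_ee, fx, ← grad_apply, ← grad_apply,
    ← grad_apply, ← grad_apply]
  rfl

theorem legsb_crd (i : Fin 3) (c : ℝ) (y : E3) : HasFDerivAt (fun y' : E3 => ((y' i - c : ℝ) : ℂ))
    (Complex.ofRealCLM.comp (EuclideanSpace.proj i : E3 →L[ℝ] ℝ)) y :=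
  Complex.ofRealCLM.hasFDerivAt.comp y
    ((EuclideanSpace.proj i : E3 →L[ℝ] ℝ).hasFDerivAt.sub_const c)

theorem legsb_cd (i : Fin 3) (c : ℝ) : ContDiff ℝ 2 fun y' : E3 => ((y' i - c : ℝ) : ℂ) :=
  Complex.ofRealCLM.contDiff.comp ((EuclideanSpace.proj i : E3 →L[ℝ] ℝ).contDiff.sub contDiff_const)

theorem ZAff.smooth {X' Ys p' : ℝ} (h : ZAff y X' Ys p') : ContDiffAt ℝ 2 zz y ∧
    fderiv ℝ zz y (ee 0) = X' + Ys * Complex.I ∧ fderiv ℝ zz y (ee 1) = p' * Complex.I := by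
  have hd := (((legsb_crd 0 (y 0) y).const_mul (X' + Ys * Complex.I)).const_add (zz y)).fun_add
    ((legsb_crd 1 (y 1) y).const_mul (p' * Complex.I))
  refine ⟨ContDiffAt.congr_of_eventuallyEq ?_ h.ev, ?_, ?_⟩
  · exact ((contDiff_const.add (contDiff_const.mul (legsb_cd 0 _))).add
      (contDiff_const.mul (legsb_cd 1 _))).contDiffAt
  · rw [h.ev.fderiv_eq, hd.fderiv]
    simp [ee_apply]
  · rw [h.ev.fderiv_eq, hd.fderiv]
    simp [ee_apply]

theorem ZAff.pd {X' Ys p' : ℝ} (h : ZAff y X' Ys p') (he : e = 1 ∨ e = -1) (hy : y ∈ DD) :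
    ContDiffAt ℝ 2 (fun x => lg (zz x - e)) y ∧ ContDiffAt ℝ 2 (fun x => th (zz x - e)) y ∧
      pd 0 (fun x => lg (zz x - e)) y * pd 1 (fun x => th (zz x - e)) y -
        pd 1 (fun x => lg (zz x - e)) y * pd 0 (fun x => th (zz x - e)) y = X' * p' / ‖zz y - e‖ ^ 2 ∧
      pd 0 (fun x => th (zz x - e)) y = (((zz y).re - e) * Ys - (zz y).im * X') / ‖zz y - e‖ ^ 2 ∧
      |pd 1 (fun x => lg (zz x - e)) y| ≤ 1210 := by
  obtain ⟨hs, h0, h1⟩ := h.smooth
  have hfar := zz_far he hy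
  have hn : 0 < ‖zz y - e‖ := by linarith
  have hz : zz y - e ≠ 0 := norm_pos_iff.1 hn
  have hi : 0 ≤ (zz y - e).im := by simpa using zz_im_nonneg hy
  have hf : ContDiffAt ℝ 2 (fun x => zz x - e) y := hs.sub contDiffAt_const
  have hd : DifferentiableAt ℝ (fun x => zz x - e) y := hf.differentiableAt (by simp)
  have e0 := pd_lg_th hd hz hi 0
  have e1 := pd_lg_th hd hz hi 1
  rw [fderiv_sub_const, h0] at e0
  rw [fderiv_sub_const, h1] at e1
  have hN : Complex.normSq (zz y - e) = ‖zz y - e‖ ^ 2 := Complex.normSq_eq_norm_sq _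
  have hN' : ((zz y).re - e) ^ 2 + (zz y).im ^ 2 = ‖zz y - e‖ ^ 2 := by
    rw [← hN, Complex.normSq_apply]; simp; ring
  refine ⟨ContDiffAt.comp (g := lg) y (contDiffAt_lg hz) hf,
    ContDiffAt.comp (g := th) y (contDiffAt_th hz hi) hf, ?_, ?_, ?_⟩
  · rw [e0.1, e0.2, e1.1, e1.2]
    simp only [Complex.div_re, Complex.div_im, hN]
    simp
    field_simp
    rw [← hN']
    ring
  · rw [e0.2]
    simp only [Complex.div_im, hN]
    simp
    field_simp
  · rw [e1.1]
    refine (Complex.abs_re_le_norm _).trans ?_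
    rw [norm_div, norm_mul, Complex.norm_I, mul_one, Complex.norm_real, Real.norm_eq_abs,
      abs_of_pos (by linarith [h.hp.1]), div_le_iff₀ hn]
    linarith [h.hp.2]

theorem gm_Zm : ∀ᵐ y : E3, GM 1 (1 / 8) Zm y := by
  filter_upwards [ae_zaff] with y ⟨X', Ys, p', h⟩
  obtain ⟨hs, h0, h1⟩ := h.smooth
  have hd := (hs.differentiableAt (by simp)).hasFDerivAt
  have hre := Complex.reCLM.hasFDerivAt.comp y hd
  have him := Complex.imCLM.hasFDerivAt.comp y hd
  have h2 : ContDiffAt ℝ 2 (fun x : E3 => x 2) y :=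
    (EuclideanSpace.proj 2 : E3 →L[ℝ] ℝ).contDiff.contDiffAt
  have hZ : ContDiffAt ℝ 2 Zm y := contDiffAt_v3 (Complex.reCLM.contDiff.contDiffAt.comp y hs)
    (Complex.imCLM.contDiff.contDiffAt.comp y hs) h2
  have hdet := det_plane (ε := 1) hre.differentiableAt him.differentiableAt
    (h2.differentiableAt (by simp)) (by rw [grad_coord, one_smul])
  simp only [pd, hre.fderiv, him.fderiv, ContinuousLinearMap.comp_apply, h0, h1] at hdet
  have := GM.of_point (s := 1) (c := 1 / 4) (by norm_num) hZ (by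
    have e : (fderiv ℝ Zm y).det = X' * p' := hdet.trans (by simp)
    rw [e]
    nlinarith [h.hX, h.hp.1])
  exact this.mono (by norm_num)

/-! ### part c -/

theorem legsc_aff (a b : ℝ) (f : E3 → ℝ) (x : E3) (i : Fin 3) :
    pd i (fun y => a * f y + b) x = a * pd i f x := by
  rw [← grad_apply, grad_affine, ← grad_apply]; rfl

theorem legsc_add {f g : E3 → ℝ} {x : E3} (hf : DifferentiableAt ℝ f x) (hg : DifferentiableAt ℝ g x)
    (i : Fin 3) : pd i (fun y => f y + g y) x = pd i f x + pd i g x := by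
  rw [← grad_apply, grad_add hf hg, ← grad_apply, ← grad_apply]; rfl

theorem legsc_sub {f g : E3 → ℝ} {x : E3} (hf : DifferentiableAt ℝ f x) (hg : DifferentiableAt ℝ g x)
    (i : Fin 3) : pd i (fun y => f y - g y) x = pd i f x - pd i g x := by
  rw [← grad_apply, grad_sub hf hg, ← grad_apply, ← grad_apply]; rfl

theorem legsc_mul {f g : E3 → ℝ} {x : E3} (hf : DifferentiableAt ℝ f x) (hg : DifferentiableAt ℝ g x)
    (i : Fin 3) : pd i (fun y => f y * g y) x = f x * pd i g x + g x * pd i f x := by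
  rw [← grad_apply, grad_mul hf hg, ← grad_apply, ← grad_apply]; rfl

theorem legsc_comp {g : ℝ → ℝ} {f : E3 → ℝ} {x : E3} (hg : DifferentiableAt ℝ g (f x))
    (hf : DifferentiableAt ℝ f x) {i : Fin 3} (h0 : pd i f x = 0) : pd i (fun y => g (f y)) x = 0 := by
  rw [← grad_apply, grad_comp_real hg.hasDerivAt hf, PiLp.smul_apply, grad_apply, h0, smul_zero]

theorem legsc_crd (i j : Fin 3) (x : E3) : pd i (fun y : E3 => y j) x = if i = j then 1 else 0 := by
  rw [← grad_apply, grad_coord, ee_apply]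

theorem legsc_cd (j : Fin 3) (x : E3) : ContDiffAt ℝ 2 (fun y : E3 => y j) x :=
  calcb_contDiffAt_crd contDiffAt_id j

theorem legsc_gm (e : ℝ) {t a : E3 → ℝ} (ht : ContDiffAt ℝ 2 t y) (ha : ContDiffAt ℝ 2 a y)
    (h1 : tc e =ᶠ[𝓝 y] t) (h2 : ac e =ᶠ[𝓝 y] a)
    (hd : 1 / 4 ≤ -e * (pd 0 t y * pd 1 a y - pd 1 t y * pd 0 a y)) : GM 1 (1 / 8) (Pc e) y := by
  have eb : bc e = fun x : E3 => -e * x 2 + (Real.pi / 2 + e * (Real.pi / 2)) := by
    funext x; unfold bc; ring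
  have hb : ContDiffAt ℝ 2 (bc e) y := by
    rw [eb]; exact (contDiffAt_const.mul (legsc_cd 2 y)).add contDiffAt_const
  have hP : Pc e =ᶠ[𝓝 y] fun x => v3 (t x) (a x) (bc e x) := by
    filter_upwards [h1, h2] with x e1 e2
    rw [Pc, e1, e2]
  have := GM.of_point (s := 1) (c := 1 / 4) (by norm_num) ((contDiffAt_v3 ht ha hb).congr_of_eventuallyEq hP)
    (by
      rw [hP.fderiv_eq, det_plane (ε := -e) (ht.differentiableAt (by norm_num))
        (ha.differentiableAt (by norm_num)) (hb.differentiableAt (by norm_num))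
        (by rw [eb, grad_affine, grad_coord]), one_mul]
      exact hd)
  exact this.mono (by norm_num)

theorem legsc_L (e : ℝ) (hy : 0 < y 1) : ContDiffAt ℝ 2 (Lc e) y ∧
    pd 0 (Lc e) y = -(e * (Real.pi / 2 * (3 / 2))) * (y 1)⁻¹ := by
  have eL : Lc e = fun x : E3 => -(e * (Real.pi / 2 * (3 / 2))) *
      ((1 * x 0 + -(e * (7 / 10))) * (x 1)⁻¹) + Real.pi / 2 := by
    funext x; unfold Lc; ring
  have c0 : ContDiffAt ℝ 2 (fun x : E3 => 1 * x 0 + -(e * (7 / 10))) y :=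
    (contDiffAt_const.mul (legsc_cd 0 y)).add contDiffAt_const
  have c1 : ContDiffAt ℝ 2 (fun x : E3 => (x 1)⁻¹) y := (legsc_cd 1 y).inv hy.ne'
  rw [eL]
  refine ⟨(contDiffAt_const.mul (c0.mul c1)).add contDiffAt_const, ?_⟩
  rw [legsc_aff, legsc_mul (c0.differentiableAt (by norm_num)) (c1.differentiableAt (by norm_num)),
    legsc_aff, legsc_crd, legsc_comp (g := fun s => s⁻¹) (differentiableAt_inv hy.ne')
      ((legsc_cd 1 y).differentiableAt (by norm_num)) (by rw [legsc_crd]; simp)]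
  simp

theorem gm_Pc (he : e = 1 ∨ e = -1) : ∀ᵐ y : E3, y ∈ DD → ‖zz y - e‖ < 1 → GM 1 (1 / 8) (Pc e) y := by
  filter_upwards [ae_zaff, ae_ne_of_pd (fun x => (-1 * lg (zz x - e) + 0) -
    (-10 ^ 4 * x 1 + (TT + 10 ^ 4 * (33 / 40)))) 0, ae_coord_ne 1 (33 / 40 + 145 / 10 ^ 4),
    ae_coord_ne 1 (33 / 40 + 144 / 10 ^ 4)] with y hz hne h10 h11 hy hn
  obtain ⟨X', Ys, p', hz⟩ := hz
  obtain ⟨sl, st, hdet, hp0, hp1⟩ := hz.pd he hy
  have he2 : e * e = 1 := by rcases he with rfl | rfl <;> norm_num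
  set f₁ : E3 → ℝ := fun x => -1 * lg (zz x - e) + 0 with hf₁
  set f₂ : E3 → ℝ := fun x => -10 ^ 4 * x 1 + (TT + 10 ^ 4 * (33 / 40)) with hf₂
  have s₁ : ContDiffAt ℝ 2 f₁ y := (contDiffAt_const.mul sl).add contDiffAt_const
  have s₂ : ContDiffAt ℝ 2 f₂ y := (contDiffAt_const.mul (legsc_cd 1 y)).add contDiffAt_const
  have d₁ := s₁.differentiableAt (by norm_num)
  have d₂ := s₂.differentiableAt (by norm_num)
  have p₁ : ∀ i, pd i f₁ y = -1 * pd i (fun x => lg (zz x - e)) y := fun i => legsc_aff _ _ _ _ _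
  have p₂0 : pd 0 f₂ y = 0 := by rw [hf₂, legsc_aff, legsc_crd]; simp
  have p₂1 : pd 1 f₂ y = -10 ^ 4 := by rw [hf₂, legsc_aff, legsc_crd]; simp
  have etc : ∀ x, tc e x = max (f₁ x) (f₂ x) := fun x => by
    unfold tc
    congr 1
    · simp [hf₁]
    · simp only [hf₂]; ring
  have eθ : θc e = fun x => e * th (zz x - e) + (Real.pi / 2 - e * (Real.pi / 2)) := by
    funext x; unfold θc; ring
  have sθ : ContDiffAt ℝ 2 (θc e) y := by
    rw [eθ]; exact (contDiffAt_const.mul st).add contDiffAt_const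
  have pθ : ∀ i, pd i (θc e) y = e * pd i (fun x => th (zz x - e)) y := fun i => by
    rw [eθ, legsc_aff]
  have hfar := zz_far he hy
  have hn0 : 0 < ‖zz y - e‖ ^ 2 := by positivity
  have hn1 : ‖zz y - e‖ ^ 2 ≤ 1 := pow_le_one₀ (norm_nonneg _) hn.le
  have hne' : f₁ y - f₂ y ≠ 0 := hne 1 (d₁.sub d₂) (by
    rw [legsc_sub d₁ d₂, p₁, p₂1]
    have := (abs_le.1 hp1).2
    intro h0
    linarith)
  rcases lt_or_gt_of_ne (sub_ne_zero.1 hne') with hlt | hgt
  · -- the second branch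
    have ev : ∀ᶠ x in 𝓝 y, f₁ x < f₂ x := s₁.continuousAt.eventually_lt s₂.continuousAt hlt
    have h1 : tc e =ᶠ[𝓝 y] f₂ := ev.mono fun x hx => by rw [etc, max_eq_right hx.le]
    have hy1 : 0 < y 1 := by linarith [hy.1]
    obtain ⟨sL, pL⟩ := legsc_L e hy1
    have sτ : ContDiffAt ℝ 2 tau (f₂ y) := by
      refine ContDiffAt.comp (g := cl 0 1) (f := fun t : ℝ => t - 10) _
        (contDiffAt_cl zero_le_one ?_ ?_) (contDiffAt_id.sub contDiffAt_const)
      · intro h0; apply h10; simp only [hf₂, TT] at h0; linarith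
      · intro h0; apply h11; simp only [hf₂, TT] at h0; linarith
    have sτ' : ContDiffAt ℝ 2 (fun x => tau (f₂ x)) y := sτ.comp y s₂
    have dθ := sθ.differentiableAt (by norm_num)
    have dL := sL.differentiableAt (by norm_num)
    have dτ := sτ'.differentiableAt (by norm_num)
    refine legsc_gm e s₂ (a := fun x => θc e x + tau (f₂ x) * (Lc e x - θc e x))
      (sθ.add (sτ'.mul (sL.sub sθ))) h1 (h1.mono fun x hx => by rw [ac, hx]) ?_
    rw [p₂0, p₂1, legsc_add dθ (dτ.fun_mul (dL.fun_sub dθ)) 0, legsc_mul dτ (dL.fun_sub dθ) 0,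
      legsc_sub dL dθ,
      legsc_comp (sτ.differentiableAt (by norm_num)) d₂ p₂0, pL, pθ, hp0]
    have hpos : 0 < f₂ y := by
      have := tc_pos he hy hn
      rwa [etc, max_eq_right hlt.le] at this
    have hc := hz.hc e he hy (by simp only [hf₂, TT] at hpos; linarith) (zz_side he hn)
    have a1 : (((zz y).re - e) * Ys - (zz y).im * X') / ‖zz y - e‖ ^ 2 ≤ -(1 / 4) := by
      rw [div_le_iff₀ hn0]; linarith
    have a2 : 1 / 4 ≤ Real.pi / 2 * (3 / 2) * (y 1)⁻¹ := by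
      rw [← div_eq_mul_inv, le_div_iff₀ hy1]
      linarith [hy.2.1, Real.pi_gt_three]
    obtain ⟨t0, t1⟩ : tau (f₂ y) ∈ Icc (0 : ℝ) 1 := cl_mem zero_le_one _
    generalize (((zz y).re - e) * Ys - (zz y).im * X') / ‖zz y - e‖ ^ 2 = A at a1 ⊢
    generalize tau (f₂ y) = τ at t0 t1 ⊢
    have a3 := mul_le_mul_of_nonneg_left a1 (sub_nonneg.2 t1)
    have a4 := mul_le_mul_of_nonneg_left a2 t0
    have a5 : -e * (0 * pd 1 (fun x => θc e x + tau (f₂ x) * (Lc e x - θc e x)) y - -10 ^ 4 *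
        (e * A + (τ * (-(e * (Real.pi / 2 * (3 / 2))) * (y 1)⁻¹ - e * A) + (Lc e y - θc e y) * 0))) =
        (e * e) * (10 ^ 4 * (τ * (Real.pi / 2 * (3 / 2) * (y 1)⁻¹) - (1 - τ) * A)) := by ring
    rw [a5, he2]
    linarith
  · -- the first branch
    have ev : ∀ᶠ x in 𝓝 y, f₂ x < f₁ x := s₂.continuousAt.eventually_lt s₁.continuousAt hgt
    have ev' : ∀ᶠ x in 𝓝 y, f₁ x < 10 := s₁.continuousAt.eventually_lt continuousAt_const (by
      have := neg_lg_lt he hy
      simp only [hf₁]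
      linarith)
    have h1 : tc e =ᶠ[𝓝 y] f₁ := ev.mono fun x hx => by rw [etc, max_eq_left hx.le]
    refine legsc_gm e s₁ sθ h1 ?_ ?_
    · filter_upwards [h1, ev'] with x e1 e2
      rw [ac, e1, tau_of_le e2.le, zero_mul, add_zero]
    · rw [p₁, p₁, pθ, pθ]
      have a1 : 1 / 4 ≤ X' * p' / ‖zz y - e‖ ^ 2 := by
        rw [le_div_iff₀ hn0]
        nlinarith [hz.hX, hz.hp.1]
      rw [← hdet] at a1
      refine a1.trans (le_of_eq ?_)
      linear_combination (-(pd 0 (fun x => lg (zz x - e)) y * pd 1 (fun x => th (zz x - e)) y -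
        pd 1 (fun x => lg (zz x - e)) y * pd 0 (fun x => th (zz x - e)) y)) * he2

/-! ### part d -/

theorem legsd_line {f : E3 → ℝ} (hf : DifferentiableAt ℝ f y) (i : Fin 3) :
    HasDerivAt (fun s : ℝ => f (y + s • ee i)) (pd i f y) 0 :=
  hf.hasFDerivAt.hasLineDerivAt (ee i)

theorem legsd_pd {f : E3 → ℝ} {g : ℝ → ℝ} {c : ℝ} {i : Fin 3} (hf : DifferentiableAt ℝ f y)
    (h : HasDerivAt g c 0) (hg : ∀ s, f (y + s • ee i) = g s) : pd i f y = c :=
  (legsd_line hf i).unique ((funext hg : (fun s : ℝ => f (y + s • ee i)) = g) ▸ h)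

theorem legsd_tau {t : ℝ} (h1 : t ≠ 10) (h2 : t ≠ 11) : ContDiffAt ℝ 2 tau t := by
  rcases h1.lt_or_gt with h | h
  · exact (contDiffAt_const (c := 0)).congr_of_eventuallyEq
      ((gt_mem_nhds h).mono fun s hs => tau_of_le hs.le)
  rcases h2.lt_or_gt with h' | h'
  · refine (show ContDiffAt ℝ 2 (fun s : ℝ => s - 10) t by fun_prop).congr_of_eventuallyEq ?_
    filter_upwards [Ioo_mem_nhds h h'] with s hs
    rw [tau, cl, min_eq_left (by linarith [hs.2]), max_eq_right (by linarith [hs.1])]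
  · exact (contDiffAt_const (c := 1)).congr_of_eventuallyEq
      ((lt_mem_nhds h').mono fun s hs => tau_of_ge hs.le)

theorem legsd_gm {t a : E3 → ℝ} (ht : ContDiffAt ℝ 2 t y) (ha : ContDiffAt ℝ 2 a y)
    (h : Po =ᶠ[𝓝 y] fun x => v3 (t x) (a x) (x 2))
    (hd : 2 / 10 ^ 4 ≤ pd 0 t y * pd 1 a y - pd 1 t y * pd 0 a y) : GM 1 (1 / 10 ^ 4) Po y := by
  have h2 : ContDiffAt ℝ 2 (fun x : E3 => x 2) y := by fun_prop
  have := GM.of_point (s := 1) (c := 2 / 10 ^ 4) (by norm_num)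
    ((contDiffAt_v3 ht ha h2).congr_of_eventuallyEq h) (by
      rw [h.fderiv_eq, det_plane (ε := 1) (ht.differentiableAt two_ne_zero) (ha.differentiableAt two_ne_zero)
        (h2.differentiableAt two_ne_zero) (by rw [grad_coord, one_smul]), one_mul, one_mul]
      exact hd)
  convert this using 1
  norm_num

theorem gm_Po : ∀ᵐ y : E3, y ∈ DD → 4 < ‖zz y - 1‖ → GM 1 (1 / 10 ^ 4) Po y := by
  filter_upwards [ae_zaff, ae_ne_of_pd (fun x => lg (zz x - (1 : ℝ)) - Real.log 4 - (TT + 10 ^ 4 * (x 1 - 1))) 0,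
    ae_coord_ne 1 (1 - 145 / 10 ^ 4), ae_coord_ne 1 (1 - 144 / 10 ^ 4)] with y ⟨X', Ys, p', hz⟩ hne k1 k2 hy h4
  obtain ⟨hl, hθ, hdet, hp0, hp1⟩ := hz.pd (e := 1) (Or.inl rfl) hy
  simp only [Complex.ofReal_one] at hl hθ hdet hp0 hp1 hne
  have hl' := hl.differentiableAt two_ne_zero
  have hθ' := hθ.differentiableAt two_ne_zero
  have hA : ContDiffAt ℝ 2 (fun x => lg (zz x - 1) - Real.log 4) y := hl.sub contDiffAt_const
  have hB : ContDiffAt ℝ 2 (fun x : E3 => TT + 10 ^ 4 * (x 1 - 1)) y := by fun_prop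
  have hA' := hA.differentiableAt two_ne_zero
  have hB' := hB.differentiableAt two_ne_zero
  have pA : ∀ i, pd i (fun x => lg (zz x - 1) - Real.log 4) y = pd i (fun x => lg (zz x - 1)) y := fun i =>
    legsd_pd hA' ((legsd_line hl' i).sub_const (Real.log 4)) fun _ => rfl
  have dB : HasDerivAt (fun s : ℝ => TT + 10 ^ 4 * (y 1 + s - 1)) (10 ^ 4) 0 := by
    simpa using ((((hasDerivAt_id (0 : ℝ)).const_add (y 1)).sub_const 1).const_mul (10 ^ 4)).const_add TT
  have hN : 0 < ‖zz y - 1‖ ^ 2 ∧ ‖zz y - 1‖ ^ 2 ≤ 34 ^ 2 :=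
    ⟨by positivity, pow_le_pow_left₀ (norm_nonneg _) (zz_le hy) 2⟩
  have hne' := hne 1 (hA'.sub hB') (by
    rw [legsd_pd (hA'.fun_sub hB') (((legsd_line hl' 1).sub_const (Real.log 4)).fun_sub dB)
      fun s => by simp [ee_apply]]
    linarith [(abs_le.1 hp1).2])
  rcases (sub_ne_zero.1 hne').lt_or_gt with h | h
  · -- the leg
    have hy1 : 39 / 40 < y 1 := by
      have h0 : Real.log 4 < lg (zz y - 1) := Real.log_lt_log (by norm_num) h4
      rw [TT] at h
      linarith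
    have hτ : ContDiffAt ℝ 2 (fun x : E3 => tau (TT + 10 ^ 4 * (x 1 - 1))) y :=
      (legsd_tau (fun h => k1 (by rw [TT] at h; linarith)) fun h => k2 (by rw [TT] at h; linarith)).comp y hB
    have hL : ContDiffAt ℝ 2 Lo y := by
      unfold Lo
      fun_prop (disch := positivity)
    have ha : ContDiffAt ℝ 2 (fun x => th (zz x - 1) +
        tau (TT + 10 ^ 4 * (x 1 - 1)) * (Lo x - th (zz x - 1))) y := hθ.add (hτ.mul (hL.sub hθ))
    refine legsd_gm hB ha ?_ ?_
    · filter_upwards [hA.continuousAt.eventually_lt hB.continuousAt h] with x hx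
      rw [Po, ao, tou, max_eq_right hx.le]
    have dL : HasDerivAt (fun s : ℝ => Real.pi * (1 - (y 0 + s) / (3 / 2 * y 1)) / 2)
        (-(Real.pi / (3 * y 1))) 0 := by
      exact ((((((hasDerivAt_id (0 : ℝ)).const_add (y 0)).div_const (3 / 2 * y 1)).const_sub 1).const_mul
        Real.pi).div_const 2).congr_deriv (by ring)
    rw [legsd_pd hB' (hasDerivAt_const 0 (TT + 10 ^ 4 * (y 1 - 1))) fun s => by simp [ee_apply],
      legsd_pd hB' dB fun s => by simp [ee_apply],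
      legsd_pd (i := 0) (ha.differentiableAt two_ne_zero) ((legsd_line hθ' 0).add
        ((dL.sub (legsd_line hθ' 0)).const_mul (tau (TT + 10 ^ 4 * (y 1 - 1))))) fun s => by
          simp [ee_apply, Lo]]
    have t0 : 0 ≤ tau (TT + 10 ^ 4 * (y 1 - 1)) := le_max_left _ _
    have t1 : tau (TT + 10 ^ 4 * (y 1 - 1)) ≤ 1 := max_le zero_le_one (min_le_right _ _)
    have q1 : pd 0 (fun x => th (zz x - 1)) y ≤ -(1 / 34 ^ 2) := by
      rw [hp0, div_le_iff₀ hN.1]
      linarith [hz.ho hy hy1, hN.2]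
    have q2 : 1 / 34 ^ 2 ≤ Real.pi / (3 * y 1) := by
      rw [le_div_iff₀ (by positivity)]
      linarith [Real.pi_gt_three, hy.2.1]
    nlinarith [mul_nonneg t0 (sub_nonneg.2 q2), mul_nonneg (sub_nonneg.2 t1) (sub_nonneg.2 q1)]
  · -- the logarithmic part
    refine legsd_gm hA hθ ?_ ?_
    · filter_upwards [hB.continuousAt.eventually_lt hA.continuousAt h,
        hA.continuousAt.eventually_lt continuousAt_const (lg_out_lt hy)] with x hx hx'
      rw [Po, ao, tou, max_eq_left hx.le, tau_of_le hx'.le, zero_mul, add_zero]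
    · rw [pA, pA, hdet, le_div_iff₀ hN.1]
      nlinarith [hz.hX, hz.hp.1, hN.2]

end Crest.Agent.R83
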