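import Crest.Agent.R83.Pert

/-!
# Row 83: iteration and limits

* `hs_cauchy`: `‖x_{k+1}‖² = ‖x_k‖² + ‖w_k‖² + 2⟪w_k, x_k⟫`, so `‖x_k‖² + 4 - 4·2^{-k}`-type sequence is
  monotone and bounded; `‖x_m - x_k‖² = ‖x_m‖² - ‖x_k‖² - 2⟪x_m - x_k, x_k⟫`.
* `nested`: minimal-norm elements (`exists_norm_eq_iInf_of_complete_convex`) of a decreasing sequence
  of closed convex bounded sets are Cauchy (parallelogram law).
* `weak_gam`: in `Lp ℝ 2 (volume.restrict O)` the sets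
  `{g | a ≤ g ≤ b a.e., ∀ i, |∫ g h_i - t_i| ≤ ε_N w_i}` (`ε` antitone wlog: replace by the tail
  supremum) are closed, convex, nonempty; clamp a measurable representative.
* `flux_const`, `energy_const`: `integral_dv_zero'` for `J' - J`, `integral_dv_zero` for `J'` against
  `u' - u`.
* `iter`: recursion with `pert`; at step `k` choose `δ_k ≤ δ 2^{-k-1}` from `weak_small` for the finitely
  many fields `∇(u_j - u_0)`, `∇(v_j - v_0)`, `j ≤ k`, with `M = 4 B` where `B` bounds all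
  `nr O (∇ u_k)` (`grad_bound`).
-/

namespace Crest.Agent.R83

open MeasureTheory Set Metric Filter Topology
open scoped Gradient RealInnerProductSpace NNReal
open Crest.Agent.R80 (L2 nr)

/-! ### part a -/

theorem lima_cauchy {H : Type*} [NormedAddCommGroup H] {x : ℕ → H} {a : ℕ → ℝ} {B : ℝ}
    (hB : ∀ k, a k ≤ B) (h : ∀ k m, k ≤ m → ‖x m - x k‖ ^ 2 ≤ a m - a k) : CauchySeq x := by
  have hmono : Monotone a := fun k m hkm => by
    have := h k m hkm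
    nlinarith [sq_nonneg ‖x m - x k‖]
  have hbdd : BddAbove (range a) := ⟨B, by rintro _ ⟨k, rfl⟩; exact hB k⟩
  have ht := tendsto_atTop_ciSup hmono hbdd
  refine cauchySeq_of_le_tendsto_0' (fun k => Real.sqrt ((⨆ i, a i) - a k)) (fun k m hkm => ?_) ?_
  · rw [dist_comm, dist_eq_norm]
    refine Real.le_sqrt_of_sq_le ((h k m hkm).trans ?_)
    linarith [le_ciSup hbdd m]
  · have := ((tendsto_const_nhds (x := ⨆ i, a i)).sub ht).sqrt
    simpa using this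

theorem lima_sq {H : Type*} [NormedAddCommGroup H] [InnerProductSpace ℝ H] (u v : H) :
    ‖u - v‖ ^ 2 = ‖u‖ ^ 2 - ‖v‖ ^ 2 - 2 * ⟪u - v, v⟫ := by
  rw [norm_sub_sq_real, inner_sub_left, real_inner_self_eq_norm_sq]
  ring

theorem hs_cauchy {H : Type*} [NormedAddCommGroup H] [InnerProductSpace ℝ H] {x : ℕ → H} {M : ℝ}
    (hM : ∀ k, ‖x k‖ ≤ M) (h : ∀ k, ∀ j ≤ k, |⟪x (k + 1) - x k, x j⟫| ≤ (1 / 2 : ℝ) ^ k) :
    CauchySeq x := by
  refine lima_cauchy (a := fun k => ‖x k‖ ^ 2 - 4 * (1 / 2 : ℝ) ^ k) (B := M ^ 2) (fun k => ?_) ?_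
  · have h1 : ‖x k‖ ^ 2 ≤ M ^ 2 := pow_le_pow_left₀ (norm_nonneg _) (hM k) 2
    have h2 : (0 : ℝ) ≤ (1 / 2) ^ k := by positivity
    linarith
  · intro k m hkm
    have key : ∀ m, k ≤ m → |⟪x m - x k, x k⟫| ≤ 2 * (1 / 2 : ℝ) ^ k - 2 * (1 / 2 : ℝ) ^ m := by
      intro m hm
      induction m, hm using Nat.le_induction with
      | base => simp
      | succ m hm ih =>
        have e : x (m + 1) - x k = (x (m + 1) - x m) + (x m - x k) := by abel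
        rw [e, inner_add_left, pow_succ]
        have := h m k hm
        have h3 := abs_add_le ⟪x (m + 1) - x m, x k⟫ ⟪x m - x k, x k⟫
        linarith
    have h1 := (abs_le.1 (key m hkm)).1
    rw [lima_sq]
    linarith

theorem nested {H : Type*} [NormedAddCommGroup H] [InnerProductSpace ℝ H] [CompleteSpace H]
    {C : ℕ → Set H} (hc : ∀ n, IsClosed (C n)) (hv : ∀ n, Convex ℝ (C n)) (hn : ∀ n, (C n).Nonempty)
    (hm : Antitone C) (hb : Bornology.IsBounded (C 0)) : (⋂ n, C n).Nonempty := by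
  have hex : ∀ n, ∃ v ∈ C n, ∀ w ∈ C n, ⟪(0 : H) - v, w - v⟫ ≤ 0 := fun n => by
    obtain ⟨v, hv1, hv2⟩ := exists_norm_eq_iInf_of_complete_convex (hn n) (hc n).isComplete (hv n) 0
    exact ⟨v, hv1, (norm_eq_iInf_iff_real_inner_le_zero (hv n) hv1).1 hv2⟩
  choose v hvC hvm using hex
  obtain ⟨R, hR⟩ := hb.exists_norm_le
  have hcau : CauchySeq v := by
    refine lima_cauchy (a := fun k => ‖v k‖ ^ 2) (B := R ^ 2) (fun k => ?_) fun k m hkm => ?_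
    · exact pow_le_pow_left₀ (norm_nonneg _) (hR _ (hm (Nat.zero_le k) (hvC k))) 2
    · have := hvm k (v m) (hm hkm (hvC m))
      rw [zero_sub, inner_neg_left, real_inner_comm] at this
      rw [lima_sq]
      linarith
  obtain ⟨y, hy⟩ := cauchySeq_tendsto_of_complete hcau
  refine ⟨y, mem_iInter.2 fun n => (hc n).mem_of_tendsto hy ?_⟩
  filter_upwards [eventually_ge_atTop n] with m hnm using hm hnm (hvC m)

theorem weak_gam {O : Set E3} (hO : MeasurableSet O) (hb : Bornology.IsBounded O) {a b : ℝ}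
    (hab : a ≤ b) {γ : ℕ → E3 → ℝ} (hm : ∀ k, AEStronglyMeasurable (γ k) (volume.restrict O))
    (hγ : ∀ k, ∀ x ∈ O, a ≤ γ k x ∧ γ k x ≤ b) {ι : Type} {h : ι → E3 → ℝ} (hh : ∀ i, L2 O (h i))
    {t w : ι → ℝ} (hw : ∀ i, 0 ≤ w i) {ε : ℕ → ℝ} (hε : Tendsto ε atTop (𝓝 0))
    (he : ∀ k i, |(∫ x in O, γ k x * h i x) - t i| ≤ ε k * w i) :
    ∃ g : E3 → ℝ, Measurable g ∧ (∀ x, a ≤ g x ∧ g x ≤ b) ∧ ∀ i, ∫ x in O, g x * h i x = t i := by
  have := R80.L2_finite hb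
  set μ : Measure E3 := volume.restrict O with hμ
  have hae : ∀ k, ∀ᵐ x ∂μ, a ≤ γ k x ∧ γ k x ≤ b := fun k =>
    (ae_restrict_iff' hO).2 (Eventually.of_forall (hγ k))
  have hbd : ∀ {y : ℝ}, a ≤ y ∧ y ≤ b → ‖y‖ ≤ |a| + |b| := fun {y} hy => by
    rw [Real.norm_eq_abs, abs_le]
    constructor <;> linarith [hy.1, hy.2, le_abs_self b, neg_abs_le a, abs_nonneg a, abs_nonneg b]
  have hγ2 : ∀ k, MemLp (γ k) 2 μ := fun k =>
    MemLp.of_bound (hm k) (|a| + |b|) ((hae k).mono fun x hx => hbd hx)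
  let H : ι → Lp ℝ 2 μ := fun i => (hh i).toLp (h i)
  have hin : ∀ (g : Lp ℝ 2 μ) (i : ι), ⟪H i, g⟫ = ∫ x, g x * h i x ∂μ := fun g i => by
    rw [L2.inner_def]
    refine integral_congr_ae ?_
    filter_upwards [(hh i).coeFn_toLp] with x hx
    simp only [H, hx]
    simp
  let K : Set (Lp ℝ 2 μ) := {g | ∀ᵐ x ∂μ, a ≤ g x ∧ g x ≤ b}
  have hKc : IsClosed K := by
    have e : K = Icc ((memLp_const a).toLp _) ((memLp_const b).toLp _) := by
      ext g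
      simp only [K, mem_ofPred_eq, mem_Icc, ← Lp.coeFn_le, eventually_and]
      refine and_congr ⟨fun h1 => ?_, fun h1 => ?_⟩ ⟨fun h1 => ?_, fun h1 => ?_⟩
      · filter_upwards [h1, (memLp_const (p := 2) (μ := μ) a).coeFn_toLp] with x h2 h3
        rwa [h3]
      · filter_upwards [h1, (memLp_const (p := 2) (μ := μ) a).coeFn_toLp] with x h2 h3
        rwa [h3] at h2
      · filter_upwards [h1, (memLp_const (p := 2) (μ := μ) b).coeFn_toLp] with x h2 h3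
        rwa [h3]
      · filter_upwards [h1, (memLp_const (p := 2) (μ := μ) b).coeFn_toLp] with x h2 h3
        rwa [h3] at h2
    rw [e]
    exact isClosed_Icc
  have hKv : Convex ℝ K := by
    intro f hf g hg s r hs hr hsr
    filter_upwards [hf, hg, Lp.coeFn_add (s • f) (r • g), Lp.coeFn_smul s f, Lp.coeFn_smul r g]
      with x h1 h2 h3 h4 h5
    rw [h3, Pi.add_apply, h4, h5]
    simpa using convex_Icc a b h1 h2 hs hr hsr
  let C : ℕ → Set (Lp ℝ 2 μ) := fun N => K ∩ ⋂ (i : ι) (η : ℝ) (_ : ∀ k, N ≤ k → ε k ≤ η),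
    (innerSL ℝ (H i)) ⁻¹' Icc (t i - η * w i) (t i + η * w i)
  obtain ⟨g, hg⟩ := nested (C := C)
    (fun N => hKc.inter (isClosed_iInter fun i => isClosed_iInter fun η => isClosed_iInter fun _ =>
      isClosed_Icc.preimage (innerSL ℝ (H i)).continuous))
    (fun N => hKv.inter (convex_iInter fun i => convex_iInter fun η => convex_iInter fun _ =>
      (convex_Icc _ _).linear_preimage (innerSL ℝ (H i)).toLinearMap))
    (fun N => by
      refine ⟨(hγ2 N).toLp _, ?_, ?_⟩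
      · filter_upwards [hae N, (hγ2 N).coeFn_toLp] with x h1 h2
        rwa [h2]
      · simp only [mem_iInter, mem_preimage, innerSL_apply_apply, mem_Icc]
        intro i η hη
        have e : ∫ x, (hγ2 N).toLp _ x * h i x ∂μ = ∫ x, γ N x * h i x ∂μ := by
          refine integral_congr_ae ?_
          filter_upwards [(hγ2 N).coeFn_toLp] with x hx
          rw [hx]
        rw [hin, e]
        have h1 := abs_le.1 ((he N i).trans (mul_le_mul_of_nonneg_right (hη N le_rfl) (hw i)))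
        constructor <;> linarith [h1.1, h1.2])
    (fun N N' hN g hg => by
      refine ⟨hg.1, ?_⟩
      have h2 := hg.2
      simp only [mem_iInter] at h2 ⊢
      exact fun i η hη => h2 i η fun k hk => hη k (hN.trans hk))
    (isBounded_iff_forall_norm_le.2 ⟨_, fun g hg =>
      Lp.norm_le_of_ae_bound (C := |a| + |b|) (by positivity)
        ((show ∀ᵐ x ∂μ, a ≤ g x ∧ g x ≤ b from hg.1).mono fun x hx => hbd hx)⟩)
  rw [mem_iInter] at hg
  have hgm : StronglyMeasurable g := Lp.stronglyMeasurable g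
  refine ⟨fun x => max a (min b (g x)), measurable_const.max (measurable_const.min hgm.measurable),
    fun x => ⟨le_max_left _ _, max_le hab (min_le_left _ _)⟩, fun i => ?_⟩
  have e : ∫ x, max a (min b (g x)) * h i x ∂μ = ⟪H i, g⟫ := by
    rw [hin]
    refine integral_congr_ae ?_
    filter_upwards [(hg 0).1] with x hx
    rw [min_eq_right hx.2, max_eq_right hx.1]
  rw [e]
  have key : ∀ η : ℝ, 0 < η → |⟪H i, g⟫ - t i| ≤ η * w i := fun η hη => by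
    obtain ⟨N, hN⟩ := eventually_atTop.1 (hε.eventually (ge_mem_nhds hη))
    have h2 := (hg N).2
    simp only [mem_iInter, mem_preimage, innerSL_apply_apply, mem_Icc] at h2
    have h3 := h2 i η hN
    rw [abs_le]
    constructor <;> linarith [h3.1, h3.2]
  have hlim : Tendsto (fun η : ℝ => η * w i) (𝓝[>] 0) (𝓝 0) := by
    have : Tendsto (fun η : ℝ => η * w i) (𝓝 0) (𝓝 (0 * w i)) := tendsto_id.mul_const _
    rw [zero_mul] at this
    exact this.mono_left nhdsWithin_le_nhds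
  have := ge_of_tendsto hlim (eventually_mem_nhdsWithin.mono fun η hη => key η hη)
  exact sub_eq_zero.1 (abs_nonpos_iff.1 this)

/-! ### part b -/

section
variable {S δ : ℝ} {O C : Set E3} {z z' : St}

theorem limb_meas {F : Type*} [NormedAddCommGroup F] [SecondCountableTopology F] (hO : IsOpen O)
    {J : E3 → F} (hJ : ∀ x ∈ O, ContinuousAt J x) : AEStronglyMeasurable J (volume.restrict O) :=
  ContinuousOn.aestronglyMeasurable (fun x hx => (hJ x hx).continuousWithinAt) hO.measurableSet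

theorem limb_l2 (hO : IsOpen O) {g J : E3 → E3} (hJ : ∀ x ∈ O, ContinuousAt J x)
    (hb : ∀ x ∈ O, ‖J x‖ ≤ S * ‖g x‖) (hg : L2 O g) : L2 O J :=
  hg.of_le_mul (c := S) (limb_meas hO hJ)
    (R80.ae_restrict_of hO.measurableSet (Eventually.of_forall hb))

theorem limb_inner {f g : E3 → E3} (hf : L2 O f) (hg : L2 O g) :
    IntegrableOn (fun x => ⟪f x, g x⟫) O :=
  Integrable.mono' (R80.L2.integrableOn_mul_real (R80.L2.norm' hf) (R80.L2.norm' hg))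
    (hf.aestronglyMeasurable.inner hg.aestronglyMeasurable)
    (Eventually.of_forall fun _ => norm_inner_le_norm _ _)

theorem limb_test {φ : E3 → ℝ} (hφ : ContDiff ℝ 1 φ) (hc : HasCompactSupport φ) (U : Set E3) :
    L2 U (∇ φ) :=
  ((continuous_grad hφ).memLp_of_hasCompactSupport
    (HasCompactSupport.intro hc fun _ hx => grad_eq_zero_of_notMem hx)).restrict U

theorem limb_near (hO : IsOpen O) {u u' φ : E3 → ℝ} (hφ : ContDiff ℝ 1 φ) (hc : HasCompactSupport φ)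
    (h : ∀ x ∈ O, ∇ φ x = ∇ u' x - ∇ u x) (hu : L2 O (∇ u)) : L2 O (∇ u') :=
  R80.L2.congr' hO.measurableSet (R80.L2.add' hu (limb_test hφ hc O))
    (Eventually.of_forall fun x hx => by rw [h x hx]; abel)

theorem limb_flux (hO : IsOpen O) (hC : IsCompact C) (hCO : C ⊆ O) {J J' : E3 → E3}
    (hJ : ∀ x ∈ O, ContDiffAt ℝ 1 J x ∧ dv J x = 0) (hJ' : ∀ x ∈ O, ContDiffAt ℝ 1 J' x ∧ dv J' x = 0)
    (h0 : ∀ x, x ∉ C → J' x = J x) (h2 : L2 O J) (h2' : L2 O J') {ψ : E3 → ℝ}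
    (hψ : ∀ x ∈ O, ContDiffAt ℝ 1 ψ x) (hψ2 : L2 O (∇ ψ)) :
    ∫ x in O, ⟪J' x, ∇ ψ x⟫ = ∫ x in O, ⟪J x, ∇ ψ x⟫ := by
  have h := integral_dv_zero' hO hC hCO (X := fun x => J' x - J x)
    (fun x hx => ⟨(hJ' x hx).1.sub (hJ x hx).1, by
      rw [dv_sub ((hJ' x hx).1.differentiableAt one_ne_zero) ((hJ x hx).1.differentiableAt one_ne_zero),
        (hJ x hx).2, (hJ' x hx).2, sub_zero]⟩)
    (fun x hx => sub_eq_zero.2 (h0 x hx)) hψ
  simp only [inner_sub_left] at h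
  rw [integral_sub (limb_inner h2' hψ2) (limb_inner h2 hψ2)] at h
  exact sub_eq_zero.1 h

theorem limb_energy (hO : IsOpen O) (hC : IsCompact C) (hCO : C ⊆ O) {J J' : E3 → E3}
    (hJ : ∀ x ∈ O, ContDiffAt ℝ 1 J x ∧ dv J x = 0) (hJ' : ∀ x ∈ O, ContDiffAt ℝ 1 J' x ∧ dv J' x = 0)
    (h0 : ∀ x, x ∉ C → J' x = J x) (h2 : L2 O J) (h2' : L2 O J') {u u' φ : E3 → ℝ}
    (hu : ∀ x ∈ O, ContDiffAt ℝ 1 u x) (hu2 : L2 O (∇ u))
    (hφ : ContDiff ℝ 1 φ ∧ HasCompactSupport φ ∧ tsupport φ ⊆ C ∧ ∀ x ∈ O, ∇ φ x = ∇ u' x - ∇ u x) :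
    ∫ x in O, ⟪J' x, ∇ u' x⟫ = ∫ x in O, ⟪J x, ∇ u x⟫ := by
  obtain ⟨h3, h4, h5, h6⟩ := hφ
  have h := integral_dv_zero hO hJ' h3 h4 (h5.trans hCO)
  rw [setIntegral_congr_fun hO.measurableSet
      (g := fun x => ⟪J' x, ∇ u' x⟫ - ⟪J' x, ∇ u x⟫) (fun x hx => by
        simp only [h6 x hx, inner_sub_right]),
    integral_sub (limb_inner h2' (limb_near hO h3 h4 h6 hu2)) (limb_inner h2' hu2)] at h
  rw [sub_eq_zero.1 h, limb_flux hO hC hCO hJ hJ' h0 h2 h2' hu hu2]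

theorem limb_bound (hS : 0 < S) (hO : IsOpen O) {J J' g g' : E3 → E3} (h2 : L2 O J) (h2' : L2 O J')
    (hg : L2 O g) (hg' : L2 O g') (h : ∀ x ∈ O, ‖J x‖ ≤ S * ‖g x‖)
    (h' : ∀ x ∈ O, S⁻¹ * ‖g' x‖ ^ 2 ≤ ⟪J' x, g' x⟫)
    (he : ∫ x in O, ⟪J' x, g' x⟫ = ∫ x in O, ⟪J x, g x⟫) : nr O g' ≤ S * nr O g := by
  have h1 : S⁻¹ * nr O g' ^ 2 ≤ ∫ x in O, ⟪J' x, g' x⟫ := by
    rw [R80.nr_sq hg', ← integral_const_mul]
    exact setIntegral_mono_on ((R80.L2.integrableOn_sq hg').const_mul _) (limb_inner h2' hg')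
      hO.measurableSet h'
  have h3 : ∫ x in O, ⟪J x, g x⟫ ≤ S * nr O g ^ 2 := by
    rw [R80.nr_sq hg, ← integral_const_mul]
    refine setIntegral_mono_on (limb_inner h2 hg) ((R80.L2.integrableOn_sq hg).const_mul _)
      hO.measurableSet fun x hx => (real_inner_le_norm _ _).trans ?_
    rw [sq, ← mul_assoc]
    exact mul_le_mul_of_nonneg_right (h x hx) (norm_nonneg _)
  have h4 : nr O g' ^ 2 ≤ (S * nr O g) ^ 2 := by
    have h5 := (inv_mul_le_iff₀ hS).1 (h1.trans (he.trans_le h3))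
    rw [mul_pow, sq S, mul_assoc]
    exact h5
  exact (pow_le_pow_iff_left₀ (R80.nr_nonneg _ _) (mul_nonneg hS.le (R80.nr_nonneg _ _))
    two_ne_zero).1 h4

theorem St.l2_J (hO : IsOpen O) (hz : ∀ x ∈ O, z.Val S x) (hu : L2 O (∇ z.u)) (hv : L2 O (∇ z.v)) :
    L2 O z.J ∧ L2 O z.K ∧ IntegrableOn z.D O := by
  have hJ : L2 O z.J := limb_l2 hO (fun x hx => (hz x hx).sJ.continuousAt)
    (fun x hx => ((hz x hx).ell.bounds (hz x hx).sym _).2) hu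
  have hK : L2 O z.K := limb_l2 hO (fun x hx => (hz x hx).sK.continuousAt)
    (fun x hx => ((hz x hx).ell.bounds (hz x hx).sym _).2) hv
  refine ⟨hJ, hK, Integrable.mono' ((R80.L2.integrableOn_sq hJ).add (R80.L2.integrableOn_sq hK))
    (limb_meas hO fun x hx => (hz x hx).toVal0.continuousAt_D.1)
    (R80.ae_restrict_of hO.measurableSet (Eventually.of_forall fun x hx => ?_))⟩
  have h := dfc_le (z.σ x) (hz x hx).ind 0
  rw [zero_smul, zero_smul, sub_zero, sub_zero] at h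
  exact (Real.norm_of_nonneg (dfc_nonneg _ _ _)).trans_le h

theorem St.Near.l2 (hO : IsOpen O) (hC : IsCompact C) (hCO : C ⊆ O) (hn : z.Near z' C δ)
    (hz : ∀ x ∈ O, z.Val S x) (hz' : ∀ x ∈ O, z'.Val S x) (hu : L2 O (∇ z.u)) (hv : L2 O (∇ z.v)) :
    L2 O (∇ z'.u) ∧ L2 O (∇ z'.v) := by
  obtain ⟨⟨h1, h2, -, h3⟩, h4, h5, -, h6⟩ := hn.test hC hCO hz hz'
  exact ⟨limb_near hO h1 h2 h3 hu, limb_near hO h4 h5 h6 hv⟩

theorem flux_const (hO : IsOpen O) (hb : Bornology.IsBounded O) (hC : IsCompact C) (hCO : C ⊆ O)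
    (hn : z.Near z' C δ) (hz : ∀ x ∈ O, z.Val S x) (hz' : ∀ x ∈ O, z'.Val S x)
    (hu : L2 O (∇ z.u)) (hv : L2 O (∇ z.v)) {ψ : E3 → ℝ} (hψ : ContDiff ℝ 1 ψ) :
    ∫ x in O, ⟪z'.J x, ∇ ψ x⟫ = ∫ x in O, ⟪z.J x, ∇ ψ x⟫ ∧
      ∫ x in O, ⟪z'.K x, ∇ ψ x⟫ = ∫ x in O, ⟪z.K x, ∇ ψ x⟫ := by
  obtain ⟨hu', hv'⟩ := hn.l2 hO hC hCO hz hz' hu hv
  obtain ⟨hJ, hK, -⟩ := St.l2_J hO hz hu hv
  obtain ⟨hJ', hK', -⟩ := St.l2_J hO hz' hu' hv'
  have hψ2 : L2 O (∇ ψ) := R80.L2.of_continuous hO.measurableSet hb (continuous_grad hψ)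
  exact ⟨limb_flux hO hC hCO (fun x hx => ⟨(hz x hx).sJ, (hz x hx).dJ⟩)
      (fun x hx => ⟨(hz' x hx).sJ, (hz' x hx).dJ⟩) (fun x hx => (hn.gain_zero hC.isClosed hx).2.1)
      hJ hJ' (fun x _ => hψ.contDiffAt) hψ2,
    limb_flux hO hC hCO (fun x hx => ⟨(hz x hx).sK, (hz x hx).dK⟩)
      (fun x hx => ⟨(hz' x hx).sK, (hz' x hx).dK⟩) (fun x hx => (hn.gain_zero hC.isClosed hx).2.2.1)
      hK hK' (fun x _ => hψ.contDiffAt) hψ2⟩

theorem energy_const (hO : IsOpen O) (hC : IsCompact C) (hCO : C ⊆ O)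
    (hn : z.Near z' C δ) (hz : ∀ x ∈ O, z.Val S x) (hz' : ∀ x ∈ O, z'.Val S x)
    (hu : L2 O (∇ z.u)) (hv : L2 O (∇ z.v)) :
    ∫ x in O, ⟪z'.J x, ∇ z'.u x⟫ = ∫ x in O, ⟪z.J x, ∇ z.u x⟫ ∧
      ∫ x in O, ⟪z'.K x, ∇ z'.v x⟫ = ∫ x in O, ⟪z.K x, ∇ z.v x⟫ := by
  obtain ⟨hu', hv'⟩ := hn.l2 hO hC hCO hz hz' hu hv
  obtain ⟨hJ, hK, -⟩ := St.l2_J hO hz hu hv
  obtain ⟨hJ', hK', -⟩ := St.l2_J hO hz' hu' hv'
  obtain ⟨h1, h2⟩ := hn.test hC hCO hz hz'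
  exact ⟨limb_energy hO hC hCO (fun x hx => ⟨(hz x hx).sJ, (hz x hx).dJ⟩)
      (fun x hx => ⟨(hz' x hx).sJ, (hz' x hx).dJ⟩) (fun x hx => (hn.gain_zero hC.isClosed hx).2.1)
      hJ hJ' (fun x hx => (hz x hx).su.of_le one_le_two) hu h1,
    limb_energy hO hC hCO (fun x hx => ⟨(hz x hx).sK, (hz x hx).dK⟩)
      (fun x hx => ⟨(hz' x hx).sK, (hz' x hx).dK⟩) (fun x hx => (hn.gain_zero hC.isClosed hx).2.2.1)
      hK hK' (fun x hx => (hz x hx).sv.of_le one_le_two) hv h2⟩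

theorem grad_bound (hS : 0 < S) (hO : IsOpen O) (hC : IsCompact C) (hCO : C ⊆ O)
    (hn : z.Near z' C δ) (hz : ∀ x ∈ O, z.Val S x) (hz' : ∀ x ∈ O, z'.Val S x)
    (hu : L2 O (∇ z.u)) (hv : L2 O (∇ z.v)) :
    nr O (∇ z'.u) ≤ S * nr O (∇ z.u) ∧ nr O (∇ z'.v) ≤ S * nr O (∇ z.v) := by
  obtain ⟨hu', hv'⟩ := hn.l2 hO hC hCO hz hz' hu hv
  obtain ⟨hJ, hK, -⟩ := St.l2_J hO hz hu hv
  obtain ⟨hJ', hK', -⟩ := St.l2_J hO hz' hu' hv'
  obtain ⟨h1, h2⟩ := energy_const hO hC hCO hn hz hz' hu hv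
  exact ⟨limb_bound hS hO hJ hJ' hu hu' (fun x hx => ((hz x hx).ell.bounds (hz x hx).sym _).2)
      (fun x hx => ((hz' x hx).ell.bounds (hz' x hx).sym _).1) h1,
    limb_bound hS hO hK hK' hv hv' (fun x hx => ((hz x hx).ell.bounds (hz x hx).sym _).2)
      (fun x hx => ((hz' x hx).ell.bounds (hz' x hx).sym _).1) h2⟩

end

/-! ### part c -/

theorem limc_rec {α : Type*} {I : ℕ → α → Prop} {R : ℕ → α → α → Prop} {a : α} (h0 : I 0 a)
    (hs : ∀ k p, I k p → ∃ q, I (k + 1) q ∧ R k p q) :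
    ∃ f : ℕ → α, f 0 = a ∧ ∀ k, I k (f k) ∧ R k (f k) (f (k + 1)) := by
  have : Nonempty α := ⟨a⟩
  choose! g hg using hs
  let f : ℕ → α := fun n => Nat.rec a (fun k p => g k p) n
  have hI : ∀ k, I k (f k) := by
    intro k
    induction k with
    | zero => exact h0
    | succ k ih => exact (hg k _ ih).1
  exact ⟨f, rfl, fun k => ⟨hI k, (hg k _ (hI k)).2⟩⟩

theorem limc_mono {δ δ' : ℝ} {C C' : Set E3} {z z' : St} (h : z.Near z' C δ) (hC : C ⊆ C')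
    (hδ : δ ≤ δ') : z.Near z' C' δ' :=
  ⟨fun x hx => h.eq x fun hx' => hx (hC hx'), fun x => ⟨(h.cl x).1.trans hδ, (h.cl x).2.trans hδ⟩⟩

theorem limc_ind {O C : Set E3} (hCO : C ⊆ O) {φ : E3 → ℝ} {F : E3 → E3} (h1 : tsupport φ ⊆ C)
    (h2 : ∀ x ∈ O, ∇ φ x = F x) : ∇ φ = O.indicator F := by
  funext x
  by_cases hx : x ∈ O
  · rw [indicator_of_mem hx, h2 x hx]
  · rw [indicator_of_notMem hx, grad_eq_zero_of_notMem fun h => hx (hCO (h1 h))]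

/-- test functions of size at most `t` have weakly small gradients against the fields of `w` -/
def limc_Sm (z w : St) (M t : ℝ) (n : ℕ) : Prop :=
  ∀ φ : E3 → ℝ, ContDiff ℝ 1 φ → HasCompactSupport φ → (∀ x, |φ x| ≤ t) → nr univ (∇ φ) ≤ M →
    |∫ x, ⟪∇ φ x, ∇ (fun y => w.u y - z.u y) x⟫| ≤ (1 / 2 : ℝ) ^ n ∧
      |∫ x, ⟪∇ φ x, ∇ (fun y => w.v y - z.v y) x⟫| ≤ (1 / 2 : ℝ) ^ n

theorem limc_Sm.mono {z w : St} {M t t' : ℝ} {n : ℕ} (h : limc_Sm z w M t n) (ht : t' ≤ t) :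
    limc_Sm z w M t' n :=
  fun φ h1 h2 h3 h4 => h φ h1 h2 (fun x => (h3 x).trans ht) h4

theorem limc_sm {S δ : ℝ} {O C : Set E3} {z w : St} (hO : IsOpen O) (hC : IsCompact C) (hCO : C ⊆ O)
    (hn : z.Near w C δ) (hz : ∀ x ∈ O, z.Val S x) (hw : ∀ x ∈ O, w.Val S x)
    (hu : L2 O (∇ z.u)) (hv : L2 O (∇ z.v)) (M : ℝ) :
    ∃ t : ℕ → ℝ, ∀ n, 0 < t n ∧ limc_Sm z w M (t n) n := by
  obtain ⟨⟨-, -, a1, a2⟩, -, -, b1, b2⟩ := hn.test hC hCO hz hw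
  obtain ⟨hu', hv'⟩ := hn.l2 hO hC hCO hz hw hu hv
  have l1 : L2 univ (∇ fun y => w.u y - z.u y) := by
    rw [limc_ind hCO a1 a2]
    exact (hu'.sub' hu).indicator_univ hO.measurableSet
  have l2 : L2 univ (∇ fun y => w.v y - z.v y) := by
    rw [limc_ind hCO b1 b2]
    exact (hv'.sub' hv).indicator_univ hO.measurableSet
  have key : ∀ n, ∃ t, 0 < t ∧ limc_Sm z w M t n := fun n => by
    obtain ⟨s, hs, h1⟩ := weak_small l1 M (ε := (1 / 2 : ℝ) ^ n) (by positivity)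
    obtain ⟨t, ht, h2⟩ := weak_small l2 M (ε := (1 / 2 : ℝ) ^ n) (by positivity)
    exact ⟨min s t, lt_min hs ht, fun φ c1 c2 c3 c4 =>
      ⟨h1 φ c1 c2 (fun x => (c3 x).trans (min_le_left _ _)) c4,
        h2 φ c1 c2 (fun x => (c3 x).trans (min_le_right _ _)) c4⟩⟩
  choose t ht using key
  exact ⟨t, ht⟩

theorem iter {S : ℝ} (hS : 0 < S) {O : Set E3} (hO : IsOpen O) {z : St} (hz : ∀ x ∈ O, z.Val S x)
    (hu : L2 O (∇ z.u)) (hv : L2 O (∇ z.v)) {δ : ℝ} (hδ : 0 < δ) :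
    ∃ (κ : ℝ) (Z : ℕ → St) (C : ℕ → Set E3), 0 < κ ∧ Z 0 = z ∧ ∀ k, IsCompact (C k) ∧ C k ⊆ O ∧
      (∀ x ∈ O, (Z k).Val S x) ∧ z.Near (Z k) (C k) δ ∧
      (Z k).Near (Z (k + 1)) (C (k + 1)) (δ * (1 / 2) ^ (k + 1)) ∧
      κ * ∫ x in O, (Z k).D x ≤ ∫ x in O, (Z k).gain (Z (k + 1)) x ∧
      ∀ j ≤ k,
        |∫ x, ⟪∇ (fun y => (Z (k + 1)).u y - (Z k).u y) x, ∇ (fun y => (Z j).u y - z.u y) x⟫| ≤
          (1 / 2 : ℝ) ^ k ∧
        |∫ x, ⟪∇ (fun y => (Z (k + 1)).v y - (Z k).v y) x, ∇ (fun y => (Z j).v y - z.v y) x⟫| ≤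
          (1 / 2 : ℝ) ^ k := by
  obtain ⟨κ, hκ, hp⟩ := pert hS
  set M : ℝ := 2 * S * (nr O (∇ z.u) + nr O (∇ z.v)) with hM
  have hn0 : z.Near z ∅ (δ * (1 - (1 / 2) ^ 0)) := ⟨fun x _ => ⟨rfl, rfl, rfl⟩, fun x => by simp⟩
  obtain ⟨t0, ht0⟩ := limc_sm hO isCompact_empty (empty_subset O) hn0 hz hz hu hv M
  obtain ⟨f, f0, hf⟩ := limc_rec (α := St × Set E3 × (ℕ → ℝ))
    (I := fun k p => IsCompact p.2.1 ∧ p.2.1 ⊆ O ∧ (∀ x ∈ O, p.1.Val S x) ∧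
      z.Near p.1 p.2.1 (δ * (1 - (1 / 2) ^ k)) ∧ ∀ n, 0 < p.2.2 n ∧ limc_Sm z p.1 M (p.2.2 n) n)
    (R := fun k p q => p.1.Near q.1 q.2.1 (min (δ * (1 / 2) ^ (k + 1)) (p.2.2 k)) ∧
      κ * ∫ x in O, p.1.D x ≤ ∫ x in O, p.1.gain q.1 x ∧ ∀ n, q.2.2 n ≤ p.2.2 n)
    (a := (z, ∅, t0)) ⟨isCompact_empty, empty_subset O, hz, hn0, ht0⟩ (by
      rintro k ⟨w, C, t⟩ ⟨hC, hCO, hw, hn, ht⟩
      obtain ⟨hu', hv'⟩ := hn.l2 hO hC hCO hz hw hu hv
      obtain ⟨w', C', hC', hCO', hn', hw', hg⟩ := hp O w hO hw (St.l2_J hO hw hu' hv').2.2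
        (min (δ * (1 / 2) ^ (k + 1)) (t k)) (lt_min (by positivity) (ht k).1)
      have hn'' : z.Near w' (C ∪ C') (δ * (1 - (1 / 2) ^ (k + 1))) := by
        refine limc_mono (hn.trans hn') Subset.rfl ?_
        have := min_le_left (δ * (1 / 2) ^ (k + 1)) (t k)
        rw [pow_succ] at this ⊢
        linarith
      obtain ⟨t', ht'⟩ := limc_sm hO (hC.union hC') (union_subset hCO hCO') hn'' hz hw' hu hv M
      exact ⟨(w', C ∪ C', fun n => min (t n) (t' n)), ⟨hC.union hC', union_subset hCO hCO', hw', hn'',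
        fun n => ⟨lt_min (ht n).1 (ht' n).1, (ht' n).2.mono (min_le_right _ _)⟩⟩,
        limc_mono hn' subset_union_right le_rfl, hg, fun n => min_le_left _ _⟩)
  refine ⟨κ, fun k => (f k).1, fun k => (f k).2.1, hκ, congrArg Prod.fst f0, fun k => ?_⟩
  obtain ⟨⟨hC, hCO, hw, hn, -⟩, hn', hg, -⟩ := hf k
  obtain ⟨⟨hC', hCO', hw', hn'', -⟩, -⟩ := hf (k + 1)
  refine ⟨hC, hCO, hw, limc_mono hn Subset.rfl ?_, limc_mono hn' Subset.rfl (min_le_left _ _), hg,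
    fun j hj => ?_⟩
  · have : 0 ≤ δ * (1 / 2) ^ k := by positivity
    linarith
  have hanti : Antitone fun i => (f i).2.2 k := antitone_nat_of_succ_le fun i => (hf i).2.2.2 k
  have hsm : limc_Sm z (f j).1 M (min (δ * (1 / 2) ^ (k + 1)) ((f k).2.2 k)) k :=
    ((hf j).1.2.2.2.2 k).2.mono ((min_le_right _ _).trans (hanti hj))
  obtain ⟨⟨a1, a2, a3, a4⟩, b1, b2, b3, b4⟩ := hn'.test hC' hCO' hw hw'
  obtain ⟨hu1, hv1⟩ := hn.l2 hO hC hCO hz hw hu hv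
  obtain ⟨hu2, hv2⟩ := hn''.l2 hO hC' hCO' hz hw' hu hv
  obtain ⟨c1, c2⟩ := grad_bound hS hO hC hCO hn hz hw hu hv
  obtain ⟨d1, d2⟩ := grad_bound hS hO hC' hCO' hn'' hz hw' hu hv
  have e1 := mul_nonneg hS.le (R80.nr_nonneg O (∇ z.u))
  have e2 := mul_nonneg hS.le (R80.nr_nonneg O (∇ z.v))
  refine ⟨(hsm _ a1 a2 (fun x => (hn'.cl x).1) ?_).1, (hsm _ b1 b2 (fun x => (hn'.cl x).2) ?_).2⟩
  · rw [limc_ind hCO' a3 a4, R80.nr_indicator hO.measurableSet]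
    have := R80.nr_sub_le hu2 hu1
    linarith
  · rw [limc_ind hCO' b3 b4, R80.nr_indicator hO.measurableSet]
    have := R80.nr_sub_le hv2 hv1
    linarith

end Crest.Agent.R83
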