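import Crest.Agent.R83.Calc

/-!
# Row 83: Lipschitz functions, `H1`

* `lip_moll`: `g k = (bump k).normed ⋆ f` with `rOut = 1/(k+1)`.  `∇ (ρ ⋆ f) = ρ ⋆ ∇ f`: derivative on
  `ρ` (`HasCompactSupport.hasFDerivAt_convolution_left`), then `LipschitzWith.integral_lineDeriv_mul_eq`
  and Rademacher (`LipschitzWith.ae_differentiableAt`); a.e. convergence by
  `ContDiffBump.ae_convolution_tendsto_right_of_locallyIntegrable` applied to the partial derivatives;
  the gradient bound from Lipschitz-ness of `g k` or from the convolution formula.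
* `H1_of_lip`: `lip_moll`, `IsCompact.exists_cthickening_subset_open`, dominated convergence.
-/

namespace Crest.Agent.R83

open MeasureTheory Set Metric Filter Topology
open scoped Gradient RealInnerProductSpace NNReal
open Crest.Agent.R80 (L2 nr)

/-! ### part a: closure properties of `Lip` and `LocallyLipschitzOn` -/

section
variable {X : Type*} [PseudoMetricSpace X] {f g : X → ℝ} {U : Set X}

theorem Lip.continuous {Y : Type*} [PseudoMetricSpace Y] {f : X → Y} (h : Lip f) : Continuous f := by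
  obtain ⟨K, h⟩ := h
  exact h.continuous

theorem Lip.const (c : ℝ) : Lip fun _ : X => c := by
  exact ⟨0, LipschitzWith.const c⟩

theorem Lip.add (hf : Lip f) (hg : Lip g) : Lip fun x => f x + g x := by
  obtain ⟨K, hf⟩ := hf
  obtain ⟨L, hg⟩ := hg
  exact ⟨_, hf.add hg⟩

theorem Lip.sub (hf : Lip f) (hg : Lip g) : Lip fun x => f x - g x := by
  obtain ⟨K, hf⟩ := hf
  obtain ⟨L, hg⟩ := hg
  exact ⟨_, hf.sub hg⟩

theorem Lip.neg (hf : Lip f) : Lip fun x => -f x := by
  obtain ⟨K, hf⟩ := hf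
  exact ⟨_, hf.neg⟩

theorem Lip.const_mul (c : ℝ) (hf : Lip f) : Lip fun x => c * f x := by
  obtain ⟨K, hf⟩ := hf
  exact ⟨_, (lipschitzWith_smul c).comp hf⟩

theorem Lip.div_const (hf : Lip f) (c : ℝ) : Lip fun x => f x / c := by
  simpa only [div_eq_inv_mul] using hf.const_mul c⁻¹

theorem Lip.max (hf : Lip f) (hg : Lip g) : Lip fun x => max (f x) (g x) := by
  obtain ⟨K, hf⟩ := hf
  obtain ⟨L, hg⟩ := hg
  exact ⟨_, hf.max hg⟩

theorem Lip.min (hf : Lip f) (hg : Lip g) : Lip fun x => min (f x) (g x) := by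
  obtain ⟨K, hf⟩ := hf
  obtain ⟨L, hg⟩ := hg
  exact ⟨_, hf.min hg⟩

theorem Lip.abs (hf : Lip f) : Lip fun x => |f x| := by
  simpa only [abs_eq_max_neg] using hf.max hf.neg

theorem Lip.comp {Y Z : Type*} [PseudoMetricSpace Y] [PseudoMetricSpace Z] {g : Y → Z} {f : X → Y}
    (hg : Lip g) (hf : Lip f) : Lip fun x => g (f x) := by
  obtain ⟨K, hf⟩ := hf
  obtain ⟨L, hg⟩ := hg
  exact ⟨_, hg.comp hf⟩

theorem Lip.mul (hf : Lip f) (hg : Lip g) (hfb : ∃ M, ∀ x, |f x| ≤ M) (hgb : ∃ M, ∀ x, |g x| ≤ M) :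
    Lip fun x => f x * g x := by
  obtain ⟨K, hf⟩ := hf
  obtain ⟨L, hg⟩ := hg
  obtain ⟨M, hM⟩ := hfb
  obtain ⟨N, hN⟩ := hgb
  refine ⟨_, LipschitzWith.of_dist_le' (K := M * L + K * N) fun x y => ?_⟩
  have h1 := hf.dist_le_mul x y
  have h2 := hg.dist_le_mul x y
  have h3 : 0 ≤ M := (abs_nonneg _).trans (hM x)
  rw [Real.dist_eq] at h1 h2 ⊢
  calc |f x * g x - f y * g y| = |f x * (g x - g y) + (f x - f y) * g y| := by ring_nf
    _ ≤ |f x| * |g x - g y| + |f x - f y| * |g y| := by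
        rw [← abs_mul, ← abs_mul]; exact abs_add_le _ _
    _ ≤ M * (L * dist x y) + K * dist x y * N := by gcongr; exacts [hM x, hN y]
    _ = _ := by ring

theorem Lip.coord (i : Fin 3) : Lip fun x : E3 => x i := by
  exact ⟨_, (EuclideanSpace.proj i : E3 →L[ℝ] ℝ).lipschitz⟩

/-- a `C¹` function of a clamped variable -/
theorem lip_comp_clamp {φ : ℝ → ℝ} {a b : ℝ} (hab : a ≤ b) (hφ : ∀ s ∈ Icc a b, ContDiffAt ℝ 1 φ s) :
    (Lip fun s : ℝ => φ (max a (min s b))) ∧ ∃ M, ∀ s : ℝ, |φ (max a (min s b))| ≤ M := by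
  have hm : ∀ s : ℝ, max a (min s b) ∈ Icc a b := fun s =>
    ⟨le_max_left _ _, max_le hab (min_le_right _ _)⟩
  have hl : LocallyLipschitzOn (Icc a b) φ := fun s hs => by
    obtain ⟨K, t, ht, h⟩ := (hφ s hs).exists_lipschitzOnWith
    exact ⟨K, t, mem_nhdsWithin_of_mem_nhds ht, h⟩
  obtain ⟨K, hK⟩ := hl.exists_lipschitzOnWith_of_compact isCompact_Icc
  obtain ⟨M, hM⟩ := isCompact_Icc.exists_bound_of_continuousOn hl.continuousOn
  refine ⟨⟨K * 1, lipschitzOnWith_univ.1 (hK.comp (s := univ)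
    ((LipschitzWith.id.min_const b).const_max a).lipschitzOnWith fun s _ => hm s)⟩,
    M, fun s => hM _ (hm s)⟩

theorem lip_tsum {f : ℕ → X → ℝ} {K : ℕ → ℝ} (hK : Summable K)
    (h : ∀ n x y, |f n x - f n y| ≤ K n * dist x y) (hs : ∀ x, Summable fun n => f n x) :
    Lip fun x => ∑' n, f n x := by
  refine ⟨_, LipschitzWith.of_dist_le' (K := ∑' n, K n) fun x y => ?_⟩
  rw [Real.dist_eq, ← (hs x).tsum_sub (hs y), ← tsum_mul_right]
  exact tsum_of_norm_bounded (f := fun n => f n x - f n y) (hK.mul_right _).hasSum fun n => h n x y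

theorem Lip.loc {Y : Type*} [PseudoMetricSpace Y] {f : X → Y} (h : Lip f) (U : Set X) :
    LocallyLipschitzOn U f := by
  obtain ⟨K, h⟩ := h
  exact fun x _ => ⟨K, univ, univ_mem, h.lipschitzOnWith⟩

theorem lipa_core {Y Z : Type*} [PseudoMetricSpace Y] [PseudoMetricSpace Z] {g : Y → Z} {F : X → Y}
    (hF : LocallyLipschitzOn U F)
    (hg : ∀ x ∈ U, ∃ K t, F ⁻¹' t ∈ 𝓝[U] x ∧ LipschitzOnWith K g t) :
    LocallyLipschitzOn U fun x => g (F x) := fun x hx => by
  obtain ⟨K, t, ht, h⟩ := hg x hx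
  obtain ⟨L, s, hs, h'⟩ := hF hx
  exact ⟨K * L, s ∩ F ⁻¹' t, inter_mem hs ht, h.comp (h'.mono inter_subset_left) fun _ hy => hy.2⟩

theorem lipa_smooth {Y Z : Type*} [NormedAddCommGroup Y] [NormedSpace ℝ Y] [NormedAddCommGroup Z]
    [NormedSpace ℝ Z] {g : Y → Z} {F : X → Y} (hF : LocallyLipschitzOn U F)
    (hg : ∀ x ∈ U, ContDiffAt ℝ 1 g (F x)) : LocallyLipschitzOn U fun x => g (F x) :=
  lipa_core hF fun x hx => by
    obtain ⟨K, t, ht, h⟩ := (hg x hx).exists_lipschitzOnWith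
    exact ⟨K, t, hF.continuousOn x hx ht, h⟩

theorem lipa_lip {Y Z : Type*} [PseudoMetricSpace Y] [PseudoMetricSpace Z] {g : Y → Z} {F : X → Y}
    (hg : Lip g) (hF : LocallyLipschitzOn U F) : LocallyLipschitzOn U fun x => g (F x) := by
  obtain ⟨K, hg⟩ := hg
  exact lipa_core hF fun x _ => ⟨K, univ, univ_mem, hg.lipschitzOnWith⟩

theorem lipa_prod {Y Z : Type*} [PseudoMetricSpace Y] [PseudoMetricSpace Z] {F : X → Y} {G : X → Z}
    (hF : LocallyLipschitzOn U F) (hG : LocallyLipschitzOn U G) :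
    LocallyLipschitzOn U fun x => (F x, G x) := fun x hx => by
  obtain ⟨K, s, hs, h⟩ := hF hx
  obtain ⟨L, t, ht, h'⟩ := hG hx
  exact ⟨_, s ∩ t, inter_mem hs ht, (h.mono inter_subset_left).prodMk (h'.mono inter_subset_right)⟩

theorem ll_add (hf : LocallyLipschitzOn U f) (hg : LocallyLipschitzOn U g) :
    LocallyLipschitzOn U fun x => f x + g x := by
  exact hf.add hg

theorem ll_sub (hf : LocallyLipschitzOn U f) (hg : LocallyLipschitzOn U g) :
    LocallyLipschitzOn U fun x => f x - g x := by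
  exact hf.sub hg

theorem ll_mul (hf : LocallyLipschitzOn U f) (hg : LocallyLipschitzOn U g) :
    LocallyLipschitzOn U fun x => f x * g x := by
  exact lipa_smooth (g := fun p : ℝ × ℝ => p.1 * p.2) (lipa_prod hf hg) fun _ _ =>
    contDiffAt_fst.mul contDiffAt_snd

theorem ll_max (hf : LocallyLipschitzOn U f) (hg : LocallyLipschitzOn U g) :
    LocallyLipschitzOn U fun x => max (f x) (g x) := by
  exact lipa_lip (g := fun p : ℝ × ℝ => max p.1 p.2) ⟨_, lipschitzWith_max⟩ (lipa_prod hf hg)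

theorem ll_min (hf : LocallyLipschitzOn U f) (hg : LocallyLipschitzOn U g) :
    LocallyLipschitzOn U fun x => min (f x) (g x) := by
  exact lipa_lip (g := fun p : ℝ × ℝ => min p.1 p.2) ⟨_, lipschitzWith_min⟩ (lipa_prod hf hg)

theorem ll_div (hf : LocallyLipschitzOn U f) (hg : LocallyLipschitzOn U g) (h0 : ∀ x ∈ U, g x ≠ 0) :
    LocallyLipschitzOn U fun x => f x / g x := by
  exact lipa_smooth (g := fun p : ℝ × ℝ => p.1 / p.2) (lipa_prod hf hg) fun x hx =>
    contDiffAt_fst.div contDiffAt_snd (h0 x hx)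

theorem ll_v3 {h : X → ℝ} (hf : LocallyLipschitzOn U f) (hg : LocallyLipschitzOn U g)
    (hh : LocallyLipschitzOn U h) : LocallyLipschitzOn U fun x => v3 (f x) (g x) (h x) := by
  have key : ContDiff ℝ 1 fun p : ℝ × ℝ × ℝ => v3 p.1 p.2.1 p.2.2 := by
    refine contDiff_euclidean.2 fun i => ?_
    fin_cases i
    · simpa [v3] using contDiff_fst
    · simpa [v3] using contDiff_snd.fst
    · simpa [v3] using contDiff_snd.snd
  have := lipa_smooth (lipa_prod hf (lipa_prod hg hh)) fun _ _ => key.contDiffAt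
  simpa only using this

theorem ll_coord {F : X → E3} (hF : LocallyLipschitzOn U F) (i : Fin 3) :
    LocallyLipschitzOn U fun x => F x i := by
  exact lipa_lip (g := fun y : E3 => y i) (Lip.coord i) hF

theorem ll_lip_comp {Y Z : Type*} [PseudoMetricSpace Y] [PseudoMetricSpace Z] {g : Y → Z} {F : X → Y}
    (hg : Lip g) (hF : LocallyLipschitzOn U F) : LocallyLipschitzOn U fun x => g (F x) := by
  exact lipa_lip hg hF

theorem ll_comp {Y Z : Type*} [PseudoMetricSpace Y] [PseudoMetricSpace Z] {g : Y → Z} {F : X → Y}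
    {V : Set Y} (hg : LocallyLipschitzOn V g) (hF : LocallyLipschitzOn U F) (hUV : MapsTo F U V) :
    LocallyLipschitzOn U fun x => g (F x) := by
  refine lipa_core hF fun x hx => ?_
  obtain ⟨K, t, ht, h⟩ := hg (hUV hx)
  exact ⟨K, t, (hF.continuousOn x hx).tendsto_nhdsWithin hUV ht, h⟩

/-- composition with a function which is `C¹` at the image points -/
theorem ll_smooth_comp {Y Z : Type*} [NormedAddCommGroup Y] [NormedSpace ℝ Y] [NormedAddCommGroup Z]
    [NormedSpace ℝ Z] {g : Y → Z} {F : X → Y} (hF : LocallyLipschitzOn U F)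
    (hg : ∀ x ∈ U, ContDiffAt ℝ 1 g (F x)) : LocallyLipschitzOn U fun x => g (F x) := by
  exact lipa_smooth hF hg

/-- locality -/
theorem ll_of_local {Y : Type*} [PseudoMetricSpace Y] {F : X → Y}
    (h : ∀ x ∈ U, ∃ V G, IsOpen V ∧ x ∈ V ∧ LocallyLipschitzOn V G ∧ ∀ y ∈ V, F y = G y) :
    LocallyLipschitzOn U F := by
  intro x hx
  obtain ⟨V, G, hV, hxV, hG, e⟩ := h x hx
  obtain ⟨K, t, ht, h'⟩ := hG hxV
  rw [hV.nhdsWithin_eq hxV] at ht
  refine ⟨K, t ∩ V, mem_nhdsWithin_of_mem_nhds (inter_mem ht (hV.mem_nhds hxV)), fun a ha b hb => ?_⟩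
  rw [e a ha.2, e b hb.2]
  exact h' ha.1 hb.1

end

/-! ### part b -/

theorem lipb_thick {Y : Type*} [PseudoMetricSpace Y] {f : E3 → Y} {U C : Set E3} (hU : IsOpen U)
    (hf : LocallyLipschitzOn U f) (hC : IsCompact C) (hCU : C ⊆ U) :
    ∃ δ : ℝ, 0 < δ ∧ cthickening δ C ⊆ U ∧ ∃ K : ℝ≥0, LipschitzOnWith K f (cthickening δ C) := by
  obtain ⟨δ, hδ, hs⟩ := hC.exists_cthickening_subset_open hU hCU
  exact ⟨δ, hδ, hs, (hf.mono hs).exists_lipschitzOnWith_of_compact hC.cthickening⟩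

theorem lip_of_ll {f : E3 → ℝ} {U : Set E3} (hU : IsOpen U) (hf : LocallyLipschitzOn U f)
    (hc : HasCompactSupport f) (hs : tsupport f ⊆ U) : Lip f := by
  obtain ⟨δ, hδ, hT, K, hK⟩ := lipb_thick hU hf hc.isCompact hs
  obtain ⟨M, hM⟩ := hc.isCompact.exists_bound_of_continuousOn (hf.continuousOn.mono hs)
  have key : ∀ x ∈ tsupport f, ∀ y, dist (f x) (f y) ≤ (K + |M| / δ) * dist x y := by
    intro x hx y
    have h0 : 0 ≤ |M| / δ := by positivity
    by_cases hy : y ∈ cthickening δ (tsupport f)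
    · refine (hK.dist_le_mul x (self_subset_cthickening _ hx) y hy).trans ?_
      exact mul_le_mul_of_nonneg_right (by linarith) dist_nonneg
    · have hd : δ ≤ dist x y := by
        by_contra h
        exact hy (mem_cthickening_of_dist_le y x δ _ hx (by rw [dist_comm]; linarith))
      have hy0 : f y = 0 := image_eq_zero_of_notMem_tsupport fun h =>
        hy (self_subset_cthickening _ h)
      rw [hy0, dist_zero_right]
      calc ‖f x‖ ≤ |M| := (hM x hx).trans (le_abs_self M)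
        _ = |M| / δ * δ := by field_simp
        _ ≤ |M| / δ * dist x y := mul_le_mul_of_nonneg_left hd h0
        _ ≤ (K + |M| / δ) * dist x y :=
          mul_le_mul_of_nonneg_right (by linarith [K.coe_nonneg]) dist_nonneg
  refine ⟨⟨K + |M| / δ, by positivity⟩, LipschitzWith.of_dist_le_mul fun x y => ?_⟩
  by_cases hx : x ∈ tsupport f
  · exact key x hx y
  by_cases hy : y ∈ tsupport f
  · rw [dist_comm, dist_comm x]; exact key y hy x
  rw [image_eq_zero_of_notMem_tsupport hx, image_eq_zero_of_notMem_tsupport hy, dist_self]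
  positivity

theorem ll_of_contDiff {Y : Type*} [NormedAddCommGroup Y] [NormedSpace ℝ Y] {f : E3 → Y}
    (hf : ContDiff ℝ 1 f) (U : Set E3) : LocallyLipschitzOn U f :=
  hf.locallyLipschitz.locallyLipschitzOn

/-- a Lipschitz cut-off with compact support times a locally Lipschitz function -/
theorem lip_cut_mul {χ ψ : E3 → ℝ} {U : Set E3} (hU : IsOpen U) (hχ : Lip χ) (hc : HasCompactSupport χ)
    (hs : tsupport χ ⊆ U) (hψ : LocallyLipschitzOn U ψ) : Lip fun x => χ x * ψ x :=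
  lip_of_ll hU (ll_mul (hχ.loc U) hψ) hc.mul_right (tsupport_mul_subset_left.trans hs)

/-- bound of the derivative on a compact set -/
theorem ll_fderiv_bound {Y : Type*} [NormedAddCommGroup Y] [NormedSpace ℝ Y] {F : E3 → Y} {U C : Set E3}
    (hU : IsOpen U) (hF : LocallyLipschitzOn U F) (hC : IsCompact C) (hCU : C ⊆ U) :
    ∃ L : ℝ, 0 < L ∧ ∀ x ∈ C, ‖fderiv ℝ F x‖ ≤ L := by
  obtain ⟨δ, hδ, -, K, hK⟩ := lipb_thick hU hF hC hCU
  refine ⟨K + 1, by positivity, fun x hx => ?_⟩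
  have h : cthickening δ C ∈ 𝓝 x :=
    mem_of_superset (closedBall_mem_nhds x hδ) (closedBall_subset_cthickening hx δ)
  exact (norm_fderiv_le_of_lipschitzOn ℝ h hK).trans (by linarith)

theorem ll_ae_diff {Y : Type*} [NormedAddCommGroup Y] [NormedSpace ℝ Y] [FiniteDimensional ℝ Y]
    {F : E3 → Y} {U : Set E3} (hU : IsOpen U) (hF : LocallyLipschitzOn U F) :
    ∀ᵐ x : E3, x ∈ U → DifferentiableAt ℝ F x := by
  rw [ae_iff]
  refine measure_null_of_locally_null _ fun x hx => ?_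
  have hxU : x ∈ U := by
    by_contra h
    exact hx fun h' => absurd h' h
  obtain ⟨K, t, ht, hK⟩ := hF hxU
  rw [hU.nhdsWithin_eq hxU] at ht
  refine ⟨_, inter_mem_nhdsWithin _ (interior_mem_nhds.2 ht), ?_⟩
  have h := hK.ae_differentiableWithinAt_of_mem (μ := (volume : Measure E3))
  rw [ae_iff] at h
  refine measure_mono_null (fun y hy => ?_) h
  intro h'
  exact hy.1 fun _ => (h' (interior_subset hy.2)).differentiableAt (mem_interior_iff_mem_nhds.1 hy.2)

/-- a Lipschitz function agreeing with `f` near a compact set -/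
theorem ll_extend {f : E3 → ℝ} {U C : Set E3} (hU : IsOpen U) (hf : LocallyLipschitzOn U f)
    (hC : IsCompact C) (hCU : C ⊆ U) :
    ∃ g V, Lip g ∧ IsOpen V ∧ C ⊆ V ∧ V ⊆ U ∧ ∀ x ∈ V, g x = f x := by
  obtain ⟨δ, hδ, hT, K, hK⟩ := lipb_thick hU hf hC hCU
  obtain ⟨g, hg, he⟩ := hK.extend_real
  exact ⟨g, thickening δ C, ⟨K, hg⟩, isOpen_thickening, self_subset_thickening hδ C,
    (thickening_subset_cthickening δ C).trans hT,
    fun x hx => (he (thickening_subset_cthickening δ C hx)).symm⟩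

open scoped Convolution in
/-- `D (ρ ⋆ f) = ρ ⋆ D f` for Lipschitz `f` -/
theorem lipb_conv {f ρ : E3 → ℝ} {K : ℝ≥0} (hf : LipschitzWith K f) (hρ : Continuous ρ)
    (hc : HasCompactSupport ρ) (x : E3) :
    HasFDerivAt (ρ ⋆[ContinuousLinearMap.lsmul ℝ ℝ, volume] f)
      ((ρ ⋆[ContinuousLinearMap.lsmul ℝ ℝ, volume] fderiv ℝ f) x) x := by
  have hi : Integrable ρ := hρ.integrable_of_hasCompactSupport hc
  have hcont : ∀ y : E3, Continuous fun t => ρ t • f (y - t) := fun y =>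
    hρ.smul (hf.continuous.comp (continuous_const.sub continuous_id))
  have h := hasFDerivAt_integral_of_dominated_loc_of_lip' (μ := (volume : Measure E3)) (𝕜 := ℝ)
    (F := fun y t => ρ t • f (y - t)) (F' := fun t => ρ t • fderiv ℝ f (x - t)) (x₀ := x)
    (s := univ) (bound := fun t => ‖ρ t‖ * K) univ_mem
    (fun y _ => (hcont y).aestronglyMeasurable)
    ((hcont x).integrable_of_hasCompactSupport hc.smul_right)
    (hρ.measurable.smul ((measurable_fderiv ℝ f).comp
      (measurable_const.sub measurable_id))).aestronglyMeasurable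
    (Eventually.of_forall fun t y _ => by
      rw [← smul_sub, norm_smul, mul_assoc]
      refine mul_le_mul_of_nonneg_left ?_ (norm_nonneg _)
      have := hf.norm_sub_le (y - t) (x - t)
      rwa [sub_sub_sub_cancel_right] at this)
    (hi.norm.mul_const _)
    (by
      filter_upwards [(quasiMeasurePreserving_sub_left_of_right_invariant volume x).ae
        (hf.ae_differentiableAt (μ := (volume : Measure E3)))] with t ht
      have h1 : HasFDerivAt (fun y : E3 => f (y - t)) (fderiv ℝ f (x - t)) x := by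
        have h2 := ht.hasFDerivAt.comp x ((hasFDerivAt_id x).sub_const t)
        rw [ContinuousLinearMap.comp_id] at h2
        exact h2
      exact h1.const_smul (ρ t))
  exact h.2

theorem lip_moll {f : E3 → ℝ} {K : ℝ≥0} (hf : LipschitzWith K f) :
    ∃ g : ℕ → E3 → ℝ, (∀ k, ContDiff ℝ 2 (g k)) ∧ (∀ k x, |g k x - f x| ≤ K / (k + 1)) ∧
      (∀ k x, ‖∇ (g k) x‖ ≤ K) ∧ (∀ᵐ x : E3, Tendsto (fun k => ∇ (g k) x) atTop (𝓝 (∇ f x))) ∧
      ∀ (k : ℕ) x, (∀ y ∈ closedBall x (1 / ((k : ℝ) + 1)), f y = 0) → g k x = 0 := by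
  let φ : ℕ → ContDiffBump (0 : E3) := fun k =>
    ⟨1 / ((k : ℝ) + 1) / 2, 1 / ((k : ℝ) + 1), by positivity, half_lt_self (by positivity)⟩
  have hφ : ∀ k, (φ k).rOut = 1 / ((k : ℝ) + 1) := fun _ => rfl
  have hD := fun k x => lipb_conv hf ((φ k).continuous_normed (μ := volume))
    (φ k).hasCompactSupport_normed x
  have hb : ∀ y, ‖fderiv ℝ f y‖ ≤ K := fun y => norm_fderiv_le_of_lipschitz ℝ hf
  have hm : AEStronglyMeasurable (fderiv ℝ f) (volume : Measure E3) :=
    (measurable_fderiv ℝ f).aestronglyMeasurable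
  have hn : ∀ (g : E3 → ℝ) (x : E3), ‖∇ g x‖ = ‖fderiv ℝ g x‖ := fun g x => by
    rw [gradient, LinearIsometryEquiv.norm_map]
  refine ⟨fun k => convolution ((φ k).normed volume) f (ContinuousLinearMap.lsmul ℝ ℝ) volume,
    fun k => ?_, fun k x => ?_, fun k x => ?_, ?_, fun k x h => ?_⟩
  · exact (φ k).hasCompactSupport_normed.contDiff_convolution_left _ (φ k).contDiff_normed
      hf.continuous.locallyIntegrable
  · rw [← Real.dist_eq]
    refine (φ k).dist_normed_convolution_le hf.continuous.aestronglyMeasurable fun y hy => ?_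
    refine (hf.dist_le_mul y x).trans ?_
    rw [div_eq_mul_one_div]
    exact mul_le_mul_of_nonneg_left (mem_ball.1 hy).le K.coe_nonneg
  · rw [hn, (hD k x).fderiv, ← dist_zero_right]
    exact dist_convolution_le K.coe_nonneg (φ k).support_normed_eq.subset (φ k).nonneg_normed
      (φ k).integral_normed hm fun y _ => by rw [dist_zero_right]; exact hb y
  · have hl : LocallyIntegrable (fderiv ℝ f) (volume : Measure E3) :=
      (memLp_top_of_bound hm K (Eventually.of_forall hb)).locallyIntegrable le_top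
    have h := ContDiffBump.ae_convolution_tendsto_right_of_locallyIntegrable (φ := φ) (l := atTop) (K := 2)
      tendsto_one_div_add_atTop_nhds_zero_nat
      (Eventually.of_forall fun k => by
        change 1 / ((k : ℝ) + 1) ≤ 2 * (1 / ((k : ℝ) + 1) / 2)
        linarith) hl
    filter_upwards [h] with x hx
    simp only [gradient, fun k => (hD k x).fderiv]
    exact ((InnerProductSpace.toDual ℝ E3).symm.continuous.tendsto _).comp hx
  · have h0 : f x = 0 := h x (mem_closedBall_self (by positivity))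
    rw [← h0]
    exact (φ k).normed_convolution_eq_right fun y hy => by
      rw [h0]; exact h y (ball_subset_closedBall hy)

/-! ### part c: `H1` -/

theorem lipc_l2_bd {F : E3 → E3} {C : Set E3} {K : ℝ} (hC : IsCompact C)
    (hm : AEStronglyMeasurable F volume) (hK : ∀ x, ‖F x‖ ≤ K) (h0 : ∀ x, x ∉ C → F x = 0) :
    L2 univ F := by
  have := R80.L2_finite hC.isBounded
  have h1 : L2 univ (C.indicator fun _ => K) :=
    R80.L2.indicator_univ hC.measurableSet (memLp_const K)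
  refine R80.L2.of_le' MeasurableSet.univ h1 hm.restrict (Eventually.of_forall fun x _ => ?_)
  by_cases hx : x ∈ C
  · rw [indicator_of_mem hx]; exact hK x
  · rw [indicator_of_notMem hx, h0 x hx, norm_zero]

theorem lipc_l2_grad {f : E3 → ℝ} (hf : ContDiff ℝ 1 f) (hc : HasCompactSupport f) :
    L2 univ (∇ f) :=
  ((continuous_grad hf).memLp_of_hasCompactSupport
    (HasCompactSupport.intro hc fun _ hx => grad_eq_zero_of_notMem hx)).restrict _

theorem H1_of_lip {f : E3 → ℝ} {Ω : Set E3} (hΩ : IsOpen Ω) (hf : Lip f) (hc : HasCompactSupport f)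
    (hs : tsupport f ⊆ Ω) : H1 Ω f (∇ f) := by
  obtain ⟨K, hK⟩ := hf
  obtain ⟨g, hg2, hg0, hg1, hae, hsup⟩ := lip_moll hK
  obtain ⟨r, hr, hrΩ⟩ := IsCompact.exists_cthickening_subset_open hc hΩ hs
  set C := cthickening r (tsupport f) with hCdef
  have hC : IsCompact C := IsCompact.cthickening hc
  have hfK : ∀ x, ‖∇ f x‖ ≤ K := fun x => by
    rw [norm_grad]; exact norm_fderiv_le_of_lipschitz ℝ hK
  have hf0 : ∀ x, x ∉ C → ∇ f x = 0 := fun x hx =>
    grad_eq_zero_of_notMem fun h => hx (self_subset_cthickening _ h)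
  have hl2 : L2 univ (∇ f) := lipc_l2_bd hC (measurable_grad f).aestronglyMeasurable hfK hf0
  have hlim : Tendsto (fun k : ℕ => 1 / ((k : ℝ) + 1)) atTop (𝓝 0) :=
    tendsto_one_div_add_atTop_nhds_zero_nat
  have hts : ∀ᶠ k : ℕ in atTop, tsupport (g k) ⊆ C := by
    filter_upwards [hlim.eventually (ge_mem_nhds hr)] with k hk
    refine closure_minimal (fun x hx => ?_) hC.isClosed
    by_contra hxC
    refine hx (hsup k x fun y hy => image_eq_zero_of_notMem_tsupport fun hyT => hxC ?_)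
    exact mem_cthickening_of_dist_le x y r _ hyT (by rw [dist_comm]; exact le_trans hy hk)
  have hint : Tendsto (fun k => ∫ x, ‖∇ (g k) x - ∇ f x‖ ^ 2) atTop (𝓝 (∫ _ : E3, (0 : ℝ))) := by
    refine tendsto_integral_filter_of_dominated_convergence
      (C.indicator fun _ => ((K : ℝ) + K) ^ 2) ?_ ?_ ?_ ?_
    · exact Eventually.of_forall fun k =>
        (((measurable_grad _).sub (measurable_grad _)).norm.pow_const 2).aestronglyMeasurable
    · filter_upwards [hts] with k hk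
      refine Eventually.of_forall fun x => ?_
      by_cases hx : x ∈ C
      · rw [indicator_of_mem hx, Real.norm_of_nonneg (sq_nonneg _)]
        exact pow_le_pow_left₀ (norm_nonneg _)
          ((norm_sub_le _ _).trans (add_le_add (hg1 k x) (hfK x))) 2
      · rw [indicator_of_notMem hx, hf0 x hx, grad_eq_zero_of_notMem fun h => hx (hk h)]
        simp
    · rw [integrable_indicator_iff hC.measurableSet]
      exact integrableOn_const hC.measure_lt_top.ne
    · filter_upwards [hae] with x hx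
      have := ((hx.sub_const (∇ f x)).norm).pow 2
      simpa using this
  rw [integral_zero] at hint
  refine ⟨hl2, fun δ hδ => ?_⟩
  have hlim' : Tendsto (fun k : ℕ => (K : ℝ) / ((k : ℝ) + 1)) atTop (𝓝 0) := by
    simpa [div_eq_mul_inv] using hlim.const_mul (K : ℝ)
  obtain ⟨k, hk1, hk2, hk3⟩ := (hts.and ((hlim'.eventually (ge_mem_nhds hδ)).and
    (hint.eventually (ge_mem_nhds (pow_pos hδ 2))))).exists
  have hgc : HasCompactSupport (g k) := hC.of_isClosed_subset (isClosed_tsupport _) hk1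
  have hg1' : ContDiff ℝ 1 (g k) := (hg2 k).of_le (by norm_num)
  refine ⟨g k, hg1', hgc, hk1.trans hrΩ, fun x => (hg0 k x).trans hk2, ?_⟩
  refine (pow_le_pow_iff_left₀ (R80.nr_nonneg _ _) hδ.le two_ne_zero).1 ?_
  rw [R80.nr_sq ((lipc_l2_grad hg1' hgc).sub' hl2), Measure.restrict_univ]
  exact hk3

namespace H1
variable {Ω Ω' : Set E3} {f g : E3 → ℝ} {F G : E3 → E3}

theorem zero (Ω : Set E3) : H1 Ω (fun _ => 0) fun _ => 0 := by
  refine ⟨R80.L2.zero' _, fun δ hδ => ⟨fun _ => 0, contDiff_const, HasCompactSupport.zero, ?_,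
    fun x => by simpa using hδ.le, ?_⟩⟩
  · simp [tsupport]
  · simpa using hδ.le

theorem mono (h : H1 Ω f F) (hΩ : Ω ⊆ Ω') : H1 Ω' f F := by
  refine ⟨h.l2, fun δ hδ => ?_⟩
  obtain ⟨g, h1, h2, h3, h4, h5⟩ := h.apx δ hδ
  exact ⟨g, h1, h2, h3.trans hΩ, h4, h5⟩

theorem congr (h : H1 Ω f F) (hF : ∀ᵐ x : E3, G x = F x) : H1 Ω f G := by
  refine ⟨h.l2.congr' MeasurableSet.univ (hF.mono fun x hx _ => hx), fun δ hδ => ?_⟩
  obtain ⟨g, h1, h2, h3, h4, h5⟩ := h.apx δ hδ
  refine ⟨g, h1, h2, h3, h4, le_of_eq_of_le ?_ h5⟩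
  exact R80.nr_congr MeasurableSet.univ (hF.mono fun x hx _ => by rw [hx])

theorem add (hf : H1 Ω f F) (hg : H1 Ω g G) : H1 Ω (fun x => f x + g x) fun x => F x + G x := by
  refine ⟨hf.l2.add' hg.l2, fun δ hδ => ?_⟩
  obtain ⟨a, a1, a2, a3, a4, a5⟩ := hf.apx (δ / 2) (half_pos hδ)
  obtain ⟨b, b1, b2, b3, b4, b5⟩ := hg.apx (δ / 2) (half_pos hδ)
  refine ⟨fun x => a x + b x, a1.add b1, a2.add b2,
    (tsupport_add a b).trans (union_subset a3 b3), fun x => ?_, ?_⟩
  · have h1 := abs_le.1 (a4 x)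
    have h2 := abs_le.1 (b4 x)
    rw [abs_le]
    constructor <;> linarith [h1.1, h1.2, h2.1, h2.2]
  · have e : (fun x => ∇ (fun x => a x + b x) x - (F x + G x)) =
        fun x => (∇ a x - F x) + (∇ b x - G x) := by
      funext x
      rw [grad_add (a1.differentiable one_ne_zero x) (b1.differentiable one_ne_zero x)]
      abel
    rw [e]
    have := R80.nr_add_le ((lipc_l2_grad a1 a2).sub' hf.l2) ((lipc_l2_grad b1 b2).sub' hg.l2)
    linarith

theorem smul (c : ℝ) (hf : H1 Ω f F) : H1 Ω (fun x => c * f x) fun x => c • F x := by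
  refine ⟨hf.l2.const_smul c, fun δ hδ => ?_⟩
  have hc : 0 < |c| + 1 := by positivity
  obtain ⟨a, a1, a2, a3, a4, a5⟩ := hf.apx (δ / (|c| + 1)) (by positivity)
  have key : |c| * (δ / (|c| + 1)) ≤ δ := by
    rw [mul_div_assoc', div_le_iff₀ hc]; nlinarith
  refine ⟨fun x => c * a x, contDiff_const.mul a1, a2.mul_left,
    tsupport_mul_subset_right.trans a3, fun x => ?_, ?_⟩
  · rw [← mul_sub, abs_mul]
    exact (mul_le_mul_of_nonneg_left (a4 x) (abs_nonneg c)).trans key
  · have e : (fun x => ∇ (fun x => c * a x) x - c • F x) = c • fun x => ∇ a x - F x := by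
      funext x
      have := grad_affine c 0 a x
      simp only [add_zero] at this
      rw [this, Pi.smul_apply, smul_sub]
    rw [e, nr, lpNorm_const_smul]
    exact (mul_le_mul_of_nonneg_left a5 (abs_nonneg c)).trans key

theorem sub (hf : H1 Ω f F) (hg : H1 Ω g G) : H1 Ω (fun x => f x - g x) fun x => F x - G x := by
  simpa [sub_eq_add_neg] using hf.add (hg.smul (-1))

theorem continuous (h : H1 Ω f F) : Continuous f := by
  refine continuous_of_uniform_approx_of_continuous fun u hu => ?_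
  obtain ⟨ε, hε, hu⟩ := Metric.mem_uniformity_dist.1 hu
  obtain ⟨g, h1, -, -, h4, -⟩ := h.apx (ε / 2) (half_pos hε)
  refine ⟨g, h1.continuous, fun y => hu ?_⟩
  rw [dist_comm, Real.dist_eq]
  linarith [h4 y]

theorem bounded (h : H1 Ω f F) : ∃ M : ℝ, ∀ x, |f x| ≤ M := by
  obtain ⟨g, h1, h2, -, h4, -⟩ := h.apx 1 one_pos
  obtain ⟨M, hM⟩ := h1.continuous.bounded_above_of_compact_support h2
  refine ⟨M + 1, fun x => ?_⟩
  have a1 := abs_le.1 (h4 x)
  have a2 := abs_le.1 (hM x)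
  rw [abs_le]
  constructor <;> linarith [a1.1, a1.2, a2.1, a2.2]

theorem eq_zero (h : H1 Ω f F) {x : E3} (hx : x ∉ Ω) : f x = 0 := by
  refine abs_nonpos_iff.1 (le_of_forall_pos_le_add fun δ hδ => ?_)
  obtain ⟨g, -, -, h3, h4, -⟩ := h.apx δ hδ
  have := h4 x
  rwa [image_eq_zero_of_notMem_tsupport fun h => hx (h3 h), zero_sub, abs_neg, ← zero_add δ] at this

theorem ae_zero (h : H1 Ω f F) (hΩ : MeasurableSet Ω) : ∀ᵐ x : E3, x ∉ Ω → F x = 0 := by
  refine R80.ae_eq_zero_of_nr hΩ.compl (h.l2.mono_set (subset_univ _))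
    (le_of_forall_pos_le_add fun δ hδ => ?_)
  obtain ⟨g, h1, h2, h3, -, h5⟩ := h.apx δ hδ
  have e : nr Ωᶜ F = nr Ωᶜ fun x => -(∇ g x - F x) :=
    R80.nr_congr hΩ.compl (Eventually.of_forall fun x hx => by
      rw [grad_eq_zero_of_notMem fun h => hx (h3 h)]; simp)
  rw [e, R80.nr_neg, zero_add]
  exact (R80.nr_mono_set (subset_univ _) ((lipc_l2_grad h1 h2).sub' h.l2)).trans h5

theorem lim {u : ℕ → E3 → ℝ} {U : ℕ → E3 → E3} (h : ∀ n, H1 Ω (u n) (U n)) (hF : L2 univ F)
    (h1 : ∀ δ : ℝ, 0 < δ → ∀ᶠ n in atTop, ∀ x, |u n x - f x| ≤ δ)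
    (h2 : Tendsto (fun n => nr univ fun x => U n x - F x) atTop (𝓝 0)) : H1 Ω f F := by
  refine ⟨hF, fun δ hδ => ?_⟩
  obtain ⟨n, n1, n2⟩ := ((h1 (δ / 2) (half_pos hδ)).and
    (h2.eventually (ge_mem_nhds (half_pos hδ)))).exists
  obtain ⟨a, a1, a2, a3, a4, a5⟩ := (h n).apx (δ / 2) (half_pos hδ)
  refine ⟨a, a1, a2, a3, fun x => ?_, ?_⟩
  · linarith [abs_sub_le (a x) (u n x) (f x), a4 x, n1 x]
  · have := R80.nr_add_le ((lipc_l2_grad a1 a2).sub' (h n).l2) ((h n).l2.sub' hF)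
    simp only [sub_add_sub_cancel] at this
    linarith

end H1

/-- Cauchy-Schwarz for `pr`-type integrals -/
theorem abs_integral_mul_inner_le {U : Set E3} {γ : E3 → ℝ} {S : ℝ} (hγ : Measurable γ)
    (hS : ∀ x, |γ x| ≤ S) {F G : E3 → E3} (hF : L2 U F) (hG : L2 U G) :
    IntegrableOn (fun x => γ x * ⟪F x, G x⟫) U ∧
      |∫ x in U, γ x * ⟪F x, G x⟫| ≤ S * (nr U F * nr U G) := by
  have hS0 : 0 ≤ S := (abs_nonneg _).trans (hS 0)
  have hi : IntegrableOn (fun x => S * (‖F x‖ * ‖G x‖)) U :=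
    (R80.L2.integrableOn_mul_real hF.norm' hG.norm').const_mul S
  have hb : ∀ x, ‖γ x * ⟪F x, G x⟫‖ ≤ S * (‖F x‖ * ‖G x‖) := fun x => by
    rw [norm_mul]
    exact mul_le_mul (hS x) (norm_inner_le_norm _ _) (norm_nonneg _) hS0
  refine ⟨hi.mono' (hγ.aestronglyMeasurable.mul
    (hF.aestronglyMeasurable.inner hG.aestronglyMeasurable)) (Eventually.of_forall hb), ?_⟩
  refine (norm_integral_le_of_norm_le hi (Eventually.of_forall hb)).trans ?_
  rw [integral_const_mul]
  exact mul_le_mul_of_nonneg_left (R80.L2_cs hF hG) hS0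

theorem l2_grad {U : Set E3} (hU : MeasurableSet U) (hb : Bornology.IsBounded U) {f : E3 → ℝ}
    (hf : ContDiff ℝ 1 f) : L2 U (∇ f) := by
  exact R80.L2.of_continuous hU hb (continuous_grad hf)

theorem l2_grad_cs {f : E3 → ℝ} (hf : ContDiff ℝ 1 f) (hc : HasCompactSupport f) : L2 univ (∇ f) := by
  exact lipc_l2_grad hf hc

/-- completeness of `L²` -/
theorem exists_l2_lim {U : Set E3} {F : ℕ → E3 → E3} (hF : ∀ n, L2 U (F n))
    (hc : ∀ ε : ℝ, 0 < ε → ∃ N, ∀ m ≥ N, ∀ n ≥ N, nr U (fun x => F m x - F n x) ≤ ε) :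
    ∃ G : E3 → E3, L2 U G ∧ Tendsto (fun n => nr U fun x => F n x - G x) atTop (𝓝 0) := by
  have key : ∀ {A B : E3 → E3} (hA : L2 U A) (hB : L2 U B),
      nr U (fun x => A x - B x) = dist (hA.toLp A) (hB.toLp B) := fun hA hB => by
    rw [dist_eq_norm, ← MemLp.toLp_sub, ← R80.nr_eq_norm_toLp]
    rfl
  have hcs : CauchySeq fun n => (hF n).toLp (F n) := by
    refine Metric.cauchySeq_iff.2 fun ε hε => ?_
    obtain ⟨N, hN⟩ := hc (ε / 2) (half_pos hε)
    refine ⟨N, fun m hm n hn => ?_⟩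
    rw [← key]
    linarith [hN m hm n hn]
  obtain ⟨G, hG⟩ := cauchySeq_tendsto_of_complete hcs
  refine ⟨G, Lp.memLp G, ?_⟩
  simp only [key (hF _) (Lp.memLp G), Lp.toLp_coeFn]
  exact tendsto_iff_dist_tendsto_zero.1 hG

end Crest.Agent.R83
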