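import Crest.Agent.R83.Move
import Crest.Agent.R83.Lip

/-!
# Row 83: the local move

* `loc_theta`: `Θ x = if x ∈ ball x₀ r then x + (A * oB (Y x)) • n else x`; `oB (Y x) = 0` when
  `‖x - x₀‖ ≥ 4r/7` (`‖Y x - x₀‖ ≥ (7/8)‖x - x₀‖`); on the ball
  `DΘ = 1 + A • tn n (tr (DY) (∇ oB (Y x)))`, `osc_B`, `norm_tn`.
* `loc_T`: `T = (A c₁) • airy oP f₁ n + (A c₂) • airy oP f₂ n`, `zh.σ = if x ∈ ball then (addT Y T z).σ x else z.σ x`,
  `Val0.addT`, `Val0.congr`, `osc_P`, `adj_conj_close`, `airy_oP_zero`.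
* `loc_gain_pt`: `‖e‖ ≤ 2‖g‖`, `⟪n, tr M e⟫ = ⟪M n, e⟫ = (1 + Aτ)⟪n,e⟫ + O(ε‖e‖)`, so
  `(1+Aτ)⟪n, e - g'⟫ = -Aτ⟪n,a⟫ + O(ε)`, `(p - q)² ≥ p²/2 - q²`.
* `loc_move`: `spec_move` at `x₀`, `push_robust`, `chart_nbhd`, the three lemmas above, `exists_inv`;
  `z' = zh.pull Φ`, `C = closedBall x₀ (5r/8)` (off `C`, `Φ = id` locally).  At `x = Θ y`:
  `pull_eq_push`, `Val0.pull`, `tr (DΘ y) (∇u' x) = ∇u y`.  Choose `φ ∈ {0, π/2}` with
  `∫ oτ(Y ·)² ≥ ½ ∫ cχ(Y ·)²` (`oτ_sq_add`, `loc_int`), `cov_lower` with `g = oτ(Y ·)²`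
  (extended by `g ≥ 0` everywhere), `ε₁ = κ D / 10⁴`-type choice.
-/

namespace Crest.Agent.R83

open MeasureTheory Set Metric Filter Topology
open scoped Gradient RealInnerProductSpace NNReal
open Crest.Agent.R80 (L2 nr)

/-! ### part a -/

theorem loc_theta {ε : ℝ} (hε : 0 < ε) : ∃ η : ℝ, 0 < η ∧ η ≤ 1 / 8 ∧
    ∀ (x₀ n : E3) (r A : ℝ) (Y : E3 → E3), 0 < r → ‖n‖ = 1 → 0 ≤ A → A ≤ 1 / 4 →
      (∀ x ∈ closedBall x₀ r, ContDiffAt ℝ 2 Y x ∧ ‖fderiv ℝ Y x - 1‖ ≤ η ∧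
        ‖Y x - x‖ ≤ η * ‖x - x₀‖) →
      ∃ N₀ : ℝ, 0 < N₀ ∧ ∀ N ≥ N₀, ∀ φ : ℝ, ∃ Θ : E3 → E3, ContDiff ℝ 2 Θ ∧
        (∀ x, x ∉ closedBall x₀ (5 * r / 8) → Θ x = x) ∧ (∀ x, ‖Θ x - x‖ ≤ 1 / N) ∧
        (∀ x, ‖fderiv ℝ Θ x - 1‖ ≤ 1 / 2) ∧
        ∀ x ∈ ball x₀ r, ‖fderiv ℝ Θ x - (1 + (A * oτ x₀ r n N φ (Y x)) • tn n n)‖ ≤ ε := by
  classical
  have hη : 0 < min (1 / 8) ε := lt_min (by norm_num) hε
  have hη1 := min_le_left (1 / 8) ε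
  have hη2 := min_le_right (1 / 8) ε
  set η := min (1 / 8) ε
  refine ⟨η, hη, hη1, fun x₀ n r A Y hr hn hA0 hA hY => ?_⟩
  obtain ⟨N₀, hN₀, H⟩ := osc_B x₀ r hn hη
  refine ⟨N₀, hN₀, fun N hN φ => ?_⟩
  set Θ : E3 → E3 := fun x => if x ∈ ball x₀ r then x + (A * oB x₀ r n N φ (Y x)) • n else x with hΘ
  have hid : ∀ x, x ∉ closedBall x₀ (5 * r / 8) → Θ x = x := by
    intro x hx
    simp only [hΘ]
    split_ifs with h
    · rw [mem_closedBall_iff_norm, not_le] at hx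
      have h1 := (hY x (ball_subset_closedBall h)).2.2
      have h2 := norm_sub_le (Y x - x₀) (Y x - x)
      rw [sub_sub_sub_cancel_left] at h2
      rw [oB_zero hr (by nlinarith), mul_zero, zero_smul, add_zero]
    · rfl
  have e1 : ∀ x, x ∉ ball x₀ r → Θ =ᶠ[𝓝 x] id := fun x hx => by
    filter_upwards [isClosed_closedBall.isOpen_compl.mem_nhds
      (fun h => hx (closedBall_subset_ball (show 5 * r / 8 < r by linarith) h))] with y hy using hid y hy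
  have e2 : ∀ x ∈ ball x₀ r, Θ =ᶠ[𝓝 x] fun x => x + (A * oB x₀ r n N φ (Y x)) • n := fun x hx => by
    filter_upwards [isOpen_ball.mem_nhds hx] with y hy using if_pos hy
  have hB : ContDiff ℝ 2 (oB x₀ r n N φ) := (contDiff_oB x₀ r n N φ).of_le (by norm_cast)
  have key : ∀ x ∈ ball x₀ r, ‖fderiv ℝ Θ x - (1 + (A * oτ x₀ r n N φ (Y x)) • tn n n)‖ ≤ η := by
    intro x hx
    obtain ⟨h1, h2, -⟩ := hY x (ball_subset_closedBall hx)
    have d1 := (hasFDerivAt_id x).add (((((hB.differentiable (by norm_num)) (Y x)).hasFDerivAt.comp x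
      (h1.differentiableAt (by norm_num)).hasFDerivAt).const_mul A).smul_const n)
    rw [(d1.congr_of_eventuallyEq (e2 x hx)).fderiv]
    refine ContinuousLinearMap.opNorm_le_bound _ hη.le fun ξ => ?_
    have h3 := H N hN φ (Y x)
    have h4 := oτ_mem x₀ r n N φ (Y x)
    set g := ∇ (oB x₀ r n N φ) (Y x) with hg
    set τ := oτ x₀ r n N φ (Y x)
    have h5 : ‖g‖ ≤ 2 := by
      have := norm_add_le (g - τ • n) (τ • n)
      rw [sub_add_cancel, norm_smul, hn, mul_one] at this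
      linarith [abs_le.2 h4, Real.norm_eq_abs τ]
    have e : (ContinuousLinearMap.id ℝ E3 + (A • (fderiv ℝ (oB x₀ r n N φ) (Y x)).comp
        (fderiv ℝ Y x)).smulRight n - (1 + (A * τ) • tn n n)) ξ =
        (A * (⟪g, (fderiv ℝ Y x - 1) ξ⟫ + ⟪g - τ • n, ξ⟫)) • n := by
      simp only [sub_apply, add_apply, ContinuousLinearMap.id_apply,
        ContinuousLinearMap.smulRight_apply, smul_apply,
        ContinuousLinearMap.comp_apply, one_apply_eq_self, tn_apply, ← inner_grad, ← hg,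
        inner_sub_right, inner_sub_left, real_inner_smul_left, smul_eq_mul]
      module
    rw [e, norm_smul, hn, mul_one, norm_mul, Real.norm_of_nonneg hA0]
    have h6 : ‖⟪g, (fderiv ℝ Y x - 1) ξ⟫‖ ≤ 2 * (η * ‖ξ‖) := (norm_inner_le_norm _ _).trans
      (mul_le_mul h5 ((fderiv ℝ Y x - 1).le_of_opNorm_le h2 ξ) (norm_nonneg _) zero_le_two)
    have h7 : ‖⟪g - τ • n, ξ⟫‖ ≤ η * ‖ξ‖ :=
      (norm_inner_le_norm _ _).trans (mul_le_mul_of_nonneg_right h3 (norm_nonneg _))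
    have h8 := norm_add_le ⟪g, (fderiv ℝ Y x - 1) ξ⟫ ⟪g - τ • n, ξ⟫
    have h9 : 0 ≤ η * ‖ξ‖ := by positivity
    nlinarith [norm_nonneg (⟪g, (fderiv ℝ Y x - 1) ξ⟫ + ⟪g - τ • n, ξ⟫)]
  refine ⟨Θ, contDiff_iff_contDiffAt.2 fun x => ?_, hid, fun x => ?_, fun x => ?_,
    fun x hx => (key x hx).trans hη2⟩
  · by_cases hx : x ∈ ball x₀ r
    · exact (contDiffAt_id.add ((contDiffAt_const.mul (hB.contDiffAt.comp x
        (hY x (ball_subset_closedBall hx)).1)).smul contDiffAt_const)).congr_of_eventuallyEq (e2 x hx)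
    · exact contDiffAt_id.congr_of_eventuallyEq (e1 x hx)
  · have hN0 : 0 < N := hN₀.trans_le hN
    simp only [hΘ]
    split_ifs
    · rw [add_sub_cancel_left, norm_smul, hn, mul_one, norm_mul, Real.norm_of_nonneg hA0]
      exact (mul_le_of_le_one_left (norm_nonneg _) (by linarith)).trans (abs_oB_le hN0 _)
    · rw [sub_self, norm_zero]
      positivity
  · by_cases hx : x ∈ ball x₀ r
    · have h1 := norm_add_le (fderiv ℝ Θ x - (1 + (A * oτ x₀ r n N φ (Y x)) • tn n n))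
        ((A * oτ x₀ r n N φ (Y x)) • tn n n)
      rw [← sub_sub, sub_add_cancel, sub_sub, norm_smul, norm_tn, hn, mul_one, mul_one, norm_mul,
        Real.norm_of_nonneg hA0, Real.norm_eq_abs] at h1
      nlinarith [key x hx, abs_le.2 (oτ_mem x₀ r n N φ (Y x))]
    · rw [(e1 x hx).fderiv_eq, fderiv_id, ContinuousLinearMap.one_def, sub_self, norm_zero]
      norm_num

theorem loc_gain_pt (a : E3) {ε₁ : ℝ} (hε₁ : 0 < ε₁) : ∃ ε : ℝ, 0 < ε ∧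
    ∀ (M : M3) (n e g g' : E3) (A τ : ℝ), ‖n‖ = 1 → 0 ≤ A → A ≤ 1 / 4 → τ ∈ Icc (-1 : ℝ) 1 →
      ‖M - 1‖ ≤ 1 / 2 → ‖M - (1 + (A * τ) • tn n n)‖ ≤ ε → tr M e = g → ‖g - a‖ ≤ ε →
      ‖g' - a‖ ≤ ε → A ^ 2 * τ ^ 2 * ⟪n, a⟫ ^ 2 / 4 - ε₁ ≤ ‖e - g'‖ ^ 2 := by
  have ha := norm_nonneg a
  have h0 : 0 < min 1 (ε₁ / (2 * ‖a‖ + 5) ^ 2) := lt_min one_pos (by positivity)
  have h1 := min_le_left 1 (ε₁ / (2 * ‖a‖ + 5) ^ 2)
  have h2 := (le_div_iff₀ (by positivity)).1 (min_le_right 1 (ε₁ / (2 * ‖a‖ + 5) ^ 2))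
  set ε := min 1 (ε₁ / (2 * ‖a‖ + 5) ^ 2)
  refine ⟨ε, h0, fun M n e g g' A τ hn hA0 hA hτ hM hM' he hg hg' => ?_⟩
  have hs : |A * τ| ≤ 1 / 4 := by
    rw [abs_mul, abs_of_nonneg hA0]
    nlinarith [abs_le.2 hτ]
  rw [← mul_pow]
  generalize A * τ = s at *
  have key : ∀ v, ⟪v, g⟫ = ⟪M v, e⟫ := fun v => by
    rw [← he, ContinuousLinearMap.adjoint_inner_right]
  have a1 : ‖g‖ ≤ ‖a‖ + 1 := by linarith [norm_sub_norm_le g a]
  have a2 : ‖e‖ ≤ 2 * ‖g‖ := by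
    have b1 := abs_real_inner_le_norm ((M - 1) e) e
    have b2 := (M - 1).le_of_opNorm_le hM e
    have b3 := real_inner_le_norm e g
    rw [sub_apply, one_apply_eq_self, inner_sub_left, ← key,
      real_inner_self_eq_norm_sq] at b1
    rw [sub_apply, one_apply_eq_self] at b2
    by_contra hc
    nlinarith [norm_nonneg g, (abs_le.1 b1).1, mul_le_mul_of_nonneg_right b2 (norm_nonneg e)]
  have hin : ∀ v, |⟪n, v⟫| ≤ ‖v‖ := fun v => by simpa [hn] using abs_real_inner_le_norm n v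
  have a3 : |⟪n, g⟫ - (1 + s) * ⟪n, e⟫| ≤ ε * (2 * ‖a‖ + 2) := by
    have b1 := abs_real_inner_le_norm ((M - (1 + s • tn n n)) n) e
    have b2 := (M - (1 + s • tn n n)).le_of_opNorm_le hM' n
    rw [hn, mul_one] at b2
    refine le_trans (le_of_eq ?_) (b1.trans (mul_le_mul b2 (by linarith) (norm_nonneg _) h0.le))
    simp only [sub_apply, add_apply,
      one_apply_eq_self, smul_apply, tn_apply, inner_sub_left,
      inner_add_left, real_inner_smul_left, ← key, real_inner_self_eq_norm_sq, hn]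
    congr 1
    ring
  have a4 := (hin (g - a)).trans hg
  have a5 := (hin (g' - a)).trans hg'
  have a6 := hin (e - g')
  rw [inner_sub_right] at a4 a5 a6
  have a7 : |(1 + s) * (⟪n, g'⟫ - ⟪n, a⟫)| ≤ 2 * ε := by
    rw [abs_mul]
    exact mul_le_mul ((abs_add_le _ _).trans (by rw [abs_one]; linarith)) a5 (abs_nonneg _) zero_le_two
  have a8 : |(1 + s) * (⟪n, e⟫ - ⟪n, g'⟫) + s * ⟪n, a⟫| ≤ ε * (2 * ‖a‖ + 5) := by
    rw [abs_le] at *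
    constructor <;> linarith [a3.1, a3.2, a4.1, a4.2, a7.1, a7.2]
  have a9 := sq_le_sq' (abs_le.1 a8).1 (abs_le.1 a8).2
  have b1 := sq_le_sq' (abs_le.1 a6).1 (abs_le.1 a6).2
  have b2 : (1 + s) ^ 2 ≤ 2 := by nlinarith [abs_le.1 hs]
  have b3 : (ε * (2 * ‖a‖ + 5)) ^ 2 ≤ ε₁ := by nlinarith [mul_nonneg h0.le (sq_nonneg (2 * ‖a‖ + 5))]
  generalize ⟪n, e⟫ - ⟪n, g'⟫ = d at *
  have b4 := mul_le_mul_of_nonneg_right b2 (sq_nonneg d)
  nlinarith [sq_nonneg (2 * ((1 + s) * d) + s * ⟪n, a⟫)]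

theorem vol_ball : ∃ c : ℝ, 0 < c ∧ ∀ (x : E3) (r : ℝ), 0 < r →
    volume.real (ball x r) = c * r ^ 3 ∧ volume.real (closedBall x r) = c * r ^ 3 := by
  refine ⟨Real.pi * 4 / 3, by positivity, fun x r hr => ?_⟩
  rw [Measure.real, Measure.real, EuclideanSpace.volume_ball_fin_three,
    EuclideanSpace.volume_closedBall_fin_three, ENNReal.toReal_mul, ENNReal.toReal_pow,
    ENNReal.toReal_ofReal hr.le, ENNReal.toReal_ofReal (by positivity), and_self, mul_comm]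

theorem loc_int {x₀ : E3} {r : ℝ} (hr : 0 < r) {Y : E3 → E3} (hY : ContinuousOn Y (closedBall x₀ r))
    (h : ∀ x ∈ closedBall x₀ r, ‖Y x - x‖ ≤ 1 / 8 * ‖x - x₀‖) :
    volume.real (ball x₀ (r / 5)) ≤ ∫ x in ball x₀ r, cχ x₀ r (Y x) ^ 2 := by
  have hi : IntegrableOn (fun x => cχ x₀ r (Y x) ^ 2) (ball x₀ r) :=
    ((((contDiff_cχ x₀ r).continuous.comp_continuousOn hY).pow 2).integrableOn_compact
      (isCompact_closedBall x₀ r)).mono_set ball_subset_closedBall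
  have hs : ball x₀ (r / 5) ⊆ ball x₀ r := ball_subset_ball (by linarith)
  refine le_trans (le_of_eq ?_) (setIntegral_mono_set hi (Eventually.of_forall fun x => sq_nonneg _)
    hs.eventuallyLE)
  rw [setIntegral_congr_fun (g := fun _ => (1 : ℝ)) measurableSet_ball fun x hx => ?_]
  · simp
  · have h1 := h x (ball_subset_closedBall (hs hx))
    have h2 := norm_add_le (Y x - x) (x - x₀)
    rw [sub_add_sub_cancel] at h2
    rw [mem_ball_iff_norm] at hx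
    simp only
    rw [cχ_one hr (by linarith), one_pow]

/-! ### part b -/

theorem locb_smul_zero (c : ℝ) : c • (0 : M3) = 0 :=
  ContinuousLinearMap.ext fun _ => smul_zero c

theorem locb_comb {A c₁ c₂ τ e : ℝ} {P₁ P₂ Q₁ Q₂ : M3} (hA0 : 0 ≤ A) (hA : A ≤ 1 / 4)
    (hτ : τ ∈ Icc (-1 : ℝ) 1) (he : e ≤ 1) (hQ₁ : ‖Q₁‖ = 1) (hQ₂ : ‖Q₂‖ = 1)
    (h₁ : ‖P₁ - τ • Q₁‖ ≤ e) (h₂ : ‖P₂ - τ • Q₂‖ ≤ e) :
    ‖(A * c₁) • P₁ + (A * c₂) • P₂‖ ≤ 2 * (|c₁| + |c₂| + 1) ∧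
      ‖(A * c₁) • P₁ + (A * c₂) • P₂ - (A * τ) • (c₁ • Q₁ + c₂ • Q₂)‖ ≤ (|c₁| + |c₂| + 1) * e := by
  have he0 : 0 ≤ e := (norm_nonneg _).trans h₁
  have hτ' : |τ| ≤ 1 := abs_le.2 hτ
  have hc : ∀ c : ℝ, ‖A * c‖ ≤ |c| := fun c => by
    rw [Real.norm_eq_abs, abs_mul, abs_of_nonneg hA0]
    exact mul_le_of_le_one_left (abs_nonneg c) (by linarith)
  have hP : ∀ {P Q : M3}, ‖Q‖ = 1 → ‖P - τ • Q‖ ≤ e → ‖P‖ ≤ 2 := fun {P Q} hQ h => by
    have h1 := norm_le_norm_add_norm_sub' P (τ • Q)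
    rw [norm_smul, hQ, mul_one, Real.norm_eq_abs] at h1
    linarith
  constructor
  · refine (norm_add_le _ _).trans ?_
    rw [norm_smul, norm_smul]
    have a1 := mul_le_mul (hc c₁) (hP hQ₁ h₁) (norm_nonneg _) (abs_nonneg _)
    have a2 := mul_le_mul (hc c₂) (hP hQ₂ h₂) (norm_nonneg _) (abs_nonneg _)
    linarith
  · have e1 : (A * c₁) • P₁ + (A * c₂) • P₂ - (A * τ) • (c₁ • Q₁ + c₂ • Q₂) =
        (A * c₁) • (P₁ - τ • Q₁) + (A * c₂) • (P₂ - τ • Q₂) := by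
      module
    rw [e1]
    refine (norm_add_le _ _).trans ?_
    rw [norm_smul, norm_smul]
    have a1 := mul_le_mul (hc c₁) h₁ (norm_nonneg _) (abs_nonneg _)
    have a2 := mul_le_mul (hc c₂) h₂ (norm_nonneg _) (abs_nonneg _)
    linarith

theorem loc_T (c₁ c₂ : ℝ) {ε : ℝ} (hε : 0 < ε) : ∃ η : ℝ, 0 < η ∧ η ≤ 1 / 8 ∧
    ∀ (z : St) (x₀ n f₁ f₂ : E3) (r A : ℝ) (Y : E3 → E3), 0 < r → ‖n‖ = 1 → ‖f₁‖ = 1 → ‖f₂‖ = 1 →
      ⟪n, f₁⟫ = 0 → ⟪n, f₂⟫ = 0 → 0 ≤ A → A ≤ 1 / 4 →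
      (∀ x ∈ closedBall x₀ r, z.Val0 x ∧ ContDiffAt ℝ 2 Y x ∧ ‖fderiv ℝ Y x - 1‖ ≤ η ∧
        ‖Y x - x‖ ≤ η * ‖x - x₀‖ ∧ ‖z.σ x - z.σ x₀‖ ≤ η ∧
        ∀ᶠ y in 𝓝 x, ∇ z.u y = tr (fderiv ℝ Y y) (∇ z.u x₀) ∧
          ∇ z.v y = tr (fderiv ℝ Y y) (∇ z.v x₀)) →
      ∃ N₀ : ℝ, 0 < N₀ ∧ ∀ N ≥ N₀, ∀ φ : ℝ, ∃ zh : St, zh.u = z.u ∧ zh.v = z.v ∧
        (∀ x, x ∉ closedBall x₀ (5 * r / 8) → zh.σ x = z.σ x) ∧
        ∀ x ∈ ball x₀ r, zh.Val0 x ∧ ‖zh.σ x - (z.σ x₀ +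
          (A * oτ x₀ r n N φ (Y x)) • (c₁ • tn f₁ f₁ + c₂ • tn f₂ f₂))‖ ≤ ε := by
  have hc : 0 < |c₁| + |c₂| + 1 := by positivity
  obtain ⟨η₁, hη₁, hη₁8, H⟩ := adj_conj_close (2 * (|c₁| + |c₂| + 1)) (show 0 < ε / 3 by positivity)
  refine ⟨min η₁ (ε / 3), by positivity, (min_le_left _ _).trans hη₁8, ?_⟩
  intro z x₀ n f₁ f₂ r A Y hr hn hf₁ hf₂ hn₁ hn₂ hA0 hA h
  have he : 0 < min 1 (ε / 3 / (|c₁| + |c₂| + 1)) := by positivity
  obtain ⟨N₁, hN₁, H₁⟩ := osc_P x₀ r hn hf₁ hn₁ he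
  obtain ⟨N₂, hN₂, H₂⟩ := osc_P x₀ r hn hf₂ hn₂ he
  refine ⟨max N₁ N₂, lt_max_of_lt_left hN₁, fun N hN φ => ?_⟩
  set P := oP x₀ r n N φ with hP
  have hPs := contDiff_oP x₀ r n N φ
  set T : E3 → M3 := fun y => (A * c₁) • airy P f₁ n y + (A * c₂) • airy P f₂ n y with hT
  have ha₁ : ContDiff ℝ 1 (airy P f₁ n) := (contDiff_airy hPs f₁ n).of_le (by simp)
  have ha₂ : ContDiff ℝ 1 (airy P f₂ n) := (contDiff_airy hPs f₂ n).of_le (by simp)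
  have hT1 : ContDiff ℝ 1 T := (ha₁.const_smul _).add (ha₂.const_smul _)
  have hTs : ∀ y, Sym (T y) := fun y a b => by
    simp only [hT, add_apply, smul_apply, inner_add_left,
      inner_add_right, real_inner_smul_left, real_inner_smul_right, sym_airy P f₁ n y a b,
      sym_airy P f₂ n y a b]
  have hTd : ∀ ξ y, dv (fun w => T w ξ) y = 0 := fun ξ y => by
    have d₁ : DifferentiableAt ℝ (fun w => airy P f₁ n w ξ) y :=
      ((ha₁.clm_apply contDiff_const).differentiable one_ne_zero) y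
    have d₂ : DifferentiableAt ℝ (fun w => airy P f₂ n w ξ) y :=
      ((ha₂.clm_apply contDiff_const).differentiable one_ne_zero) y
    have e : (fun w => T w ξ) = fun w => (A * c₁) • airy P f₁ n w ξ + (A * c₂) • airy P f₂ n w ξ := rfl
    rw [e, dv_add (d₁.fun_const_smul _) (d₂.fun_const_smul _), dv_const_smul _ d₁, dv_const_smul _ d₂,
      dv_airy hPs, dv_airy hPs, mul_zero, mul_zero, add_zero]
  have hTb := fun y => locb_comb (c₁ := c₁) (c₂ := c₂) hA0 hA (oτ_mem x₀ r n N φ y) (min_le_left _ _)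
    (Q₁ := tn f₁ f₁) (Q₂ := tn f₂ f₂) (by rw [norm_tn, hf₁, mul_one]) (by rw [norm_tn, hf₂, mul_one])
    (H₁ N ((le_max_left _ _).trans hN) φ y) (H₂ N ((le_max_right _ _).trans hN) φ y)
  classical
  refine ⟨⟨z.u, z.v, fun x => if x ∈ ball x₀ r then (z.addT Y T).σ x else z.σ x⟩, rfl, rfl,
    fun x hx => ?_, fun x hx => ?_⟩
  · show (if x ∈ ball x₀ r then (z.addT Y T).σ x else z.σ x) = z.σ x
    split_ifs with hb
    · obtain ⟨-, -, -, h4, -⟩ := h x (ball_subset_closedBall hb)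
      rw [mem_closedBall, dist_eq_norm, not_le] at hx
      have h5 : min η₁ (ε / 3) * ‖x - x₀‖ ≤ 1 / 8 * ‖x - x₀‖ :=
        mul_le_mul_of_nonneg_right ((min_le_left _ _).trans hη₁8) (norm_nonneg _)
      have h6 : ‖x - x₀‖ ≤ ‖Y x - x‖ + ‖Y x - x₀‖ := by
        rw [norm_sub_rev (Y x) x]
        exact norm_sub_le_norm_sub_add_norm_sub _ _ _
      have h7 : r / 2 < ‖Y x - x₀‖ := by linarith
      have h8 : T (Y x) = 0 := by
        simp only [hT, hP, airy_oP_zero hr h7, locb_smul_zero, add_zero]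
      simp only [St.addT, h8, ContinuousLinearMap.zero_comp, ContinuousLinearMap.comp_zero,
        locb_smul_zero, add_zero]
    · rfl
  · obtain ⟨h1, h2, h3, -, h5, h6⟩ := h x (ball_subset_closedBall hx)
    obtain ⟨hd, hcl⟩ := H (fderiv ℝ Y x) (T (Y x)) (h3.trans (min_le_left _ _)) (hTb (Y x)).1
    refine ⟨(h1.addT h2 hd hT1 hTs hTd h6).congr (Eventually.of_forall fun _ => rfl)
      (Eventually.of_forall fun _ => rfl) ?_, ?_⟩
    · filter_upwards [isOpen_ball.mem_nhds hx] with y hy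
      exact if_pos hy
    · show ‖(if x ∈ ball x₀ r then (z.addT Y T).σ x else z.σ x) - _‖ ≤ ε
      rw [if_pos hx]
      have h7 := (hTb (Y x)).2
      have h8 : (|c₁| + |c₂| + 1) * min 1 (ε / 3 / (|c₁| + |c₂| + 1)) ≤ ε / 3 :=
        (mul_le_mul_of_nonneg_left (min_le_right _ _) hc.le).trans_eq (mul_div_cancel₀ _ hc.ne')
      have h9 := h5.trans (min_le_right _ _)
      set W := ((fderiv ℝ Y x).det)⁻¹ •
        (adj (fderiv ℝ Y x) ∘L T (Y x) ∘L tr (adj (fderiv ℝ Y x))) with hW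
      set Z := (A * oτ x₀ r n N φ (Y x)) • (c₁ • tn f₁ f₁ + c₂ • tn f₂ f₂) with hZ
      have e : (z.addT Y T).σ x - (z.σ x₀ + Z) =
          (z.σ x - z.σ x₀) + (W - T (Y x)) + (T (Y x) - Z) := by
        show z.σ x + W - _ = _
        abel
      rw [e]
      have h10 := norm_add₃_le (a := z.σ x - z.σ x₀) (b := W - T (Y x)) (c := T (Y x) - Z)
      have h11 : ‖T (Y x) - Z‖ ≤ ε / 3 := h7.trans h8
      linarith

/-! ### part c -/

theorem locc_int {f : E3 → ℝ} {x₀ : E3} {r : ℝ} (hf : ContinuousOn f (closedBall x₀ r)) :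
    IntegrableOn f (ball x₀ r) :=
  (hf.integrableOn_compact (isCompact_closedBall _ _)).mono_set ball_subset_closedBall

theorem locc_cont {x₀ : E3} {r : ℝ} {Y : E3 → E3} (hY : ContinuousOn Y (closedBall x₀ r)) (n : E3)
    (N φ : ℝ) : ContinuousOn (fun x => oτ x₀ r n N φ (Y x) ^ 2) (closedBall x₀ r) :=
  ((contDiff_oτ x₀ r n N φ).continuous.comp_continuousOn hY).pow 2

theorem locc_phi {x₀ : E3} {r : ℝ} (hr : 0 < r) {Y : E3 → E3}
    (hY : ContinuousOn Y (closedBall x₀ r))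
    (h : ∀ x ∈ closedBall x₀ r, ‖Y x - x‖ ≤ 1 / 8 * ‖x - x₀‖) (n : E3) (N : ℝ) :
    ∃ φ : ℝ, volume.real (ball x₀ (r / 5)) ≤ 2 * ∫ x in ball x₀ r, oτ x₀ r n N φ (Y x) ^ 2 := by
  have h1 := loc_int hr hY h
  simp only [← oτ_sq_add x₀ r n N] at h1
  rw [integral_add (locc_int (locc_cont hY n N 0)) (locc_int (locc_cont hY n N _))] at h1
  rcases le_total (∫ x in ball x₀ r, oτ x₀ r n N 0 (Y x) ^ 2)
    (∫ x in ball x₀ r, oτ x₀ r n N (Real.pi / 2) (Y x) ^ 2) with h2 | h2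
  · exact ⟨Real.pi / 2, by linarith⟩
  · exact ⟨0, by linarith⟩

theorem locc_id {C : Set E3} (hC : IsClosed C) {Φ : E3 → E3} (h : ∀ x, x ∉ C → Φ x = x) {x : E3}
    (hx : x ∉ C) : fderiv ℝ Φ x = 1 := by
  have e : Φ =ᶠ[𝓝 x] id := by
    filter_upwards [hC.isOpen_compl.mem_nhds hx] with y hy using h y hy
  rw [e.fderiv_eq, fderiv_id]
  rfl

theorem locc_det_one : (1 : M3).det = 1 := LinearMap.det_id

theorem loc_move {S : ℝ} (hS : 0 < S) : ∃ κ : ℝ, 0 < κ ∧ ∀ (z : St) (x₀ : E3),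
    (∀ᶠ x in 𝓝 x₀, z.Val S x) → 0 < z.D x₀ → ∃ r₀ : ℝ, 0 < r₀ ∧ ∀ r : ℝ, 0 < r → r ≤ r₀ →
      ∀ δ : ℝ, 0 < δ → ∃ (z' : St) (C : Set E3), IsCompact C ∧ C ⊆ ball x₀ r ∧ z.Near z' C δ ∧
        (∀ x ∈ ball x₀ r, z'.Val S x) ∧ κ * r ^ 3 * z.D x₀ ≤ ∫ x in ball x₀ r, z.gain z' x := by
  obtain ⟨κ₀, hκ₀, hsp⟩ := spec_move hS
  obtain ⟨c, hc, hvol⟩ := vol_ball
  refine ⟨κ₀ * c / 4000, by positivity, fun z x₀ hval hD => ?_⟩
  have h0 := hval.self_of_nhds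
  obtain ⟨n, f₁, f₂, A, c₁, c₂, hn, hf₁, hf₂, hn₁, hn₂, hA0, hA1, hG, hE⟩ :=
    hsp _ _ _ h0.sym h0.ell h0.ind
  obtain ⟨ε₀, hε₀, hrob⟩ := push_robust (S := S) (Mc := fun τ => 1 + (A * τ) • tn n n)
    (sc := fun τ => z.σ x₀ + (A * τ) • (c₁ • tn f₁ f₁ + c₂ • tn f₂ f₂)) (by fun_prop) (by fun_prop)
    fun τ hτ => ⟨by
      rw [det_one_add_tn, real_inner_self_eq_norm_sq, hn]
      nlinarith [hτ.1], hE τ hτ⟩
  have hε₁ : 0 < κ₀ * z.D x₀ / 8000 := by positivity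
  obtain ⟨εa, hεa, hga⟩ := loc_gain_pt (∇ z.u x₀) hε₁
  obtain ⟨εb, hεb, hgb⟩ := loc_gain_pt (∇ z.v x₀) hε₁
  obtain ⟨ε, hε, e0, ea, eb⟩ : ∃ ε : ℝ, 0 < ε ∧ ε ≤ ε₀ ∧ ε ≤ εa ∧ ε ≤ εb :=
    ⟨min ε₀ (min εa εb), by positivity, min_le_left _ _, (min_le_right _ _).trans (min_le_left _ _),
      (min_le_right _ _).trans (min_le_right _ _)⟩
  obtain ⟨η₁, hη₁, hη8, hth⟩ := loc_theta hε
  obtain ⟨η₂, hη₂, -, hT⟩ := loc_T c₁ c₂ hε
  obtain ⟨η, hη, g0, g1, g2⟩ : ∃ η : ℝ, 0 < η ∧ η ≤ ε ∧ η ≤ η₁ ∧ η ≤ η₂ :=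
    ⟨min ε (min η₁ η₂), by positivity, min_le_left _ _, (min_le_right _ _).trans (min_le_left _ _),
      (min_le_right _ _).trans (min_le_right _ _)⟩
  obtain ⟨Y, r₀, hr₀, hY⟩ := chart_nbhd hval hη
  refine ⟨r₀, hr₀, fun r hr hrr δ hδ => ?_⟩
  replace hY := fun x (hx : x ∈ closedBall x₀ r) => hY x (closedBall_subset_closedBall hrr hx)
  have hY' : ∀ {t : ℝ}, η ≤ t → ∀ x ∈ closedBall x₀ r, ‖Y x - x‖ ≤ t * ‖x - x₀‖ := fun ht x hx =>
    (hY x hx).2.2.2.1.trans (mul_le_mul_of_nonneg_right ht (norm_nonneg _))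
  have hYc : ContinuousOn Y (closedBall x₀ r) := fun x hx =>
    (hY x hx).2.1.continuousAt.continuousWithinAt
  obtain ⟨N₁, hN₁, hth⟩ := hth x₀ n r A Y hr hn hA0 hA1 fun x hx =>
    ⟨(hY x hx).2.1, (hY x hx).2.2.1.trans g1, hY' g1 x hx⟩
  obtain ⟨N₂, -, hT⟩ := hT z x₀ n f₁ f₂ r A Y hr hn hf₁ hf₂ hn₁ hn₂ hA0 hA1 fun x hx =>
    ⟨(hY x hx).1.toVal0, (hY x hx).2.1, (hY x hx).2.2.1.trans g2, hY' g2 x hx,
      (hY x hx).2.2.2.2.1.trans g2, (hY x hx).2.2.2.2.2.2.2⟩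
  obtain ⟨ρ, hρ, huc⟩ := Metric.uniformContinuousOn_iff_le.1
    ((isCompact_closedBall x₀ r).uniformContinuousOn_of_continuous (f := fun x => (z.u x, z.v x))
      fun x hx => ((hY x hx).1.su.continuousAt.prodMk
        (hY x hx).1.sv.continuousAt).continuousWithinAt) δ hδ
  obtain ⟨N, k1, k2, k3⟩ : ∃ N : ℝ, N₁ ≤ N ∧ N₂ ≤ N ∧ 1 / ρ ≤ N :=
    ⟨max N₁ (max N₂ (1 / ρ)), le_max_left _ _, (le_max_left _ _).trans (le_max_right _ _),
      (le_max_right _ _).trans (le_max_right _ _)⟩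
  have hNρ : 1 / N ≤ ρ := (one_div_le hρ (hN₁.trans_le k1)).1 k3
  obtain ⟨φ, hφ⟩ := locc_phi hr hYc (hY' (g1.trans hη8)) n N
  obtain ⟨Θ, hΘ, t1, t2, t3, t4⟩ := hth N k1 φ
  obtain ⟨zh, hu, hv, s1, s2⟩ := hT N k2 φ
  obtain ⟨Φ, hΦ, i1, i2, i3⟩ := exists_inv hΘ t3
  have hCb : closedBall x₀ (5 * r / 8) ⊆ ball x₀ r := closedBall_subset_ball (by linarith)
  have p1 : ∀ x, x ∉ closedBall x₀ (5 * r / 8) → Φ x = x := fun x hx => by
    rw [← t1 x hx, i1, t1 x hx]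
  have p2 : ∀ {B : Set E3}, closedBall x₀ (5 * r / 8) ⊆ B → ∀ x ∈ B, Φ x ∈ B := fun hB x hx => by
    by_contra h
    have e := t1 _ fun h' => h (hB h')
    rw [i2] at e
    exact h (e ▸ hx)
  have p3 := p2 (hCb.trans ball_subset_closedBall)
  have i4 : ∀ x, fderiv ℝ Φ x ∘L fderiv ℝ Θ (Φ x) = 1 := fun x => by
    have := i3 (Φ x)
    rwa [i2] at this
  have hrb := fun y (hy : y ∈ ball x₀ r) => hrob _ (oτ_mem x₀ r n N φ (Y y)) _ _
    ((t4 y hy).trans e0) ((s2 y hy).2.trans e0)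
  have hzu : (zh.pull Φ).u = z.u ∘ Φ := by rw [← hu]; rfl
  have hzv : (zh.pull Φ).v = z.v ∘ Φ := by rw [← hv]; rfl
  refine ⟨zh.pull Φ, closedBall x₀ (5 * r / 8), isCompact_closedBall _ _, hCb,
    ⟨fun x hx => ?_, fun x => ?_⟩, fun x hx => ?_, ?_⟩
  · rw [hzu, hzv]
    refine ⟨congrArg z.u (p1 x hx), congrArg z.v (p1 x hx), ?_⟩
    simp only [St.pull, locc_id isClosed_closedBall p1 hx, p1 x hx, s1 x hx, adj_one, locc_det_one,
      inv_one, one_smul]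
    ext1 ξ
    simp
  · rw [hzu, hzv, Function.comp_apply, Function.comp_apply]
    by_cases hx : x ∈ closedBall x₀ r
    · have := huc _ (p3 x hx) _ hx (by
        have := (t2 (Φ x)).trans hNρ
        rwa [i2, ← dist_eq_norm, dist_comm] at this)
      rwa [Prod.dist_eq, max_le_iff] at this
    · rw [p1 x fun h => hx (ball_subset_closedBall (hCb h))]
      simp [hδ.le]
  · have hd : (fderiv ℝ Φ x).det ≠ 0 := fun h => by
      have := congrArg ContinuousLinearMap.det (i4 x)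
      rw [det_comp, h, zero_mul, locc_det_one] at this
      exact zero_ne_one this
    refine ⟨(s2 _ (p2 hCb x hx)).1.pull hΦ.contDiffAt hd, ?_⟩
    have e : (zh.pull Φ).σ x = push (fderiv ℝ Θ (Φ x)) (zh.σ (Φ x)) := pull_eq_push (i4 x) _
    rw [e]
    exact (hrb _ (p2 hCb x hx)).2
  have hcov := cov_lower (hΘ.of_le (by norm_num)) hΦ.continuous i1 i2
    (fun x hx => t1 x fun h => hx (hCb h)) (fun x => by
      by_cases hx : x ∈ ball x₀ r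
      · exact (hrb x hx).1
      · rw [locc_id isClosed_closedBall t1 fun h => hx (hCb h), locc_det_one]
        norm_num) (locc_cont hYc n N φ) fun x => sq_nonneg _
  have hgr : ∀ {w : E3 → ℝ} {x : E3}, ContDiffAt ℝ 2 w (Φ x) →
      ContDiffAt ℝ 2 (w ∘ Φ) x ∧ tr (fderiv ℝ Θ (Φ x)) (∇ (w ∘ Φ) x) = ∇ w (Φ x) :=
    fun {w x} hw => by
      have h1 : ContDiffAt ℝ 2 (w ∘ Φ) x := hw.comp x hΦ.contDiffAt
      refine ⟨h1, ?_⟩
      have h2 := grad_comp (f := w ∘ Φ) (Φ := Θ) (x := Φ x)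
        (by rw [i2]; exact h1.differentiableAt two_ne_zero)
        (hΘ.differentiable two_ne_zero _)
      rw [i2, show (w ∘ Φ) ∘ Θ = w from funext fun y => congrArg w (i1 y)] at h2
      exact h2.symm
  obtain ⟨G, hGd⟩ : ∃ G, G = A ^ 2 * (⟪n, ∇ z.u x₀⟫ ^ 2 + ⟪n, ∇ z.v x₀⟫ ^ 2) := ⟨_, rfl⟩
  have hI : IntegrableOn (fun x => oτ x₀ r n N φ (Y (Φ x)) ^ 2) (ball x₀ r) :=
    locc_int ((locc_cont hYc n N φ).comp hΦ.continuous.continuousOn p3)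
  have hmono : ∫ x in ball x₀ r, (G / 4 * oτ x₀ r n N φ (Y (Φ x)) ^ 2 - κ₀ * z.D x₀ / 4000) ≤
      ∫ x in ball x₀ r, z.gain (zh.pull Φ) x := by
    refine setIntegral_mono_on ((hI.const_mul _).sub (locc_int continuousOn_const))
      (locc_int fun x hx => ?_) measurableSet_ball fun x hx => ?_
    · unfold St.gain
      rw [hzu, hzv]
      exact (((((contDiffAt_grad1 (hgr (hY _ (p3 x hx)).1.su).1).continuousAt.sub
        (contDiffAt_grad1 (hY x hx).1.su).continuousAt).norm.pow 2).add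
        (((contDiffAt_grad1 (hgr (hY _ (p3 x hx)).1.sv).1).continuousAt.sub
        (contDiffAt_grad1 (hY x hx).1.sv).continuousAt).norm.pow 2))).continuousWithinAt
    · have hx' := hY x (ball_subset_closedBall hx)
      have hy := hY _ (p3 x (ball_subset_closedBall hx))
      have a1 := hga _ n _ _ (∇ z.u x) A _ hn hA0 hA1 (oτ_mem x₀ r n N φ (Y (Φ x))) (t3 _)
        ((t4 _ (p2 hCb x hx)).trans ea) (hgr hy.1.su).2 (hy.2.2.2.2.2.1.trans (g0.trans ea))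
        (hx'.2.2.2.2.2.1.trans (g0.trans ea))
      have a2 := hgb _ n _ _ (∇ z.v x) A _ hn hA0 hA1 (oτ_mem x₀ r n N φ (Y (Φ x))) (t3 _)
        ((t4 _ (p2 hCb x hx)).trans eb) (hgr hy.1.sv).2 (hy.2.2.2.2.2.2.1.trans (g0.trans eb))
        (hx'.2.2.2.2.2.2.1.trans (g0.trans eb))
      unfold St.gain
      rw [hzu, hzv, hGd]
      linarith
  rw [integral_sub (hI.const_mul _) (locc_int continuousOn_const), integral_const_mul,
    setIntegral_const, (hvol x₀ r hr).1, smul_eq_mul] at hmono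
  rw [(hvol x₀ _ (by positivity)).1] at hφ
  rw [← hGd] at hG
  have hG' : κ₀ * z.D x₀ ≤ G := hG
  have b1 : c * r ^ 3 / 500 ≤ ∫ x in ball x₀ r, oτ x₀ r n N φ (Y (Φ x)) ^ 2 := by linarith
  have b2 := mul_le_mul hG' b1 (by positivity) ((mul_pos hκ₀ hD).le.trans hG')
  linarith

end Crest.Agent.R83
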