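import Crest.Agent.R83.Amp

/-!
# Row 83: the logarithmic mode

`w = e^{-t + i a}/2`, `∂_t w = -w`, `∂_a w = i w`.  `lF + i arg = log (1 + w)`, `lA = -arg (1 + w)`,
`lW = Im H(w)` with `w H'(w) = log (1 + w)`.
* `exists_H`: `dslope (log (1 + ·)) 0` is holomorphic on the unit ball
  (`Complex.differentiableOn_dslope`), `DifferentiableOn.isExactOn_ball`; subtract the value at `0`.
* for `‖w‖ ≤ 1/2`: `1 + w ∈ slitPlane`, `Complex.log_re`, `Complex.log_im`,
  `Complex.norm_log_one_add_half_le_self`; `‖H w‖ ≤ 3/2 ‖w‖` by the mean value inequality on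
  `closedBall 0 (1/2)`; on the real axis `r ↦ (H r).im` has derivative zero.
* smoothness: holomorphic on the open ball `⇒ AnalyticAt ⇒ ContDiffAt ℂ ⇒ .restrict_scalars ℝ`; near a point
  with `0 < y 0`, `wy y = ww (y 0) (y 1)`.  Partial derivatives: `pd_of_hasDerivAt`.
* `lipB_log`: `wy` is Lipschitz with values in the compact convex `closedBall 0 (1/2)`, where `log (1 + ·)`
  and `HH` are Lipschitz (bounded derivative, `Convex.lipschitzOnWith_of_nnnorm_hasDerivWithin_le`).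
-/

namespace Crest.Agent.R83

open MeasureTheory Set Metric Filter Topology
open scoped Gradient RealInnerProductSpace NNReal

/-! ### part a -/

theorem logpa_log {z : ℂ} (hz : ‖z‖ < 1) :
    HasDerivAt (fun w : ℂ => Complex.log (1 + w)) (1 / (1 + z)) z :=
  ((hasDerivAt_id' z).const_add 1).clog (Complex.mem_slitPlane_of_norm_lt_one hz)

theorem exists_H : ∃ H : ℂ → ℂ, H 0 = 0 ∧ ∀ z ∈ ball (0 : ℂ) 1,
    HasDerivAt H (dslope (fun w : ℂ => Complex.log (1 + w)) 0 z) z := by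
  have h : DifferentiableOn ℂ (fun w : ℂ => Complex.log (1 + w)) (ball 0 1) := fun z hz =>
    (logpa_log (mem_ball_zero_iff.1 hz)).differentiableAt.differentiableWithinAt
  exact ((Complex.differentiableOn_dslope (ball_mem_nhds _ one_pos)).2 h).isExactOn_ball.with_val_at
    0 0

noncomputable def HH : ℂ → ℂ := exists_H.choose

noncomputable def wy (y : E3) : ℂ := ww (max (y 0) 0) (y 1)
noncomputable def lF (y : E3) : ℝ := Real.log ‖1 + wy y‖
noncomputable def lA (y : E3) : ℝ := -Complex.arg (1 + wy y)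
noncomputable def lW (y : E3) : ℝ := (HH (wy y)).im

/-- computing a partial derivative along the coordinate line -/
theorem pd_of_hasDerivAt {f : E3 → ℝ} {y : E3} (hf : DifferentiableAt ℝ f y) {i : Fin 3} {c : ℝ}
    (h : HasDerivAt (fun r : ℝ => f (y + r • ee i)) c 0) : pd i f y = c := by
  have h1 : HasDerivAt (fun r : ℝ => y + r • ee i) (ee i) 0 := by
    simpa using ((hasDerivAt_id' (0 : ℝ)).smul_const (ee i)).const_add y
  have h2 := hf.hasFDerivAt.comp_hasDerivAt_of_eq 0 h1 (by simp)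
  exact h2.unique h

theorem norm_ww (t a : ℝ) : ‖ww t a‖ = Real.exp (-t) / 2 := by
  rw [ww, norm_mul, Complex.norm_exp]
  simp
  ring

theorem norm_wy_le (y : E3) : ‖wy y‖ ≤ 1 / 2 := by
  rw [wy, norm_ww]
  have : Real.exp (-max (y 0) 0) ≤ 1 := Real.exp_le_one_iff.2 (neg_nonpos.2 (le_max_right _ _))
  linarith

/-- `y ↦ -y 0 + i y 1` -/
noncomputable def logpa_L : E3 →L[ℝ] ℂ :=
  -(Complex.ofRealCLM ∘L EuclideanSpace.proj 0) +
    Complex.I • (Complex.ofRealCLM ∘L EuclideanSpace.proj 1)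

theorem logpa_L_apply (y : E3) : logpa_L y = -(y 0 : ℂ) + (y 1 : ℂ) * Complex.I := by
  simp [logpa_L, mul_comm]

theorem logpa_ev {y : E3} (hy : 0 < y 0) :
    wy =ᶠ[𝓝 y] fun z => (1 / 2 : ℂ) * Complex.exp (logpa_L z) := by
  have hc : Continuous fun z : E3 => z 0 := by fun_prop
  filter_upwards [hc.continuousAt.eventually (lt_mem_nhds hy)] with z hz
  rw [wy, max_eq_left hz.le, ww, logpa_L_apply]

theorem logpa_mem (y : E3) : wy y ∈ ball (0 : ℂ) 1 :=
  mem_ball_zero_iff.2 ((norm_wy_le y).trans_lt (by norm_num))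

theorem logpa_sm {y : E3} (hy : 0 < y 0) {Φ : ℂ → ℂ} (h : DifferentiableOn ℂ Φ (ball 0 1))
    (T : ℂ →L[ℝ] ℝ) : ContDiffAt ℝ 2 (fun z => T (Φ (wy z))) y := by
  have h1 : ContDiffAt ℝ 2 wy y :=
    (contDiff_const.mul logpa_L.contDiff.cexp).contDiffAt.congr_of_eventuallyEq (logpa_ev hy)
  have h2 : ContDiffAt ℂ 2 Φ (wy y) :=
    (h.analyticAt (isOpen_ball.mem_nhds (logpa_mem y))).contDiffAt
  exact T.contDiff.contDiffAt.comp y ((h2.restrict_scalars ℝ).comp y h1)

theorem logpa_pd {y : E3} (hy : 0 < y 0) {Φ : ℂ → ℂ} {c : ℂ} (h : HasDerivAt Φ c (wy y))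
    (T : ℂ →L[ℝ] ℝ) (i : Fin 3) :
    pd i (fun z => T (Φ (wy z))) y = T (wy y * c * logpa_L (ee i)) := by
  have h1 : HasFDerivAt wy ((1 / 2 : ℂ) • Complex.exp (logpa_L y) • logpa_L) y :=
    (logpa_L.hasFDerivAt.cexp.const_mul (1 / 2 : ℂ)).congr_of_eventuallyEq (logpa_ev hy)
  have h2 : HasFDerivAt (fun z => T (Φ (wy z))) _ y :=
    T.hasFDerivAt.comp y (h.comp_hasFDerivAt y h1)
  rw [pd, h2.fderiv, (logpa_ev hy).eq_of_nhds]
  simp only [ContinuousLinearMap.comp_apply, smul_apply, smul_eq_mul]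
  congr 1
  ring

theorem logpa_lF : lF = fun z => Complex.reCLM (Complex.log (1 + wy z)) := by
  funext z
  rw [lF, Complex.reCLM_apply, Complex.log_re]

theorem logpa_lA : lA = fun z => (-Complex.imCLM) (Complex.log (1 + wy z)) := by
  funext z
  rw [lA, neg_apply, Complex.imCLM_apply, Complex.log_im]

theorem logpa_lW : lW = fun z => Complex.imCLM (HH (wy z)) := rfl

theorem log_smooth {y : E3} (hy : 0 < y 0) :
    ContDiffAt ℝ 2 lF y ∧ ContDiffAt ℝ 2 lA y ∧ ContDiffAt ℝ 2 lW y := by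
  have hL : DifferentiableOn ℂ (fun w : ℂ => Complex.log (1 + w)) (ball 0 1) := fun z hz =>
    (logpa_log (mem_ball_zero_iff.1 hz)).differentiableAt.differentiableWithinAt
  have hH : DifferentiableOn ℂ HH (ball 0 1) := fun z hz =>
    (exists_H.choose_spec.2 z hz).differentiableAt.differentiableWithinAt
  rw [logpa_lF, logpa_lA, logpa_lW]
  exact ⟨logpa_sm hy hL _, logpa_sm hy hL _, logpa_sm hy hH _⟩

theorem log_pd {y : E3} (hy : 0 < y 0) :
    pd 0 lF y = -(wy y / (1 + wy y)).re ∧ pd 1 lF y = -(wy y / (1 + wy y)).im ∧ pd 2 lF y = 0 ∧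
    pd 0 lA y = (wy y / (1 + wy y)).im ∧ pd 1 lA y = -(wy y / (1 + wy y)).re ∧ pd 2 lA y = 0 ∧
    pd 0 lW y = lA y ∧ pd 1 lW y = lF y ∧ pd 2 lW y = 0 := by
  have hL := logpa_log (mem_ball_zero_iff.1 (logpa_mem y))
  have hH : HasDerivAt HH _ (wy y) := exists_H.choose_spec.2 _ (logpa_mem y)
  have e : wy y * dslope (fun w : ℂ => Complex.log (1 + w)) 0 (wy y) = Complex.log (1 + wy y) := by
    simpa using sub_smul_dslope (fun w : ℂ => Complex.log (1 + w)) 0 (wy y)
  have l0 : logpa_L (ee 0) = -1 := by simp [logpa_L_apply, ee]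
  have l1 : logpa_L (ee 1) = Complex.I := by simp [logpa_L_apply, ee]
  have l2 : logpa_L (ee 2) = 0 := by simp [logpa_L_apply, ee]
  have hF : ∀ i, pd i lF y = (wy y / (1 + wy y) * logpa_L (ee i)).re := fun i => by
    rw [logpa_lF, logpa_pd hy hL, mul_one_div, Complex.reCLM_apply]
  have hA : ∀ i, pd i lA y = -(wy y / (1 + wy y) * logpa_L (ee i)).im := fun i => by
    rw [logpa_lA, logpa_pd hy hL, mul_one_div, neg_apply, Complex.imCLM_apply]
  have hW : ∀ i, pd i lW y = (Complex.log (1 + wy y) * logpa_L (ee i)).im := fun i => by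
    rw [logpa_lW, logpa_pd hy hH, e, Complex.imCLM_apply]
  simp only [hF, hA, hW, l0, l1, l2, mul_neg, mul_one, mul_zero, Complex.neg_re, Complex.neg_im,
    neg_neg, Complex.mul_I_re, Complex.mul_I_im, Complex.zero_re, Complex.zero_im, neg_zero,
    Complex.log_re, Complex.log_im, lA, lF, and_self]

/-! ### part b -/

theorem logpb_der {z : ℂ} (hz : ‖z‖ ≤ 1 / 2) :
    HasDerivAt (fun w : ℂ => Complex.log (1 + w)) (1 / (1 + z)) z :=
  ((hasDerivAt_id' z).const_add 1).clog (Complex.mem_slitPlane_of_norm_lt_one (by linarith))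

theorem logpb_ds (z : ℂ) : dslope (fun w : ℂ => Complex.log (1 + w)) 0 z =
    if z = 0 then 1 else Complex.log (1 + z) / z := by
  split_ifs with h
  · rw [h, dslope_same, (logpb_der (by simp)).deriv]; simp
  · rw [dslope_of_ne _ h, slope_def_field]; simp

theorem logpb_low {z : ℂ} (hz : ‖z‖ ≤ 1 / 2) : 1 / 2 ≤ ‖1 + z‖ := by
  have := norm_sub_norm_le (1 : ℂ) (-z)
  rw [norm_one, norm_neg, sub_neg_eq_add] at this
  linarith

theorem logpb_HD {z : ℂ} (hz : ‖z‖ ≤ 1 / 2) :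
    HasDerivAt HH (dslope (fun w : ℂ => Complex.log (1 + w)) 0 z) z :=
  exists_H.choose_spec.2 z (mem_ball_zero_iff.2 (by linarith))

theorem logpb_H {z z' : ℂ} (hz : ‖z‖ ≤ 1 / 2) (hz' : ‖z'‖ ≤ 1 / 2) : ‖HH z - HH z'‖ ≤ 2 * ‖z - z'‖ := by
  refine (convex_closedBall (0 : ℂ) (1 / 2)).norm_image_sub_le_of_norm_hasDerivWithin_le
    (fun w hw => (logpb_HD (mem_closedBall_zero_iff.1 hw)).hasDerivWithinAt) (fun w hw => ?_)
    (mem_closedBall_zero_iff.2 hz') (mem_closedBall_zero_iff.2 hz)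
  rw [logpb_ds]
  split_ifs with h
  · simp
  · have := Complex.norm_log_one_add_half_le_self (mem_closedBall_zero_iff.1 hw)
    rw [norm_div, div_le_iff₀ (norm_pos_iff.2 h)]
    linarith [norm_nonneg w]

theorem logpb_L {z z' : ℂ} (hz : ‖z‖ ≤ 1 / 2) (hz' : ‖z'‖ ≤ 1 / 2) :
    ‖Complex.log (1 + z) - Complex.log (1 + z')‖ ≤ 2 * ‖z - z'‖ := by
  refine (convex_closedBall (0 : ℂ) (1 / 2)).norm_image_sub_le_of_norm_hasDerivWithin_le
    (fun w hw => (logpb_der (mem_closedBall_zero_iff.1 hw)).hasDerivWithinAt) (fun w hw => ?_)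
    (mem_closedBall_zero_iff.2 hz') (mem_closedBall_zero_iff.2 hz)
  have := logpb_low (mem_closedBall_zero_iff.1 hw)
  rw [norm_div, norm_one, div_le_iff₀ (by linarith)]
  linarith

theorem logpb_wy (y y' : E3) : ‖wy y - wy y'‖ ≤ dist y y' := by
  have hc : Convex ℝ {u : ℂ | u.re ≤ 0} := convex_halfSpace_re_le 0
  have h := hc.norm_image_sub_le_of_norm_hasDerivWithin_le (C := 1)
    (x := -((max (y' 0) 0 : ℝ) : ℂ) + (y' 1 : ℂ) * Complex.I)
    (y := -((max (y 0) 0 : ℝ) : ℂ) + (y 1 : ℂ) * Complex.I)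
    (fun u _ => (Complex.hasDerivAt_exp u).hasDerivWithinAt)
    (fun u hu => by rw [Complex.norm_exp]; exact Real.exp_le_one_iff.2 hu) (by simp) (by simp)
  have h0 := PiLp.dist_apply_le y y' 0
  have h1 := PiLp.dist_apply_le y y' 1
  have h2 := abs_max_sub_max_le_abs (y 0) (y' 0) 0
  have h3 := Complex.norm_le_abs_re_add_abs_im (-((max (y 0) 0 : ℝ) : ℂ) + (y 1 : ℂ) * Complex.I -
    (-((max (y' 0) 0 : ℝ) : ℂ) + (y' 1 : ℂ) * Complex.I))
  rw [Real.dist_eq] at h0 h1
  simp only [Complex.sub_re, Complex.add_re, Complex.neg_re, Complex.ofReal_re, Complex.mul_re,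
    Complex.I_re, Complex.ofReal_im, Complex.I_im, Complex.sub_im, Complex.add_im, Complex.neg_im,
    Complex.mul_im, mul_zero, sub_zero, add_zero, neg_zero, mul_one, zero_add,
    neg_sub_neg] at h3
  rw [abs_sub_comm] at h2
  rw [wy, wy, ww, ww, ← mul_sub, norm_mul]
  norm_num
  linarith

theorem logpb_lipB {Φ : ℂ → ℂ} {ℓ : ℂ → ℝ}
    (hΦ : ∀ z z' : ℂ, ‖z‖ ≤ 1 / 2 → ‖z'‖ ≤ 1 / 2 → ‖Φ z - Φ z'‖ ≤ 2 * ‖z - z'‖)
    (hℓ : ∀ a b, |ℓ a - ℓ b| ≤ ‖a - b‖) : LipB fun y => ℓ (Φ (wy y)) := by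
  refine ⟨⟨2, LipschitzWith.of_dist_le_mul fun y y' => ?_⟩, |ℓ (Φ 0)| + 1, fun y => ?_⟩
  · have := logpb_wy y y'
    have := (hℓ _ _).trans (hΦ _ _ (norm_wy_le y) (norm_wy_le y'))
    rw [Real.dist_eq, NNReal.coe_ofNat]
    linarith
  · have h1 := (hℓ _ _).trans (hΦ _ 0 (norm_wy_le y) (by simp))
    have h2 := norm_wy_le y
    have h3 := abs_sub_abs_le_abs_sub (ℓ (Φ (wy y))) (ℓ (Φ 0))
    rw [sub_zero] at h1
    linarith

theorem lipB_log : LipB lF ∧ LipB lA ∧ LipB lW := by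
  have hi : ∀ a b : ℂ, |a.im - b.im| ≤ ‖a - b‖ := fun a b => Complex.abs_im_le_norm (a - b)
  refine ⟨?_, ?_, logpb_lipB (ℓ := Complex.im) (fun _ _ => logpb_H) hi⟩
  · have := logpb_lipB (Φ := fun z => Complex.log (1 + z)) (ℓ := Complex.re) (fun _ _ => logpb_L)
      fun a b => Complex.abs_re_le_norm (a - b)
    simp only [Complex.log_re] at this
    exact this
  · have := logpb_lipB (Φ := fun z => Complex.log (1 + z)) (ℓ := fun z => -z.im) (fun _ _ => logpb_L)
      fun a b => by rw [neg_sub_neg, abs_sub_comm]; exact hi a b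
    simp only [Complex.log_im] at this
    exact this

theorem logpb_im (t a : ℝ) : (ww t a).im = Real.exp (-t) * Real.sin a / 2 := by
  rw [ww, show (1 / 2 : ℂ) = ((1 / 2 : ℝ) : ℂ) by simp, Complex.im_ofReal_mul, Complex.exp_im]
  simp
  ring

theorem log_wall {y : E3} (h : y 1 = 0 ∨ y 1 = Real.pi) : lA y = 0 ∧ lW y = 0 := by
  have h0 : (wy y).im = 0 := by
    rw [wy, logpb_im]
    rcases h with h | h <;> simp [h]
  obtain ⟨r, hr⟩ : ∃ r : ℝ, wy y = r := ⟨(wy y).re, Complex.ext (by simp) (by simp [h0])⟩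
  have h1 := norm_wy_le y
  rw [hr, Complex.norm_real, Real.norm_eq_abs, abs_le] at h1
  constructor
  · rw [lA, hr, ← Complex.ofReal_one, ← Complex.ofReal_add, Complex.arg_ofReal_of_nonneg (by linarith),
      neg_zero]
  · have h2 := (convex_Icc (-(1 / 2) : ℝ) (1 / 2)).norm_image_sub_le_of_norm_hasDerivWithin_le (C := 0)
      (f := fun s : ℝ => (HH s).im) (f' := fun _ => 0) (x := 0) (y := r) (fun s hs => ?_) (by simp)
      (by norm_num) h1
    · have h3 : HH 0 = 0 := exists_H.choose_spec.1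
      simpa [lW, hr, h3] using h2
    · have h3 := (logpb_HD (z := s) (by rw [Complex.norm_real]; exact abs_le.2 hs)).comp_ofReal
      have h4 := Complex.imCLM.hasFDerivAt.comp_hasDerivAt s h3
      have h5 : Complex.imCLM (dslope (fun w : ℂ => Complex.log (1 + w)) 0 s) = 0 := by
        rw [logpb_ds]
        split_ifs
        · simp
        · rw [← Complex.ofReal_one, ← Complex.ofReal_add, ← Complex.ofReal_log (by linarith [hs.1]),
            ← Complex.ofReal_div, Complex.imCLM_apply, Complex.ofReal_im]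
      rw [h5] at h4
      exact h4.hasDerivWithinAt

theorem log_bound {y : E3} (hy : 0 < y 0) : |lF y| ≤ Real.exp (-y 0) ∧ |lA y| ≤ Real.exp (-y 0) ∧
    |lW y| ≤ Real.exp (-y 0) ∧ |(wy y / (1 + wy y)).re| ≤ Real.exp (-y 0) ∧
      2 / 9 * Real.exp (-y 0) * |Real.sin (y 1)| ≤ |(wy y / (1 + wy y)).im| := by
  have h0 : wy y = ww (y 0) (y 1) := by rw [wy, max_eq_left hy.le]
  have h1 := norm_wy_le y
  have h2 : ‖wy y‖ = Real.exp (-y 0) / 2 := by rw [h0, norm_ww]
  have h3 := Complex.norm_log_one_add_half_le_self h1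
  have h4 := Complex.abs_re_le_norm (Complex.log (1 + wy y))
  have h5 := Complex.abs_im_le_norm (Complex.log (1 + wy y))
  have h6 := logpb_H h1 (z' := 0) (by simp)
  have h7 := Complex.abs_im_le_norm (HH (wy y))
  have h8 := logpb_low h1
  have he := Real.exp_pos (-y 0)
  rw [show HH 0 = 0 from exists_H.choose_spec.1, sub_zero, sub_zero] at h6
  rw [Complex.log_re] at h4
  rw [Complex.log_im] at h5
  refine ⟨by rw [lF]; linarith, by rw [lA, abs_neg]; linarith, by rw [lW]; linarith,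
    (Complex.abs_re_le_norm _).trans ?_, ?_⟩
  · rw [norm_div, div_le_iff₀ (by linarith), h2]
    nlinarith
  · have e : (wy y / (1 + wy y)).im = (wy y).im / ‖1 + wy y‖ ^ 2 := by
      rw [Complex.div_im, Complex.normSq_eq_norm_sq]
      simp
      ring
    have h9 : ‖1 + wy y‖ ≤ 3 / 2 := (norm_add_le _ _).trans (by rw [norm_one]; linarith)
    have h10 : ‖1 + wy y‖ ^ 2 ≤ 9 / 4 := by nlinarith
    rw [e, abs_div, abs_of_nonneg (sq_nonneg ‖1 + wy y‖), le_div_iff₀ (by positivity), h0, logpb_im,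
      ← h0, abs_div, abs_mul, abs_of_pos he, abs_two]
    nlinarith [mul_nonneg he.le (abs_nonneg (Real.sin (y 1)))]

end Crest.Agent.R83
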