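import Crest.Agent.R83.Flux
import Crest.Agent.R83.Iso
import Crest.Agent.R83.Leg

/-!
# Row 83: assembly

* `exists_O`: `O = {x ∈ RR | ∀ᶠ y in 𝓝 x, Good …}` is open (`eventually_eventually_nhds`); `good_vv`,
  `Good.lin` with `p = s = -1`, `Good.congr`, `Gx_eq`.
* `exists_node`: `iso` with `δ = 1/4`; `G i = Gx d (sb i) + f i`, `E i = O.indicator (∇ Gx + F i)`.
  `H1_of_lip`, `H1.add`, `H1.mono`, `H1.congr` (`grad_Gx_zero`, `H1.ae_zero`); flux: `flux_JJ`,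
  `∫_O = ∫_RR` (`setIntegral_congr_set`).
* `Gx_gap`: `Gx d 1 - Gx d (-1)` is continuous and equals `TT + log 2` at `(5/4, 0, 0)`; `zt_axis`.
-/

namespace Crest.Agent.R83

open MeasureTheory Set Metric Filter Topology
open scoped Gradient RealInnerProductSpace NNReal
open Crest.Agent.R80 (L2 nr)
open Crest.AnalysisR.PDE.Calderon

variable {c : ℝ} {d α β Ξ : E3 → ℝ}

theorem exists_O (hc : 0 < c) (h : Leg c d α β Ξ) : ∃ (c' : ℝ) (O : Set E3), 0 < c' ∧ IsOpen O ∧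
    O ⊆ RR ∧ (∀ᵐ x : E3, x ∈ RR → x ∈ O) ∧ ∀ x ∈ O, Good c' (Gx d 1) (Gx d (-1))
      (fun y => -JJ α β Ξ 1 y) (fun y => -JJ α β Ξ (-1) y) x := by
  obtain ⟨c', hc', hg⟩ := good_vv hc h
  refine ⟨c', RR ∩ {x | ∀ᶠ y in 𝓝 x,
    Good c' (vv d 1) (vv d (-1)) (JJ α β Ξ 1) (JJ α β Ξ (-1)) y}, hc',
    isOpen_RR.inter isOpen_setOf_eventually_nhds, inter_subset_left, ?_, ?_⟩
  · filter_upwards [hg] with x hx hR using ⟨hR, hx hR⟩
  · rintro x ⟨hR, hx⟩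
    have hU : ∀ᶠ y in 𝓝 x, y ∈ UU := isOpen_UU.mem_nhds (RR_sub_UU hR)
    have h1 := (hx.self_of_nhds).lin (p := -1) (q := 0) (r := 0) (s := -1) (TT + Real.log 4)
      (TT + Real.log 4) (by norm_num)
    refine h1.congr ?_ ?_ ?_ ?_
    · filter_upwards [hU] with y hy
      rw [Gx_eq h (Or.inl rfl) hy]; ring
    · filter_upwards [hU] with y hy
      rw [Gx_eq h (Or.inr rfl) hy]; ring
    · exact Eventually.of_forall fun y => by simp
    · exact Eventually.of_forall fun y => by simp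

theorem Gx_gap (h : Leg c d α β Ξ) : 0 < volume {x | x ∈ RR ∧ 1 < Gx d 1 x - Gx d (-1) x} := by
  have hcont : Continuous fun x => Gx d 1 x - Gx d (-1) x :=
    (lip_Gx h (Or.inl rfl)).continuous.sub (lip_Gx h (Or.inr rfl)).continuous
  have hop : IsOpen {x | x ∈ RR ∧ 1 < Gx d 1 x - Gx d (-1) x} :=
    isOpen_RR.inter (isOpen_lt continuous_const hcont)
  refine hop.measure_pos _ ?_
  have hl : Continuous fun σ : ℝ => v3 (5 / 4 + σ) 0 0 := by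
    have : (fun σ : ℝ => v3 (5 / 4 + σ) 0 0) = fun σ : ℝ => (5 / 4 + σ) • ee 0 := by
      funext σ; exact ext3 (by simp [ee_apply]) (by simp [ee_apply]) (by simp [ee_apply])
    rw [this]; fun_prop
  have h0 : 1 < Gx d 1 (v3 (5 / 4 + 0) 0 0) - Gx d (-1) (v3 (5 / 4 + 0) 0 0) := by
    have hz := zt_axis (σ := 0) le_rfl (by norm_num)
    have h4 : Real.log 2 ≤ Real.log 4 := Real.log_le_log (by norm_num) (by norm_num)
    have hz' : zt (v3 (5 / 4 + 0) 0 0) ≤ 33 / 40 := by rw [hz]; norm_num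
    have a1 : (0 : ℝ) < 1 * (v3 (5 / 4 + 0) 0 0) 0 := by simp
    have a2 : ¬(0 : ℝ) < -1 * (v3 (5 / 4 + 0) 0 0) 0 := by simp; norm_num
    unfold Gx
    rw [if_pos hz', if_pos hz', if_pos a1, if_neg a2]
    simp only [TT]; linarith
  have hev : ∀ᶠ σ in 𝓝 (0 : ℝ), 1 < Gx d 1 (v3 (5 / 4 + σ) 0 0) - Gx d (-1) (v3 (5 / 4 + σ) 0 0) :=
    (hcont.comp hl).continuousAt.eventually (lt_mem_nhds h0)
  have hev2 : ∀ᶠ σ in 𝓝[>] (0 : ℝ), σ < 1 / 50 :=
    nhdsWithin_le_nhds (gt_mem_nhds (by norm_num))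
  obtain ⟨σ, ⟨h1, h2⟩, h3⟩ := (((hev.filter_mono nhdsWithin_le_nhds).and hev2).and
    self_mem_nhdsWithin).exists
  have h3 : 0 < σ := h3
  refine ⟨v3 (5 / 4 + σ) 0 0, ⟨?_, ?_⟩, h1⟩ <;> rw [zt_axis h3.le h2.le] <;> linarith

theorem QQ_sub_ball' : QQ ⊆ ball (0 : E3) (5 / 2) :=
  QQ_sub_ball.trans (ball_subset_ball (by norm_num))

theorem RR_sub_QQ : RR ⊆ QQ := fun _ hx => mem_QQ.2 hx.2.le

theorem h1_Gx (h : Leg c d α β Ξ) {e : ℝ} (he : e = 1 ∨ e = -1) :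
    H1 (ball 0 (5 / 2)) (Gx d e) (∇ (Gx d e)) := by
  have hs : tsupport (Gx d e) ⊆ QQ := by
    refine closure_minimal (fun x hx => ?_) isCompact_QQ.isClosed
    by_contra hq
    exact hx (Gx_zero d e (le_of_lt (not_le.1 fun h' => hq (mem_QQ.2 h'))))
  exact H1_of_lip isOpen_ball (lip_Gx h he) (isCompact_QQ.of_isClosed_subset (isClosed_tsupport _) hs)
    (hs.trans QQ_sub_ball')

theorem node_h1 (h : Leg c d α β Ξ) {e : ℝ} (he : e = 1 ∨ e = -1) {O : Set E3} (hO : IsOpen O)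
    (hOR : O ⊆ RR) (hae : ∀ᵐ x : E3, x ∈ RR → x ∈ O) {f : E3 → ℝ} {F : E3 → E3} (hf : H1 O f F) :
    H1 (ball 0 (5 / 2)) (fun x => Gx d e x + f x) (O.indicator fun x => ∇ (Gx d e) x + F x) := by
  refine ((h1_Gx h he).add (hf.mono (hOR.trans (RR_sub_QQ.trans QQ_sub_ball')))).congr ?_
  filter_upwards [hae, grad_Gx_zero d he, hf.ae_zero hO.measurableSet] with x h1 h2 h3
  by_cases hx : x ∈ O
  · rw [indicator_of_mem hx]
  · rw [indicator_of_notMem hx, h2 fun hR => hx (h1 hR), h3 hx, add_zero]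

theorem node_flux (h : Leg c d α β Ξ) (i : Bool) {O : Set E3} (hO : IsOpen O) (hOR : O ⊆ RR)
    (hae : ∀ᵐ x : E3, x ∈ RR → x ∈ O) {γ ψ : E3 → ℝ} {X : E3 → E3} (hψ : ContDiff ℝ 1 ψ)
    (hX : ∫ x in O, γ x * ⟪X x, ∇ ψ x⟫ = ∫ x in O, ⟪-JJ α β Ξ (sb i) x, ∇ ψ x⟫) :
    pr γ (O.indicator X) ψ = mF (ψ ∘ sim.S i) - mF ψ := by
  have h1 : pr γ (O.indicator X) ψ = ∫ x in O, γ x * ⟪X x, ∇ ψ x⟫ := by
    unfold pr
    rw [← integral_indicator hO.measurableSet]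
    congr 1; funext x
    by_cases hx : x ∈ O
    · rw [indicator_of_mem hx, indicator_of_mem hx]
    · rw [indicator_of_notMem hx, indicator_of_notMem hx]; simp
  have h2 : O =ᵐ[volume] RR := by
    filter_upwards [hae] with x hx
    exact propext ⟨fun h' => hOR h', fun h' => hx h'⟩
  rw [h1, hX, setIntegral_congr_set h2]
  simp only [inner_neg_left]
  rw [integral_neg, flux_JJ h i hψ]; ring

theorem exists_node : ∃ (γ₀ : E3 → ℝ) (G : Bool → E3 → ℝ) (E : Bool → E3 → E3),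
    Node sim QQ γ₀ G E mF := by
  obtain ⟨c, d, α, β, Ξ, hc, h⟩ := exists_leg
  obtain ⟨c', O, hc', hO, hOR, hae, hg⟩ := exists_O hc h
  obtain ⟨S, hS, hiso⟩ := iso hc'
  have hOb : O ⊆ ball (0 : E3) (5 / 2) := hOR.trans (RR_sub_QQ.trans QQ_sub_ball')
  obtain ⟨γ, f, g, F, G, hγ, hγb, hf, hg', hδ, hfl⟩ := hiso O _ _ _ _ hO
    (isBounded_ball.subset hOb) hg ((h1_Gx h (Or.inl rfl)).l2.mono_set (subset_univ _))
    ((h1_Gx h (Or.inr rfl)).l2.mono_set (subset_univ _)) (1 / 4) (by norm_num)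
  refine ⟨γ, fun i x => Gx d (sb i) x + (if i then f else g) x,
    fun i => O.indicator fun x => ∇ (Gx d (sb i)) x + (if i then F else G) x, ?_⟩
  have hH : ∀ i : Bool, H1 O (if i then f else g) (if i then F else G) := by
    intro i; cases i <;> simpa
  refine ⟨by norm_num [sim], by norm_num [sim], sim_hp, isCompact_QQ.measurableSet, QQ_sub_ball,
    QQ_sub, QQ_dis, hγ, ⟨S, hS, hγb⟩, fun i => node_h1 h (sb_cases i) hO hOR hae (hH i), ?_, ?_, ?_,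
    fun a b φ ψ hφ hψ => mF_lin a b hφ hψ, fun ψ M hψ hM => mF_bd hψ hM, ?_⟩
  · intro i x hx
    have hz : 1 ≤ zt x := le_of_lt (not_le.1 fun h' => hx (mem_QQ.2 h'))
    show Gx d (sb i) x + (if i then f else g) x = 0
    rw [Gx_zero d _ hz, (hH i).eq_zero fun hxO => hx (RR_sub_QQ (hOR hxO)), add_zero]
  · intro i x hx
    refine indicator_of_notMem (fun hxO => ?_) _
    have hR := hOR hxO
    rcases hx with hx | hx
    · exact hx (RR_sub_QQ hR)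
    · exact absurd (mem_child.1 hx) (not_le.2 hR.1)
  · intro i ψ hψ
    refine node_flux h i hO hOR hae hψ ?_
    cases i
    · simpa [sb] using (hfl ψ hψ).2
    · simpa [sb] using (hfl ψ hψ).1
  · refine lt_of_lt_of_le (Gx_gap h) (measure_mono fun x hx => ?_)
    obtain ⟨hR, hx⟩ := hx
    have hn : ¬(sim.I true x ∈ QQ ∨ sim.I false x ∈ QQ) := fun h' =>
      absurd (mem_child.1 h') (not_le.2 hR.1)
    refine ⟨RR_sub_QQ hR, fun h' => hn (Or.inl h'), fun h' => hn (Or.inr h'), fun he => ?_⟩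
    simp only [sb, if_true, Bool.false_eq_true, if_false] at he
    have h1 := abs_le.1 (hδ x).1
    have h2 := abs_le.1 (hδ x).2
    linarith [h1.1, h2.2]

theorem main : ∃ γ₀ γ₁ : E3 → ℝ, ∃ c C : ℝ, 0 < c ∧ Measurable γ₀ ∧ Measurable γ₁ ∧
    (∀ x, c ≤ γ₀ x ∧ γ₀ x ≤ C ∧ c ≤ γ₁ x ∧ γ₁ x ≤ C) ∧
    (∃ r : ℝ, r < 3 ∧ ∀ x : E3, r < ‖x‖ → γ₀ x = 1 ∧ γ₁ x = 1) ∧
    0 < volume {x : E3 | γ₀ x ≠ γ₁ x} ∧ SameBoundaryEnergies γ₀ γ₁ := by
  obtain ⟨γ₀, G, E, hN⟩ := exists_node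
  obtain ⟨γ, w, W, hs, h1, hw⟩ := tree hN
  obtain ⟨S, hS, hS'⟩ := hs.cond
  have hS0 : 0 < S := lt_of_lt_of_le one_pos hS.one
  refine ⟨γ, fun x => (1 + w x) ^ 2 * γ x, (4 * S)⁻¹, 4 * S, by positivity, hS.meas, hS'.meas,
    fun x => ⟨?_, ?_, (hS'.bd x).1, (hS'.bd x).2⟩, ⟨5 / 2, by norm_num, fun x hx => ?_⟩, ?_,
    shield_same hs⟩
  · exact le_trans (inv_anti₀ hS0 (by linarith)) (hS.bd x).1
  · linarith [(hS.bd x).2]
  · have hx' : x ∉ ball (0 : E3) (5 / 2) := by simpa using hx.le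
    have hγ := h1 x fun hq => hx' (QQ_sub_ball' hq)
    refine ⟨hγ, ?_⟩
    show (1 + w x) ^ 2 * γ x = 1
    rw [hs.h1.eq_zero hx', hγ]; norm_num
  · refine lt_of_lt_of_le hw (measure_mono fun x hx he => hx ?_)
    have hpos : 0 < γ x := lt_of_lt_of_le (inv_pos.2 hS0) (hS.bd x).1
    have he : γ x = (1 + w x) ^ 2 * γ x := he
    have h2 : w x * (2 + w x) * γ x = 0 := by linarith
    have h3 := abs_le.1 (hs.small x)
    rcases mul_eq_zero.1 h2 with h4 | h4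
    · rcases mul_eq_zero.1 h4 with h5 | h5
      · exact h5
      · linarith [h3.1]
    · exact absurd h4 hpos.ne'

end Crest.Agent.R83
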