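import Crest.Agent.R83.Calc

/-!
# Row 83: oscillating potentials

`∂_f cχ`, `∂_f ∂_g cχ` are bounded (continuous, compact support); product rule:
`∇ oB = cχ cos θ n + N⁻¹ sin θ ∇cχ`, `dd oP f g = cχ cos θ ⟪n,f⟫⟪n,g⟫ + O(1/N)`.
`airy`: the column `airy P f n y a = ⟪f,a⟫ (∂_n q f - ∂_f q n) - ⟪n,a⟫ (∂_n q' f - ∂_f q' n)` with
`q = ∂_n P`, `q' = ∂_f P` (symmetry of second derivatives), and `div (∂_n q f - ∂_f q n) = 0`.
-/

namespace Crest.Agent.R83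

open MeasureTheory Set Metric Filter Topology
open scoped Gradient RealInnerProductSpace NNReal
open Crest.Agent.R80 (L2 nr)

open scoped ContDiff

/-- fixed bump: `1` on `closedBall 0 (1/4)`, supported in `ball 0 (1/2)` -/
noncomputable def bump0 : ContDiffBump (0 : E3) := ⟨1 / 4, 1 / 2, by norm_num, by norm_num⟩

noncomputable def cχ (x₀ : E3) (r : ℝ) (y : E3) : ℝ := bump0 (r⁻¹ • (y - x₀))

noncomputable def oτ (x₀ : E3) (r : ℝ) (n : E3) (N φ : ℝ) (y : E3) : ℝ :=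
  cχ x₀ r y * Real.cos (N * ⟪n, y⟫ + φ)

noncomputable def oB (x₀ : E3) (r : ℝ) (n : E3) (N φ : ℝ) (y : E3) : ℝ :=
  cχ x₀ r y * Real.sin (N * ⟪n, y⟫ + φ) / N

noncomputable def oP (x₀ : E3) (r : ℝ) (n : E3) (N φ : ℝ) (y : E3) : ℝ :=
  -(cχ x₀ r y * Real.cos (N * ⟪n, y⟫ + φ) / N ^ 2)

/-- `∂_f ∂_g P` -/
noncomputable def dd (P : E3 → ℝ) (f g : E3) (y : E3) : ℝ :=
  fderiv ℝ (fun z => fderiv ℝ P z g) y f

/-- symmetric divergence free tensor of an Airy function -/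
noncomputable def airy (P : E3 → ℝ) (f n : E3) (y : E3) : M3 :=
  dd P n n y • tn f f - dd P f n y • (tn f n + tn n f) + dd P f f y • tn n n

variable {x₀ n f : E3} {r N φ : ℝ}

/-! ### part a -/

theorem contDiff_cχ (x₀ : E3) (r : ℝ) : ContDiff ℝ ∞ (cχ x₀ r) := by
  exact bump0.contDiff.comp ((contDiff_id.sub contDiff_const).const_smul r⁻¹)

theorem cχ_mem (x₀ : E3) (r : ℝ) (y : E3) : cχ x₀ r y ∈ Icc (0 : ℝ) 1 := by
  exact ⟨bump0.nonneg, bump0.le_one⟩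

theorem cχ_one (hr : 0 < r) {y : E3} (hy : ‖y - x₀‖ ≤ r / 4) : cχ x₀ r y = 1 := by
  refine bump0.one_of_mem_closedBall ?_
  rw [mem_closedBall_zero_iff, norm_smul, norm_inv, Real.norm_of_nonneg hr.le, inv_mul_le_iff₀ hr]
  change _ ≤ r * (1 / 4)
  linarith

theorem cχ_zero (hr : 0 < r) {y : E3} (hy : r / 2 ≤ ‖y - x₀‖) : cχ x₀ r y = 0 := by
  refine bump0.zero_of_le_dist ?_
  rw [dist_zero_right, norm_smul, norm_inv, Real.norm_of_nonneg hr.le, le_inv_mul_iff₀ hr]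
  change r * (1 / 2) ≤ _
  linarith

theorem oτ_mem (x₀ : E3) (r : ℝ) (n : E3) (N φ : ℝ) (y : E3) : oτ x₀ r n N φ y ∈ Icc (-1 : ℝ) 1 := by
  obtain ⟨h0, h1⟩ := cχ_mem x₀ r y
  refine abs_le.1 ?_
  rw [oτ, abs_mul, abs_of_nonneg h0]
  exact mul_le_one₀ h1 (abs_nonneg _) (Real.abs_cos_le_one _)

theorem osca_phase (n : E3) (N φ : ℝ) : ContDiff ℝ ∞ fun y : E3 => N * ⟪n, y⟫ + φ :=
  (contDiff_const.mul (contDiff_const.inner ℝ contDiff_id)).add contDiff_const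

theorem contDiff_oτ (x₀ : E3) (r : ℝ) (n : E3) (N φ : ℝ) : ContDiff ℝ ∞ (oτ x₀ r n N φ) := by
  exact (contDiff_cχ x₀ r).mul (osca_phase n N φ).cos

theorem contDiff_oB (x₀ : E3) (r : ℝ) (n : E3) (N φ : ℝ) : ContDiff ℝ ∞ (oB x₀ r n N φ) := by
  exact ((contDiff_cχ x₀ r).mul (osca_phase n N φ).sin).div_const N

theorem contDiff_oP (x₀ : E3) (r : ℝ) (n : E3) (N φ : ℝ) : ContDiff ℝ ∞ (oP x₀ r n N φ) := by
  exact (((contDiff_cχ x₀ r).mul (osca_phase n N φ).cos).div_const (N ^ 2)).neg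

theorem abs_oB_le (hN : 0 < N) (y : E3) : |oB x₀ r n N φ y| ≤ 1 / N := by
  obtain ⟨h0, h1⟩ := cχ_mem x₀ r y
  rw [oB, abs_div, abs_of_pos hN, abs_mul, abs_of_nonneg h0]
  exact div_le_div_of_nonneg_right (mul_le_one₀ h1 (abs_nonneg _) (Real.abs_sin_le_one _)) hN.le

theorem oB_zero (hr : 0 < r) {y : E3} (hy : r / 2 ≤ ‖y - x₀‖) : oB x₀ r n N φ y = 0 := by
  rw [oB, cχ_zero hr hy, zero_mul, zero_div]

theorem osca_dd_zero {P : E3 → ℝ} {y : E3} (h : P =ᶠ[𝓝 y] fun _ => 0) (f g : E3) : dd P f g y = 0 := by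
  have h1 : (fun z => fderiv ℝ P z g) =ᶠ[𝓝 y] fun _ => 0 :=
    (h.fderiv (𝕜 := ℝ)).mono fun z hz => by simp [hz]
  rw [dd, h1.fderiv_eq]
  simp

theorem airy_oP_zero (hr : 0 < r) {y : E3} (hy : r / 2 < ‖y - x₀‖) :
    airy (oP x₀ r n N φ) f n y = 0 := by
  have h : oP x₀ r n N φ =ᶠ[𝓝 y] fun _ => 0 :=
    ((show ContinuousAt (fun z : E3 => ‖z - x₀‖) y by fun_prop).eventually (lt_mem_nhds hy)).mono
      fun z hz => by simp [oP, cχ_zero hr (le_of_lt hz)]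
  ext a i
  simp [airy, osca_dd_zero h]

theorem oτ_sq_add (x₀ : E3) (r : ℝ) (n : E3) (N : ℝ) (y : E3) :
    oτ x₀ r n N 0 y ^ 2 + oτ x₀ r n N (Real.pi / 2) y ^ 2 = cχ x₀ r y ^ 2 := by
  rw [oτ, oτ, add_zero, Real.cos_add_pi_div_two]
  linear_combination cχ x₀ r y ^ 2 * Real.cos_sq_add_sin_sq (N * ⟪n, y⟫)

theorem sym_airy (P : E3 → ℝ) (f n y : E3) : Sym (airy P f n y) := by
  intro a b
  simp only [airy, add_apply, sub_apply, smul_apply, tn_apply, inner_add_left, inner_sub_left,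
    inner_add_right, inner_sub_right, real_inner_smul_left, real_inner_smul_right,
    real_inner_comm f a, real_inner_comm n a]
  ring

theorem osca_cd {P : E3 → ℝ} (hP : ContDiff ℝ ∞ P) (g : E3) : ContDiff ℝ ∞ fun z => fderiv ℝ P z g :=
  (hP.fderiv_right (m := ∞) le_rfl).clm_apply contDiff_const

theorem osca_cd2 {P : E3 → ℝ} (hP : ContDiff ℝ ∞ P) (f g : E3) : ContDiff ℝ ∞ (dd P f g) :=
  osca_cd (osca_cd hP g) f

theorem contDiff_airy {P : E3 → ℝ} (hP : ContDiff ℝ ∞ P) (f n : E3) : ContDiff ℝ ∞ (airy P f n) := by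
  exact (((osca_cd2 hP n n).smul contDiff_const).sub ((osca_cd2 hP f n).smul contDiff_const)).add
    ((osca_cd2 hP f f).smul contDiff_const)

theorem osca_comm {P : E3 → ℝ} (hP : ContDiff ℝ ∞ P) (f g : E3) : dd P f g = dd P g f := by
  funext y
  have h1 : DifferentiableAt ℝ (fderiv ℝ P) y :=
    (hP.fderiv_right (m := ∞) le_rfl).differentiable (by simp) y
  have h2 : ∀ u v, dd P u v y = fderiv ℝ (fderiv ℝ P) y u v := fun u v => by
    rw [dd, fderiv_clm_apply h1 (differentiableAt_const _)]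
    simp
  rw [h2, h2]
  exact (hP.contDiffAt.isSymmSndFDerivAt (by
    rw [minSmoothness_of_isRCLikeNormedField]
    exact WithTop.coe_le_coe.2 (le_top : (2 : ℕ∞) ≤ ⊤))).eq f g

theorem osca_dv {h : E3 → ℝ} {y : E3} (hh : DifferentiableAt ℝ h y) (c : E3) :
    dv (fun z => h z • c) y = fderiv ℝ h y c := by
  rw [dv_smul hh (differentiableAt_const c), inner_grad]
  simp [dv]

theorem dv_airy {P : E3 → ℝ} (hP : ContDiff ℝ ∞ P) (f n a y : E3) :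
    dv (fun z => airy P f n z a) y = 0 := by
  have d : ∀ u v, DifferentiableAt ℝ (dd P u v) y := fun u v =>
    (osca_cd2 hP u v).differentiable (by simp) y
  have e1 : fderiv ℝ (dd P n n) y f = fderiv ℝ (dd P f n) y n :=
    congrFun (osca_comm (osca_cd hP n) f n) y
  have e2 : fderiv ℝ (dd P f f) y n = fderiv ℝ (dd P f n) y f := by
    rw [osca_comm hP f n]
    exact congrFun (osca_comm (osca_cd hP f) n f) y
  simp only [airy, add_apply, sub_apply, smul_apply]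
  rw [dv_add (((d n n).smul_const _).fun_sub ((d f n).smul_const _)) ((d f f).smul_const _),
    dv_sub ((d n n).smul_const _) ((d f n).smul_const _), osca_dv (d n n), osca_dv (d f n),
    osca_dv (d f f)]
  simp only [tn_apply, map_add, map_smul, smul_eq_mul, e1, e2]
  ring

/-! ### part b -/

lemma oscb_th (n : E3) (N φ : ℝ) (y : E3) :
    HasFDerivAt (fun z : E3 => N * ⟪n, z⟫ + φ) (N • innerSL ℝ n) y :=
  (((innerSL ℝ n).hasFDerivAt (x := y)).const_mul N).add_const φ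

lemma oscb_cos {χ : E3 → ℝ} (hχ : Differentiable ℝ χ) (n : E3) (N φ : ℝ) (y : E3) :
    HasFDerivAt (fun z => χ z * Real.cos (N * ⟪n, z⟫ + φ))
      (χ y • (-Real.sin (N * ⟪n, y⟫ + φ) • N • innerSL ℝ n) +
        Real.cos (N * ⟪n, y⟫ + φ) • fderiv ℝ χ y) y :=
  (hχ y).hasFDerivAt.mul (oscb_th n N φ y).cos

lemma oscb_sin {χ : E3 → ℝ} (hχ : Differentiable ℝ χ) (n : E3) (N φ : ℝ) (y : E3) :
    HasFDerivAt (fun z => χ z * Real.sin (N * ⟪n, z⟫ + φ))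
      (χ y • (Real.cos (N * ⟪n, y⟫ + φ) • N • innerSL ℝ n) +
        Real.sin (N * ⟪n, y⟫ + φ) • fderiv ℝ χ y) y :=
  (hχ y).hasFDerivAt.mul (oscb_th n N φ y).sin

lemma oscb_d1 (x₀ : E3) (r : ℝ) (g : E3) : ContDiff ℝ ∞ fun z => fderiv ℝ (cχ x₀ r) z g :=
  ((contDiff_cχ x₀ r).fderiv_right (m := ∞) (by simp)).clm_apply contDiff_const

lemma oscb_bd (x₀ : E3) (r : ℝ) : (∃ M : ℝ, ∀ y, ‖fderiv ℝ (cχ x₀ r) y‖ ≤ M) ∧
    ∀ f g : E3, ∃ M : ℝ, ∀ y, |dd (cχ x₀ r) f g y| ≤ M := by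
  rcases eq_or_ne r 0 with rfl | hr
  · have e : cχ x₀ 0 = fun _ => bump0 0 := by
      funext y
      simp [cχ]
    rw [e]
    exact ⟨⟨0, fun y => by simp⟩, fun f g => ⟨0, fun y => by simp [dd]⟩⟩
  · have hc : HasCompactSupport (cχ x₀ r) :=
      bump0.hasCompactSupport.comp_homeomorph
        ((Homeomorph.subRight x₀).trans (Homeomorph.smulOfNeZero r⁻¹ (inv_ne_zero hr)))
    refine ⟨((contDiff_cχ x₀ r).continuous_fderiv (by simp)).bounded_above_of_compact_support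
      (hc.fderiv ℝ), fun f g => ?_⟩
    have h1 : Continuous (dd (cχ x₀ r) f g) :=
      ((oscb_d1 x₀ r g).continuous_fderiv (by simp)).clm_apply continuous_const
    exact h1.bounded_above_of_compact_support ((hc.fderiv_apply ℝ g).fderiv_apply ℝ f)

lemma oscb_dd (x₀ : E3) (r : ℝ) (n : E3) {N : ℝ} (hN : N ≠ 0) (φ : ℝ) (f g y : E3) :
    dd (oP x₀ r n N φ) f g y = oτ x₀ r n N φ y * (⟪n, f⟫ * ⟪n, g⟫) +
      (Real.sin (N * ⟪n, y⟫ + φ) *
        (fderiv ℝ (cχ x₀ r) y f * ⟪n, g⟫ + fderiv ℝ (cχ x₀ r) y g * ⟪n, f⟫) / N -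
      Real.cos (N * ⟪n, y⟫ + φ) * dd (cχ x₀ r) f g y / N ^ 2) := by
  have hχ : Differentiable ℝ (cχ x₀ r) := (contDiff_cχ x₀ r).differentiable (by simp)
  have hχ' : Differentiable ℝ fun z => fderiv ℝ (cχ x₀ r) z g :=
    (oscb_d1 x₀ r g).differentiable (by simp)
  have e1 : (fun z => fderiv ℝ (oP x₀ r n N φ) z g) = fun z =>
      (⟪n, g⟫ / N) * (cχ x₀ r z * Real.sin (N * ⟪n, z⟫ + φ)) -
        (1 / N ^ 2) * (fderiv ℝ (cχ x₀ r) z g * Real.cos (N * ⟪n, z⟫ + φ)) := by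
    funext z
    have e : oP x₀ r n N φ = fun z => (-(1 / N ^ 2)) * (cχ x₀ r z * Real.cos (N * ⟪n, z⟫ + φ)) := by
      funext z
      simp only [oP]
      ring
    rw [e, ((oscb_cos hχ n N φ z).const_mul _).fderiv]
    simp only [smul_apply, add_apply, innerSL_apply_apply,
      smul_eq_mul]
    field_simp
    ring
  have h2 := (((oscb_sin hχ n N φ y).const_mul (⟪n, g⟫ / N)).sub
    ((oscb_cos hχ' n N φ y).const_mul (1 / N ^ 2))).fderiv
  unfold dd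
  rw [e1]
  refine (congrArg (fun L : E3 →L[ℝ] ℝ => L f) h2).trans ?_
  simp only [smul_apply, add_apply,
    sub_apply, innerSL_apply_apply, smul_eq_mul, oτ]
  field_simp
  ring

lemma oscb_dd_le (x₀ : E3) (r : ℝ) (hn : ‖n‖ = 1) {f g : E3} (hf : ‖f‖ = 1) (hg : ‖g‖ = 1) :
    ∃ M : ℝ, 0 ≤ M ∧ ∀ N : ℝ, 1 ≤ N → ∀ φ y,
      |dd (oP x₀ r n N φ) f g y - oτ x₀ r n N φ y * (⟪n, f⟫ * ⟪n, g⟫)| ≤ M / N := by
  obtain ⟨⟨M₁, h₁⟩, h₂⟩ := oscb_bd x₀ r
  obtain ⟨M₂, h₂⟩ := h₂ f g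
  have hM₁ : 0 ≤ M₁ := (norm_nonneg _).trans (h₁ 0)
  have hM₂ : 0 ≤ M₂ := (abs_nonneg _).trans (h₂ 0)
  refine ⟨2 * M₁ + M₂, by positivity, fun N hN φ y => ?_⟩
  have hN0 : 0 < N := by linarith
  rw [oscb_dd x₀ r n hN0.ne', add_sub_cancel_left]
  have b1 : ∀ a : E3, ‖a‖ = 1 → |fderiv ℝ (cχ x₀ r) y a| ≤ M₁ := fun a ha => by
    have := (fderiv ℝ (cχ x₀ r) y).le_opNorm a
    rw [ha, mul_one, Real.norm_eq_abs] at this
    exact this.trans (h₁ y)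
  have b2 : ∀ a : E3, ‖a‖ = 1 → |⟪n, a⟫| ≤ 1 := fun a ha => by
    have := abs_real_inner_le_norm n a
    rwa [hn, ha, mul_one] at this
  have b3 : ∀ a b : E3, ‖a‖ = 1 → ‖b‖ = 1 → |fderiv ℝ (cχ x₀ r) y a * ⟪n, b⟫| ≤ M₁ :=
    fun a b ha hb => by
      rw [abs_mul]
      calc _ ≤ M₁ * 1 := mul_le_mul (b1 a ha) (b2 b hb) (abs_nonneg _) hM₁
        _ = M₁ := mul_one _
  have b4 : |Real.sin (N * ⟪n, y⟫ + φ) *
      (fderiv ℝ (cχ x₀ r) y f * ⟪n, g⟫ + fderiv ℝ (cχ x₀ r) y g * ⟪n, f⟫) / N| ≤ 2 * M₁ / N := by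
    rw [abs_div, abs_of_pos hN0, abs_mul]
    refine div_le_div_of_nonneg_right ?_ hN0.le
    calc _ ≤ 1 * (M₁ + M₁) := mul_le_mul (Real.abs_sin_le_one _)
          ((abs_add_le _ _).trans (add_le_add (b3 f g hf hg) (b3 g f hg hf))) (abs_nonneg _) zero_le_one
      _ = 2 * M₁ := by ring
  have b5 : |Real.cos (N * ⟪n, y⟫ + φ) * dd (cχ x₀ r) f g y / N ^ 2| ≤ M₂ / N := by
    rw [abs_div, abs_of_pos (pow_pos hN0 2), abs_mul]
    calc _ ≤ 1 * M₂ / N ^ 2 := div_le_div_of_nonneg_right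
          (mul_le_mul (Real.abs_cos_le_one _) (h₂ y) (abs_nonneg _) zero_le_one) (by positivity)
      _ ≤ M₂ / N := by
          rw [one_mul]
          exact div_le_div_of_nonneg_left hM₂ hN0 (by nlinarith)
  calc _ ≤ 2 * M₁ / N + M₂ / N := (abs_sub _ _).trans (add_le_add b4 b5)
    _ = _ := by ring

theorem osc_B (x₀ : E3) (r : ℝ) (hn : ‖n‖ = 1) {ε : ℝ} (hε : 0 < ε) :
    ∃ N₀ : ℝ, 0 < N₀ ∧ ∀ N ≥ N₀, ∀ φ y, ‖∇ (oB x₀ r n N φ) y - oτ x₀ r n N φ y • n‖ ≤ ε := by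
  obtain ⟨⟨M, hM⟩, -⟩ := oscb_bd x₀ r
  have hM0 : 0 ≤ M := (norm_nonneg _).trans (hM 0)
  refine ⟨M / ε + 1, by positivity, fun N hN φ y => ?_⟩
  have hN0 : 0 < N := lt_of_lt_of_le (by positivity) hN
  have hχ : Differentiable ℝ (cχ x₀ r) := (contDiff_cχ x₀ r).differentiable (by simp)
  have e : oB x₀ r n N φ = fun z => (1 / N) * (cχ x₀ r z * Real.sin (N * ⟪n, z⟫ + φ)) := by
    funext z
    simp only [oB]
    ring
  have key : ∇ (oB x₀ r n N φ) y - oτ x₀ r n N φ y • n =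
      (Real.sin (N * ⟪n, y⟫ + φ) / N) • ∇ (cχ x₀ r) y := by
    refine ext_inner_right ℝ fun v => ?_
    rw [inner_sub_left, real_inner_smul_left, real_inner_smul_left, inner_grad, inner_grad, e,
      ((oscb_sin hχ n N φ y).const_mul _).fderiv]
    simp only [smul_apply, add_apply, innerSL_apply_apply,
      smul_eq_mul, oτ]
    field_simp
    ring
  rw [key, norm_smul, norm_grad, Real.norm_eq_abs, abs_div, abs_of_pos hN0]
  calc _ ≤ 1 / N * M := mul_le_mul (div_le_div_of_nonneg_right (Real.abs_sin_le_one _) hN0.le) (hM y)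
        (norm_nonneg _) (by positivity)
    _ ≤ ε := by
        rw [one_div, inv_mul_le_iff₀ hN0]
        have : M / ε ≤ N := by linarith
        rwa [div_le_iff₀ hε] at this

theorem osc_P (x₀ : E3) (r : ℝ) (hn : ‖n‖ = 1) (hf : ‖f‖ = 1) (hnf : ⟪n, f⟫ = 0) {ε : ℝ} (hε : 0 < ε) :
    ∃ N₀ : ℝ, 0 < N₀ ∧ ∀ N ≥ N₀, ∀ φ y,
      ‖airy (oP x₀ r n N φ) f n y - oτ x₀ r n N φ y • tn f f‖ ≤ ε := by
  obtain ⟨M₁, p₁, h₁⟩ := oscb_dd_le x₀ r hn hn hn
  obtain ⟨M₂, p₂, h₂⟩ := oscb_dd_le x₀ r hn hf hn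
  obtain ⟨M₃, p₃, h₃⟩ := oscb_dd_le x₀ r hn hf hf
  refine ⟨(M₁ + 2 * M₂ + M₃) / ε + 1, by positivity, fun N hN φ y => ?_⟩
  have hq : 0 ≤ (M₁ + 2 * M₂ + M₃) / ε := by positivity
  have hN1 : 1 ≤ N := by linarith
  have hN0 : 0 < N := by linarith
  have a₁ := h₁ N hN1 φ y
  have a₂ := h₂ N hN1 φ y
  have a₃ := h₃ N hN1 φ y
  rw [real_inner_self_eq_norm_sq, hn] at a₁
  rw [hnf] at a₂ a₃
  simp only [one_pow, mul_one, zero_mul, mul_zero, sub_zero] at a₁ a₂ a₃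
  have e : airy (oP x₀ r n N φ) f n y - oτ x₀ r n N φ y • tn f f =
      (dd (oP x₀ r n N φ) n n y - oτ x₀ r n N φ y) • tn f f -
        dd (oP x₀ r n N φ) f n y • (tn f n + tn n f) + dd (oP x₀ r n N φ) f f y • tn n n := by
    unfold airy
    module
  have t2 : ‖tn f n + tn n f‖ ≤ 2 := by
    refine (norm_add_le _ _).trans ?_
    rw [norm_tn, norm_tn, hn, hf]
    norm_num
  rw [e]
  calc _ ≤ M₁ / N + M₂ / N * 2 + M₃ / N := by
        refine (norm_add_le _ _).trans (add_le_add ((norm_sub_le _ _).trans (add_le_add ?_ ?_)) ?_)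
        · rw [norm_smul, norm_tn, hf, Real.norm_eq_abs]
          simpa using a₁
        · rw [norm_smul, Real.norm_eq_abs]
          exact mul_le_mul a₂ t2 (norm_nonneg _) (by positivity)
        · rw [norm_smul, norm_tn, hn, Real.norm_eq_abs]
          simpa using a₃
    _ = (M₁ + 2 * M₂ + M₃) / N := by ring
    _ ≤ ε := by
        rw [div_le_iff₀ hN0]
        have : (M₁ + 2 * M₂ + M₃) / ε ≤ N := by linarith
        rw [div_le_iff₀ hε] at this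
        linarith

end Crest.Agent.R83
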