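import Crest.Agent.R83.Spec
import Crest.Agent.R83.Osc

/-!
# Row 83: the two elementary moves

* `Val0.pull`: near `x`, `(pull Φ z).J y = adj (DΦ y) (z.J (Φ y))` (`grad_comp`, `tr_adj_tr`); `piola`;
  `cr (tr A p) (tr A q) = adj A (cr p q) ≠ 0`.
* `Val0.addT`: near `x`, `(addT Y T z).J y = z.J y + adj (DY y) (T (Y y) a)`; `piola`.
* `exists_chart`: `P : ξ ↦ (⟪a,ξ⟫, ⟪b,ξ⟫, ⟪a×b,ξ⟫)` has `det = |a×b|² ≠ 0`,
  `U = (u, v, ⟪a×b, ·⟫)`, `Y = x₀ + P⁻¹ (U - U x₀)`; `u = ⟪a, Y⟫ + const` everywhere.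
* `St.glue`: at points of the ball the glued state is locally `z'`, off `C` it is locally `w`.
-/

namespace Crest.Agent.R83

open MeasureTheory Set Metric Filter Topology
open scoped Gradient RealInnerProductSpace NNReal
open Crest.Agent.R80 (L2 nr)

/-! ### part a -/

theorem St.Val0.congr {z z' : St} {x : E3} (h : z.Val0 x) (hu : z'.u =ᶠ[𝓝 x] z.u)
    (hv : z'.v =ᶠ[𝓝 x] z.v) (hσ : z'.σ =ᶠ[𝓝 x] z.σ) : z'.Val0 x := by
  have hJ : z'.J =ᶠ[𝓝 x] z.J := by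
    filter_upwards [hσ, grad_congr' hu] with y h1 h2
    rw [St.J, St.J, h1, h2]
  have hK : z'.K =ᶠ[𝓝 x] z.K := by
    filter_upwards [hσ, grad_congr' hv] with y h1 h2
    rw [St.K, St.K, h1, h2]
  exact ⟨h.su.congr_of_eventuallyEq hu, h.sv.congr_of_eventuallyEq hv, h.sJ.congr_of_eventuallyEq hJ,
    h.sK.congr_of_eventuallyEq hK, (dv_congr hJ).trans h.dJ, (dv_congr hK).trans h.dK,
    h.cσ.congr hσ.symm, hσ.eq_of_nhds ▸ h.sym, by rw [grad_congr hu, grad_congr hv]; exact h.ind⟩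

theorem St.Val.congr {S : ℝ} {z z' : St} {x : E3} (h : z.Val S x) (hu : z'.u =ᶠ[𝓝 x] z.u)
    (hv : z'.v =ᶠ[𝓝 x] z.v) (hσ : z'.σ =ᶠ[𝓝 x] z.σ) : z'.Val S x := by
  exact ⟨h.toVal0.congr hu hv hσ, hσ.eq_of_nhds ▸ h.ell⟩

theorem movea_conj {A : M3} (hd : A.det ≠ 0) (T : M3) (p : E3) :
    ((A.det)⁻¹ • (adj A ∘L T ∘L tr (adj A))) (tr A p) = adj A (T p) := by
  simp only [smul_apply, ContinuousLinearMap.comp_apply, tr_adj_tr, map_smul,
    inv_smul_smul₀ hd]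

theorem movea_sym {T : M3} (h : Sym T) (A : M3) : Sym ((A.det)⁻¹ • (adj A ∘L T ∘L tr (adj A))) :=
  fun a b => by
    simp only [smul_apply, ContinuousLinearMap.comp_apply, real_inner_smul_left,
      real_inner_smul_right]
    rw [← ContinuousLinearMap.adjoint_inner_right, h, ContinuousLinearMap.adjoint_inner_left]

theorem movea_fd {Φ : E3 → E3} {x : E3} (hΦ : ContDiffAt ℝ 2 Φ x) : ContDiffAt ℝ 1 (fderiv ℝ Φ) x :=
  hΦ.fderiv_right (by norm_num)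

theorem movea_det {Φ : E3 → E3} {x : E3} (hΦ : ContDiffAt ℝ 2 Φ x) :
    ContinuousAt (fun y => (fderiv ℝ Φ y).det) x :=
  (contDiff_det (n := 0)).continuous.continuousAt.comp (movea_fd hΦ).continuousAt

theorem movea_ne {Φ : E3 → E3} {x : E3} (hΦ : ContDiffAt ℝ 2 Φ x) (hd : (fderiv ℝ Φ x).det ≠ 0) :
    ∀ᶠ y in 𝓝 x, (fderiv ℝ Φ y).det ≠ 0 := (movea_det hΦ).eventually_ne hd

theorem movea_cont {Φ : E3 → E3} {T : E3 → M3} {x : E3} (hΦ : ContDiffAt ℝ 2 Φ x)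
    (hd : (fderiv ℝ Φ x).det ≠ 0) (hT : ContinuousAt T x) : ContinuousAt (fun y => ((fderiv ℝ Φ y).det)⁻¹ •
      (adj (fderiv ℝ Φ y) ∘L T y ∘L tr (adj (fderiv ℝ Φ y)))) x := by
  have h1 : ContinuousAt (fun y => adj (fderiv ℝ Φ y)) x :=
    (contDiff_adj (n := 0)).continuous.continuousAt.comp (movea_fd hΦ).continuousAt
  exact ((movea_det hΦ).inv₀ hd).smul (h1.clm_comp (hT.clm_comp
    ((contDiff_tr (n := 0)).continuous.continuousAt.comp h1)))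

theorem movea_field {Φ X : E3 → E3} {x : E3} (hΦ : ContDiffAt ℝ 2 Φ x) (hX : ContDiffAt ℝ 1 X (Φ x))
    (h0 : dv X (Φ x) = 0) : ContDiffAt ℝ 1 (fun y => adj (fderiv ℝ Φ y) (X (Φ y))) x ∧
      dv (fun y => adj (fderiv ℝ Φ y) (X (Φ y))) x = 0 :=
  ⟨(contDiff_adj.contDiffAt.comp x (movea_fd hΦ)).clm_apply (hX.comp x (hΦ.of_le one_le_two)),
    by rw [piola hΦ (hX.differentiableAt one_ne_zero), h0, mul_zero]⟩

theorem St.Val0.pull {z : St} {Φ : E3 → E3} {x : E3} (hΦ : ContDiffAt ℝ 2 Φ x)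
    (hd : (fderiv ℝ Φ x).det ≠ 0) (h : z.Val0 (Φ x)) : (z.pull Φ).Val0 x := by
  have key : ∀ f : E3 → ℝ, ContDiffAt ℝ 2 f (Φ x) → (fun y => (z.pull Φ).σ y (∇ (f ∘ Φ) y)) =ᶠ[𝓝 x]
      fun y => adj (fderiv ℝ Φ y) (z.σ (Φ y) (∇ f (Φ y))) := fun f hf => by
    filter_upwards [movea_ne hΦ hd, hΦ.eventually (by simp),
      hΦ.continuousAt.eventually (hf.eventually (by simp))] with y h1 h2 h3
    rw [grad_comp (h3.differentiableAt two_ne_zero) (h2.differentiableAt two_ne_zero)]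
    exact movea_conj h1 _ _
  obtain ⟨a1, a2⟩ := movea_field hΦ h.sJ h.dJ
  obtain ⟨b1, b2⟩ := movea_field hΦ h.sK h.dK
  refine ⟨h.su.comp x hΦ, h.sv.comp x hΦ, a1.congr_of_eventuallyEq (key _ h.su),
    b1.congr_of_eventuallyEq (key _ h.sv), (dv_congr (key _ h.su)).trans a2,
    (dv_congr (key _ h.sv)).trans b2, movea_cont hΦ hd (h.cσ.comp hΦ.continuousAt), movea_sym h.sym _,
    fun h0 => h.ind ?_⟩
  have h1 := hΦ.differentiableAt two_ne_zero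
  change cr (∇ (z.u ∘ Φ) x) (∇ (z.v ∘ Φ) x) = 0 at h0
  rw [grad_comp (h.su.differentiableAt two_ne_zero) h1, grad_comp (h.sv.differentiableAt two_ne_zero) h1,
    ← adj_cr] at h0
  have h2 := DFunLike.congr_fun (comp_adj (fderiv ℝ Φ x)) (cr (∇ z.u (Φ x)) (∇ z.v (Φ x)))
  rw [ContinuousLinearMap.comp_apply, h0, map_zero] at h2
  exact (smul_eq_zero.1 h2.symm).resolve_left hd

theorem St.Val0.addT {z : St} {Y : E3 → E3} {T : E3 → M3} {x a b : E3} (h : z.Val0 x)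
    (hY : ContDiffAt ℝ 2 Y x) (hd : (fderiv ℝ Y x).det ≠ 0) (hT : ContDiff ℝ 1 T)
    (hs : ∀ y, Sym (T y)) (hdv : ∀ ξ y, dv (fun w => T w ξ) y = 0)
    (ha : ∀ᶠ y in 𝓝 x, ∇ z.u y = tr (fderiv ℝ Y y) a ∧ ∇ z.v y = tr (fderiv ℝ Y y) b) :
    (z.addT Y T).Val0 x := by
  have key : ∀ (F : E3 → E3) (p : E3), (∀ᶠ y in 𝓝 x, F y = tr (fderiv ℝ Y y) p) →
      ContDiffAt ℝ 1 (fun y => z.σ y (F y)) x → dv (fun y => z.σ y (F y)) x = 0 →
      ContDiffAt ℝ 1 (fun y => (z.addT Y T).σ y (F y)) x ∧ dv (fun y => (z.addT Y T).σ y (F y)) x = 0 := by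
    intro F p hF h1 h2
    have e : (fun y => (z.addT Y T).σ y (F y)) =ᶠ[𝓝 x]
        fun y => z.σ y (F y) + adj (fderiv ℝ Y y) (T (Y y) p) := by
      filter_upwards [movea_ne hY hd, hF] with y h3 h4
      rw [← movea_conj h3, ← h4]
      rfl
    obtain ⟨a1, a2⟩ := movea_field (X := fun w => T w p) hY (hT.clm_apply contDiff_const).contDiffAt (hdv p _)
    exact ⟨(h1.add a1).congr_of_eventuallyEq e, by
      rw [dv_congr e, dv_add (h1.differentiableAt one_ne_zero) (a1.differentiableAt one_ne_zero), h2, a2,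
        add_zero]⟩
  obtain ⟨a1, a2⟩ := key _ a (ha.mono fun _ h => h.1) h.sJ h.dJ
  obtain ⟨b1, b2⟩ := key _ b (ha.mono fun _ h => h.2) h.sK h.dK
  refine ⟨h.su, h.sv, a1, b1, a2, b2,
    h.cσ.add (movea_cont hY hd (hT.continuous.continuousAt.comp hY.continuousAt)), fun p q => ?_, h.ind⟩
  have h1 := movea_sym (hs (Y x)) (fderiv ℝ Y x) p q
  simp only [St.addT, add_apply, inner_add_left, inner_add_right]
  rw [h.sym p q, h1]

theorem St.Val0.continuousAt_D {z : St} {x : E3} (h : z.Val0 x) :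
    ContinuousAt z.D x ∧ ContinuousAt z.gam x := by
  have h1 := (contDiffAt_grad1 h.su).continuousAt
  have h2 := (contDiffAt_grad1 h.sv).continuousAt
  have h3 := h.cσ.clm_apply h1
  have h4 := h.cσ.clm_apply h2
  have h5 : ContinuousAt z.gam x := by
    refine ((h3.inner h1).add (h4.inner h2)).div ((h1.norm.pow 2).add (h2.norm.pow 2)) fun h0 => h.ind ?_
    have h6 : ‖∇ z.u x‖ ^ 2 = 0 := by
      have h7 : ‖∇ z.u x‖ ^ 2 + ‖∇ z.v x‖ ^ 2 = 0 := h0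
      nlinarith [sq_nonneg ‖∇ z.u x‖, sq_nonneg ‖∇ z.v x‖]
    rw [norm_eq_zero.1 (pow_eq_zero_iff two_ne_zero |>.1 h6), cr_zero_left]
  exact ⟨((h3.sub (h5.smul h1)).norm.pow 2).add ((h4.sub (h5.smul h2)).norm.pow 2), h5⟩

/-! ### part b -/

theorem moveb_hasF {f : E3 → ℝ} {x : E3} (hf : DifferentiableAt ℝ f x) :
    HasFDerivAt f (innerSL ℝ (∇ f x)) x := by
  have : innerSL ℝ (∇ f x) = fderiv ℝ f x := by
    ext v
    exact inner_grad f x v
  rw [this]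
  exact hf.hasFDerivAt

theorem moveb_det {a b : E3} (h : cr a b ≠ 0) :
    (tn (ee 0) a + tn (ee 1) b + tn (ee 2) (cr a b)).det ≠ 0 := by
  have h0 : row (tn (ee 0) a + tn (ee 1) b + tn (ee 2) (cr a b)) 0 = a := by
    refine ext3 ?_ ?_ ?_ <;> simp [row, tn_apply, inner_ee, ee_apply]
  have h1 : row (tn (ee 0) a + tn (ee 1) b + tn (ee 2) (cr a b)) 1 = b := by
    refine ext3 ?_ ?_ ?_ <;> simp [row, tn_apply, inner_ee, ee_apply]
  have h2 : row (tn (ee 0) a + tn (ee 1) b + tn (ee 2) (cr a b)) 2 = cr a b := by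
    refine ext3 ?_ ?_ ?_ <;> simp [row, tn_apply, inner_ee, ee_apply]
  rw [det_eq, h0, h1, h2]
  exact inner_self_ne_zero.2 h

theorem exists_chart {z : St} {x₀ : E3} (h : ∀ᶠ x in 𝓝 x₀, z.Val0 x) :
    ∃ Y : E3 → E3, Y x₀ = x₀ ∧ fderiv ℝ Y x₀ = 1 ∧ ∀ᶠ x in 𝓝 x₀, ContDiffAt ℝ 2 Y x ∧
      ∇ z.u x = tr (fderiv ℝ Y x) (∇ z.u x₀) ∧ ∇ z.v x = tr (fderiv ℝ Y x) (∇ z.v x₀) := by
  have h0 := h.self_of_nhds
  obtain ⟨a, ha⟩ : ∃ a, a = ∇ z.u x₀ := ⟨_, rfl⟩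
  obtain ⟨b, hb⟩ : ∃ b, b = ∇ z.v x₀ := ⟨_, rfl⟩
  have hc : cr a b ≠ 0 := by rw [ha, hb]; exact h0.ind
  obtain ⟨e, he⟩ := exists_equiv (moveb_det hc)
  have heA : ∀ ξ, e ξ = ⟪a, ξ⟫ • ee 0 + ⟪b, ξ⟫ • ee 1 + ⟪cr a b, ξ⟫ • ee 2 := fun ξ => by
    have := DFunLike.congr_fun he ξ
    simpa [tn_apply] using this
  obtain ⟨U, hU⟩ : ∃ U : E3 → E3, U = fun y => z.u y • ee 0 + z.v y • ee 1 + ⟪cr a b, y⟫ • ee 2 :=
    ⟨_, rfl⟩
  obtain ⟨Y, hY⟩ : ∃ Y : E3 → E3, Y = fun y => x₀ + e.symm (U y - U x₀) := ⟨_, rfl⟩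
  have hYe : ∀ y, e (Y y - x₀) = U y - U x₀ := fun y => by simp [hY]
  have hu : z.u = (fun w => 1 * ⟪a, w⟫ + (z.u x₀ - ⟪a, x₀⟫)) ∘ Y := by
    funext y
    have := congrArg (fun w : E3 => w 0) ((heA _).symm.trans (hYe y))
    simp [hU, ee_apply, inner_sub_right] at this
    simp only [Function.comp]
    linarith
  have hv : z.v = (fun w => 1 * ⟪b, w⟫ + (z.v x₀ - ⟪b, x₀⟫)) ∘ Y := by
    funext y
    have := congrArg (fun w : E3 => w 1) ((heA _).symm.trans (hYe y))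
    simp [hU, ee_apply, inner_sub_right] at this
    simp only [Function.comp]
    linarith
  have hl : ∀ (p : E3) (k : ℝ) (w : E3), DifferentiableAt ℝ (fun w : E3 => 1 * ⟪p, w⟫ + k) w :=
    fun p k w => (((innerSL ℝ p).differentiableAt).const_mul 1).add_const k
  refine ⟨Y, by simp [hY], ?_, h.mono fun x hx => ?_⟩
  · have h1 : HasFDerivAt U (tn (ee 0) a + tn (ee 1) b + tn (ee 2) (cr a b)) x₀ := by
      rw [hU, ha, hb]
      exact (((moveb_hasF (h0.su.differentiableAt (by norm_num))).smul_const (ee 0)).add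
        ((moveb_hasF (h0.sv.differentiableAt (by norm_num))).smul_const (ee 1))).add
        ((innerSL ℝ (cr (∇ z.u x₀) (∇ z.v x₀))).hasFDerivAt.smul_const (ee 2))
    have h2 := ((e.symm : M3).hasFDerivAt.comp x₀ (h1.sub_const (U x₀))).const_add x₀
    rw [← he] at h2
    rw [hY]
    refine h2.fderiv.trans ?_
    ext ξ : 1
    simp
  · have h1 : ContDiffAt ℝ 2 U x := by
      rw [hU]
      exact ((hx.su.smul contDiffAt_const).add (hx.sv.smul contDiffAt_const)).add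
        ((innerSL ℝ (cr a b)).contDiff.contDiffAt.smul contDiffAt_const)
    have h2 : ContDiffAt ℝ 2 Y x := by
      rw [hY]
      exact contDiffAt_const.add ((e.symm : M3).contDiff.contDiffAt.comp x (h1.sub contDiffAt_const))
    have h3 := h2.differentiableAt (by norm_num)
    refine ⟨h2, ?_, ?_⟩
    · rw [← ha]
      conv_lhs => rw [hu]
      rw [grad_comp (hl _ _ _) h3, grad_affine, grad_inner, one_smul]
    · rw [← hb]
      conv_lhs => rw [hv]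
      rw [grad_comp (hl _ _ _) h3, grad_affine, grad_inner, one_smul]

/-- quantitative neighbourhood: everything is `η`-close to its value at `x₀` -/
theorem chart_nbhd {S : ℝ} {z : St} {x₀ : E3} (h : ∀ᶠ x in 𝓝 x₀, z.Val S x) {η : ℝ} (hη : 0 < η) :
    ∃ (Y : E3 → E3) (r₀ : ℝ), 0 < r₀ ∧ ∀ x ∈ closedBall x₀ r₀, z.Val S x ∧ ContDiffAt ℝ 2 Y x ∧
      ‖fderiv ℝ Y x - 1‖ ≤ η ∧ ‖Y x - x‖ ≤ η * ‖x - x₀‖ ∧ ‖z.σ x - z.σ x₀‖ ≤ η ∧
      ‖∇ z.u x - ∇ z.u x₀‖ ≤ η ∧ ‖∇ z.v x - ∇ z.v x₀‖ ≤ η ∧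
      ∀ᶠ y in 𝓝 x, ∇ z.u y = tr (fderiv ℝ Y y) (∇ z.u x₀) ∧
        ∇ z.v y = tr (fderiv ℝ Y y) (∇ z.v x₀) := by
  obtain ⟨Y, hY0, hY1, hY⟩ := exists_chart (h.mono fun x hx => hx.toVal0)
  have h0 := h.self_of_nhds
  have hY2 := hY.self_of_nhds.1
  have near : ∀ {F : Type} [NormedAddCommGroup F] {f : E3 → F}, ContinuousAt f x₀ →
      ∀ᶠ x in 𝓝 x₀, ‖f x - f x₀‖ ≤ η := fun hf =>
    (Metric.tendsto_nhds.1 hf η hη).mono fun x hx => by rw [← dist_eq_norm]; exact hx.le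
  have e1 := near (hY2.fderiv_right (m := 1) (by norm_num)).continuousAt
  have e2 : ∀ᶠ x in 𝓝 x₀, ‖Y x - x‖ ≤ η * ‖x - x₀‖ := by
    have h1 := (hY2.differentiableAt (by norm_num)).hasFDerivAt
    rw [hY1] at h1
    filter_upwards [h1.isLittleO.bound hη] with x hx
    simpa [hY0] using hx
  have e3 := near h0.cσ
  have e4 := near (contDiffAt_grad1 h0.su).continuousAt
  have e5 := near (contDiffAt_grad1 h0.sv).continuousAt
  have e6 := (hY.mono fun x hx => hx.2).eventually_nhds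
  rw [hY1] at e1
  obtain ⟨r, hr, hP⟩ := Metric.nhds_basis_closedBall.eventually_iff.1
    (h.and (hY.and (e1.and (e2.and (e3.and (e4.and (e5.and e6)))))))
  refine ⟨Y, r, hr, fun x hx => ?_⟩
  obtain ⟨a1, a2, a3, a4, a5, a6, a7, a8⟩ := hP hx
  exact ⟨a1, a2.1, a3, a4, a5, a6, a7, a8⟩

/-- `T ↦ (det A)⁻¹ adj A ∘ T ∘ (adj A)ᵀ` is close to the identity for `A` close to `1` -/
theorem adj_conj_close (R : ℝ) {ε : ℝ} (hε : 0 < ε) : ∃ η : ℝ, 0 < η ∧ η ≤ 1 / 8 ∧ ∀ A T : M3,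
    ‖A - 1‖ ≤ η → ‖T‖ ≤ R → A.det ≠ 0 ∧ ‖(A.det)⁻¹ • (adj A ∘L T ∘L tr (adj A)) - T‖ ≤ ε := by
  have cd : Continuous fun A : M3 => A.det := (contDiff_det (n := 0)).continuous
  have ca : Continuous adj := (contDiff_adj (n := 0)).continuous
  have ct : Continuous fun A : M3 => tr (adj A) := (contDiff_tr (n := 0)).continuous.comp ca
  have d1 : (1 : M3).det = 1 := map_one (LinearMap.det : (E3 →ₗ[ℝ] E3) →* ℝ)
  have t1 : tr (1 : M3) = 1 := ContinuousLinearMap.adjoint_id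
  have hg : ContinuousAt (fun A : M3 => ‖(A.det)⁻¹ • adj A - 1‖ * (R * ‖tr (adj A)‖) +
      R * ‖tr (adj A) - 1‖) 1 :=
    (((((cd.continuousAt.inv₀ (by rw [d1]; exact one_ne_zero)).smul ca.continuousAt).sub
      continuousAt_const).norm).mul (continuousAt_const.mul ct.continuousAt.norm)).add
      (continuousAt_const.mul (ct.continuousAt.sub continuousAt_const).norm)
  have e1 := hg.eventually (gt_mem_nhds (a := ε) (by simpa [d1, adj_one, t1] using hε))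
  have e2 := cd.continuousAt.eventually_ne (x := (1 : M3)) (y := 0) (by rw [d1]; exact one_ne_zero)
  obtain ⟨r, hr, hP⟩ := Metric.nhds_basis_closedBall.eventually_iff.1 (e1.and e2)
  refine ⟨min r (1 / 8), lt_min hr (by norm_num), min_le_right _ _, fun A T hA hT => ?_⟩
  obtain ⟨h1, h2⟩ := hP (mem_closedBall_iff_norm.2 (hA.trans (min_le_left _ _)))
  refine ⟨h2, le_trans ?_ h1.le⟩
  have e : (A.det)⁻¹ • (adj A ∘L T ∘L tr (adj A)) - T =
      ((A.det)⁻¹ • adj A - 1) * (T * tr (adj A)) + T * (tr (adj A) - 1) := by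
    ext ξ : 1
    simp
  rw [e]
  refine (norm_add_le _ _).trans (add_le_add ((norm_mul_le _ _).trans ?_) ((norm_mul_le _ _).trans ?_))
  · exact mul_le_mul_of_nonneg_left ((norm_mul_le _ _).trans
      (mul_le_mul_of_nonneg_right hT (norm_nonneg _))) (norm_nonneg _)
  · exact mul_le_mul_of_nonneg_right hT (norm_nonneg _)

open Classical in
/-- `z'` on `B`, `w` elsewhere -/
noncomputable def St.glue (B : Set E3) (z' w : St) : St where
  u := fun x => if x ∈ B then z'.u x else w.u x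
  v := fun x => if x ∈ B then z'.v x else w.v x
  σ := fun x => if x ∈ B then z'.σ x else w.σ x

theorem St.glue_val {S δ : ℝ} {O B C : Set E3} {z z' w : St} (hB : IsOpen B) (hC : IsCompact C)
    (hCB : C ⊆ B) (hn : z.Near z' C δ) (hz' : ∀ x ∈ B, z'.Val S x) (hw : ∀ x ∈ O, w.Val S x)
    (hwz : ∀ x ∈ B, w.u x = z.u x ∧ w.v x = z.v x ∧ w.σ x = z.σ x) :
    ∀ x ∈ O, (St.glue B z' w).Val S x := by
  intro x hx
  by_cases hxB : x ∈ B
  · have e : ∀ᶠ y in 𝓝 x, y ∈ B := hB.mem_nhds hxB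
    exact (hz' x hxB).congr (e.mono fun y hy => if_pos hy) (e.mono fun y hy => if_pos hy)
      (e.mono fun y hy => if_pos hy)
  · have e : ∀ᶠ y in 𝓝 x, y ∉ C := hC.isClosed.isOpen_compl.mem_nhds fun h => hxB (hCB h)
    refine (hw x hx).congr (e.mono fun y hy => ?_) (e.mono fun y hy => ?_) (e.mono fun y hy => ?_) <;>
      by_cases hyB : y ∈ B
    · exact (if_pos hyB).trans ((hn.eq y hy).1.trans (hwz y hyB).1.symm)
    · exact if_neg hyB
    · exact (if_pos hyB).trans ((hn.eq y hy).2.1.trans (hwz y hyB).2.1.symm)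
    · exact if_neg hyB
    · exact (if_pos hyB).trans ((hn.eq y hy).2.2.trans (hwz y hyB).2.2.symm)
    · exact if_neg hyB

theorem moveb_test {O C : Set E3} {f g : E3 → ℝ} (hC : IsCompact C) (hCO : C ⊆ O)
    (h : ∀ x, x ∉ C → g x = f x) (hf : ∀ x ∈ O, ContDiffAt ℝ 2 f x)
    (hg : ∀ x ∈ O, ContDiffAt ℝ 2 g x) :
    ContDiff ℝ 1 (fun x => g x - f x) ∧ HasCompactSupport (fun x => g x - f x) ∧
      tsupport (fun x => g x - f x) ⊆ C ∧
      ∀ x ∈ O, ∇ (fun x => g x - f x) x = ∇ g x - ∇ f x := by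
  refine ⟨contDiff_iff_contDiffAt.2 fun x => ?_,
    HasCompactSupport.intro hC fun x hx => sub_eq_zero.2 (h x hx),
    closure_minimal (fun x hx => by_contra fun h' => hx (sub_eq_zero.2 (h x h'))) hC.isClosed,
    fun x hx => grad_sub ((hg x hx).differentiableAt (by norm_num))
      ((hf x hx).differentiableAt (by norm_num))⟩
  by_cases hx : x ∈ C
  · exact ((hg x (hCO hx)).sub (hf x (hCO hx))).of_le (by norm_num)
  · have e : ∀ᶠ y in 𝓝 x, y ∉ C := hC.isClosed.isOpen_compl.mem_nhds hx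
    exact (contDiffAt_const (c := (0 : ℝ))).congr_of_eventuallyEq
      (e.mono fun y hy => sub_eq_zero.2 (h y hy))

/-- differences of nearby valid states are test functions -/
theorem St.Near.test {S δ : ℝ} {O C : Set E3} {z z' : St} (hC : IsCompact C)
    (hCO : C ⊆ O) (hn : z.Near z' C δ) (hz : ∀ x ∈ O, z.Val S x) (hz' : ∀ x ∈ O, z'.Val S x) :
    (ContDiff ℝ 1 (fun x => z'.u x - z.u x) ∧ HasCompactSupport (fun x => z'.u x - z.u x) ∧
      tsupport (fun x => z'.u x - z.u x) ⊆ C ∧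
      ∀ x ∈ O, ∇ (fun x => z'.u x - z.u x) x = ∇ z'.u x - ∇ z.u x) ∧
    (ContDiff ℝ 1 (fun x => z'.v x - z.v x) ∧ HasCompactSupport (fun x => z'.v x - z.v x) ∧
      tsupport (fun x => z'.v x - z.v x) ⊆ C ∧
      ∀ x ∈ O, ∇ (fun x => z'.v x - z.v x) x = ∇ z'.v x - ∇ z.v x) := by
  exact ⟨moveb_test hC hCO (fun x hx => (hn.eq x hx).1) (fun x hx => (hz x hx).su)
      fun x hx => (hz' x hx).su,
    moveb_test hC hCO (fun x hx => (hn.eq x hx).2.1) (fun x hx => (hz x hx).sv)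
      fun x hx => (hz' x hx).sv⟩

theorem St.Near.trans {δ δ' : ℝ} {C C' : Set E3} {z z' z'' : St} (h : z.Near z' C δ)
    (h' : z'.Near z'' C' δ') : z.Near z'' (C ∪ C') (δ + δ') := by
  refine ⟨fun x hx => ?_, fun x => ⟨?_, ?_⟩⟩
  · obtain ⟨a1, a2, a3⟩ := h.eq x fun hc => hx (Or.inl hc)
    obtain ⟨b1, b2, b3⟩ := h'.eq x fun hc => hx (Or.inr hc)
    exact ⟨b1.trans a1, b2.trans a2, b3.trans a3⟩
  · exact (abs_sub_le _ (z'.u x) _).trans (by linarith [(h.cl x).1, (h'.cl x).1])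
  · exact (abs_sub_le _ (z'.v x) _).trans (by linarith [(h.cl x).2, (h'.cl x).2])

theorem St.Near.gain_zero {δ : ℝ} {C : Set E3} {z z' : St} (hC : IsClosed C) (h : z.Near z' C δ)
    {x : E3} (hx : x ∉ C) : z.gain z' x = 0 ∧ z'.J x = z.J x ∧ z'.K x = z.K x ∧ z'.D x = z.D x := by
  have e : ∀ᶠ y in 𝓝 x, y ∉ C := hC.isOpen_compl.mem_nhds hx
  have hu : ∇ z'.u x = ∇ z.u x := grad_congr (e.mono fun y hy => (h.eq y hy).1)
  have hv : ∇ z'.v x = ∇ z.v x := grad_congr (e.mono fun y hy => (h.eq y hy).2.1)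
  have hσ := (h.eq x hx).2.2
  simp [St.gain, St.J, St.K, St.D, hu, hv, hσ]

end Crest.Agent.R83
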