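import Crest.Agent.R83.Lip

/-!
# Row 83: null sets, a.e. locally affine functions, good maps

* `ae_fderiv_zero`: the set `s = {f = c, f differentiable}` is measurable (relatively closed in the
  measurable set of differentiability points, `measurableSet_of_differentiableAt`); apply
  `ApproximatesLinearOn.norm_fderiv_sub_le` to `x ↦ f x • ee 0` on `s` with `A = 0` and `δ → 0`.
* `ae_comp`: `measure_null_of_locally_null`, local inverse (`ContDiffAt.toOpenPartialHomeomorph`,
  `exists_equiv`), `addHaar_image_eq_zero_of_differentiableOn_of_addHaar_eq_zero`.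
* `AeAff.max`: where the two affine functions take the same value, `ae_fderiv_zero` for `f - g` makes
  their linear parts equal, so they coincide.
-/

namespace Crest.Agent.R83

open MeasureTheory Set Metric Filter Topology
open scoped Gradient RealInnerProductSpace NNReal
open Crest.Agent.R80 (L2 nr)

theorem ae_fderiv_zero (f : E3 → ℝ) (c : ℝ) :
    ∀ᵐ x : E3, f x = c → DifferentiableAt ℝ f x → fderiv ℝ f x = 0 := by
  set s : Set E3 := closure {x | f x = c} ∩ {x | DifferentiableAt ℝ f x} with hs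
  have hsm : MeasurableSet s :=
    isClosed_closure.measurableSet.inter (measurableSet_of_differentiableAt ℝ f)
  have hsc : ∀ x ∈ s, f x = c := by
    intro x hx
    have h1 : ContinuousWithinAt f {x | f x = c} x := hx.2.continuousAt.continuousWithinAt
    have h2 := h1.mem_closure_image hx.1
    have h3 : f '' {x | f x = c} ⊆ {c} := by
      rintro _ ⟨y, hy, rfl⟩; exact hy
    have h4 := closure_mono h3 h2
    simpa using h4
  have hA : ApproximatesLinearOn (fun x => f x • ee 0) (0 : E3 →L[ℝ] E3) s 0 := by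
    intro x hx y hy
    simp [hsc x hx, hsc y hy]
  have h := hA.norm_fderiv_sub_le (volume : Measure E3) hsm
    (fun x => (fderiv ℝ f x).smulRight (ee 0))
    (fun x hx => (hx.2.hasFDerivAt.smul_const (ee 0)).hasFDerivWithinAt)
  rw [ae_restrict_iff' hsm] at h
  filter_upwards [h] with x hx hc hd
  have hxs : x ∈ s := ⟨subset_closure hc, hd⟩
  have h0 := hx hxs
  simp only [sub_zero, nonpos_iff_eq_zero, nnnorm_eq_zero] at h0
  ext v
  have h1 := congrArg (fun A : E3 →L[ℝ] E3 => A v 0) h0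
  simpa [ee_apply] using h1

theorem ae_ne_of_pd (f : E3 → ℝ) (c : ℝ) :
    ∀ᵐ x : E3, ∀ i, DifferentiableAt ℝ f x → pd i f x ≠ 0 → f x ≠ c := by
  filter_upwards [ae_fderiv_zero f c] with x hx i hd hp hc
  apply hp
  simp [pd, hx hc hd]

theorem ae_coord_ne (i : Fin 3) (c : ℝ) : ∀ᵐ x : E3, x i ≠ c := by
  filter_upwards [ae_ne_of_pd (fun x : E3 => x i) c] with x hx
  refine hx i (by fun_prop) ?_
  rw [← grad_apply, grad_coord, ee_apply]
  simp

theorem ae_coord_notMem (i : Fin 3) {s : Set ℝ} (hs : s.Countable) : ∀ᵐ x : E3, x i ∉ s := by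
  have h : ∀ᵐ x : E3, ∀ c ∈ s, x i ≠ c := (ae_ball_iff hs).2 fun c _ => ae_coord_ne i c
  filter_upwards [h] with x hx hxs
  exact hx _ hxs rfl

theorem ae_sin_ne (i : Fin 3) : ∀ᵐ x : E3, ∀ k : ℕ, Real.sin (2 ^ k * x i) ≠ 0 := by
  have hs : (Set.range fun p : ℕ × ℤ => (p.2 : ℝ) * Real.pi / 2 ^ p.1).Countable :=
    Set.countable_range _
  filter_upwards [ae_coord_notMem i hs] with x hx k hk
  obtain ⟨n, hn⟩ := Real.sin_eq_zero_iff.1 hk
  apply hx
  refine ⟨(k, n), ?_⟩
  simp only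
  rw [hn]
  field_simp

theorem ae_comp {P : E3 → Prop} (h : ∀ᵐ y : E3, P y) (Θ : E3 → E3) :
    ∀ᵐ x : E3, ContDiffAt ℝ 1 Θ x → (fderiv ℝ Θ x).det ≠ 0 → P (Θ x) := by
  rw [ae_iff] at h ⊢
  apply measure_null_of_locally_null
  intro x hx
  simp only [Classical.not_imp, Set.mem_ofPred_eq] at hx
  obtain ⟨hc, hd, -⟩ := hx
  obtain ⟨e, he⟩ := exists_equiv hd
  have hf' : HasFDerivAt Θ (e : E3 →L[ℝ] E3) x := by
    rw [he]; exact (hc.differentiableAt (by norm_num)).hasFDerivAt
  set Φ := hc.toOpenPartialHomeomorph Θ hf' (by norm_num) with hΦ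
  have hxs : x ∈ Φ.source := hc.mem_toOpenPartialHomeomorph_source hf' (by norm_num)
  have hΦc : (Φ : E3 → E3) = Θ := hc.toOpenPartialHomeomorph_coe hf' (by norm_num)
  have hinv : ContDiffAt ℝ 1 Φ.symm (Θ x) := hc.to_localInverse hf' (by norm_num)
  have hev : ∀ᶠ y in 𝓝 (Θ x), DifferentiableAt ℝ Φ.symm y :=
    (hinv.eventually (by simp)).mono fun y hy => hy.differentiableAt (by norm_num)
  obtain ⟨W, hW, hWo, hxW⟩ := _root_.eventually_nhds_iff.1 hev
  have hnull : volume (Φ.symm '' (W ∩ {a | ¬ P a})) = 0 := by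
    apply addHaar_image_eq_zero_of_differentiableOn_of_addHaar_eq_zero (volume : Measure E3)
    · intro y hy
      exact (hW y hy.1).differentiableWithinAt
    · exact measure_mono_null inter_subset_right h
  refine ⟨{a | ¬(ContDiffAt ℝ 1 Θ a → (fderiv ℝ Θ a).det ≠ 0 → P (Θ a))} ∩ (Φ.source ∩ Θ ⁻¹' W),
    ?_, ?_⟩
  · apply inter_mem_nhdsWithin
    exact inter_mem (Φ.open_source.mem_nhds hxs) (hc.continuousAt (hWo.mem_nhds hxW))
  · refine measure_mono_null ?_ hnull
    rintro y ⟨hy, hy1, hy2⟩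
    simp only [Classical.not_imp, Set.mem_ofPred_eq] at hy
    refine ⟨Θ y, ⟨hy2, hy.2.2⟩, ?_⟩
    rw [← hΦc]
    exact Φ.left_inv hy1

/-- a.e. `f` is locally affine, with gradient satisfying `P` -/
def AeAff (f : E3 → ℝ) (P : E3 → E3 → Prop) : Prop :=
  ∀ᵐ x : E3, ∃ (a : E3) (k : ℝ), P x a ∧ f =ᶠ[𝓝 x] fun y => ⟪a, y⟫ + k

namespace AeAff
variable {f g : E3 → ℝ} {P Q R : E3 → E3 → Prop}

theorem imp (h : AeAff f P) (hPQ : ∀ᵐ x : E3, ∀ a, P x a → Q x a) : AeAff f Q := by
  filter_upwards [h, hPQ] with x hx hpq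
  obtain ⟨a, k, ha, hk⟩ := hx
  exact ⟨a, k, hpq a ha, hk⟩

theorem const (k : ℝ) : AeAff (fun _ => k) fun _ a => a = 0 := by
  refine Eventually.of_forall fun x => ⟨0, k, rfl, Eventually.of_forall fun y => ?_⟩
  simp

theorem coord (i : Fin 3) : AeAff (fun x => x i) fun _ a => a = ee i := by
  refine Eventually.of_forall fun x => ⟨ee i, 0, rfl, Eventually.of_forall fun y => ?_⟩
  simp only [add_zero]
  rw [real_inner_comm, inner_ee]

theorem abs_coord (i : Fin 3) : AeAff (fun x => |x i|) fun x a => a = Real.sign (x i) • ee i := by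
  filter_upwards [ae_coord_ne i 0] with x hx
  refine ⟨_, 0, rfl, ?_⟩
  have hc : Continuous fun y : E3 => y i := by fun_prop
  rcases lt_or_gt_of_ne hx with h | h
  · filter_upwards [hc.continuousAt.eventually (gt_mem_nhds h)] with y hy
    rw [Real.sign_of_neg h, abs_of_neg hy, real_inner_smul_left, real_inner_comm, inner_ee]
    ring
  · filter_upwards [hc.continuousAt.eventually (lt_mem_nhds h)] with y hy
    rw [Real.sign_of_pos h, abs_of_pos hy, real_inner_smul_left, real_inner_comm, inner_ee]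
    ring

theorem lin (hf : AeAff f P) (hg : AeAff g Q) (p q k : ℝ)
    (h : ∀ x a b, P x a → Q x b → R x (p • a + q • b)) :
    AeAff (fun x => p * f x + q * g x + k) R := by
  filter_upwards [hf, hg] with x hx hx'
  obtain ⟨a, k1, ha, hk⟩ := hx
  obtain ⟨b, k2, hb, hk'⟩ := hx'
  refine ⟨p • a + q • b, p * k1 + q * k2 + k, h x a b ha hb, ?_⟩
  filter_upwards [hk, hk'] with y hy hy'
  rw [hy, hy', inner_add_left, real_inner_smul_left, real_inner_smul_left]
  ring

theorem null_tri (hf : AeAff f P) (hg : AeAff g P) :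
    ∀ᵐ x : E3, ∃ (a b : E3) (k l : ℝ), P x a ∧ P x b ∧ (f =ᶠ[𝓝 x] fun y => ⟪a, y⟫ + k) ∧
      (g =ᶠ[𝓝 x] fun y => ⟪b, y⟫ + l) ∧
      ((∀ᶠ y in 𝓝 x, f y ≤ g y) ∨ (∀ᶠ y in 𝓝 x, g y ≤ f y)) := by
  filter_upwards [hf, hg, ae_fderiv_zero (fun y => f y - g y) 0] with x hx hx' h0
  obtain ⟨a, k, ha, hk⟩ := hx
  obtain ⟨b, l, hb, hl⟩ := hx'
  refine ⟨a, b, k, l, ha, hb, hk, hl, ?_⟩
  have hd : (fun y => f y - g y) =ᶠ[𝓝 x] fun y => ⟪a - b, y⟫ + (k - l) := by
    filter_upwards [hk, hl] with y hy hy'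
    rw [hy, hy', inner_sub_left]
    ring
  have hder : HasFDerivAt (fun y : E3 => ⟪a - b, y⟫ + (k - l)) (innerSL ℝ (a - b)) x :=
    (innerSL ℝ (a - b)).hasFDerivAt.add_const _
  have hder' : HasFDerivAt (fun y => f y - g y) (innerSL ℝ (a - b)) x :=
    hder.congr_of_eventuallyEq hd
  rcases lt_trichotomy (f x - g x) 0 with h | h | h
  · left
    filter_upwards [hder'.continuousAt.eventually (gt_mem_nhds h)] with y hy
    linarith
  · left
    have h1 := h0 h hder'.differentiableAt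
    rw [hder'.fderiv] at h1
    have h2 : ∀ y : E3, ⟪a - b, y⟫ = 0 := fun y => by
      have := congrArg (fun A : E3 →L[ℝ] ℝ => A y) h1
      simpa only [innerSL_apply_apply, zero_apply] using this
    have h3 := hd.eq_of_nhds
    simp only [h2, zero_add] at h3
    filter_upwards [hd] with y hy
    simp only [h2, zero_add] at hy
    linarith
  · right
    filter_upwards [hder'.continuousAt.eventually (lt_mem_nhds h)] with y hy
    linarith

theorem max (hf : AeAff f P) (hg : AeAff g P) : AeAff (fun x => max (f x) (g x)) P := by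
  filter_upwards [null_tri hf hg] with x hx
  obtain ⟨a, b, k, l, ha, hb, hk, hl, h | h⟩ := hx
  · refine ⟨b, l, hb, ?_⟩
    filter_upwards [hl, h] with y hy hy'
    rw [max_eq_right hy', hy]
  · refine ⟨a, k, ha, ?_⟩
    filter_upwards [hk, h] with y hy hy'
    rw [max_eq_left hy', hy]

theorem min (hf : AeAff f P) (hg : AeAff g P) : AeAff (fun x => min (f x) (g x)) P := by
  filter_upwards [null_tri hf hg] with x hx
  obtain ⟨a, b, k, l, ha, hb, hk, hl, h | h⟩ := hx
  · refine ⟨a, k, ha, ?_⟩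
    filter_upwards [hk, h] with y hy hy'
    rw [min_eq_left hy', hy]
  · refine ⟨b, l, hb, ?_⟩
    filter_upwards [hl, h] with y hy hy'
    rw [min_eq_right hy', hy]

theorem abs (hf : AeAff f P) (h : ∀ x a, P x a → P x (-a)) : AeAff (fun x => |f x|) P := by
  have hg : AeAff (fun x => -f x) P := by
    filter_upwards [hf] with x hx
    obtain ⟨a, k, ha, hk⟩ := hx
    refine ⟨-a, -k, h x a ha, ?_⟩
    filter_upwards [hk] with y hy
    rw [hy, inner_neg_left]
    ring
  have := AeAff.max hf hg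
  simpa only [abs_eq_max_neg] using this

theorem smooth (hf : AeAff f P) : ∀ᵐ x : E3, ContDiffAt ℝ 2 f x ∧ P x (∇ f x) := by
  filter_upwards [hf] with x hx
  obtain ⟨a, k, ha, hk⟩ := hx
  constructor
  · have h1 : ContDiff ℝ 2 fun y : E3 => ⟪a, y⟫ + k :=
      (innerSL ℝ a).contDiff.add contDiff_const
    exact h1.contDiffAt.congr_of_eventuallyEq hk
  · have h2 : ∇ (fun y : E3 => ⟪a, y⟫ + k) x = a := by
      have := grad_affine 1 k (fun y : E3 => ⟪a, y⟫) x
      simpa [grad_inner] using this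
    rw [grad_congr hk, h2]
    exact ha

end AeAff

/-- near `x`, `Θ` is `C²` with `s · det DΘ ≥ c` -/
def GM (s c : ℝ) (Θ : E3 → E3) (x : E3) : Prop :=
  ∀ᶠ y in 𝓝 x, ContDiffAt ℝ 2 Θ y ∧ c ≤ s * (fderiv ℝ Θ y).det

theorem GM.of_point {s c : ℝ} (hc : 0 < c) {Θ : E3 → E3} {x : E3} (h : ContDiffAt ℝ 2 Θ x)
    (hd : c ≤ s * (fderiv ℝ Θ x).det) : GM s (c / 2) Θ x := by
  have h1 : ContinuousAt (fun y => fderiv ℝ Θ y) x :=
    (h.fderiv_right (m := 1) (by norm_num)).continuousAt
  have h2 : ContinuousAt (fun y => s * (fderiv ℝ Θ y).det) x :=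
    continuousAt_const.mul (((contDiff_det (n := 0)).continuous.continuousAt).comp h1)
  have h3 : c / 2 < s * (fderiv ℝ Θ x).det := by linarith
  filter_upwards [h.eventually (by simp), h2.eventually (lt_mem_nhds h3)] with y hy hy'
  exact ⟨hy, hy'.le⟩

theorem GM.comp {s c c' : ℝ} (hc : 0 < c) (hc' : 0 < c') {Θ P : E3 → E3} {x : E3} (h : GM s c Θ x)
    (h' : GM 1 c' P (Θ x)) : GM s (c * c') (P ∘ Θ) x := by
  have hx : ContinuousAt Θ x := h.self_of_nhds.1.continuousAt
  filter_upwards [h, hx.eventually h'] with y hy hy'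
  refine ⟨hy'.1.comp y hy.1, ?_⟩
  rw [fderiv_comp y (hy'.1.differentiableAt (by norm_num)) (hy.1.differentiableAt (by norm_num)),
    det_comp]
  have h1 := hy.2
  have h2 := hy'.2
  rw [one_mul] at h2
  calc c * c' ≤ (s * (fderiv ℝ Θ y).det) * (fderiv ℝ P (Θ y)).det :=
        mul_le_mul h1 h2 hc'.le (hc.le.trans h1)
    _ = _ := by ring

theorem GM.mono {s c c' : ℝ} {Θ : E3 → E3} {x : E3} (h : GM s c Θ x) (hc : c' ≤ c) : GM s c' Θ x := by
  filter_upwards [h] with y hy
  exact ⟨hy.1, hc.trans hy.2⟩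

end Crest.Agent.R83
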