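import Crest.Agent.R83.Loc

/-!
# Row 83: the global perturbation

* `glue_balls`: induction on the finite family (`St.glue`, `St.glue_val`, `Near.gain_zero`); `gain` is
  continuous on `O` and vanishes off the compact set, hence is integrable on `O` (`gain_int`).
* `cover`: if `∫ D > 0` take a compact `K ⊆ O ∩ {D > 0}` with `∫_K D ≥ ½ ∫_O D` (inner regularity, e.g.
  `IsOpen.exists_lt_isCompact` for the finite measure `(volume.restrict O).withDensity`, or an
  exhaustion and dominated convergence).  For `x ∈ K` choose `r x ≤ min 1 (ρ x)` with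
  `closedBall x (6 r x) ⊆ O` and `D ≤ 2 D x` there.
  `Vitali.exists_disjoint_subfamily_covering_enlargement_closedBall`; the open balls of radius `6 r` of
  the subfamily cover `K`; take a finite subcover.
-/

namespace Crest.Agent.R83

open MeasureTheory Set Metric Filter Topology
open scoped Gradient RealInnerProductSpace NNReal
open Crest.Agent.R80 (L2 nr)

/-! ### part a -/

theorem perta_gain_nonneg (z z' : St) (x : E3) : 0 ≤ z.gain z' x := by
  unfold St.gain
  positivity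

theorem perta_gain_congr (z : St) {z' w : St} {x : E3} (hu : z'.u =ᶠ[𝓝 x] w.u)
    (hv : z'.v =ᶠ[𝓝 x] w.v) : z.gain z' x = z.gain w x := by
  unfold St.gain
  rw [grad_congr hu, grad_congr hv]

theorem gain_int {S δ : ℝ} {O C : Set E3} {z z' : St} (hO : IsOpen O) (hC : IsCompact C) (hCO : C ⊆ O)
    (hn : z.Near z' C δ) (hz : ∀ x ∈ O, z.Val S x) (hz' : ∀ x ∈ O, z'.Val S x) :
    IntegrableOn (z.gain z') O := by
  have hc : ContinuousOn (z.gain z') C := by
    intro x hx
    have h1 := (contDiffAt_grad1 (hz x (hCO hx)).su).continuousAt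
    have h2 := (contDiffAt_grad1 (hz x (hCO hx)).sv).continuousAt
    have h3 := (contDiffAt_grad1 (hz' x (hCO hx)).su).continuousAt
    have h4 := (contDiffAt_grad1 (hz' x (hCO hx)).sv).continuousAt
    exact (((h3.sub h1).norm.pow 2).add ((h4.sub h2).norm.pow 2)).continuousWithinAt
  exact (hc.integrableOn_compact hC).of_forall_sdiff_eq_zero hO.measurableSet
    fun x hx => (hn.gain_zero hC.isClosed hx.2).1

theorem glue_balls {S δ : ℝ} (hδ : 0 ≤ δ) {O : Set E3} (hO : IsOpen O) {z : St}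
    (hz : ∀ x ∈ O, z.Val S x) (s : Finset E3) (r g : E3 → ℝ) (hB : ∀ x ∈ s, ball x (r x) ⊆ O)
    (hd : (s : Set E3).PairwiseDisjoint fun x => ball x (r x))
    (h : ∀ x ∈ s, ∃ (z' : St) (C : Set E3), IsCompact C ∧ C ⊆ ball x (r x) ∧ z.Near z' C δ ∧
      (∀ y ∈ ball x (r x), z'.Val S y) ∧ g x ≤ ∫ y in ball x (r x), z.gain z' y) :
    ∃ (z' : St) (C : Set E3), IsCompact C ∧ C ⊆ ⋃ x ∈ s, ball x (r x) ∧ z.Near z' C δ ∧
      (∀ y ∈ O, z'.Val S y) ∧ ∑ x ∈ s, g x ≤ ∫ y in O, z.gain z' y := by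
  classical
  induction s using Finset.induction_on with
  | empty =>
    refine ⟨z, ∅, isCompact_empty, empty_subset _, ⟨fun x _ => ⟨rfl, rfl, rfl⟩, fun x => ?_⟩, hz, ?_⟩
    · simp [hδ]
    · rw [Finset.sum_empty]
      exact integral_nonneg fun y => perta_gain_nonneg _ _ _
  | insert a s ha ih =>
    obtain ⟨w, C', hC', hC's, hnw, hw, hgw⟩ := ih (fun x hx => hB x (Finset.mem_insert_of_mem hx))
      (hd.subset (by simp)) (fun x hx => h x (Finset.mem_insert_of_mem hx))
    obtain ⟨z', C, hC, hCB, hn, hz', hg⟩ := h a (Finset.mem_insert_self a s)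
    have hBO : ball a (r a) ⊆ O := hB a (Finset.mem_insert_self a s)
    have hnot : ∀ x ∈ ball a (r a), x ∉ C' := by
      intro x hx hx'
      obtain ⟨b, hb, hxb⟩ := mem_iUnion₂.1 (hC's hx')
      have hab : a ≠ b := fun e => ha (e ▸ hb)
      have := hd (Finset.mem_coe.2 (Finset.mem_insert_self a s))
        (Finset.mem_coe.2 (Finset.mem_insert_of_mem hb)) hab
      exact Set.disjoint_left.1 this hx hxb
    have hwz : ∀ x ∈ ball a (r a), w.u x = z.u x ∧ w.v x = z.v x ∧ w.σ x = z.σ x :=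
      fun x hx => hnw.eq x (hnot x hx)
    have hC'O : C' ⊆ O := hC's.trans
      (iUnion₂_subset fun x hx => hB x (Finset.mem_insert_of_mem hx))
    have hpt : ∀ x, z.gain (St.glue (ball a (r a)) z' w) x =
        (ball a (r a)).indicator (z.gain z') x + z.gain w x := by
      intro x
      by_cases hx : x ∈ ball a (r a)
      · rw [indicator_of_mem hx, (hnw.gain_zero hC'.isClosed (hnot x hx)).1, add_zero]
        apply perta_gain_congr
        · filter_upwards [isOpen_ball.mem_nhds hx] with y hy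
          exact if_pos hy
        · filter_upwards [isOpen_ball.mem_nhds hx] with y hy
          exact if_pos hy
      · rw [indicator_of_notMem hx, zero_add]
        have hxC : x ∈ Cᶜ := fun h' => hx (hCB h')
        apply perta_gain_congr
        · filter_upwards [hC.isClosed.isOpen_compl.mem_nhds hxC] with y hy
          by_cases hyB : y ∈ ball a (r a)
          · exact (if_pos hyB).trans ((hn.eq y hy).1.trans (hwz y hyB).1.symm)
          · exact if_neg hyB
        · filter_upwards [hC.isClosed.isOpen_compl.mem_nhds hxC] with y hy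
          by_cases hyB : y ∈ ball a (r a)
          · exact (if_pos hyB).trans ((hn.eq y hy).2.1.trans (hwz y hyB).2.1.symm)
          · exact if_neg hyB
    refine ⟨St.glue (ball a (r a)) z' w, C ∪ C', hC.union hC', ?_, ⟨fun x hx => ?_, fun x => ?_⟩,
      St.glue_val isOpen_ball hC hCB hn hz' hw hwz, ?_⟩
    · rw [Finset.set_biUnion_insert]
      exact union_subset_union hCB hC's
    · rw [mem_union, not_or] at hx
      by_cases hxB : x ∈ ball a (r a)
      · simp only [St.glue, if_pos hxB]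
        exact hn.eq x hx.1
      · simp only [St.glue, if_neg hxB]
        exact hnw.eq x hx.2
    · by_cases hxB : x ∈ ball a (r a)
      · simp only [St.glue, if_pos hxB]
        exact hn.cl x
      · simp only [St.glue, if_neg hxB]
        exact hnw.cl x
    · have i1 : IntegrableOn (z.gain z') (ball a (r a)) :=
        gain_int isOpen_ball hC hCB hn (fun x hx => hz x (hBO hx)) hz'
      have i2 : IntegrableOn (z.gain w) O := gain_int hO hC' hC'O hnw hz hw
      rw [Finset.sum_insert ha]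
      simp_rw [hpt]
      rw [integral_add (i1.integrable_indicator measurableSet_ball).integrableOn i2,
        setIntegral_indicator measurableSet_ball, inter_eq_right.2 hBO]
      exact add_le_add hg hgw

/-! ### part b -/

theorem pertb_rad {O : Set E3} {D : E3 → ℝ} (hO : IsOpen O) (hD : ContinuousOn D O) {x : E3}
    (hx : x ∈ O) (h0 : 0 < D x) {ρ : ℝ} (hρ : 0 < ρ) :
    ∃ r : ℝ, 0 < r ∧ r ≤ 1 ∧ r ≤ ρ ∧ ∀ y ∈ closedBall x (4 * r), y ∈ O ∧ D y ≤ 2 * D x := by
  have h1 : ∀ᶠ y in 𝓝 x, y ∈ O ∧ D y ≤ 2 * D x :=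
    Filter.Eventually.and (hO.mem_nhds hx)
      ((hD.continuousAt (hO.mem_nhds hx)).eventually (eventually_le_nhds (by linarith)))
  obtain ⟨ε, hε, h⟩ := Metric.nhds_basis_closedBall.eventually_iff.1 h1
  refine ⟨min (ε / 4) (min 1 ρ), by positivity, (min_le_right _ _).trans (min_le_left _ _),
    (min_le_right _ _).trans (min_le_right _ _), fun y hy => h (closedBall_subset_closedBall ?_ hy)⟩
  linarith [min_le_left (ε / 4) (min 1 ρ)]

theorem cover : ∃ κ : ℝ, 0 < κ ∧ ∀ (O : Set E3) (D ρ : E3 → ℝ), IsOpen O → ContinuousOn D O →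
    (∀ x, 0 ≤ D x) → IntegrableOn D O → (∀ x ∈ O, 0 < D x → 0 < ρ x) →
      ∃ (s : Finset E3) (r : E3 → ℝ), (∀ x ∈ s, x ∈ O ∧ 0 < D x ∧ 0 < r x ∧ r x ≤ ρ x ∧
        ball x (r x) ⊆ O) ∧ ((s : Set E3).PairwiseDisjoint fun x => ball x (r x)) ∧
        κ * ∫ x in O, D x ≤ ∑ x ∈ s, r x ^ 3 * D x := by
  classical
  obtain ⟨c, hc, hv⟩ := vol_ball
  refine ⟨(256 * c)⁻¹, by positivity, fun O D ρ hO hD h0 hi hρ => ?_⟩
  rcases le_or_gt (∫ x in O, D x) 0 with hI | hI
  · exact ⟨∅, fun _ => 0, by simp, by simp,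
      by simpa using mul_nonpos_of_nonneg_of_nonpos (by positivity) hI⟩
  have key : ∀ x : E3, ∃ r : ℝ, x ∈ O ∧ 0 < D x →
      0 < r ∧ r ≤ 1 ∧ r ≤ ρ x ∧ ∀ y ∈ closedBall x (4 * r), y ∈ O ∧ D y ≤ 2 * D x := fun x => by
    by_cases hx : x ∈ O ∧ 0 < D x
    · obtain ⟨r, hr⟩ := pertb_rad hO hD hx.1 hx.2 (hρ x hx.1 hx.2)
      exact ⟨r, fun _ => hr⟩
    · exact ⟨0, fun h => absurd h hx⟩
  choose r hr using key
  obtain ⟨u, hu, hd, hcov⟩ := Vitali.exists_disjoint_subfamily_covering_enlargement_closedBall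
    {x | x ∈ O ∧ 0 < D x} (fun x => x) r 1 (fun a ha => (hr a ha).2.1) 4 (by norm_num)
  have hcnt : u.Countable := hd.countable_of_nonempty_interior fun a ha =>
    (nonempty_ball.2 (hr a (hu ha)).1).mono ball_subset_interior_closedBall
  have := hcnt.to_subtype
  have h1 : ENNReal.ofReal (∫ x in O, D x) ≤
      ∑' a : u, ENNReal.ofReal (128 * c * (r a ^ 3 * D a)) := by
    rw [ofReal_integral_eq_lintegral_ofReal hi (Eventually.of_forall h0)]
    calc _ ≤ ∫⁻ x in ⋃ a : u, closedBall (a : E3) (4 * r a), ENNReal.ofReal (D x) := by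
          rw [← lintegral_indicator hO.measurableSet,
            ← lintegral_indicator (MeasurableSet.iUnion fun _ => measurableSet_closedBall)]
          refine lintegral_mono fun x => ?_
          by_cases hx : x ∈ O ∧ 0 < D x
          · obtain ⟨b, hb, hxb⟩ := hcov x hx
            rw [indicator_of_mem hx.1, indicator_of_mem
              (mem_iUnion.2 ⟨⟨b, hb⟩, hxb (mem_closedBall_self (hr x hx).1.le)⟩)]
          · by_cases hxO : x ∈ O
            · rw [indicator_of_mem hxO, ENNReal.ofReal_of_nonpos (not_lt.1 fun h => hx ⟨hxO, h⟩)]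
              exact zero_le
            · rw [indicator_of_notMem hxO]
              exact zero_le
      _ ≤ ∑' a : u, ∫⁻ x in closedBall (a : E3) (4 * r a), ENNReal.ofReal (D x) :=
          lintegral_iUnion_le _ _
      _ ≤ _ := by
          refine ENNReal.tsum_le_tsum fun a => ?_
          obtain ⟨k1, -, -, k2⟩ := hr a (hu a.2)
          refine (setLIntegral_mono (g := fun _ => ENNReal.ofReal (2 * D a)) measurable_const
            fun y hy => ENNReal.ofReal_le_ofReal (k2 y hy).2).trans (le_of_eq ?_)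
          rw [setLIntegral_const, ← ofReal_measureReal measure_closedBall_lt_top.ne,
            (hv _ _ (by positivity)).2, ← ENNReal.ofReal_mul (by linarith [h0 a])]
          congr 1
          ring
  have h2 : ENNReal.ofReal ((∫ x in O, D x) / 2) < ENNReal.ofReal (∫ x in O, D x) :=
    (ENNReal.ofReal_lt_ofReal_iff hI).2 (half_lt_self hI)
  have h3 := h2.trans_le h1
  rw [ENNReal.tsum_eq_iSup_sum, lt_iSup_iff] at h3
  obtain ⟨s, hs⟩ := h3
  have hp : ∀ a : u, 0 ≤ 128 * c * (r a ^ 3 * D a) := fun a => by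
    have := (hr a (hu a.2)).1
    have := h0 a
    positivity
  rw [← ENNReal.ofReal_sum_of_nonneg fun a _ => hp a,
    ENNReal.ofReal_lt_ofReal_iff_of_nonneg (half_pos hI).le, ← Finset.mul_sum] at hs
  have hsu : ∀ x ∈ s.map (Function.Embedding.subtype _), x ∈ u := fun x hx => by
    obtain ⟨a, -, rfl⟩ := Finset.mem_map.1 hx
    exact a.2
  refine ⟨s.map (Function.Embedding.subtype _), r, fun x hx => ?_,
    (hd.subset hsu).mono fun _ => ball_subset_closedBall, ?_⟩
  · have hx' := hu (hsu x hx)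
    obtain ⟨k1, -, k3, k2⟩ := hr x hx'
    exact ⟨hx'.1, hx'.2, k1, k3, fun y hy =>
      (k2 y (closedBall_subset_closedBall (by linarith) (ball_subset_closedBall hy))).1⟩
  · rw [Finset.sum_map, inv_mul_le_iff₀ (by positivity)]
    simp only [Function.Embedding.subtype_apply]
    linarith

/-! ### part a (continued): `cover`, `loc_move`, `glue_balls` -/

theorem pert {S : ℝ} (hS : 0 < S) : ∃ κ : ℝ, 0 < κ ∧ ∀ (O : Set E3) (z : St), IsOpen O →
    (∀ x ∈ O, z.Val S x) → IntegrableOn z.D O → ∀ δ : ℝ, 0 < δ →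
      ∃ (z' : St) (C : Set E3), IsCompact C ∧ C ⊆ O ∧ z.Near z' C δ ∧ (∀ x ∈ O, z'.Val S x) ∧
        κ * ∫ x in O, z.D x ≤ ∫ x in O, z.gain z' x := by
  obtain ⟨κ₁, hκ₁, hloc⟩ := loc_move hS
  obtain ⟨κ₂, hκ₂, hcov⟩ := cover
  refine ⟨κ₁ * κ₂, mul_pos hκ₁ hκ₂, fun O z hO hz hD δ hδ => ?_⟩
  have hρ : ∀ x : E3, ∃ r₀ : ℝ, x ∈ O → 0 < z.D x → 0 < r₀ ∧ ∀ r : ℝ, 0 < r → r ≤ r₀ →
      ∃ (z' : St) (C : Set E3), IsCompact C ∧ C ⊆ ball x r ∧ z.Near z' C δ ∧
        (∀ y ∈ ball x r, z'.Val S y) ∧ κ₁ * r ^ 3 * z.D x ≤ ∫ y in ball x r, z.gain z' y := by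
    intro x
    by_cases hx : x ∈ O ∧ 0 < z.D x
    · obtain ⟨r₀, hr₀, hr⟩ := hloc z x (by filter_upwards [hO.mem_nhds hx.1] with y hy using hz y hy) hx.2
      exact ⟨r₀, fun _ _ => ⟨hr₀, fun r h1 h2 => hr r h1 h2 δ hδ⟩⟩
    · exact ⟨1, fun h1 h2 => absurd ⟨h1, h2⟩ hx⟩
  choose ρ hρ using hρ
  have hD0 : ∀ x, 0 ≤ z.D x := fun x => by
    unfold St.D dfc
    positivity
  obtain ⟨s, r, hs, hdisj, hsum⟩ := hcov O z.D ρ hO
    (fun x hx => (hz x hx).toVal0.continuousAt_D.1.continuousWithinAt) hD0 hD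
    (fun x hx hDx => (hρ x hx hDx).1)
  obtain ⟨z', C, hC, hCs, hn, hz', hg⟩ := glue_balls hδ.le hO hz s r (fun x => κ₁ * r x ^ 3 * z.D x)
    (fun x hx => (hs x hx).2.2.2.2) hdisj
    (fun x hx => (hρ x (hs x hx).1 (hs x hx).2.1).2 (r x) (hs x hx).2.2.1 (hs x hx).2.2.2.1)
  refine ⟨z', C, hC, hCs.trans (iUnion₂_subset fun x hx => (hs x hx).2.2.2.2), hn, hz', le_trans ?_ hg⟩
  calc κ₁ * κ₂ * ∫ x in O, z.D x = κ₁ * (κ₂ * ∫ x in O, z.D x) := by ring
    _ ≤ κ₁ * ∑ x ∈ s, r x ^ 3 * z.D x := mul_le_mul_of_nonneg_left hsum hκ₁.le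
    _ = ∑ x ∈ s, κ₁ * r x ^ 3 * z.D x := by
      rw [Finset.mul_sum]
      exact Finset.sum_congr rfl fun x _ => by ring

end Crest.Agent.R83
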