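import Crest.Agent.R83.Geo

/-!
# Row 83: the planar picture

`y = (s, ζ, b)`, `zz y = X + i Y`, `X = XX s`, `Y = ph ζ - ph (BB s)`.
* part a: `XX` is odd, increasing with slope `≥ 10/7`, equal to `10 s / 7` on `[-13/10, 13/10]`;
  `ph` is increasing, `= s/4` for `s ≤ 7/8`.  `zz_far`: if `|X - e| < 1/10` then `|s - 7e/10| < 7/100`,
  `BB s ≤ 21/200`, `Y ≥ 1/5 - 21/800`.  `zz_near`: `ρ = BB s = 3/2 |s - 7e/10| ≤ ζ`, `|X - e| = 20ρ/21`,
  `Y = (ζ - ρ)/4`.  `zz_out`: either `BB s ≤ 93/100` and `Y ≥ 5`, or `|s| ≥ 139/100` and `|X| ≥ 6`.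
* part b: `th z = π/2 + arg (-i z)`, `-i z` has nonnegative real part so lies in `slitPlane`, and
  `|arg (-i z)| ≤ π/2`; `lg = re ∘ log (-i ·)`, `th = π/2 + im ∘ log (-i ·)`.
  `th_mul`: `Complex.arg_mul_eq_add_arg_iff`.  In `ov_child`: `z + e = 2e (1 + w)`, `w = e (z - e)/2` is
  `ww t a` for `e = 1` and its conjugate for `e = -1` (`polar`); in `ov_out`: `z + 1 = (z - 1)(1 + w)`,
  `w = 2/(z - 1) = conj (ww t a)`.  To compute `th (z + e)` write `th (2 e (1 + w))` with `th_mul`.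
* part c: off finitely many values of `s` (`0, ±7/60, ±7/10, ±77/60, ±13/10, ±21/16`) and `ζ = 7/8` everything is
  locally affine.  `ph (BB s)` equals `7/32` for `|s| ≤ 7/60` and `77/60 ≤ |s| ≤ 21/16`, `3/8 ||s| - 7/10|` in between,
  and `|s|/6 + 120 (2|s|/3 - 7/8)` for `|s| ≥ 21/16`.  `hc`: the quantity is `-ζ / (14/5)`.
  `ho`: for `|s| > 21/16`, `(X - 1) Ys ≤ -70`; otherwise `Y ≥ 12`, `|X - 1| ≤ 7/2`, `|Ys| ≤ 3/8`.
-/

namespace Crest.Agent.R83

open MeasureTheory Set Metric Filter Topology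
open scoped Gradient RealInnerProductSpace NNReal

variable {e : ℝ} {y : E3}

/-! ### part a -/

theorem planea_XX (s : ℝ) : (s ≤ -(13 / 10) ∧ XX s = 10 / 7 * s + 50 * (s + 13 / 10)) ∨
    (-(13 / 10) ≤ s ∧ s ≤ 13 / 10 ∧ XX s = 10 / 7 * s) ∨
    (13 / 10 ≤ s ∧ XX s = 10 / 7 * s + 50 * (s - 13 / 10)) := by
  unfold XX
  rcases le_total s (-(13 / 10)) with h | h
  · exact Or.inl ⟨h, by rw [cl_of_le h]; ring⟩
  rcases le_total s (13 / 10) with h' | h'
  · exact Or.inr (Or.inl ⟨h, h', by rw [cl_of_mem h h']; ring⟩)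
  · exact Or.inr (Or.inr ⟨h', by rw [cl_of_ge (by norm_num) h']; ring⟩)

theorem planea_ph (s : ℝ) :
    (s ≤ 7 / 8 ∧ ph s = s / 4) ∨ (7 / 8 ≤ s ∧ ph s = s / 4 + 120 * (s - 7 / 8)) := by
  unfold ph
  rcases le_total s (7 / 8) with h | h
  · exact Or.inl ⟨h, by rw [max_eq_right (by linarith)]; ring⟩
  · exact Or.inr ⟨h, by rw [max_eq_left (by linarith)]⟩

theorem planea_mono : StrictMono ph := fun a b h => by
  rcases planea_ph a with ⟨a1, a2⟩ | ⟨a1, a2⟩ <;> rcases planea_ph b with ⟨b1, b2⟩ | ⟨b1, b2⟩ <;> linarith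

theorem planea_re : Lip fun y : E3 => (zz y).re :=
  ((Lip.coord 0).div_const _).add
    (((Lip.coord 0).sub ((lip_cl _ _).comp (Lip.coord 0))).const_mul 50)

theorem planea_im : Lip fun y : E3 => (zz y).im := by
  have h : Lip ph := by
    have h0 : Lip fun s : ℝ => s := ⟨1, LipschitzWith.id⟩
    exact (h0.div_const 4).add (((h0.sub (Lip.const _)).max (Lip.const 0)).const_mul 120)
  exact (h.comp (Lip.coord 1)).sub (h.comp (lip_BB.comp (Lip.coord 0)))

theorem planea_nm (y : E3) (e : ℝ) : |XX (y 0) - e| ≤ ‖zz y - e‖ ∧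
    |ph (y 1) - ph (BB (y 0))| ≤ ‖zz y - e‖ ∧
    ‖zz y - e‖ ≤ |XX (y 0) - e| + |ph (y 1) - ph (BB (y 0))| := by
  have h1 := Complex.abs_re_le_norm (zz y - e)
  have h2 := Complex.abs_im_le_norm (zz y - e)
  have h3 := Complex.norm_le_abs_re_add_abs_im (zz y - e)
  simp only [Complex.sub_re, Complex.sub_im, Complex.ofReal_re, Complex.ofReal_im, sub_zero] at h1 h2 h3
  exact ⟨h1, h2, h3⟩

theorem lip_zz : Lip zz := by
  obtain ⟨K₁, h₁⟩ := planea_re
  obtain ⟨K₂, h₂⟩ := planea_im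
  refine ⟨K₁ + K₂, LipschitzWith.of_dist_le_mul fun x y => ?_⟩
  have a1 := h₁.dist_le_mul x y
  have a2 := h₂.dist_le_mul x y
  have a3 := Complex.norm_le_abs_re_add_abs_im (zz x - zz y)
  rw [Real.dist_eq] at a1 a2
  rw [Complex.sub_re, Complex.sub_im] at a3
  rw [dist_eq_norm, NNReal.coe_add]
  linarith

theorem lip_Zm : Lip Zm := by
  obtain ⟨K₁, h₁⟩ := planea_re
  obtain ⟨K₂, h₂⟩ := planea_im
  obtain ⟨K₃, h₃⟩ := Lip.coord 2
  refine ⟨K₁ + K₂ + K₃, LipschitzWith.of_dist_le_mul fun x y => ?_⟩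
  have a1 := h₁.dist_le_mul x y
  have a2 := h₂.dist_le_mul x y
  have a3 := h₃.dist_le_mul x y
  rw [Real.dist_eq] at a1 a2 a3
  have a4 : ‖Zm x - Zm y‖ ≤ |(zz x).re - (zz y).re| + |(zz x).im - (zz y).im| + |x 2 - y 2| := by
    refine (pow_le_pow_iff_left₀ (norm_nonneg _) (by positivity) two_ne_zero).1 ?_
    rw [norm_sq3]
    simp only [Zm, PiLp.sub_apply, v3_0, v3_1, v3_2]
    rw [← sq_abs ((zz x).re - _), ← sq_abs ((zz x).im - _), ← sq_abs (x 2 - _)]
    have b1 := abs_nonneg ((zz x).re - (zz y).re)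
    have b2 := abs_nonneg ((zz x).im - (zz y).im)
    have b3 := abs_nonneg (x 2 - y 2)
    nlinarith [mul_nonneg b1 b2, mul_nonneg b1 b3, mul_nonneg b2 b3]
  rw [dist_eq_norm, NNReal.coe_add, NNReal.coe_add]
  linarith

theorem zz_im_nonneg (hy : y ∈ DD) : 0 ≤ (zz y).im := by
  exact sub_nonneg.2 (planea_mono.monotone hy.2.2)

theorem zz_im_eq_zero_iff (y : E3) : (zz y).im = 0 ↔ y 1 = BB (y 0) := by
  exact sub_eq_zero.trans planea_mono.injective.eq_iff

theorem zz_re_lt_iff (he : e = 1 ∨ e = -1) (y : E3) : (zz y).re < e ↔ y 0 < e * (7 / 10) := by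
  change XX (y 0) < e ↔ _
  rcases he with rfl | rfl <;> rcases planea_XX (y 0) with ⟨a, b⟩ | ⟨a, a', b⟩ | ⟨a, b⟩ <;>
    constructor <;> intro h <;> linarith

theorem zz_re_gt_iff (he : e = 1 ∨ e = -1) (y : E3) : e < (zz y).re ↔ e * (7 / 10) < y 0 := by
  change e < XX (y 0) ↔ _
  rcases he with rfl | rfl <;> rcases planea_XX (y 0) with ⟨a, b⟩ | ⟨a, a', b⟩ | ⟨a, b⟩ <;>
    constructor <;> intro h <;> linarith

theorem zz_far (he : e = 1 ∨ e = -1) (hy : y ∈ DD) : 1 / 10 ≤ ‖zz y - e‖ := by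
  by_contra h
  rw [not_le] at h
  obtain ⟨h1, h2, -⟩ := planea_nm y e
  obtain ⟨a1, a2⟩ := abs_lt.1 (h1.trans_lt h)
  have a3 := (abs_lt.1 (h2.trans_lt h)).2
  have a4 : |(|y 0| - 7 / 10)| ≤ 7 / 100 := by
    rw [abs_le]
    rcases he with rfl | rfl <;> rcases planea_XX (y 0) with ⟨a, b⟩ | ⟨a, a', b⟩ | ⟨a, b⟩ <;>
      rcases abs_cases (y 0) with ⟨c, c'⟩ | ⟨c, c'⟩ <;> constructor <;> linarith
  have a5 : BB (y 0) ≤ 3 / 2 * |(|y 0| - 7 / 10)| := min_le_left _ _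
  have a6 := hy.1
  rcases planea_ph (y 1) with ⟨b1, b2⟩ | ⟨b1, b2⟩ <;>
    rcases planea_ph (BB (y 0)) with ⟨c1, c2⟩ | ⟨c1, c2⟩ <;> linarith

theorem zz_le (hy : y ∈ DD) : ‖zz y - 1‖ ≤ 34 := by
  obtain ⟨-, h1, h2⟩ := hy
  have a1 := (planea_nm y 1).2.2
  have a2 : |y 0| ≤ 3 / 2 * (41 / 40) := by
    have b1 := max_BB (y 0)
    have b2 : max (BB (y 0)) (7 / 8) ≤ 41 / 40 := max_le (by linarith) (by norm_num)
    have b3 := le_max_left (|y 0| / (3 / 2)) (7 / 8)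
    linarith
  have a3 : |XX (y 0) - 1| ≤ 31 / 2 := by
    rw [abs_le] at a2 ⊢
    rcases planea_XX (y 0) with ⟨a, b⟩ | ⟨a, a', b⟩ | ⟨a, b⟩ <;> constructor <;> linarith [a2.1, a2.2]
  have a4 : |ph (y 1) - ph (BB (y 0))| ≤ 37 / 2 := by
    have := BB_nonneg (y 0)
    rw [abs_of_nonneg (sub_nonneg.2 (planea_mono.monotone h2))]
    rcases planea_ph (y 1) with ⟨b1, b2⟩ | ⟨b1, b2⟩ <;>
      rcases planea_ph (BB (y 0)) with ⟨c1, c2⟩ | ⟨c1, c2⟩ <;> linarith
  rw [Complex.ofReal_one] at a1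
  linarith

theorem zz_side (he : e = 1 ∨ e = -1) (h : ‖zz y - e‖ < 1) : 0 < e * y 0 := by
  obtain ⟨a1, a2⟩ := abs_lt.1 ((planea_nm y e).1.trans_lt h)
  rcases he with rfl | rfl <;> rcases planea_XX (y 0) with ⟨a, b⟩ | ⟨a, a', b⟩ | ⟨a, b⟩ <;> linarith

theorem zz_near (he : e = 1 ∨ e = -1) (hy : y ∈ DD) (h : y 1 < 17 / 20) (hs : 0 < e * y 0) :
    ‖zz y - e‖ < 5 / 6 := by
  obtain ⟨-, -, h2⟩ := hy
  have a1 := (planea_nm y e).2.2
  have a2 := BB_of_lt he (by linarith : BB (y 0) < 7 / 8) hs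
  have a3 : |XX (y 0) - e| = 10 / 7 * |y 0 - e * (7 / 10)| := by
    have b1 : |y 0 - e * (7 / 10)| ≤ 3 / 5 := by linarith
    have b2 : XX (y 0) - e = 10 / 7 * (y 0 - e * (7 / 10)) := by
      rw [abs_le] at b1
      rcases he with rfl | rfl <;> rcases planea_XX (y 0) with ⟨a, b⟩ | ⟨a, a', b⟩ | ⟨a, b⟩ <;>
        linarith [b1.1, b1.2]
    rw [b2, abs_mul, abs_of_pos (by norm_num : (0 : ℝ) < 10 / 7)]
  rw [abs_of_nonneg (sub_nonneg.2 (planea_mono.monotone h2))] at a1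
  rcases planea_ph (y 1) with ⟨b1, b2⟩ | ⟨b1, b2⟩ <;>
    rcases planea_ph (BB (y 0)) with ⟨c1, c2⟩ | ⟨c1, c2⟩ <;> linarith

theorem zz_out (hy : y ∈ DD) (h : 39 / 40 < y 1) : 5 ≤ ‖zz y - 1‖ := by
  obtain ⟨a1, a2, -⟩ := planea_nm y 1
  rw [Complex.ofReal_one] at a1 a2
  rcases le_or_gt (BB (y 0)) (93 / 100) with h1 | h1
  · refine le_trans ?_ ((le_abs_self _).trans a2)
    rcases planea_ph (y 1) with ⟨b1, b2⟩ | ⟨b1, b2⟩ <;>
      rcases planea_ph (BB (y 0)) with ⟨c1, c2⟩ | ⟨c1, c2⟩ <;> linarith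
  · have a3 := BB_of_gt (by linarith : 7 / 8 < BB (y 0))
    refine le_trans ?_ a1
    rcases planea_XX (y 0) with ⟨a, b⟩ | ⟨a, a', b⟩ | ⟨a, b⟩ <;>
      rcases abs_cases (y 0) with ⟨c, c'⟩ | ⟨c, c'⟩ <;>
      rcases abs_cases (XX (y 0) - 1) with ⟨d, d'⟩ | ⟨d, d'⟩ <;> linarith

theorem norm_sub_add (he : e = 1 ∨ e = -1) (z : ℂ) :
    (‖z - e‖ < 1 → 1 < ‖z + e‖ ∧ ‖z - 1‖ < 3) ∧ (4 < ‖z - 1‖ → 2 < ‖z - e‖ ∧ 2 < ‖z + e‖) := by
  have h1 : ‖z - 1‖ ≤ ‖z + 1‖ + 2 := by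
    simpa [show z + 1 - 2 = z - 1 by ring] using norm_sub_le (z + 1) 2
  have h2 : ‖z + 1‖ ≤ ‖z - 1‖ + 2 := by
    simpa [show z - 1 + 2 = z + 1 by ring] using norm_add_le (z - 1) 2
  have h3 : 2 ≤ ‖z + 1‖ + ‖z - 1‖ := by
    simpa [show z + 1 - (z - 1) = 2 by ring] using norm_sub_le (z + 1) (z - 1)
  rcases he with rfl | rfl
  · rw [Complex.ofReal_one]
    exact ⟨fun h => ⟨by linarith, by linarith⟩, fun h => ⟨by linarith, by linarith⟩⟩
  · rw [Complex.ofReal_neg, Complex.ofReal_one, sub_neg_eq_add, ← sub_eq_add_neg]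
    exact ⟨fun h => ⟨by linarith, by linarith⟩, fun h => ⟨by linarith, by linarith⟩⟩

/-! ### part b -/

theorem contDiffAt_lg {z : ℂ} (hz : z ≠ 0) : ContDiffAt ℝ 2 lg z :=
  (contDiffAt_norm ℝ hz).log (norm_ne_zero_iff.2 hz)

theorem planeb_slit {z : ℂ} (hz : z ≠ 0) (hi : 0 ≤ z.im) : -Complex.I * z ∈ Complex.slitPlane := by
  rw [Complex.mem_slitPlane_iff]
  simp only [Complex.mul_re, Complex.mul_im, Complex.neg_re, Complex.neg_im, Complex.I_re, Complex.I_im]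
  rcases hi.lt_or_eq with h | h
  · left; linarith
  · right
    intro h2
    exact hz (Complex.ext (by simp; linarith) (by simp; linarith))

theorem planeb_th : th = fun z => Real.pi / 2 + (Complex.log (-Complex.I * z)).im := by
  funext z
  rw [th, Complex.log_im]

theorem planeb_lg : lg = fun z => (Complex.log (-Complex.I * z)).re := by
  funext z
  rw [lg, Complex.log_re]
  simp

theorem contDiffAt_th {z : ℂ} (hz : z ≠ 0) (hi : 0 ≤ z.im) : ContDiffAt ℝ 2 th z := by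
  rw [planeb_th]
  have h1 : ContDiffAt ℂ 2 (fun z : ℂ => Complex.log (-Complex.I * z)) z :=
    (Complex.contDiffAt_log (planeb_slit hz hi)).comp z (contDiffAt_const.mul contDiffAt_id)
  exact contDiffAt_const.add (Complex.imCLM.contDiff.contDiffAt.comp z (h1.restrict_scalars ℝ))

theorem th_of_pos {z : ℂ} (hi : z.im = 0) (hr : 0 < z.re) : th z = 0 := by
  have : Complex.arg (-Complex.I * z) = -(Real.pi / 2) := by
    rw [Complex.arg_eq_neg_pi_div_two_iff]
    simp [hi, hr]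
  rw [th, this]
  ring

theorem th_of_neg {z : ℂ} (hi : z.im = 0) (hr : z.re < 0) : th z = Real.pi := by
  have : Complex.arg (-Complex.I * z) = Real.pi / 2 := by
    rw [Complex.arg_eq_pi_div_two_iff]
    simp [hi, hr]
  rw [th, this]
  ring

theorem polar {z : ℂ} (hz : z ≠ 0) : z = Complex.exp (lg z + th z * Complex.I) := by
  have h1 : -Complex.I * z ≠ 0 := mul_ne_zero (neg_ne_zero.2 Complex.I_ne_zero) hz
  have h2 : (lg z : ℂ) + th z * Complex.I = Real.pi / 2 * Complex.I + Complex.log (-Complex.I * z) := by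
    rw [planeb_lg, planeb_th]
    conv_rhs => rw [← Complex.re_add_im (Complex.log (-Complex.I * z))]
    push_cast
    ring
  rw [h2, Complex.exp_add, Complex.exp_log h1, Complex.exp_pi_div_two_mul_I, ← mul_assoc]
  simp

theorem planeb_re {w : ℂ} (hw : ‖w‖ < 1) : 0 < (1 + w).re := by
  have := (abs_le.1 (Complex.abs_re_le_norm w)).1
  simp only [Complex.add_re, Complex.one_re]
  linarith

theorem planeb_conj {w : ℂ} (hw : ‖w‖ < 1) :
    Complex.arg (1 + (starRingEnd ℂ) w) = -Complex.arg (1 + w) ∧ ‖1 + (starRingEnd ℂ) w‖ = ‖1 + w‖ := by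
  have h : 1 + (starRingEnd ℂ) w = (starRingEnd ℂ) (1 + w) := by simp
  rw [h, Complex.arg_conj, Complex.norm_conj, if_neg]
  · exact ⟨rfl, rfl⟩
  · rw [Complex.arg_eq_pi_iff]
    intro h2
    linarith [planeb_re hw, h2.1]

theorem th_mul {z w : ℂ} (hz : z ≠ 0) (hi : 0 ≤ z.im) (hw : ‖w‖ < 1) :
    th (z * (1 + w)) = th z + Complex.arg (1 + w) := by
  have h1 : -Complex.I * z ≠ 0 := mul_ne_zero (neg_ne_zero.2 Complex.I_ne_zero) hz
  have h2 := planeb_re hw
  have h3 : (1 + w) ≠ 0 := fun h => by simp [h] at h2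
  have h4 : |Complex.arg (-Complex.I * z)| ≤ Real.pi / 2 := by
    rw [Complex.abs_arg_le_pi_div_two_iff]
    simpa using hi
  have h5 : |Complex.arg (1 + w)| < Real.pi / 2 := by
    rw [Complex.abs_arg_lt_pi_div_two_iff]
    exact Or.inl h2
  rw [abs_le] at h4
  rw [abs_lt] at h5
  rw [th, th, ← mul_assoc, (Complex.arg_mul_eq_add_arg_iff h1 h3).2 ⟨by linarith, by linarith⟩, add_assoc]

theorem pd_lg_th {f : E3 → ℂ} {x : E3} (hf : DifferentiableAt ℝ f x) (hz : f x ≠ 0) (hi : 0 ≤ (f x).im)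
    (i : Fin 3) : pd i (fun y => lg (f y)) x = (fderiv ℝ f x (ee i) / f x).re ∧
      pd i (fun y => th (f y)) x = (fderiv ℝ f x (ee i) / f x).im := by
  have h0 : HasFDerivAt (fun y => -Complex.I * f y) ((-Complex.I) • fderiv ℝ f x) x :=
    hf.hasFDerivAt.const_mul _
  have h1 := ((Complex.hasStrictFDerivAt_log_real (planeb_slit hz hi)).hasFDerivAt).comp x h0
  have h2 := Complex.reCLM.hasFDerivAt.comp x h1
  have h3 := (Complex.imCLM.hasFDerivAt.comp x h1).const_add (Real.pi / 2)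
  have key : (-Complex.I * f x)⁻¹ * (-Complex.I * fderiv ℝ f x (ee i)) = fderiv ℝ f x (ee i) / f x := by
    have := Complex.I_ne_zero
    field_simp
  rw [planeb_lg, planeb_th, ← key]
  constructor
  · unfold pd
    rw [HasFDerivAt.fderiv (f := fun y => (Complex.log (-Complex.I * f y)).re) h2]
    simp
  · unfold pd
    rw [HasFDerivAt.fderiv (f := fun y => Real.pi / 2 + (Complex.log (-Complex.I * f y)).im) h3]
    simp

theorem planeb_lg_mul {z w : ℂ} (hz : z ≠ 0) (hw : ‖w‖ < 1) : lg (z * (1 + w)) = lg z + Real.log ‖1 + w‖ := by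
  have h2 := planeb_re hw
  have h3 : (1 + w) ≠ 0 := fun h => by simp [h] at h2
  rw [lg, lg, norm_mul, Real.log_mul (norm_ne_zero_iff.2 hz) (norm_ne_zero_iff.2 h3)]

theorem planeb_polar_conj {z : ℂ} (hz : z ≠ 0) :
    (starRingEnd ℂ) z = Complex.exp (lg z - th z * Complex.I) := by
  conv_lhs => rw [polar hz]
  rw [← Complex.exp_conj]
  simp [sub_eq_add_neg]

theorem ov_child (he : e = 1 ∨ e = -1) {z : ℂ} (hz : z - e ≠ 0) (h : ‖z - e‖ < 1) :
    lg (z + e) = Real.log 2 +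
        Real.log ‖1 + ww (-lg (z - e)) (Real.pi / 2 + e * (th (z - e) - Real.pi / 2))‖ ∧
      th (z + e) = Real.pi / 2 * (1 - e) +
        e * Complex.arg (1 + ww (-lg (z - e)) (Real.pi / 2 + e * (th (z - e) - Real.pi / 2))) := by
  rcases he with rfl | rfl
  · have hw : ‖(z - (1 : ℝ)) / 2‖ < 1 := by
      rw [norm_div, Complex.norm_two]
      linarith [norm_nonneg (z - (1 : ℝ))]
    have e1 : ww (-lg (z - (1 : ℝ))) (Real.pi / 2 + 1 * (th (z - (1 : ℝ)) - Real.pi / 2)) =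
        (z - (1 : ℝ)) / 2 := by
      conv_rhs => rw [polar hz]
      rw [ww, mul_comm, mul_one_div]
      congr 2
      push_cast
      ring
    have e2 : z + (1 : ℝ) = 2 * (1 + (z - (1 : ℝ)) / 2) := by
      push_cast
      ring
    rw [e1, e2, planeb_lg_mul two_ne_zero hw, th_mul two_ne_zero (by simp) hw,
      th_of_pos (z := 2) (by simp) (by simp)]
    constructor
    · simp [lg]
    · ring
  · have hw : ‖-(z - (-1 : ℝ)) / 2‖ < 1 := by
      rw [norm_div, Complex.norm_two, norm_neg]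
      linarith [norm_nonneg (z - (-1 : ℝ))]
    have e1 : ww (-lg (z - (-1 : ℝ))) (Real.pi / 2 + -1 * (th (z - (-1 : ℝ)) - Real.pi / 2)) =
        (starRingEnd ℂ) (-(z - (-1 : ℝ)) / 2) := by
      rw [map_div₀, map_neg, planeb_polar_conj hz, ww, mul_comm, mul_one_div, ← Complex.exp_add_pi_mul_I]
      congr 2
      · push_cast
        ring
      · exact (map_ofNat _ 2).symm
    have e2 : z + (-1 : ℝ) = -2 * (1 + -(z - (-1 : ℝ)) / 2) := by
      push_cast
      ring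
    have h2 : (-2 : ℂ) ≠ 0 := by norm_num
    rw [e1, e2, (planeb_conj hw).1, (planeb_conj hw).2, planeb_lg_mul h2 hw, th_mul h2 (by simp) hw,
      th_of_neg (z := -2) (by simp) (by simp)]
    constructor
    · simp [lg]
    · ring

theorem ov_out {z : ℂ} (hi : 0 ≤ z.im) (h : 4 < ‖z - 1‖) :
    lg (z + 1) = lg (z - 1) + Real.log ‖1 + ww (lg (z - 1) - Real.log 4) (th (z - 1))‖ ∧
      th (z + 1) = th (z - 1) - Complex.arg (1 + ww (lg (z - 1) - Real.log 4) (th (z - 1))) := by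
  have hz : z - 1 ≠ 0 := norm_pos_iff.1 (by linarith)
  have hw : ‖2 / (z - 1)‖ < 1 := by
    rw [norm_div, Complex.norm_two, div_lt_one (by linarith)]
    linarith
  have e1 : ww (lg (z - 1) - Real.log 4) (th (z - 1)) = (starRingEnd ℂ) (2 / (z - 1)) := by
    have h4 : Complex.exp ((Real.log 4 : ℝ) : ℂ) = 4 := by
      rw [← Complex.ofReal_exp, Real.exp_log (by norm_num)]
      norm_num
    rw [map_div₀, planeb_polar_conj hz, ww, map_ofNat,
      show -((lg (z - 1) - Real.log 4 : ℝ) : ℂ) + (th (z - 1) : ℂ) * Complex.I =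
        ((Real.log 4 : ℝ) : ℂ) - (lg (z - 1) - th (z - 1) * Complex.I) by push_cast; ring,
      Complex.exp_sub, h4]
    ring
  have e2 : z + 1 = (z - 1) * (1 + 2 / (z - 1)) := by
    field_simp
    ring
  rw [e1, e2, (planeb_conj hw).1, (planeb_conj hw).2, planeb_lg_mul hz hw, th_mul hz (by simpa using hi) hw]
  exact ⟨rfl, by ring⟩

/-! ### part c -/

/-- `zz` is affine near `y` -/
structure ZAff (y : E3) (X' Ys p' : ℝ) : Prop where
  ev : zz =ᶠ[𝓝 y] fun y' => zz y + (X' + Ys * Complex.I) * ((y' 0 - y 0 : ℝ) : ℂ) +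
    p' * Complex.I * ((y' 1 - y 1 : ℝ) : ℂ)
  hX : 1 ≤ X'
  hp : 1 / 4 ≤ p' ∧ p' ≤ 121
  hc : ∀ e : ℝ, (e = 1 ∨ e = -1) → y ∈ DD → y 1 < 17 / 20 → 0 < e * y 0 →
    ((zz y).re - e) * Ys - (zz y).im * X' ≤ -(1 / 4)
  ho : y ∈ DD → 39 / 40 < y 1 → ((zz y).re - 1) * Ys - (zz y).im * X' ≤ -1

theorem planec_X_lo {s : ℝ} (h : s ≤ -(13 / 10)) : XX s = 65 + 360 / 7 * s := by
  unfold XX cl
  rw [min_eq_left (by linarith), max_eq_left h]; ring

theorem planec_X_mid {s : ℝ} (h : -(13 / 10) ≤ s) (h' : s ≤ 13 / 10) : XX s = 0 + 10 / 7 * s := by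
  unfold XX cl
  rw [min_eq_left h', max_eq_right h]; ring

theorem planec_X_hi {s : ℝ} (h : 13 / 10 ≤ s) : XX s = -65 + 360 / 7 * s := by
  unfold XX cl
  rw [min_eq_right h, max_eq_right (by norm_num)]; ring

theorem planec_ph_lo {s : ℝ} (h : s ≤ 7 / 8) : ph s = s / 4 := by
  unfold ph
  rw [max_eq_right (by linarith)]; ring

theorem planec_ph_hi {s : ℝ} (h : 7 / 8 ≤ s) : ph s = -105 + 481 / 4 * s := by
  unfold ph
  rw [max_eq_left (by linarith)]; ring

theorem planec_B1 {s : ℝ} (h : |s| ≤ 7 / 60) : BB s = 7 / 8 := by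
  unfold BB
  rw [abs_of_nonpos (by linarith : |s| - 7 / 10 ≤ 0), max_eq_left (by linarith),
    min_eq_right (by linarith)]

theorem planec_B2 {s : ℝ} (h : 7 / 60 ≤ |s|) (h' : |s| ≤ 7 / 10) : BB s = 21 / 20 - 3 / 2 * |s| := by
  unfold BB
  rw [abs_of_nonpos (by linarith : |s| - 7 / 10 ≤ 0), max_eq_left (by linarith),
    min_eq_left (by linarith)]
  ring

theorem planec_B3 {s : ℝ} (h : 7 / 10 ≤ |s|) (h' : |s| ≤ 77 / 60) : BB s = 3 / 2 * |s| - 21 / 20 := by
  unfold BB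
  rw [abs_of_nonneg (by linarith : 0 ≤ |s| - 7 / 10), max_eq_left (by linarith),
    min_eq_left (by linarith)]
  ring

theorem planec_B4 {s : ℝ} (h : 77 / 60 ≤ |s|) (h' : |s| ≤ 21 / 16) : BB s = 7 / 8 := by
  unfold BB
  rw [abs_of_nonneg (by linarith : 0 ≤ |s| - 7 / 10), max_eq_left (by linarith),
    min_eq_right (by linarith)]

theorem planec_B5 {s : ℝ} (h : 21 / 16 ≤ |s|) : BB s = 2 / 3 * |s| := by
  unfold BB
  rw [abs_of_nonneg (by linarith : 0 ≤ |s| - 7 / 10), max_eq_right (by linarith),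
    min_eq_right (by linarith)]
  ring

/-- the one-dimensional data at `s` -/
structure planec_P (s X' Ys : ℝ) : Prop where
  evX : ∀ᶠ t in 𝓝 s, XX t = XX s + X' * (t - s)
  evG : ∀ᶠ t in 𝓝 s, ph (BB t) = ph (BB s) - Ys * (t - s)
  hX : 1 ≤ X'
  hc : ∀ e ζ : ℝ, (e = 1 ∨ e = -1) → 4 / 5 < ζ → BB s ≤ ζ → ζ < 17 / 20 → 0 < e * s →
    (XX s - e) * Ys - (ζ / 4 - ph (BB s)) * X' ≤ -(1 / 4)
  ho : ∀ ζ : ℝ, 39 / 40 < ζ → ζ < 41 / 40 → BB s ≤ ζ →
    (XX s - 1) * Ys - (-105 + 481 / 4 * ζ - ph (BB s)) * X' ≤ -1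

theorem planec_mk {s a X' β γ α Ys : ℝ} {U : Set ℝ} (hU : U ∈ 𝓝 s)
    (hf : ∀ t ∈ U, XX t = a + X' * t ∧ BB t = β + γ * t ∧ ph (BB t) = α - Ys * t) (hX : 1 ≤ X')
    (hc : ∀ e ζ : ℝ, (e = 1 ∨ e = -1) → 4 / 5 < ζ → β + γ * s ≤ ζ → ζ < 17 / 20 → 0 < e * s →
      (a + X' * s - e) * Ys - (ζ / 4 - (α - Ys * s)) * X' ≤ -(1 / 4))
    (ho : ∀ ζ : ℝ, 39 / 40 < ζ → ζ < 41 / 40 → β + γ * s ≤ ζ →
      (a + X' * s - 1) * Ys - (-105 + 481 / 4 * ζ - (α - Ys * s)) * X' ≤ -1) :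
    planec_P s X' Ys := by
  obtain ⟨e1, e2, e3⟩ := hf s (mem_of_mem_nhds hU)
  refine ⟨?_, ?_, hX, ?_, ?_⟩
  · filter_upwards [hU] with t ht
    rw [(hf t ht).1, e1]; ring
  · filter_upwards [hU] with t ht
    rw [(hf t ht).2.2, e3]; ring
  · rw [e1, e3, e2]; exact hc
  · rw [e1, e3, e2]; exact ho

/-- the break points -/
def planec_S : Set ℝ :=
  {(-21 / 16), (-13 / 10), (-77 / 60), (-7 / 10), (-7 / 60), (7 / 60), (7 / 10), (77 / 60), (13 / 10), (21 / 16)}

theorem planec_ex {s : ℝ} (hs : s ∉ planec_S) : ∃ X' Ys, planec_P s X' Ys := by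
  simp only [planec_S, Set.mem_insert_iff, Set.mem_singleton_iff, not_or] at hs
  obtain ⟨n0, n1, n2, n3, n4, n5, n6, n7, n8, n9⟩ := hs
  rcases lt_or_gt_of_ne n0 with h0 | g0
  · refine ⟨_, _, planec_mk (a := 65) (X' := (360 / 7)) (β := 0) (γ := (-2 / 3))
      (α := (-105)) (Ys := (481 / 6)) (Iio_mem_nhds h0) (fun t ht => ?_) (by norm_num)
      (fun e ζ he _ _ _ _ => by rcases he with rfl | rfl <;> linarith) (fun ζ _ _ _ => by linarith)⟩
    have h2 : t < _ := ht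
    have ha : |t| = -t := abs_of_nonpos (by linarith)
    have hb : BB t = 0 + (-2 / 3) * t := by
      linarith [planec_B5 (s := t) (by linarith)]
    exact ⟨planec_X_lo (by linarith), hb, by linarith [planec_ph_hi (s := BB t) (by linarith)]⟩
  rcases lt_or_gt_of_ne n1 with h1 | g1
  · refine ⟨_, _, planec_mk (a := 65) (X' := (360 / 7)) (β := (7 / 8)) (γ := 0)
      (α := (7 / 32)) (Ys := 0) (Ioo_mem_nhds g0 h1) (fun t ht => ?_) (by norm_num)
      (fun e ζ he _ _ _ _ => by rcases he with rfl | rfl <;> linarith) (fun ζ _ _ _ => by linarith)⟩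
    obtain ⟨h1, h2⟩ := ht
    have ha : |t| = -t := abs_of_nonpos (by linarith)
    have hb : BB t = (7 / 8) + 0 * t := by
      linarith [planec_B4 (s := t) (by linarith) (by linarith)]
    exact ⟨planec_X_lo (by linarith), hb, by linarith [planec_ph_lo (s := BB t) (by linarith)]⟩
  rcases lt_or_gt_of_ne n2 with h2 | g2
  · refine ⟨_, _, planec_mk (a := 0) (X' := (10 / 7)) (β := (7 / 8)) (γ := 0)
      (α := (7 / 32)) (Ys := 0) (Ioo_mem_nhds g1 h2) (fun t ht => ?_) (by norm_num)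
      (fun e ζ he _ _ _ _ => by rcases he with rfl | rfl <;> linarith) (fun ζ _ _ _ => by linarith)⟩
    obtain ⟨h1, h2⟩ := ht
    have ha : |t| = -t := abs_of_nonpos (by linarith)
    have hb : BB t = (7 / 8) + 0 * t := by
      linarith [planec_B4 (s := t) (by linarith) (by linarith)]
    exact ⟨planec_X_mid (by linarith) (by linarith), hb, by linarith [planec_ph_lo (s := BB t) (by linarith)]⟩
  rcases lt_or_gt_of_ne n3 with h3 | g3
  · refine ⟨_, _, planec_mk (a := 0) (X' := (10 / 7)) (β := (-21 / 20)) (γ := (-3 / 2))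
      (α := (-21 / 80)) (Ys := (3 / 8)) (Ioo_mem_nhds g2 h3) (fun t ht => ?_) (by norm_num)
      (fun e ζ he _ _ _ _ => by rcases he with rfl | rfl <;> linarith) (fun ζ _ _ _ => by linarith)⟩
    obtain ⟨h1, h2⟩ := ht
    have ha : |t| = -t := abs_of_nonpos (by linarith)
    have hb : BB t = (-21 / 20) + (-3 / 2) * t := by
      linarith [planec_B3 (s := t) (by linarith) (by linarith)]
    exact ⟨planec_X_mid (by linarith) (by linarith), hb, by linarith [planec_ph_lo (s := BB t) (by linarith)]⟩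
  rcases lt_or_gt_of_ne n4 with h4 | g4
  · refine ⟨_, _, planec_mk (a := 0) (X' := (10 / 7)) (β := (21 / 20)) (γ := (3 / 2))
      (α := (21 / 80)) (Ys := (-3 / 8)) (Ioo_mem_nhds g3 h4) (fun t ht => ?_) (by norm_num)
      (fun e ζ he _ _ _ _ => by rcases he with rfl | rfl <;> linarith) (fun ζ _ _ _ => by linarith)⟩
    obtain ⟨h1, h2⟩ := ht
    have ha : |t| = -t := abs_of_nonpos (by linarith)
    have hb : BB t = (21 / 20) + (3 / 2) * t := by
      linarith [planec_B2 (s := t) (by linarith) (by linarith)]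
    exact ⟨planec_X_mid (by linarith) (by linarith), hb, by linarith [planec_ph_lo (s := BB t) (by linarith)]⟩
  rcases lt_or_gt_of_ne n5 with h5 | g5
  · refine ⟨_, _, planec_mk (a := 0) (X' := (10 / 7)) (β := (7 / 8)) (γ := 0)
      (α := (7 / 32)) (Ys := 0) (Ioo_mem_nhds g4 h5) (fun t ht => ?_) (by norm_num)
      (fun e ζ he _ _ _ _ => by rcases he with rfl | rfl <;> linarith) (fun ζ _ _ _ => by linarith)⟩
    obtain ⟨h1, h2⟩ := ht
    have ha : |t| ≤ 7 / 60 := abs_le.2 ⟨by linarith, by linarith⟩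
    have hb : BB t = (7 / 8) + 0 * t := by
      linarith [planec_B1 ha]
    exact ⟨planec_X_mid (by linarith) (by linarith), hb, by linarith [planec_ph_lo (s := BB t) (by linarith)]⟩
  rcases lt_or_gt_of_ne n6 with h6 | g6
  · refine ⟨_, _, planec_mk (a := 0) (X' := (10 / 7)) (β := (21 / 20)) (γ := (-3 / 2))
      (α := (21 / 80)) (Ys := (3 / 8)) (Ioo_mem_nhds g5 h6) (fun t ht => ?_) (by norm_num)
      (fun e ζ he _ _ _ _ => by rcases he with rfl | rfl <;> linarith) (fun ζ _ _ _ => by linarith)⟩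
    obtain ⟨h1, h2⟩ := ht
    have ha : |t| = t := abs_of_nonneg (by linarith)
    have hb : BB t = (21 / 20) + (-3 / 2) * t := by
      linarith [planec_B2 (s := t) (by linarith) (by linarith)]
    exact ⟨planec_X_mid (by linarith) (by linarith), hb, by linarith [planec_ph_lo (s := BB t) (by linarith)]⟩
  rcases lt_or_gt_of_ne n7 with h7 | g7
  · refine ⟨_, _, planec_mk (a := 0) (X' := (10 / 7)) (β := (-21 / 20)) (γ := (3 / 2))
      (α := (-21 / 80)) (Ys := (-3 / 8)) (Ioo_mem_nhds g6 h7) (fun t ht => ?_) (by norm_num)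
      (fun e ζ he _ _ _ _ => by rcases he with rfl | rfl <;> linarith) (fun ζ _ _ _ => by linarith)⟩
    obtain ⟨h1, h2⟩ := ht
    have ha : |t| = t := abs_of_nonneg (by linarith)
    have hb : BB t = (-21 / 20) + (3 / 2) * t := by
      linarith [planec_B3 (s := t) (by linarith) (by linarith)]
    exact ⟨planec_X_mid (by linarith) (by linarith), hb, by linarith [planec_ph_lo (s := BB t) (by linarith)]⟩
  rcases lt_or_gt_of_ne n8 with h8 | g8
  · refine ⟨_, _, planec_mk (a := 0) (X' := (10 / 7)) (β := (7 / 8)) (γ := 0)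
      (α := (7 / 32)) (Ys := 0) (Ioo_mem_nhds g7 h8) (fun t ht => ?_) (by norm_num)
      (fun e ζ he _ _ _ _ => by rcases he with rfl | rfl <;> linarith) (fun ζ _ _ _ => by linarith)⟩
    obtain ⟨h1, h2⟩ := ht
    have ha : |t| = t := abs_of_nonneg (by linarith)
    have hb : BB t = (7 / 8) + 0 * t := by
      linarith [planec_B4 (s := t) (by linarith) (by linarith)]
    exact ⟨planec_X_mid (by linarith) (by linarith), hb, by linarith [planec_ph_lo (s := BB t) (by linarith)]⟩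
  rcases lt_or_gt_of_ne n9 with h9 | g9
  · refine ⟨_, _, planec_mk (a := (-65)) (X' := (360 / 7)) (β := (7 / 8)) (γ := 0)
      (α := (7 / 32)) (Ys := 0) (Ioo_mem_nhds g8 h9) (fun t ht => ?_) (by norm_num)
      (fun e ζ he _ _ _ _ => by rcases he with rfl | rfl <;> linarith) (fun ζ _ _ _ => by linarith)⟩
    obtain ⟨h1, h2⟩ := ht
    have ha : |t| = t := abs_of_nonneg (by linarith)
    have hb : BB t = (7 / 8) + 0 * t := by
      linarith [planec_B4 (s := t) (by linarith) (by linarith)]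
    exact ⟨planec_X_hi (by linarith), hb, by linarith [planec_ph_lo (s := BB t) (by linarith)]⟩
  · refine ⟨_, _, planec_mk (a := (-65)) (X' := (360 / 7)) (β := 0) (γ := (2 / 3))
      (α := (-105)) (Ys := (-481 / 6)) (Ioi_mem_nhds g9) (fun t ht => ?_) (by norm_num)
      (fun e ζ he _ _ _ _ => by rcases he with rfl | rfl <;> linarith) (fun ζ _ _ _ => by linarith)⟩
    have h1 : _ < t := ht
    have ha : |t| = t := abs_of_nonneg (by linarith)
    have hb : BB t = 0 + (2 / 3) * t := by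
      linarith [planec_B5 (s := t) (by linarith)]
    exact ⟨planec_X_hi (by linarith), hb, by linarith [planec_ph_hi (s := BB t) (by linarith)]⟩

theorem planec_ph {ζ : ℝ} (h : ζ ≠ 7 / 8) :
    ∃ p' : ℝ, (1 / 4 ≤ p' ∧ p' ≤ 121) ∧ ∀ᶠ t in 𝓝 ζ, ph t = ph ζ + p' * (t - ζ) := by
  rcases lt_or_gt_of_ne h with h | h
  · refine ⟨1 / 4, by norm_num, ?_⟩
    filter_upwards [Iio_mem_nhds h] with t ht
    rw [planec_ph_lo (le_of_lt ht), planec_ph_lo h.le]; ring
  · refine ⟨481 / 4, by norm_num, ?_⟩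
    filter_upwards [Ioi_mem_nhds h] with t ht
    rw [planec_ph_hi (le_of_lt ht), planec_ph_hi h.le]; ring

theorem ae_zaff : ∀ᵐ y : E3, ∃ X' Ys p', ZAff y X' Ys p' := by
  have hS : planec_S.Countable := by
    unfold planec_S
    exact (Set.toFinite _).countable
  filter_upwards [ae_coord_notMem 0 hS, ae_coord_ne 1 (7 / 8)] with y h0 h1
  obtain ⟨X', Ys, hP⟩ := planec_ex h0
  obtain ⟨p', hp, hev⟩ := planec_ph h1
  have c0 : Continuous fun y : E3 => y 0 := by fun_prop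
  have c1 : Continuous fun y : E3 => y 1 := by fun_prop
  refine ⟨X', Ys, p', ?_, hP.hX, hp, fun e he hy h2 h3 => ?_, fun hy h2 => ?_⟩
  · filter_upwards [(c0.tendsto y).eventually hP.evX, (c0.tendsto y).eventually hP.evG,
      (c1.tendsto y).eventually hev] with y' e1 e2 e3
    apply Complex.ext
    · simp only [zz, e1, Complex.add_re, Complex.mul_re, Complex.mul_im, Complex.add_im,
        Complex.ofReal_re, Complex.ofReal_im, Complex.I_re, Complex.I_im]
      ring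
    · simp only [zz, e2, e3, Complex.add_re, Complex.mul_re, Complex.mul_im, Complex.add_im,
        Complex.ofReal_re, Complex.ofReal_im, Complex.I_re, Complex.I_im]
      ring
  · have := hP.hc e (y 1) he hy.1 hy.2.2 h2 h3
    simp only [zz]
    rw [planec_ph_lo (s := y 1) (by linarith)]
    exact this
  · have := hP.ho (y 1) h2 hy.2.1 hy.2.2
    simp only [zz]
    rw [planec_ph_hi (s := y 1) (by linarith)]
    exact this

end Crest.Agent.R83
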