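import Crest.Agent.R83.LogP

/-!
# Row 83: profiles and modes

Coordinates `(t, a, b) = (y 0, y 1, y 2)`;
`Jd α β Ξ = (β_a + α_b, -β_t + Ξ_b, -α_t - Ξ_a)` (`Jd_eq`).
* `two_prof`: `V_a - κ₁ d_a = 2 Γ₁ sin² (m₁ b) + ∂_b Γ₂ sin (m₂ a) cos (m₂ a) / m₂`,
  `V_b - κ₂ d_b = 2 Γ₂ sin² (m₂ a) + ∂_a Γ₁ sin (m₁ b) cos (m₁ b) / m₁`; `cone_of_diag`.
* mode `n` has frequency `2^n`, direction `dir n`, time `s = sv n t`; mode `0` is the logarithmic one
  (`sv 0 t - 79 = t - 74`, `MM 0 · e^{6 - s} / 16 = e^{-t} / 2`).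
* `pd_sep` computes all partial derivatives of `c * f (sv n (y 0)) * g (2^n * y i)`.
* `mode_lip`: `f (sv n (y 0)) * g (2^n y_i)` has Lipschitz constant `C 2^n`; in `mX` the extra factor
  `2^n` of `mB`, `mG` is cancelled by the division; `2 μ < 1`.
-/

namespace Crest.Agent.R83

open MeasureTheory Set Metric Filter Topology
open scoped Gradient RealInnerProductSpace NNReal

/-- at `y`, `D` is a potential depending on `t` and `y i`, `Q` its stream function, `Γ` the defect -/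
structure Prof (i j : Fin 3) (D Q Γ : E3 → ℝ) (y : E3) : Prop where
  sD : ContDiffAt ℝ 2 D y
  sQ : ContDiffAt ℝ 2 Q y
  sΓ : ContDiffAt ℝ 2 Γ y
  jD : pd j D y = 0
  jΓ : pd j Γ y = 0
  e1 : pd i Q y = pd 0 D y
  e2 : ∃ κ ∈ Icc (1 / 32 : ℝ) 1, -pd 0 Q y = κ * pd i D y + Γ y

/-- the conclusion of `Leg.good` at one point -/
def LegAt (d α β Ξ : E3 → ℝ) (y : E3) : Prop :=
  ContDiffAt ℝ 2 d y ∧ ContDiffAt ℝ 2 α y ∧ ContDiffAt ℝ 2 β y ∧ ContDiffAt ℝ 2 Ξ y ∧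
    Cone (1 / 1000) (ee 0) (∇ d y) (ee 0) (Jd α β Ξ y)

noncomputable def sv (n : ℕ) (t : ℝ) : ℝ := 2 ^ n * (t - 155) + 160
noncomputable def MM (n : ℕ) : ℝ := 8 * Real.exp (-1) * (Real.exp (-37) / 10 ^ 7) ^ n
def dir (n : ℕ) : Fin 3 := if Even n then 1 else 2
def odir (n : ℕ) : Fin 3 := if Even n then 2 else 1

noncomputable def mD : ℕ → E3 → ℝ
  | 0, y => (1 - chi (y 0 - 74)) * lF y
  | n + 1, y => MM (n + 1) * amp (sv (n + 1) (y 0)) * Real.cos (2 ^ (n + 1) * y (dir (n + 1)))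

noncomputable def mQ : ℕ → E3 → ℝ
  | 0, y => -chi1 (y 0 - 74) * lW y + (1 - chi (y 0 - 74)) * lA y
  | n + 1, y => MM (n + 1) * amp1 (sv (n + 1) (y 0)) * Real.sin (2 ^ (n + 1) * y (dir (n + 1)))

noncomputable def mB : ℕ → E3 → ℝ
  | 0, _ => 0
  | n + 1, y => MM (n + 1) * 2 ^ (n + 1) * gb (sv (n + 1) (y 0)) *
      Real.sin (2 ^ (n + 1) * y (dir (n + 1)))

noncomputable def mG : ℕ → E3 → ℝ
  | 0, y => chi2 (y 0 - 74) * lW y + 2 * chi1 (y 0 - 74) * lA y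
  | n + 1, y => MM (n + 1) * 2 ^ (n + 1) * gd (sv (n + 1) (y 0)) *
      Real.sin (2 ^ (n + 1) * y (dir (n + 1)))

noncomputable def mX (n : ℕ) (y : E3) : ℝ := (if Even n then -1 else 1) *
  (mB n y * Real.sin (2 ^ n * y (odir n)) / 2 ^ n +
    mG n y * Real.sin (2 * 2 ^ (n + 1) * y (odir n)) / (2 * 2 ^ (n + 1)))

/-! ### part a -/

theorem pd_congr {f g : E3 → ℝ} {y : E3} (h : f =ᶠ[𝓝 y] g) (i : Fin 3) : pd i f y = pd i g y := by
  unfold pd
  rw [h.fderiv_eq]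

theorem pd_add {f g : E3 → ℝ} {y : E3} (hf : DifferentiableAt ℝ f y) (hg : DifferentiableAt ℝ g y)
    (i : Fin 3) : pd i (fun x => f x + g x) y = pd i f y + pd i g y := by
  simp only [pd, fderiv_fun_add hf hg, add_apply]

theorem pd_mul {f g : E3 → ℝ} {y : E3} (hf : DifferentiableAt ℝ f y) (hg : DifferentiableAt ℝ g y)
    (i : Fin 3) : pd i (fun x => f x * g x) y = pd i f y * g y + f y * pd i g y := by
  simp only [pd, fderiv_fun_mul hf hg, add_apply, smul_apply, smul_eq_mul]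
  ring

/-- a function of one coordinate -/
theorem pd_coord {g : ℝ → ℝ} {g' : ℝ} {y : E3} {k : Fin 3} (hg : HasDerivAt g g' (y k)) (i : Fin 3) :
    pd i (fun x : E3 => g (x k)) y = if i = k then g' else 0 := by
  have h := (hg.comp_hasFDerivAt y (EuclideanSpace.proj k : E3 →L[ℝ] ℝ).hasFDerivAt).fderiv
  unfold pd
  rw [show (fun x : E3 => g (x k)) = g ∘ (EuclideanSpace.proj k : E3 →L[ℝ] ℝ) from rfl, h]
  by_cases hik : i = k
  · simp [ee_apply, hik]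
  · simp [ee_apply, hik, Ne.symm hik]

theorem Jd_eq (α β Ξ : E3 → ℝ) (y : E3) : Jd α β Ξ y =
    v3 (pd 1 β y + pd 2 α y) (-pd 0 β y + pd 2 Ξ y) (-pd 0 α y - pd 1 Ξ y) := by
  refine ext3 ?_ ?_ ?_ <;> simp [Jd, cr, grad_apply, ee_apply] <;> ring

theorem profa_smooth {Γ : E3 → ℝ} {y : E3} (hΓ : ContDiffAt ℝ 2 Γ y) (m : ℝ) (k : Fin 3) :
    ContDiffAt ℝ 2 (fun x : E3 => Γ x * Real.sin (2 * m * x k) / (2 * m)) y :=
  (hΓ.mul (contDiffAt_const.mul (EuclideanSpace.proj k : E3 →L[ℝ] ℝ).contDiff.contDiffAt).sin).div_const _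

theorem profa_pd {Γ : E3 → ℝ} {y : E3} (hΓ : ContDiffAt ℝ 2 Γ y) {m : ℝ} (hm : 0 < m) (k i : Fin 3) :
    pd i (fun x : E3 => Γ x * Real.sin (2 * m * x k) / (2 * m)) y =
      pd i Γ y * (Real.sin (m * y k) * Real.cos (m * y k) / m) +
        Γ y * if i = k then 1 - 2 * Real.sin (m * y k) ^ 2 else 0 := by
  have h1 : HasDerivAt (fun r => Real.sin (2 * m * r) / (2 * m)) (1 - 2 * Real.sin (m * y k) ^ 2) (y k) := by
    have h := (((hasDerivAt_id' (y k)).const_mul (2 * m)).sin).div_const (2 * m)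
    refine h.congr_deriv ?_
    rw [mul_assoc 2 m, Real.cos_two_mul, Real.cos_sq']
    field_simp
    ring
  have h2 : DifferentiableAt ℝ (fun x : E3 => Real.sin (2 * m * x k) / (2 * m)) y :=
    DifferentiableAt.comp (g := fun r => Real.sin (2 * m * r) / (2 * m)) (f := fun x : E3 => x k) y
      h1.differentiableAt (EuclideanSpace.proj k : E3 →L[ℝ] ℝ).differentiableAt
  simp only [mul_div_assoc]
  rw [pd_mul (hΓ.differentiableAt (by norm_num)) h2, pd_coord h1, mul_assoc 2 m, Real.sin_two_mul]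
  field_simp

theorem profa_neg (f : E3 → ℝ) (y : E3) (i : Fin 3) : pd i (fun x => -f x) y = -pd i f y := by
  simp only [pd, fderiv_fun_neg, neg_apply]

theorem profa_bd {G P s c t : ℝ} {m : ℝ} (hm : 0 < m) (hs : |s| ≤ 1) (hc : |c| ≤ 1) :
    |2 * G * s ^ 2 + P * (t * c / m)| ≤ 2 * |G| * |s| + |P| / m * |t| := by
  refine (abs_add_le _ _).trans (add_le_add ?_ ?_)
  · rw [abs_mul, abs_mul, abs_two, abs_pow, sq]
    exact mul_le_mul_of_nonneg_left (mul_le_of_le_one_right (abs_nonneg _) hs) (by positivity)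
  · rw [abs_mul, abs_div, abs_mul, abs_of_pos hm]
    calc |P| * (|t| * |c| / m) ≤ |P| * (|t| * 1 / m) := by gcongr
      _ = _ := by ring

theorem two_prof {D₁ Q₁ Γ₁ D₂ Q₂ Γ₂ d α β Ξ : E3 → ℝ} {y : E3} {m₁ m₂ : ℝ} (hm₁ : 0 < m₁) (hm₂ : 0 < m₂)
    (h₁ : Prof 1 2 D₁ Q₁ Γ₁ y) (h₂ : Prof 2 1 D₂ Q₂ Γ₂ y)
    (hd : d =ᶠ[𝓝 y] fun x => D₁ x + D₂ x) (hβ : β =ᶠ[𝓝 y] Q₁) (hα : α =ᶠ[𝓝 y] Q₂)
    (hΞ : Ξ =ᶠ[𝓝 y] fun x => -(Γ₁ x * Real.sin (2 * m₁ * x 2) / (2 * m₁)) +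
      Γ₂ x * Real.sin (2 * m₂ * x 1) / (2 * m₂))
    (b₁ : (2 * |Γ₁ y| + |pd 1 Γ₁ y| / m₁) * |Real.sin (m₁ * y 2)| ≤ |pd 2 D₂ y| / 256)
    (b₂ : (2 * |Γ₂ y| + |pd 2 Γ₂ y| / m₂) * |Real.sin (m₂ * y 1)| ≤ |pd 1 D₁ y| / 256)
    (hne : pd 1 D₁ y ≠ 0 ∨ pd 2 D₂ y ≠ 0) : LegAt d α β Ξ y := by
  have s₁ := profa_smooth h₁.sΓ m₁ 2
  have s₂ := profa_smooth h₂.sΓ m₂ 1
  refine ⟨(h₁.sD.add h₂.sD).congr_of_eventuallyEq hd, h₂.sQ.congr_of_eventuallyEq hα,
    h₁.sQ.congr_of_eventuallyEq hβ, (s₁.neg.add s₂).congr_of_eventuallyEq hΞ, ?_⟩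
  have ed : ∀ i, pd i d y = pd i D₁ y + pd i D₂ y := fun i => by
    rw [pd_congr hd, pd_add (h₁.sD.differentiableAt (by norm_num)) (h₂.sD.differentiableAt (by norm_num))]
  have eΞ : ∀ i, pd i Ξ y = -pd i (fun x : E3 => Γ₁ x * Real.sin (2 * m₁ * x 2) / (2 * m₁)) y +
      pd i (fun x : E3 => Γ₂ x * Real.sin (2 * m₂ * x 1) / (2 * m₂)) y := fun i => by
    rw [pd_congr hΞ, pd_add (s₁.neg.differentiableAt (by norm_num)) (s₂.differentiableAt (by norm_num)),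
      profa_neg]
  obtain ⟨κ₁, k₁, e₁⟩ := h₁.e2
  obtain ⟨κ₂, k₂, e₂⟩ := h₂.e2
  rw [grad_eq, Jd_eq, ed, ed, ed, h₁.jD, h₂.jD, add_zero, zero_add, pd_congr hβ, pd_congr hβ, pd_congr hα,
    pd_congr hα, h₁.e1, h₂.e1, e₁, e₂, eΞ, eΞ, profa_pd h₁.sΓ hm₁, profa_pd h₁.sΓ hm₁, profa_pd h₂.sΓ hm₂,
    profa_pd h₂.sΓ hm₂, h₁.jΓ, h₂.jΓ, if_pos rfl, if_pos rfl, if_neg (by decide), if_neg (by decide)]
  refine cone_of_diag k₁ k₂ hne ?_
  have a₁ := profa_bd (G := Γ₁ y) (P := pd 2 Γ₂ y) (t := Real.sin (m₂ * y 1)) hm₂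
    (Real.abs_sin_le_one (m₁ * y 2)) (Real.abs_cos_le_one (m₂ * y 1))
  have a₂ := profa_bd (G := Γ₂ y) (P := pd 1 Γ₁ y) (t := Real.sin (m₁ * y 2)) hm₁
    (Real.abs_sin_le_one (m₂ * y 1)) (Real.abs_cos_le_one (m₁ * y 2))
  refine le_trans (add_le_add (le_of_eq_of_le ?_ a₁) (le_of_eq_of_le ?_ a₂)) (by linarith)
  · congr 1; ring
  · congr 1; ring

/-! ### part b: profiles of the modes -/

theorem sv_succ (n : ℕ) (t : ℝ) : sv (n + 1) t = 2 * (sv n t - 80) := by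
  unfold sv
  ring

theorem MM_pos (n : ℕ) : 0 < MM n := by
  unfold MM
  positivity

theorem dir_succ (n : ℕ) : dir (n + 1) = odir n ∧ odir (n + 1) = dir n := by
  unfold dir odir
  by_cases h : Even n <;> simp [h, Nat.even_add_one]

theorem dir_ne (n : ℕ) : dir n ≠ 0 ∧ odir n ≠ 0 ∧ odir n ≠ dir n := by
  unfold dir odir
  by_cases h : Even n <;> simp [h]

theorem profb_sv (n : ℕ) (t : ℝ) : HasDerivAt (sv n) (2 ^ n) t := by
  have h := (((hasDerivAt_id' t).sub_const 155).const_mul ((2 : ℝ) ^ n)).add_const 160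
  rw [mul_one] at h
  exact h

theorem profb_diff {g : ℝ → ℝ} {y : E3} {k : Fin 3} (hg : DifferentiableAt ℝ g (y k)) :
    DifferentiableAt ℝ (fun x : E3 => g (x k)) y :=
  DifferentiableAt.comp (g := g) (f := fun x : E3 => x k) y hg
    (EuclideanSpace.proj k : E3 →L[ℝ] ℝ).differentiableAt

theorem profb_cd {g : ℝ → ℝ} {y : E3} {k : Fin 3} (hg : ContDiffAt ℝ 2 g (y k)) :
    ContDiffAt ℝ 2 (fun x : E3 => g (x k)) y :=
  ContDiffAt.comp (g := g) (f := fun x : E3 => x k) y hg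
    (EuclideanSpace.proj k : E3 →L[ℝ] ℝ).contDiff.contDiffAt

theorem pd_sep {f g : ℝ → ℝ} {f' g' : ℝ} (c : ℝ) (n : ℕ) {k : Fin 3} (hk : k ≠ 0) {y : E3}
    (hf : HasDerivAt f f' (sv n (y 0))) (hg : HasDerivAt g g' (2 ^ n * y k)) (i : Fin 3) :
    pd i (fun x : E3 => c * f (sv n (x 0)) * g (2 ^ n * x k)) y =
      if i = 0 then c * (2 ^ n * f') * g (2 ^ n * y k)
      else if i = k then c * f (sv n (y 0)) * (2 ^ n * g') else 0 := by
  have h1 : HasDerivAt (fun t => c * f (sv n t)) (c * (f' * 2 ^ n)) (y 0) :=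
    (hf.comp (y 0) (profb_sv n (y 0))).const_mul c
  have h2 : HasDerivAt (fun t => g (2 ^ n * t)) (g' * (2 ^ n * 1)) (y k) :=
    hg.comp (y k) ((hasDerivAt_id' (y k)).const_mul ((2 : ℝ) ^ n))
  rw [pd_mul (profb_diff h1.differentiableAt) (profb_diff h2.differentiableAt), pd_coord h1,
    pd_coord h2]
  by_cases h0 : i = 0
  · subst h0
    rw [if_pos rfl, if_pos rfl, if_neg hk.symm]
    ring
  · rw [if_neg h0, if_neg h0]
    split_ifs <;> ring

theorem profb_smooth {f g : ℝ → ℝ} (c : ℝ) (n : ℕ) (k : Fin 3) {y : E3}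
    (hf : ContDiffAt ℝ 2 f (sv n (y 0))) (hg : ContDiff ℝ 2 g) :
    ContDiffAt ℝ 2 (fun x : E3 => c * f (sv n (x 0)) * g (2 ^ n * x k)) y := by
  have h0 : ContDiff ℝ 2 (sv n) := by
    unfold sv
    fun_prop
  have h1 : ContDiffAt ℝ 2 (fun t => c * f (sv n t)) (y 0) :=
    contDiffAt_const.mul (hf.comp (y 0) h0.contDiffAt)
  have h2 : ContDiffAt ℝ 2 (fun t => g (2 ^ n * t)) (y k) :=
    (hg.comp (contDiff_const.mul contDiff_id)).contDiffAt
  exact (profb_cd h1).mul (profb_cd h2)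

theorem profb_mode (n : ℕ) {y : E3} (hJ : sv n (y 0) ∉ Jn) {γ : ℝ → ℝ}
    (hγ : ContDiffAt ℝ 2 γ (sv n (y 0))) (e : gb (sv n (y 0)) + gd (sv n (y 0)) = γ (sv n (y 0))) :
    Prof (dir n) (odir n) (fun x => MM n * amp (sv n (x 0)) * Real.cos (2 ^ n * x (dir n)))
      (fun x => MM n * amp1 (sv n (x 0)) * Real.sin (2 ^ n * x (dir n)))
      (fun x => MM n * 2 ^ n * γ (sv n (x 0)) * Real.sin (2 ^ n * x (dir n))) y := by
  obtain ⟨s1, s2, -, -⟩ := amp_smooth hJ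
  obtain ⟨d1, d2⟩ := amp_deriv hJ
  obtain ⟨n1, n2, n3⟩ := dir_ne n
  have hD := pd_sep (MM n) n n1 d1 (Real.hasDerivAt_cos (2 ^ n * y (dir n)))
  have hQ := pd_sep (MM n) n n1 d2 (Real.hasDerivAt_sin (2 ^ n * y (dir n)))
  have hΓ := pd_sep (MM n * 2 ^ n) n n1 (hγ.differentiableAt (by norm_num)).hasDerivAt
    (Real.hasDerivAt_sin (2 ^ n * y (dir n)))
  refine ⟨profb_smooth _ n _ s1 Real.contDiff_cos, profb_smooth _ n _ s2 Real.contDiff_sin,
    profb_smooth _ n _ hγ Real.contDiff_sin, ?_, ?_, ?_, kap (sv n (y 0)), kap_mem _, ?_⟩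
  · rw [hD, if_neg n2, if_neg n3]
  · rw [hΓ, if_neg n2, if_neg n3]
  · rw [hD, hQ, if_neg n1, if_pos rfl, if_pos rfl]
    ring
  · rw [hD, hQ, if_neg n1, if_pos rfl, if_pos rfl, ← e]
    ring

theorem profb_mul {a : ℝ → ℝ} {a' : ℝ} {F : E3 → ℝ} {y : E3} (ha : HasDerivAt a a' (y 0))
    (hF : ContDiffAt ℝ 2 F y) (i : Fin 3) :
    pd i (fun x : E3 => a (x 0) * F x) y = (if i = 0 then a' else 0) * F y + a (y 0) * pd i F y := by
  rw [pd_mul (profb_diff ha.differentiableAt) (hF.differentiableAt (by norm_num)), pd_coord ha]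

theorem profb_chi {t : ℝ} (hJ : sv 0 t ∉ Jn) :
    (ContDiffAt ℝ 2 (fun r => 1 - chi (r - 74)) t ∧ ContDiffAt ℝ 2 (fun r => -chi1 (r - 74)) t ∧
      ContDiffAt ℝ 2 (fun r => chi2 (r - 74)) t ∧ ContDiffAt ℝ 2 (fun r => 2 * chi1 (r - 74)) t) ∧
      HasDerivAt (fun r => 1 - chi (r - 74)) (-chi1 (t - 74)) t ∧
      HasDerivAt (fun r => -chi1 (r - 74)) (-chi2 (t - 74)) t := by
  have e : sv 0 t = t + 5 := by
    unfold sv
    ring
  have h0 : t - 74 ≠ 0 := fun h => hJ (by rw [e, show t + 5 = 79 by linarith]; simp [Jn])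
  have h1 : t - 74 ≠ 1 := fun h => hJ (by rw [e, show t + 5 = 80 by linarith]; simp [Jn])
  obtain ⟨s1, s2, s3, d1, d2⟩ := chi_smooth h0 h1
  have hs : ContDiffAt ℝ 2 (fun r : ℝ => r - 74) t := contDiffAt_id.sub contDiffAt_const
  have hc : ∀ {g : ℝ → ℝ}, ContDiffAt ℝ 2 g (t - 74) → ContDiffAt ℝ 2 (fun r => g (r - 74)) t :=
    fun {g} hg => ContDiffAt.comp (g := g) (f := fun r : ℝ => r - 74) t hg hs
  exact ⟨⟨contDiffAt_const.sub (hc s1), (hc s2).neg, hc s3,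
    contDiffAt_const.mul (hc s2)⟩, (d1.comp_sub_const t 74).const_sub 1,
    (d2.comp_sub_const t 74).neg⟩

theorem profb_zero {y : E3} (h0 : 0 < y 0) (hJ : sv 0 (y 0) ∉ Jn) :
    Prof 1 2 (fun x => (1 - chi (x 0 - 74)) * lF x)
      (fun x => -chi1 (x 0 - 74) * lW x + (1 - chi (x 0 - 74)) * lA x)
      (fun x => chi2 (x 0 - 74) * lW x + 2 * chi1 (x 0 - 74) * lA x) y := by
  obtain ⟨⟨s1, s2, s3, s4⟩, d1, d2⟩ := profb_chi hJ
  obtain ⟨sF, sA, sW⟩ := log_smooth h0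
  obtain ⟨F0, F1, F2, A0, A1, A2, W0, W1, W2⟩ := log_pd h0
  have q1 := (profb_cd s2).mul sW
  have q2 := (profb_cd s1).mul sA
  have g1 := (profb_cd s3).mul sW
  have g2 := (profb_cd s4).mul sA
  have hQ := pd_add (q1.differentiableAt (by norm_num)) (q2.differentiableAt (by norm_num))
  have hΓ := pd_add (g1.differentiableAt (by norm_num)) (g2.differentiableAt (by norm_num))
  refine ⟨(profb_cd s1).mul sF, q1.add q2, g1.add g2, ?_, ?_, ?_, 1, by norm_num, ?_⟩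
  · rw [profb_mul d1 sF, F2, if_neg (by decide)]
    ring
  · rw [hΓ, profb_mul (s3.differentiableAt (by norm_num)).hasDerivAt sW,
      profb_mul (s4.differentiableAt (by norm_num)).hasDerivAt sA, W2, A2, if_neg (by decide),
      if_neg (by decide)]
    ring
  · rw [hQ, profb_mul d2 sW, profb_mul d1 sA, profb_mul d1 sF, W1, A1, F0, if_neg (by decide),
      if_neg (by decide), if_pos rfl]
    ring
  · rw [hQ, profb_mul d2 sW, profb_mul d1 sA, profb_mul d1 sF, W0, A0, F1, if_pos rfl, if_pos rfl,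
      if_neg (by decide)]
    ring

theorem prof_late (n : ℕ) {y : E3} (h0 : 0 < y 0) (hs : 0 < sv n (y 0)) (hJ : sv n (y 0) ∉ Jn) :
    Prof (dir n) (odir n) (mD n) (mQ n) (mG n) y := by
  cases n with
  | zero => exact profb_zero h0 hJ
  | succ n =>
    exact profb_mode (n + 1) hJ (amp_smooth hJ).2.2.2
      (by rw [gb_zero (Or.inr (by linarith)), zero_add])

theorem prof_early (n : ℕ) {y : E3} (hs : sv (n + 1) (y 0) < 0) (hJ : sv (n + 1) (y 0) ∉ Jn) :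
    Prof (dir (n + 1)) (odir (n + 1)) (mD (n + 1)) (mQ (n + 1)) (mB (n + 1)) y :=
  profb_mode (n + 1) hJ (amp_smooth hJ).2.2.1 (by rw [gd_zero (Or.inl (by linarith)), add_zero])

theorem pd_mD_ne (n : ℕ) {y : E3} (h0 : 0 < y 0) (hs : 0 < sv n (y 0)) (hs' : sv n (y 0) < 80)
    (hJ : sv n (y 0) ∉ Jn) (hsin : Real.sin (2 ^ n * y (dir n)) ≠ 0) : pd (dir n) (mD n) y ≠ 0 := by
  cases n with
  | zero =>
    have e : sv 0 (y 0) = y 0 + 5 := by
      unfold sv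
      ring
    have h1 := profb_mul (profb_chi hJ).2.1 (log_smooth h0).1 1
    rw [(log_pd h0).2.1, if_neg (by decide), zero_mul, zero_add] at h1
    have h2 : Real.sin (y 1) ≠ 0 := by simpa [dir] using hsin
    have h3 := (log_bound h0).2.2.2.2
    have h4 : 0 < 2 / 9 * Real.exp (-y 0) * |Real.sin (y 1)| := by
      have := abs_pos.2 h2
      positivity
    refine ne_of_eq_of_ne h1 (mul_ne_zero ?_ (neg_ne_zero.2 (abs_pos.1 (h4.trans_le h3))))
    exact (sub_pos.2 (chi_lt_one (by linarith))).ne'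
  | succ n =>
    have h1 := pd_sep (MM (n + 1)) (n + 1) (dir_ne (n + 1)).1 (amp_deriv hJ).1
      (Real.hasDerivAt_cos (2 ^ (n + 1) * y (dir (n + 1)))) (dir (n + 1))
    rw [if_neg (dir_ne (n + 1)).1, if_pos rfl] at h1
    exact ne_of_eq_of_ne h1 (mul_ne_zero (mul_pos (MM_pos _) (amp_pos (by linarith) hs')).ne'
      (mul_ne_zero (by positivity) (neg_ne_zero.2 hsin)))

/-! ### part c: sizes -/

theorem profc_D (n : ℕ) {y : E3} (hJ : sv (n + 1) (y 0) ∉ Jn) {c : ℝ} (hc0 : 0 ≤ c)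
    (hc : c ≤ amp (sv (n + 1) (y 0))) :
    c * (MM (n + 1) * 2 ^ (n + 1) * |Real.sin (2 ^ (n + 1) * y (dir (n + 1)))|) ≤
      |pd (dir (n + 1)) (mD (n + 1)) y| := by
  have h := pd_sep (MM (n + 1)) (n + 1) (dir_ne (n + 1)).1 (amp_deriv hJ).1 (Real.hasDerivAt_cos _) (dir (n + 1))
  rw [if_neg (dir_ne _).1, if_pos rfl] at h
  have hM := MM_pos (n + 1)
  rw [show mD (n + 1) = fun x : E3 => MM (n + 1) * amp (sv (n + 1) (x 0)) *
    Real.cos (2 ^ (n + 1) * x (dir (n + 1))) from rfl, h, abs_mul, abs_mul, abs_mul, abs_neg, abs_of_pos hM,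
    abs_of_nonneg (hc0.trans hc), abs_of_pos (by positivity : (0 : ℝ) < 2 ^ (n + 1))]
  calc _ ≤ amp (sv (n + 1) (y 0)) * (MM (n + 1) * 2 ^ (n + 1) * |Real.sin (2 ^ (n + 1) * y (dir (n + 1)))|) := by
        gcongr
    _ = _ := by ring

theorem profc_pd0 {φ : ℝ → ℝ} {F : E3 → ℝ} {y : E3} (hφ : DifferentiableAt ℝ φ (y 0 - 74))
    (hF : DifferentiableAt ℝ F y) : DifferentiableAt ℝ (fun x : E3 => φ (x 0 - 74) * F x) y ∧
      pd 1 (fun x : E3 => φ (x 0 - 74) * F x) y = φ (y 0 - 74) * pd 1 F y := by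
  have h1 : DifferentiableAt ℝ (fun x : E3 => φ (x 0 - 74)) y :=
    hφ.comp y (f := fun x : E3 => x 0 - 74) (by fun_prop)
  refine ⟨h1.mul hF, ?_⟩
  rw [pd_mul h1 hF, pd_coord (g := fun t => φ (t - 74)) (k := 0) (hφ.hasDerivAt.comp_sub_const (y 0) 74)]
  simp

theorem profc_sv0 (t : ℝ) : sv 0 t = t + 5 := by rw [sv]; ring

theorem profc_dir0 : dir 0 = 1 := by simp [dir]

theorem D_birth (n : ℕ) {y : E3} (h0 : 0 < y 0) (h1 : 6 ≤ sv n (y 0)) (h2 : sv n (y 0) ≤ 13 / 2)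
    (hJ : sv n (y 0) ∉ Jn) :
    MM n * 2 ^ n * |Real.sin (2 ^ n * y (dir n))| / 100 ≤ |pd (dir n) (mD n) y| := by
  rcases n with _ | n
  · rw [profc_sv0] at h1 h2
    obtain ⟨-, -, -, -, h3⟩ := log_bound h0
    have h4 := (profc_pd0 (φ := fun t => 1 - chi t) (F := lF) (y := y)
      (((chi_smooth (by linarith) (by linarith)).2.2.2.1.differentiableAt).const_sub 1)
      ((log_smooth h0).1.differentiableAt (by norm_num))).2
    rw [profc_dir0, show mD 0 = fun x : E3 => (1 - chi (x 0 - 74)) * lF x from rfl, h4, (log_pd h0).2.1,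
      (chi_of_le (by linarith)).1, sub_zero, one_mul, abs_neg, MM]
    refine le_trans ?_ h3
    have h5 : Real.exp (-1) * (1 / 2) ≤ Real.exp (-y 0) := by
      rw [show -y 0 = -1 + (1 - y 0) by ring, Real.exp_add]
      exact mul_le_mul_of_nonneg_left (by linarith [Real.add_one_le_exp (1 - y 0)]) (Real.exp_pos _).le
    simp only [pow_zero, one_mul, mul_one]
    nlinarith [abs_nonneg (Real.sin (y 1)), Real.exp_pos (-1 : ℝ),
      mul_nonneg (abs_nonneg (Real.sin (y 1))) (Real.exp_pos (-1 : ℝ)).le]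
  · refine le_trans ?_ (profc_D n hJ (by norm_num) (amp_ge_birth h1 h2))
    have hM := MM_pos (n + 1)
    have : 0 ≤ MM (n + 1) * 2 ^ (n + 1) * |Real.sin (2 ^ (n + 1) * y (dir (n + 1)))| := by positivity
    linarith

theorem D_death (n : ℕ) {y : E3} (h1 : -2 ≤ sv (n + 1) (y 0)) (h2 : sv (n + 1) (y 0) ≤ 0)
    (hJ : sv (n + 1) (y 0) ∉ Jn) :
    MM (n + 1) * 2 ^ (n + 1) * |Real.sin (2 ^ (n + 1) * y (dir (n + 1)))| ≤
      |pd (dir (n + 1)) (mD (n + 1)) y| := by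
  simpa only [one_mul] using profc_D n hJ zero_le_one (amp_ge_death h1 h2)

theorem profc_ev (n : ℕ) {y : E3} {a b : ℝ} (h : sv n (y 0) < a ∨ b < sv n (y 0)) :
    ∀ᶠ x : E3 in 𝓝 y, sv n (x 0) ≤ a ∨ b ≤ sv n (x 0) := by
  have hc : ContinuousAt (fun x : E3 => sv n (x 0)) y := by unfold sv; fun_prop
  rcases h with h | h
  · exact (hc.eventually (gt_mem_nhds h)).mono fun x hx => Or.inl hx.le
  · exact (hc.eventually (lt_mem_nhds h)).mono fun x hx => Or.inr hx.le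

theorem mG_ev (n : ℕ) {y : E3} (h : sv n (y 0) < 79 ∨ 80 < sv n (y 0)) : mG n =ᶠ[𝓝 y] fun _ => 0 := by
  filter_upwards [profc_ev n h] with x hx
  rcases n with _ | n
  · rw [profc_sv0] at hx
    rcases hx with hx | hx
    · obtain ⟨-, h1, h2⟩ := chi_of_le (s := x 0 - 74) (by linarith)
      simp [mG, h1, h2]
    · obtain ⟨-, h1, h2⟩ := chi_of_ge (s := x 0 - 74) (by linarith)
      simp [mG, h1, h2]
  · simp [mG, gd_zero hx]

theorem mB_ev (n : ℕ) {y : E3} (h : sv n (y 0) < -148 ∨ -147 < sv n (y 0)) :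
    mB n =ᶠ[𝓝 y] fun _ => 0 := by
  filter_upwards [profc_ev n h] with x hx
  rcases n with _ | n
  · rfl
  · simp [mB, gb_zero hx]

theorem profc_sep (n : ℕ) {y : E3} {f : ℝ → ℝ} {c B : ℝ} (hc : 0 ≤ c) (hf : ContDiffAt ℝ 2 f (sv n (y 0)))
    (hB : |f (sv n (y 0))| ≤ B) :
    |c * f (sv n (y 0)) * Real.sin (2 ^ n * y (dir n))| ≤ c * B ∧
      |pd (dir n) (fun x : E3 => c * f (sv n (x 0)) * Real.sin (2 ^ n * x (dir n))) y| ≤ c * B * 2 ^ n := by
  have h := pd_sep c n (dir_ne n).1 (hf.differentiableAt (by norm_num)).hasDerivAt (Real.hasDerivAt_sin _) (dir n)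
  rw [if_neg (dir_ne _).1, if_pos rfl] at h
  have h0 := (abs_nonneg _).trans hB
  rw [h, abs_mul, abs_mul, abs_mul, abs_mul, abs_mul, abs_of_nonneg hc,
    abs_of_pos (by positivity : (0 : ℝ) < 2 ^ n)]
  constructor
  · calc _ ≤ c * B * 1 := by gcongr; exact Real.abs_sin_le_one _
      _ = _ := mul_one _
  · calc _ ≤ c * B * (2 ^ n * 1) := by gcongr; exact Real.abs_cos_le_one _
      _ = _ := by ring

theorem profc_ten {a b p q E : ℝ} (ha : |a| ≤ 6) (hb : |b| ≤ 2) (hp : |p| ≤ E) (hq : |q| ≤ E) :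
    |a * p + 2 * b * q| ≤ 10 * E := by
  refine (abs_add_le _ _).trans ?_
  rw [abs_mul, abs_mul, abs_mul, abs_two]
  have h1 : |a| * |p| ≤ 6 * E := by gcongr
  have h2 : 2 * |b| * |q| ≤ 2 * 2 * E := by gcongr
  linarith

theorem G_bound (n : ℕ) {y : E3} (h1 : 79 < sv n (y 0)) (h2 : sv n (y 0) < 80) :
    |mG n y| ≤ 2 * (MM n * 2 ^ n * Real.exp (-73)) ∧
      |pd (dir n) (mG n) y| ≤ 2 * (MM n * 2 ^ n * Real.exp (-73)) * 2 ^ n := by
  rcases n with _ | n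
  · rw [profc_sv0] at h1 h2
    have h0 : 0 < y 0 := by linarith
    obtain ⟨b1, b2, b3, b4, -⟩ := log_bound h0
    obtain ⟨-, s1, s2⟩ := log_smooth h0
    obtain ⟨-, c1, c2, -⟩ := chi_smooth (s := y 0 - 74) (by linarith) (by linarith)
    obtain ⟨d1, e1⟩ := profc_pd0 (c2.differentiableAt (by norm_num)) (s2.differentiableAt (by norm_num))
    obtain ⟨d2, e2⟩ := profc_pd0 (φ := fun t => 2 * chi1 t) ((c1.differentiableAt (by norm_num)).const_mul 2)
      (s1.differentiableAt (by norm_num))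
    have h3 : 10 * Real.exp (-y 0) ≤ 2 * (MM 0 * 2 ^ 0 * Real.exp (-73)) := by
      have a1 : Real.exp (-y 0) ≤ Real.exp (-1) * Real.exp (-73) := by
        rw [← Real.exp_add]; exact Real.exp_le_exp.2 (by linarith)
      rw [MM]
      nlinarith [Real.exp_pos (-y 0)]
    refine ⟨(profc_ten (abs_chi2_le _) (abs_chi1_le _) b3 b2).trans h3, ?_⟩
    rw [profc_dir0, show mG 0 = fun x : E3 => chi2 (x 0 - 74) * lW x + 2 * chi1 (x 0 - 74) * lA x from rfl,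
      pd_add d1 d2, e1, e2, (log_pd h0).2.2.2.2.1, (log_pd h0).2.2.2.2.2.2.2.1, pow_zero, mul_one]
    exact (profc_ten (abs_chi2_le _) (abs_chi1_le _) b1 (by rwa [abs_neg])).trans (by simpa using h3)
  · have hM := MM_pos (n + 1)
    have hJ : sv (n + 1) (y 0) ∉ Jn := by
      simp only [Jn, mem_insert_iff, mem_singleton_iff, not_or]
      refine ⟨?_, ?_, ?_, ?_, ?_, ?_⟩ <;> linarith
    obtain ⟨a1, a2⟩ := profc_sep (n + 1) (c := MM (n + 1) * 2 ^ (n + 1)) (by positivity) (amp_smooth hJ).2.2.2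
      (abs_gd_le _)
    have p1 : 0 ≤ MM (n + 1) * 2 ^ (n + 1) * Real.exp (-73) := by positivity
    have p2 : 0 ≤ MM (n + 1) * 2 ^ (n + 1) * Real.exp (-73) * 2 ^ (n + 1) := by positivity
    exact ⟨a1.trans (by linarith), a2.trans (by linarith)⟩

theorem B_bound (n : ℕ) {y : E3} (hJ : sv n (y 0) ∉ Jn) :
    |mB n y| ≤ 7 * (MM n * 2 ^ n * Real.exp 37) ∧
      |pd (dir n) (mB n) y| ≤ 7 * (MM n * 2 ^ n * Real.exp 37) * 2 ^ n := by
  have hM := MM_pos n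
  rcases n with _ | n
  · rw [show mB 0 = fun _ : E3 => (0 : ℝ) from rfl]
    simp only [pd, fderiv_fun_const, Pi.zero_apply, zero_apply, abs_zero]
    constructor <;> positivity
  · obtain ⟨a1, a2⟩ := profc_sep (n + 1) (c := MM (n + 1) * 2 ^ (n + 1)) (by positivity) (amp_smooth hJ).2.2.1
      (abs_gb_le _)
    exact ⟨a1.trans_eq (by ring), a2.trans_eq (by ring)⟩

theorem profc_out {s a b : ℝ} (hJ : s ∉ Jn) (ha : a ∈ Jn) (hb : b ∈ Jn) (h : ¬(a < s ∧ s < b)) : s < a ∨ b < s := by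
  by_contra h'
  rw [not_or, not_lt, not_lt] at h'
  exact h ⟨h'.1.lt_of_ne fun e => hJ (e ▸ ha), h'.2.lt_of_ne fun e => hJ (e ▸ hb)⟩

theorem profc_zero {f : E3 → ℝ} {y : E3} (h : f =ᶠ[𝓝 y] fun _ => 0) (i : Fin 3) (a b c : ℝ) :
    (2 * |f y| + |pd i f y| / a) * b ≤ |c| / 256 := by
  rw [h.eq_of_nhds, pd_congr h]
  simp only [pd, fderiv_fun_const, Pi.zero_apply, zero_apply, abs_zero, mul_zero, zero_div, add_zero, zero_mul]
  positivity

theorem profc_MM (n : ℕ) : MM (n + 1) = MM n * (Real.exp (-37) / 10 ^ 7) := by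
  rw [MM, MM, pow_succ, mul_assoc]
  ring

/-- `5 · 128 · 10⁷ ≤ 2³⁶ ≤ e³⁶`; outside `79 < s < 80` use `mG_ev` -/
theorem death_bound (n : ℕ) {y : E3} (hJ : sv n (y 0) ∉ Jn) (hJ' : sv (n + 1) (y 0) ∉ Jn) :
    (2 * |mG n y| + |pd (dir n) (mG n) y| / 2 ^ (n + 1)) * |Real.sin (2 ^ (n + 1) * y (odir n))| ≤
      |pd (odir n) (mD (n + 1)) y| / 256 := by
  by_cases h : 79 < sv n (y 0) ∧ sv n (y 0) < 80
  swap
  · exact profc_zero (mG_ev n (profc_out hJ (by simp [Jn]) (by simp [Jn]) h)) _ _ _ _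
  obtain ⟨a1, a2⟩ := G_bound n h.1 h.2
  have a3 := D_death n (by rw [sv_succ]; linarith [h.1]) (by rw [sv_succ]; linarith [h.2]) hJ'
  rw [(dir_succ n).1, profc_MM] at a3
  have hM := MM_pos n
  have a4 : |pd (dir n) (mG n) y| / 2 ^ (n + 1) ≤ MM n * 2 ^ n * Real.exp (-73) := by
    rw [div_le_iff₀ (by positivity)]
    exact a2.trans_eq (by ring)
  have e1 : (2 : ℝ) ^ 36 ≤ Real.exp 36 := by
    rw [show (36 : ℝ) = (36 : ℕ) * 1 by norm_num, Real.exp_nat_mul]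
    exact pow_le_pow_left₀ (by norm_num) (by linarith [Real.add_one_le_exp 1]) _
  have e2 : 640 * 10 ^ 7 * Real.exp (-73) ≤ Real.exp (-37) := by
    rw [show (-37 : ℝ) = 36 + -73 by norm_num, Real.exp_add]
    exact mul_le_mul_of_nonneg_right (le_trans (by norm_num) e1) (Real.exp_pos _).le
  have a5 : 0 ≤ MM n * 2 ^ n * |Real.sin (2 ^ (n + 1) * y (odir n))| := by positivity
  calc _ ≤ 5 * (MM n * 2 ^ n * Real.exp (-73)) * |Real.sin (2 ^ (n + 1) * y (odir n))| :=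
        mul_le_mul_of_nonneg_right (by linarith) (abs_nonneg _)
    _ = MM n * 2 ^ n * |Real.sin (2 ^ (n + 1) * y (odir n))| * (640 * 10 ^ 7 * Real.exp (-73)) / (128 * 10 ^ 7) := by
        ring
    _ ≤ MM n * 2 ^ n * |Real.sin (2 ^ (n + 1) * y (odir n))| * Real.exp (-37) / (128 * 10 ^ 7) := by gcongr
    _ ≤ _ := by
        refine le_trans (le_of_eq ?_) (div_le_div_of_nonneg_right a3 (by norm_num))
        ring

/-- `56 · 25600 ≤ 10⁷`; outside `-148 < s' < -147` use `mB_ev` -/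
theorem birth_bound (n : ℕ) {y : E3} (h0 : 0 < y 0) (hJ : sv n (y 0) ∉ Jn)
    (hJ' : sv (n + 1) (y 0) ∉ Jn) :
    (2 * |mB (n + 1) y| + |pd (odir n) (mB (n + 1)) y| / 2 ^ n) * |Real.sin (2 ^ n * y (dir n))| ≤
      |pd (dir n) (mD n) y| / 256 := by
  by_cases h : -148 < sv (n + 1) (y 0) ∧ sv (n + 1) (y 0) < -147
  swap
  · exact profc_zero (mB_ev (n + 1) (profc_out hJ' (by simp [Jn]) (by simp [Jn]) h)) _ _ _ _
  obtain ⟨a1, a2⟩ := B_bound (n + 1) hJ'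
  rw [sv_succ] at h
  have a3 := D_birth n h0 (by linarith [h.1]) (by linarith [h.2]) hJ
  have e : MM (n + 1) * 2 ^ (n + 1) * Real.exp 37 = 2 * (MM n * 2 ^ n) / 10 ^ 7 := by
    rw [profc_MM, Real.exp_neg]
    field_simp
    ring
  rw [(dir_succ n).1, e] at a2
  rw [e] at a1
  have hM := MM_pos n
  have a4 : |pd (odir n) (mB (n + 1)) y| / 2 ^ n ≤ 14 * (2 * (MM n * 2 ^ n) / 10 ^ 7) := by
    rw [div_le_iff₀ (by positivity)]
    exact a2.trans_eq (by ring)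
  have a5 : 0 ≤ MM n * 2 ^ n * |Real.sin (2 ^ n * y (dir n))| := by positivity
  calc _ ≤ 28 * (2 * (MM n * 2 ^ n) / 10 ^ 7) * |Real.sin (2 ^ n * y (dir n))| :=
        mul_le_mul_of_nonneg_right (by linarith) (abs_nonneg _)
    _ ≤ _ := by linarith

/-! ### part d: Lipschitz bounds, vanishing -/

theorem mode_late (n : ℕ) {y : E3} (h : 80 ≤ sv n (y 0)) : mD n y = 0 ∧ mQ n y = 0 ∧ mX n y = 0 := by
  cases n with
  | zero =>
    obtain ⟨h1, h2, h3⟩ := chi_of_ge (s := y 0 - 74) (by simp only [sv, pow_zero] at h; linarith)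
    simp [mD, mQ, mX, mB, mG, h1, h2, h3]
  | succ n =>
    obtain ⟨h1, h2, h3, h4⟩ := amp_zero (Or.inr h)
    simp [mD, mQ, mX, mB, mG, h1, h2, h3, h4]

theorem mode_early (n : ℕ) {y : E3} (h : sv (n + 1) (y 0) ≤ -148) :
    mD (n + 1) y = 0 ∧ mQ (n + 1) y = 0 ∧ mX (n + 1) y = 0 := by
  obtain ⟨h1, h2, h3, h4⟩ := amp_zero (Or.inl h)
  simp [mD, mQ, mX, mB, mG, h1, h2, h3, h4]

theorem profd_sin (m : ℕ) {t : ℝ} (h : t = 0 ∨ t = Real.pi) : Real.sin (2 ^ m * t) = 0 := by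
  rcases h with rfl | rfl
  · simp
  · exact_mod_cast Real.sin_nat_mul_pi (2 ^ m)

theorem mode_wall (n : ℕ) {y : E3} {i : Fin 3} (hi : i ≠ 0) (h : y i = 0 ∨ y i = Real.pi) :
    mX n y = 0 ∧ (dir n = i → mQ n y = 0) := by
  have key : dir n = i → mQ n y = 0 ∧ mB n y = 0 ∧ mG n y = 0 := fun e => by
    cases n with
    | zero =>
      have e' : i = 1 := by rw [← e]; simp [dir]
      obtain ⟨h1, h2⟩ := log_wall (y := y) (e' ▸ h)
      simp [mQ, mB, mG, h1, h2]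
    | succ n => simp only [mQ, mB, mG, e, profd_sin (n + 1) h, mul_zero, and_self]
  refine ⟨?_, fun e => (key e).1⟩
  have : dir n = i ∨ odir n = i := by
    unfold dir odir
    split_ifs <;> fin_cases i <;> simp at hi ⊢
  rcases this with e | e
  · simp [mX, (key e).2.1, (key e).2.2]
  · rw [mX, e, ← pow_succ', profd_sin n h, profd_sin _ h]
    simp

theorem profd_unif {ι : Type} [Fintype ι] {F : ι → E3 → ℝ} (h : ∀ i, Lip (F i)) :
    ∃ C : ℝ, 0 ≤ C ∧ ∀ i x y, |F i x - F i y| ≤ C * dist x y := by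
  choose K hK using h
  refine ⟨∑ i, (K i : ℝ), by positivity, fun i x y => ((hK i).dist_le_mul x y).trans ?_⟩
  exact mul_le_mul_of_nonneg_right
    (Finset.single_le_sum (f := fun i => (K i : ℝ)) (fun _ _ => by positivity) (Finset.mem_univ i))
    dist_nonneg

/-- the rescaling of mode `n` -/
noncomputable def profd_map (n : ℕ) (y : E3) : E3 := (2 ^ n : ℝ) • y + (160 - 155 * 2 ^ n : ℝ) • ee 0

theorem profd_zero (n : ℕ) (y : E3) : profd_map n y 0 = sv n (y 0) := by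
  simp [profd_map, ee, sv]
  ring

theorem profd_ne (n : ℕ) (y : E3) {i : Fin 3} (hi : i ≠ 0) : profd_map n y i = 2 ^ n * y i := by
  simp [profd_map, ee, hi]

theorem profd_dist (n : ℕ) (x y : E3) : dist (profd_map n x) (profd_map n y) = 2 ^ n * dist x y := by
  rw [profd_map, profd_map, dist_add_right, dist_smul₀, Real.norm_of_nonneg (by positivity)]

theorem mode_lip : ∃ K : ℕ → ℝ, Summable K ∧ ∀ n (x y : E3), |mD n x - mD n y| ≤ K n * dist x y ∧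
    |mQ n x - mQ n y| ≤ K n * dist x y ∧ |mX n x - mX n y| ≤ K n * dist x y := by
  obtain ⟨ha, ha1, hb, hd⟩ := lipB_amp
  obtain ⟨hc, hc1, hc2⟩ := lipB_chi
  obtain ⟨hF, hA, hW⟩ := lipB_log
  have co : ∀ {f : ℝ → ℝ}, LipB f → ∀ i : Fin 3, LipB fun y : E3 => f (y i) := fun hf i =>
    hf.comp (Lip.coord i)
  have sh : ∀ {f : ℝ → ℝ}, LipB f → LipB fun y : E3 => f (y 0 - 74) := fun hf =>
    hf.comp ((Lip.coord 0).sub (Lip.const 74))
  have sc : ∀ (c : ℝ) (i : Fin 3), LipB fun y : E3 => Real.sin (c * y i) := fun c i =>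
    lipB_sin.comp ((Lip.coord i).const_mul c)
  obtain ⟨C₁, p₁, h₁⟩ := profd_unif (F := fun (i : Fin 3) y => amp (y 0) * Real.cos (y i))
    fun i => ((co ha 0).mul (co lipB_cos i)).1
  obtain ⟨C₂, p₂, h₂⟩ := profd_unif (F := fun (i : Fin 3) y => amp1 (y 0) * Real.sin (y i))
    fun i => ((co ha1 0).mul (co lipB_sin i)).1
  obtain ⟨C₃, p₃, h₃⟩ := profd_unif (F := fun (p : Fin 3 × Fin 3) y =>
    gb (y 0) * Real.sin (y p.1) * Real.sin (y p.2) +
      gd (y 0) * Real.sin (y p.1) * Real.sin (4 * y p.2) / 4)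
    fun p => (((co hb 0).mul (co lipB_sin p.1)).mul (co lipB_sin p.2)).1.add
      ((((co hd 0).mul (co lipB_sin p.1)).mul (sc 4 p.2)).1.div_const 4)
  obtain ⟨C₀, -, h₀⟩ := profd_unif (F := ![mD 0, mQ 0, mX 0]) fun i => by
    fin_cases i
    · exact (((LipB.const 1).sub (sh hc)).mul hF).1
    · exact ((((LipB.const 0).sub (sh hc1)).mul hW).add (((LipB.const 1).sub (sh hc)).mul hA)).1
        |> fun h => by
            refine (congrArg Lip (funext fun y => ?_)).mp h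
            simp [mQ]
    · exact ((((Lip.const 0).div_const (2 ^ 0)).add
        ((((((sh hc2).mul hW).add (((LipB.const 2).mul (sh hc1)).mul hA)).mul
          (sc (2 * 2 ^ (0 + 1)) (odir 0))).1).div_const (2 * 2 ^ (0 + 1)))).const_mul
          (if Even 0 then -1 else 1)) |> fun h => by
            refine (congrArg Lip (funext fun y => ?_)).mp h
            simp [mX, mB, mG]
  refine ⟨fun n => Nat.casesOn n C₀ fun m => (C₁ + C₂ + C₃) * (MM (m + 1) * 2 ^ (m + 1)), ?_, fun n x y => ?_⟩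
  · refine (summable_nat_add_iff 1).1 (Summable.mul_left _ ((summable_nat_add_iff (f := fun m =>
      MM m * 2 ^ m) 1).2 ?_))
    simp only [MM, mul_assoc, ← mul_pow]
    refine ((summable_geometric_of_lt_one (by positivity) ?_).mul_left _).mul_left _
    have : Real.exp (-37) ≤ 1 := Real.exp_le_one_iff.2 (by norm_num)
    linarith
  cases n with
  | zero => exact ⟨h₀ 0 x y, h₀ 1 x y, h₀ 2 x y⟩
  | succ n =>
    obtain ⟨d1, d2, -⟩ := dir_ne (n + 1)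
    have hM := MM_pos (n + 1)
    have hxy := dist_nonneg (x := x) (y := y)
    have fin : ∀ {u v a b s C : ℝ}, |s| = 1 → u = s * MM (n + 1) * a → v = s * MM (n + 1) * b →
        |a - b| ≤ C * dist (profd_map (n + 1) x) (profd_map (n + 1) y) → C ≤ C₁ + C₂ + C₃ →
        |u - v| ≤ (C₁ + C₂ + C₃) * (MM (n + 1) * 2 ^ (n + 1)) * dist x y := by
      intro u v a b s C hs hu hv h hC
      rw [hu, hv, ← mul_sub, abs_mul, abs_mul, hs, one_mul, abs_of_pos hM]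
      rw [profd_dist] at h
      calc _ ≤ MM (n + 1) * ((C₁ + C₂ + C₃) * (2 ^ (n + 1) * dist x y)) :=
            mul_le_mul_of_nonneg_left (h.trans (by gcongr)) hM.le
        _ = _ := by ring
    have eX : ∀ z, mX (n + 1) z = (if Even (n + 1) then -1 else 1) * MM (n + 1) *
        (gb (profd_map (n + 1) z 0) * Real.sin (profd_map (n + 1) z (dir (n + 1))) *
            Real.sin (profd_map (n + 1) z (odir (n + 1))) +
          gd (profd_map (n + 1) z 0) * Real.sin (profd_map (n + 1) z (dir (n + 1))) *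
            Real.sin (4 * profd_map (n + 1) z (odir (n + 1))) / 4) := fun z => by
      rw [profd_zero, profd_ne _ _ d1, profd_ne _ _ d2, mX, mB, mG,
        show (2 : ℝ) * 2 ^ (n + 1 + 1) * z (odir (n + 1)) = 4 * (2 ^ (n + 1) * z (odir (n + 1))) by ring]
      field_simp
      ring
    refine ⟨fin abs_one ?_ ?_ (h₁ (dir (n + 1)) _ _) (by linarith),
      fin abs_one ?_ ?_ (h₂ (dir (n + 1)) _ _) (by linarith),
      fin (by split_ifs <;> simp) (eX x) (eX y) (h₃ (dir (n + 1), odir (n + 1)) _ _) (by linarith)⟩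
    all_goals simp only [profd_zero, profd_ne _ _ d1, mD, mQ, one_mul, mul_assoc]

end Crest.Agent.R83
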