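import Crest.Agent.R83.Legs

/-!
# Row 83: pulling back the model fields

* `df_leg`: `wall`, `lb_fx` for the four two-forms; walls from `Leg.wa`, `Leg.wb`.
* `leg_pull`: `ae_comp` applied to `Leg.good`; at a point `y` near `x`, `A = D P(y)`:
  `∇(P · 0) = Aᵀ e₀`, `∇(d ∘ P) = Aᵀ ∇d` (`grad_comp`, `grad_coord`), `J0 P = adj A e₀`,
  `Jp = adj A (Jd α β Ξ (P y))` (`fx_comp`, `cr e₁ e₂ = e₀`); `Cone.pull`; `contDiffAt_fx`, `dv_fx`.
* `core_model`: Cauchy-Riemann for `log (z - e)` (`pd_lg_th` with `∂₀ z = 1`, `∂₁ z = i`, `∂₂ z = 0`); the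
  gradients are `(X - e, Y, 0) / |z - e|²`, their cross product has last coordinate `2Y / (…) ≠ 0`.
* `core_pull`: the same with `Cone.self`.
-/

namespace Crest.Agent.R83

open MeasureTheory Set Metric Filter Topology
open scoped Gradient RealInnerProductSpace NNReal

variable {c : ℝ} {d α β Ξ : E3 → ℝ}

/-- complex coordinate of the model core -/
noncomputable def cz (y : E3) : ℂ := ⟨y 0, y 1⟩

/-! ### part a -/

theorem lb_leg (h : Leg c d α β Ξ) {P : E3 → E3} {V : Set E3} (hV : IsOpen V)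
    (hP : LocallyLipschitzOn V P) :
    LB (fun x => sg x • J0 P x) V ∧ LB (fun x => sg x • Jp α β Ξ P x) V := by
  have h0 := ll_coord hP 0
  have h1 := ll_coord hP 1
  have h2 := ll_coord hP 2
  have ha := ll_lip_comp h.lα hP
  have hb := ll_lip_comp h.lβ hP
  have hx := ll_lip_comp h.lΞ hP
  refine ⟨lb_fx hV h1 h2, ?_⟩
  have := ((lb_fx hV hb h2).add (lb_fx hV h1 ha)).add (lb_fx hV hx h0)
  simpa only [Jp, smul_add] using this

theorem df_leg (h : Leg c d α β Ξ) {P : E3 → E3} {V : Set E3} (hV : IsOpen V)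
    (hP : LocallyLipschitzOn V P)
    (hw : ∀ x ∈ V, x 2 = 0 → (P x 1 = 0 ∨ P x 1 = Real.pi) ∨ (P x 2 = 0 ∨ P x 2 = Real.pi)) :
    DF (fun x => sg x • J0 P x) V ∧ DF (fun x => sg x • Jp α β Ξ P x) V := by
  have h0 := ll_coord hP 0
  have h1 := ll_coord hP 1
  have h2 := ll_coord hP 2
  have ha := ll_lip_comp h.lα hP
  have hb := ll_lip_comp h.lβ hP
  have hx := ll_lip_comp h.lΞ hP
  have hm : ∀ {t : ℝ}, t = 0 ∨ t = Real.pi → t ∈ ({0, Real.pi} : Finset ℝ) := fun ht => by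
    simpa using ht
  refine ⟨wall hV h1 h2 {0, Real.pi} {0, Real.pi} fun x hxV hx2 => (hw x hxV hx2).imp hm hm, ?_⟩
  have w1 := wall hV hb h2 {0} {0, Real.pi} fun x hxV hx2 =>
    (hw x hxV hx2).imp (fun h' => Finset.mem_singleton.2 (h.wa _ h').1) hm
  have w2 := wall hV h1 ha {0, Real.pi} {0} fun x hxV hx2 =>
    (hw x hxV hx2).imp hm fun h' => Finset.mem_singleton.2 (h.wb _ h').1
  have w3 := wall hV hx h0 {0} {0} fun x hxV hx2 => Or.inl (Finset.mem_singleton.2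
    ((hw x hxV hx2).elim (fun h' => (h.wa _ h').2) fun h' => (h.wb _ h').2))
  have := (w1.add w2 (lb_fx hV hb h2) (lb_fx hV h1 ha)).add w3
    ((lb_fx hV hb h2).add (lb_fx hV h1 ha)) (lb_fx hV hx h0)
  simpa only [Jp, smul_add] using this

theorem pulla_zero {f : E3 → ℝ} {x : E3} (h : ∀ᶠ y in 𝓝 x, f y = 0) : ∇ f x = 0 := by
  have h' : f =ᶠ[𝓝 x] fun _ => 0 := h
  rw [grad_congr h']
  refine ext_inner_right ℝ fun v => ?_
  rw [inner_grad]
  simp

/-- where the field is dead -/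
theorem Jp_dead (h : Leg c d α β Ξ) {P : E3 → E3} {x : E3} (hx : ∀ᶠ y in 𝓝 x, TT ≤ P y 0) :
    Jp α β Ξ P x = 0 := by
  have ha : ∇ (fun y => α (P y)) x = 0 := pulla_zero (hx.mono fun y hy => (h.zero _ hy).2.1)
  have hb : ∇ (fun y => β (P y)) x = 0 := pulla_zero (hx.mono fun y hy => (h.zero _ hy).2.2.1)
  have hc : ∇ (fun y => Ξ (P y)) x = 0 := pulla_zero (hx.mono fun y hy => (h.zero _ hy).2.2.2)
  simp only [Jp, fx, ha, hb, hc, cr_zero_left, cr_zero_right, add_zero]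

/-- where the field is logarithmic -/
theorem Jp_init (h : Leg c d α β Ξ) {P : E3 → E3} {x : E3}
    (hx : ∀ᶠ y in 𝓝 x, 0 ≤ P y 0 ∧ P y 0 ≤ 1) : Jp α β Ξ P x =
      fx (fun y => -Complex.arg (1 + ww (P y 0) (P y 1))) (fun y => P y 2) x := by
  have ha : ∇ (fun y => α (P y)) x = 0 :=
    pulla_zero (hx.mono fun y hy => (h.init _ hy.1 hy.2).2.2.1)
  have hc : ∇ (fun y => Ξ (P y)) x = 0 :=
    pulla_zero (hx.mono fun y hy => (h.init _ hy.1 hy.2).2.2.2)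
  have hb : ∇ (fun y => β (P y)) x = ∇ (fun y => -Complex.arg (1 + ww (P y 0) (P y 1))) x :=
    grad_congr (hx.mono fun y hy => (h.init _ hy.1 hy.2).2.1)
  simp only [Jp, fx, ha, hb, hc, cr_zero_left, cr_zero_right, add_zero]

theorem leg_pull (hc : 0 < c) (h : Leg c d α β Ξ) {c₀ L : ℝ} (hc₀ : 0 < c₀) (hL : 0 < L) :
    ∃ c' : ℝ, 0 < c' ∧ ∀ P : E3 → E3, ∀ᵐ x : E3, ∀ s : ℝ, (s = 1 ∨ s = -1) → GM s c₀ P x →
      (∀ᶠ y in 𝓝 x, ‖fderiv ℝ P y‖ ≤ L) → 0 < P x 0 → P x 0 < TT →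
      ∀ᶠ y in 𝓝 x, Good c' (fun z => P z 0) (fun z => d (P z)) (fun z => s • J0 P z)
        (fun z => s • Jp α β Ξ P z) y := by
  obtain ⟨c', hc', H⟩ := Cone.pull hc hc₀ hL
  refine ⟨c', hc', fun P => ?_⟩
  filter_upwards [ae_comp h.good P] with x hx s hs hG hLx h0 hT
  have hx0 := hG.self_of_nhds
  have hdet : (fderiv ℝ P x).det ≠ 0 := fun h0 => by
    have := hx0.2
    rw [h0, mul_zero] at this
    linarith
  have hg := hx (hx0.1.of_le (by norm_num)) hdet h0 hT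
  filter_upwards [hG, hLx, hx0.1.continuousAt.eventually hg] with y hy hyL hg
  obtain ⟨hd, hα, hβ, hΞ, hcone⟩ := hg
  have hP := hy.1
  have hPd : DifferentiableAt ℝ P y := hP.differentiableAt (by norm_num)
  have cc := calcb_contDiffAt_crd hP
  have cd : ContDiffAt ℝ 2 (fun z => d (P z)) y := hd.comp y hP
  have cα : ContDiffAt ℝ 2 (fun z => α (P z)) y := hα.comp y hP
  have cβ : ContDiffAt ℝ 2 (fun z => β (P z)) y := hβ.comp y hP
  have cΞ : ContDiffAt ℝ 2 (fun z => Ξ (P z)) y := hΞ.comp y hP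
  have sJ : ContDiffAt ℝ 1 (J0 P) y := contDiffAt_fx (cc 1) (cc 2)
  have s1 := contDiffAt_fx cβ (cc 2)
  have s2 := contDiffAt_fx (cc 1) cα
  have s3 := contDiffAt_fx cΞ (cc 0)
  have sK : ContDiffAt ℝ 1 (Jp α β Ξ P) y := (s1.add s2).add s3
  have dJ : dv (J0 P) y = 0 := dv_fx (cc 1) (cc 2)
  have dK : dv (Jp α β Ξ P) y = 0 := by
    have e1 := dv_add (s1.differentiableAt one_ne_zero) (s2.differentiableAt one_ne_zero)
    have e2 := dv_add ((s1.add s2).differentiableAt one_ne_zero) (s3.differentiableAt one_ne_zero)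
    rw [e1, dv_fx cβ (cc 2), dv_fx (cc 1) cα, dv_fx cΞ (cc 0), add_zero, add_zero] at e2
    exact e2
  refine ⟨cc 0, cd, sJ.const_smul s, sK.const_smul s, ?_, ?_, ?_⟩
  · rw [dv_const_smul s (sJ.differentiableAt one_ne_zero), dJ, mul_zero]
  · rw [dv_const_smul s (sK.differentiableAt one_ne_zero), dK, mul_zero]
  · have gc : ∀ i, ∇ (fun z => P z i) y = tr (fderiv ℝ P y) (ee i) := fun i => by
      rw [← row_fderiv hPd, row_eq]
    have gf : ∀ {f : E3 → ℝ}, ContDiffAt ℝ 2 f (P y) →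
        ∇ (fun z => f (P z)) y = tr (fderiv ℝ P y) (∇ f (P y)) := fun hf =>
      grad_comp (hf.differentiableAt (by norm_num)) hPd
    have e : cr (ee 1) (ee 2) = ee 0 := ext3 (by simp [cr, ee]) (by simp [cr, ee]) (by simp [cr, ee])
    have e0 : J0 P y = adj (fderiv ℝ P y) (ee 0) := by
      rw [← e, adj_cr, J0, fx, gc, gc]
    have e1 : Jp α β Ξ P y = adj (fderiv ℝ P y) (Jd α β Ξ (P y)) := by
      rw [Jp, Jd, map_add, map_add, adj_cr, adj_cr, adj_cr, fx, fx, fx, gc, gc, gc, gf hα, gf hβ, gf hΞ]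
    show Cone c' _ _ (s • J0 P y) (s • Jp α β Ξ P y)
    rw [gc, gf hd, e0, e1]
    exact H _ _ _ _ _ s hcone hyL hs hy.2

/-! ### part b -/

theorem pullb_cz_eq (y : E3) : cz y = (y 0 : ℂ) + (y 1 : ℂ) * Complex.I := by
  apply Complex.ext <;> simp [cz]

theorem pullb_has (e : ℝ) (y : E3) : HasFDerivAt (fun x => cz x - e)
    (Complex.ofRealCLM.comp (EuclideanSpace.proj (0 : Fin 3) : E3 →L[ℝ] ℝ) +
      Complex.I • Complex.ofRealCLM.comp (EuclideanSpace.proj (1 : Fin 3) : E3 →L[ℝ] ℝ)) y := by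
  have h := (Complex.ofRealCLM.comp (EuclideanSpace.proj (0 : Fin 3) : E3 →L[ℝ] ℝ) +
      Complex.I • Complex.ofRealCLM.comp (EuclideanSpace.proj (1 : Fin 3) : E3 →L[ℝ] ℝ)).hasFDerivAt
      (x := y)
  refine (h.sub_const (e : ℂ)).congr_of_eventuallyEq (Eventually.of_forall fun x => ?_)
  simp [pullb_cz_eq, mul_comm]

theorem pullb_smooth (e : ℝ) (y : E3) : ContDiffAt ℝ 2 (fun x => cz x - e) y := by
  have h := (Complex.ofRealCLM.comp (EuclideanSpace.proj (0 : Fin 3) : E3 →L[ℝ] ℝ) +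
      Complex.I • Complex.ofRealCLM.comp (EuclideanSpace.proj (1 : Fin 3) : E3 →L[ℝ] ℝ)).contDiff
      (n := 2)
  refine ((h.sub contDiff_const (g := fun _ => (e : ℂ))).contDiffAt).congr_of_eventuallyEq
    (Eventually.of_forall fun x => ?_)
  simp [pullb_cz_eq, mul_comm]

theorem pullb_im {y : E3} (hy : 0 < y 1) (e : ℝ) : 0 ≤ (cz y - e).im := by
  simp [cz, hy.le]

theorem pullb_ne {y : E3} (hy : 0 < y 1) (e : ℝ) : cz y - e ≠ 0 := fun h => by
  have := congrArg Complex.im h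
  simp [cz] at this
  exact hy.ne' this

theorem pullb_grad {y : E3} (hy : 0 < y 1) (e : ℝ) :
    ∇ (fun x => lg (cz x - e)) y =
        v3 ((y 0 - e) / ((y 0 - e) ^ 2 + y 1 ^ 2)) (y 1 / ((y 0 - e) ^ 2 + y 1 ^ 2)) 0 ∧
      ∇ (fun x => th (cz x - e)) y =
        v3 (-(y 1 / ((y 0 - e) ^ 2 + y 1 ^ 2))) ((y 0 - e) / ((y 0 - e) ^ 2 + y 1 ^ 2)) 0 := by
  have hd := pullb_has e y
  have h := pd_lg_th hd.differentiableAt (pullb_ne hy e) (pullb_im hy e)
  rw [hd.fderiv] at h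
  have hn : Complex.normSq (cz y - e) = (y 0 - e) ^ 2 + y 1 ^ 2 := by
    simp [Complex.normSq_apply, cz]; ring
  have hr : (cz y - e).re = y 0 - e := by simp [cz]
  have hi : (cz y - e).im = y 1 := by simp [cz]
  rw [grad_eq, grad_eq, (h 0).1, (h 1).1, (h 2).1, (h 0).2, (h 1).2, (h 2).2]
  simp only [Complex.div_re, Complex.div_im, hn, hr, hi]
  constructor <;> congr 1 <;> simp [ee_apply]

theorem core_model {y : E3} (hy : 0 < y 1) (e : ℝ) :
    ContDiffAt ℝ 2 (fun x => lg (cz x - e)) y ∧ ContDiffAt ℝ 2 (fun x => th (cz x - e)) y ∧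
      cr (∇ (fun x => th (cz x - e)) y) (ee 2) = ∇ (fun x => lg (cz x - e)) y := by
  have hz := pullb_ne hy e
  have hi := pullb_im hy e
  have hs := pullb_smooth e y
  refine ⟨ContDiffAt.comp (g := lg) (f := fun x => cz x - e) y (contDiffAt_lg hz) hs,
    ContDiffAt.comp (g := th) (f := fun x => cz x - e) y (contDiffAt_th hz hi) hs, ?_⟩
  obtain ⟨h1, h2⟩ := pullb_grad hy e
  rw [h1, h2]
  apply ext3 <;> simp [cr, ee_apply]

theorem core_ind {y : E3} (hy : 0 < y 1) :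
    cr (∇ (fun x => lg (cz x - (1 : ℝ))) y) (∇ (fun x => lg (cz x - (-1 : ℝ))) y) ≠ 0 := by
  rw [(pullb_grad hy 1).1, (pullb_grad hy (-1)).1]
  intro h
  have h2 := congrArg (fun v : E3 => v 2) h
  simp only [cr, v3_0, v3_1, v3_2, PiLp.zero_apply] at h2
  have ha : 0 < (y 0 - 1) ^ 2 + y 1 ^ 2 := by positivity
  have hb : 0 < (y 0 - -1) ^ 2 + y 1 ^ 2 := by positivity
  rw [div_mul_div_comm, div_mul_div_comm, ← sub_div, div_eq_zero_iff] at h2
  rcases h2 with h2 | h2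
  · nlinarith
  · exact (mul_pos ha hb).ne' h2

theorem core_pull {c₀ L : ℝ} (hc₀ : 0 < c₀) (hL : 0 < L) :
    ∃ c' : ℝ, 0 < c' ∧ ∀ (Z : E3 → E3) (x : E3) (s : ℝ), (s = 1 ∨ s = -1) → GM s c₀ Z x →
      (∀ᶠ y in 𝓝 x, ‖fderiv ℝ Z y‖ ≤ L) → 0 < Z x 1 →
      ∀ᶠ y in 𝓝 x, Good c' (fun z => lg (cz (Z z) - (1 : ℝ))) (fun z => lg (cz (Z z) - (-1 : ℝ)))
        (fun z => s • fx (fun w => th (cz (Z w) - (1 : ℝ))) (fun w => Z w 2) z)
        (fun z => s • fx (fun w => th (cz (Z w) - (-1 : ℝ))) (fun w => Z w 2) z) y := by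
  obtain ⟨c', hc', H⟩ := Cone.pull (c := 1 / 2) (by norm_num) hc₀ hL
  refine ⟨c', hc', fun Z x s hs hG hb hx => ?_⟩
  have hZc : ContinuousAt (fun y => Z y 1) x :=
    (calcb_contDiffAt_crd hG.self_of_nhds.1 1).continuousAt
  filter_upwards [hG, hb, hZc.eventually (lt_mem_nhds hx)] with y hy hL' hp
  have hZ := hy.1
  have hZd : DifferentiableAt ℝ Z y := hZ.differentiableAt (by norm_num)
  have h2 : ContDiffAt ℝ 2 (fun w => Z w 2) y := calcb_contDiffAt_crd hZ 2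
  have key : ∀ e : ℝ, ContDiffAt ℝ 2 (fun z => lg (cz (Z z) - e)) y ∧
      ContDiffAt ℝ 1 (fun z => s • fx (fun w => th (cz (Z w) - e)) (fun w => Z w 2) z) y ∧
      dv (fun z => s • fx (fun w => th (cz (Z w) - e)) (fun w => Z w 2) z) y = 0 ∧
      ∇ (fun z => lg (cz (Z z) - e)) y = tr (fderiv ℝ Z y) (∇ (fun x => lg (cz x - e)) (Z y)) ∧
      fx (fun w => th (cz (Z w) - e)) (fun w => Z w 2) y =
        adj (fderiv ℝ Z y) (∇ (fun x => lg (cz x - e)) (Z y)) := fun e => by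
    obtain ⟨m1, m2, m3⟩ := core_model hp e
    have t1 : ContDiffAt ℝ 2 (fun w => th (cz (Z w) - e)) y := m2.comp y hZ
    have f1 := contDiffAt_fx t1 h2
    refine ⟨m1.comp y hZ, f1.const_smul s, ?_,
      grad_comp (f := fun x => lg (cz x - e)) (m1.differentiableAt (by norm_num)) hZd, ?_⟩
    · rw [dv_const_smul s (f1.differentiableAt one_ne_zero), dv_fx t1 h2, mul_zero]
    · rw [← m3, ← grad_coord 2 (Z y)]
      exact fx_comp (F := fun x => th (cz x - e)) (G := fun x : E3 => x 2)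
        (m2.differentiableAt (by norm_num)) (calcb_diff_crd differentiableAt_id 2) hZd
  obtain ⟨a1, a2, a3, a4, a5⟩ := key 1
  obtain ⟨b1, b2, b3, b4, b5⟩ := key (-1)
  refine ⟨a1, b1, a2, b2, a3, b3, ?_⟩
  rw [a4, b4, a5, b5]
  exact H _ _ _ _ _ s (Cone.self (core_ind hp)) hL' hs hy.2

end Crest.Agent.R83
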