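import Crest.Agent.R83.Alg

/-!
# Row 83: the set `Ψ < S`, the model lamination curve, the initial tensor

* `spec`: spectral theorem (`LinearMap.IsSymmetric.eigenvectorBasis`, eigenvalues are antitone,
  `LinearMap.IsSymmetric.det_eq_prod_eigenvalues`); `l 0` is the largest eigenvalue, `l 0 ≤ Λ`,
  `Λ ↦ Λ + Λ²/det` is monotone; `1/l₁ ≤ l₀/(l₁ l₂)`, `1/l₂ ≤ l₀/(l₁ l₂)`.
* `ell_diag`: converse for `Σ μ_i e_i ⊗ e_i` (determinant in the orthonormal basis).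
* `spec_move`: let `Λ = l 0`; `dfc ≤ Σ |σ a - Λ a|²` (`gam` minimises) `= Σ_{j=1,2} (Λ - l_j)² (⟪e_j,a⟫²+⟪e_j,b⟫²)`.
  Choose `j ∈ {1,2}` with the larger term, `n = e_j`, `f₁ = e_0`, `f₂` the third vector,
  `K₀ = 1 + 1/(l₁ l₂) ≤ 1 + S²`, `c₁ = K₀ Λ`, `c₂ = K₀ l_{third}`, `A = (Λ - l_j)/(Λ (4 + S²))`.
  With `s = A τ`, `push` has eigenvalues `(1+s) l_j` on `n` and `l (1 + K₀ s)/(1+s)` on `f₁, f₂`; the
  largest is `Λ (1+K₀ s)/(1+s)` and `Ψ` is constant `= Λ K₀`.  `κ = 1/(2 S² (4+S²)²)`.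
* `push_robust`: `{(M,s) | 1/2 < det M, EllS S (push M s)}` is open and contains the compact curve
  (`IsCompact.exists_thickening_subset_open` / `exists_cthickening_subset_open`).
* `sigC`: `J M⁻¹ Jᵀ + k ν ⊗ ν / |ν|²`, `M = EᵀJ`.  Upper bound: `ξ J M⁻¹ Jᵀ ξ = 2 ξ·Jη - η M η ≤ |ξ|²/c`
  for `η = M⁻¹ Jᵀ ξ`.  Lower bound: `ξ = E η + r ν` (`exists_comb`), `Jᵀ ξ = M η + r Jᵀ ν`,
  `q(x+y) ≥ q(x)/2 - q(y)`.  `det ≥ c₁³` by the spectral theorem.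
-/

namespace Crest.Agent.R83

open MeasureTheory Set Metric Filter Topology
open scoped Gradient RealInnerProductSpace NNReal
open Crest.Agent.R80 (L2 nr)

/-! ### part a -/

theorem speca_apply {σ : M3} (e : OrthonormalBasis (Fin 3) ℝ E3) {μ : Fin 3 → ℝ}
    (h : ∀ i, σ (e i) = μ i • e i) (ξ : E3) : σ ξ = ∑ i, (μ i * ⟪e i, ξ⟫) • e i := by
  conv_lhs => rw [← e.sum_repr' ξ]
  rw [map_sum]
  refine Finset.sum_congr rfl fun i _ => ?_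
  rw [map_smul, h, smul_smul, mul_comm]

theorem speca_norm (e : OrthonormalBasis (Fin 3) ℝ E3) (ξ : E3) :
    ‖ξ‖ ^ 2 = ⟪e 0, ξ⟫ ^ 2 + ⟪e 1, ξ⟫ ^ 2 + ⟪e 2, ξ⟫ ^ 2 := by
  rw [← e.sum_sq_inner_right ξ, Fin.sum_univ_three]

theorem speca_quad {σ : M3} (e : OrthonormalBasis (Fin 3) ℝ E3) {μ : Fin 3 → ℝ}
    (h : ∀ i, σ (e i) = μ i • e i) (ξ : E3) :
    ⟪σ ξ, ξ⟫ = μ 0 * ⟪e 0, ξ⟫ ^ 2 + μ 1 * ⟪e 1, ξ⟫ ^ 2 + μ 2 * ⟪e 2, ξ⟫ ^ 2 := by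
  rw [speca_apply e h, sum_inner, Fin.sum_univ_three]
  simp only [real_inner_smul_left]
  ring

theorem speca_coord {σ : M3} (e : OrthonormalBasis (Fin 3) ℝ E3) {μ : Fin 3 → ℝ}
    (h : ∀ i, σ (e i) = μ i • e i) (ξ : E3) (j : Fin 3) : ⟪e j, σ ξ⟫ = μ j * ⟪e j, ξ⟫ := by
  rw [speca_apply e h]
  simpa using e.orthonormal.inner_right_fintype (fun i => μ i * ⟪e i, ξ⟫) j

theorem speca_det {σ : M3} (e : OrthonormalBasis (Fin 3) ℝ E3) {μ : Fin 3 → ℝ}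
    (h : ∀ i, σ (e i) = μ i • e i) : σ.det = μ 0 * μ 1 * μ 2 := by
  have h1 : LinearMap.toMatrix e.toBasis e.toBasis (σ : E3 →ₗ[ℝ] E3) = Matrix.diagonal μ := by
    ext i j
    simp [LinearMap.toMatrix_apply, h, Matrix.diagonal_apply, Pi.single_apply]
    split_ifs with hij
    · rw [hij]
    · rfl
  rw [ContinuousLinearMap.det, ← LinearMap.det_toMatrix e.toBasis, h1, Matrix.det_diagonal,
    Fin.prod_univ_three]

theorem speca_eig {σ : M3} (hs : Sym σ) : ∃ (e : OrthonormalBasis (Fin 3) ℝ E3) (l : Fin 3 → ℝ),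
    (∀ i, σ (e i) = l i • e i) ∧ (∀ i, l i = ⟪σ (e i), e i⟫) ∧ Antitone l := by
  have hT : (σ : E3 →ₗ[ℝ] E3).IsSymmetric := hs
  have hn : Module.finrank ℝ E3 = 3 := by simp
  have h1 : ∀ i, σ (hT.eigenvectorBasis hn i) = hT.eigenvalues hn i • hT.eigenvectorBasis hn i :=
    fun i => hT.apply_eigenvectorBasis hn i
  refine ⟨hT.eigenvectorBasis hn, hT.eigenvalues hn, h1, fun i => ?_, hT.eigenvalues_antitone hn⟩
  rw [h1, real_inner_smul_left, real_inner_self_eq_norm_sq, (hT.eigenvectorBasis hn).orthonormal.1 i]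
  ring

theorem isOpen_ellS (S : ℝ) : IsOpen {σ : M3 | EllS S σ} := by
  refine isOpen_iff_eventually.2 fun σ ⟨c, Λ, hc, h1, h2, hd, hS⟩ => ?_
  have hdet : ContinuousAt (fun s : M3 => s.det) σ := ContinuousLinearMap.continuous_det.continuousAt
  have ht : ContinuousAt (fun s : M3 => ‖s - σ‖) σ := by fun_prop
  have hF : ContinuousAt (fun s : M3 => (Λ + ‖s - σ‖) + (Λ + ‖s - σ‖) ^ 2 / s.det) σ :=
    (continuousAt_const.add ht).add (((continuousAt_const.add ht).pow 2).div hdet hd.ne')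
  filter_upwards [hdet.eventually (lt_mem_nhds hd), ht.eventually (gt_mem_nhds (show ‖σ - σ‖ < c by simpa)),
    hF.eventually (gt_mem_nhds (show (Λ + ‖σ - σ‖) + (Λ + ‖σ - σ‖) ^ 2 / σ.det < S by simpa))] with s e1 e2 e3
  have key : ∀ ξ : E3, |⟪s ξ, ξ⟫ - ⟪σ ξ, ξ⟫| ≤ ‖s - σ‖ * ‖ξ‖ ^ 2 := fun ξ => by
    rw [← inner_sub_left, ← sub_apply, sq, ← mul_assoc]
    exact (abs_real_inner_le_norm _ _).trans
      (mul_le_mul_of_nonneg_right ((s - σ).le_opNorm ξ) (norm_nonneg _))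
  refine ⟨c - ‖s - σ‖, Λ + ‖s - σ‖, by linarith, fun ξ => ?_, fun ξ => ?_, e1, e3⟩
  · linarith [(abs_le.1 (key ξ)).1, h1 ξ]
  · linarith [(abs_le.1 (key ξ)).2, h2 ξ]

theorem spec {S : ℝ} {σ : M3} (hs : Sym σ) (h : EllS S σ) :
    ∃ (e : OrthonormalBasis (Fin 3) ℝ E3) (l : Fin 3 → ℝ), (∀ i, σ (e i) = l i • e i) ∧
      (∀ i, S⁻¹ < l i ∧ l i ≤ l 0) ∧ 0 < S ∧ l 0 < S ∧ l 0 + l 0 / (l 1 * l 2) < S := by
  obtain ⟨c, Λ, hc, h1, h2, hd, hS⟩ := h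
  obtain ⟨e, l, he, hl, ha⟩ := speca_eig hs
  have hn : ∀ i, ‖e i‖ = 1 := e.orthonormal.1
  have hp : ∀ i, 0 < l i := fun i => by
    have := h1 (e i)
    rw [hn, ← hl] at this
    linarith
  have hΛ : l 0 ≤ Λ := by
    have := h2 (e 0)
    rw [hn, ← hl] at this
    linarith
  have hle : ∀ i, l i ≤ l 0 := fun i => ha (Fin.zero_le i)
  have p0 := hp 0
  have p1 := hp 1
  have p2 := hp 2
  rw [speca_det e he] at hS hd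
  have h3 : l 0 / (l 1 * l 2) ≤ Λ ^ 2 / (l 0 * l 1 * l 2) := by
    have e1 : l 0 / (l 1 * l 2) = l 0 ^ 2 / (l 0 * l 1 * l 2) := by field_simp
    rw [e1]
    gcongr
  have h4 : 0 < l 0 / (l 1 * l 2) := by positivity
  have h5 : l 0 + l 0 / (l 1 * l 2) < S := by linarith
  have hS0 : 0 < S := by linarith
  have h6 : (l 2)⁻¹ < S := by
    have : (l 2)⁻¹ ≤ l 0 / (l 1 * l 2) := by
      rw [le_div_iff₀ (by positivity), mul_comm (l 1), ← mul_assoc, inv_mul_cancel₀ p2.ne', one_mul]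
      exact hle 1
    linarith
  have h7 : S⁻¹ < l 2 := inv_lt_of_inv_lt₀ p2 h6
  exact ⟨e, l, he, fun i => ⟨h7.trans_le (ha (Fin.le_last i)), hle i⟩, hS0, by linarith, h5⟩

theorem ell_diag {S Λ : ℝ} {σ : M3} (e : OrthonormalBasis (Fin 3) ℝ E3) (μ : Fin 3 → ℝ)
    (h : ∀ i, σ (e i) = μ i • e i) (hμ : ∀ i, 0 < μ i ∧ μ i ≤ Λ)
    (hS : Λ + Λ ^ 2 / (μ 0 * μ 1 * μ 2) < S) : EllS S σ := by
  have p0 := hμ 0
  have p1 := hμ 1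
  have p2 := hμ 2
  refine ⟨min (μ 0) (min (μ 1) (μ 2)), Λ, lt_min p0.1 (lt_min p1.1 p2.1), fun ξ => ?_, fun ξ => ?_, ?_, ?_⟩
  · have m0 : min (μ 0) (min (μ 1) (μ 2)) ≤ μ 0 := min_le_left _ _
    have m1 : min (μ 0) (min (μ 1) (μ 2)) ≤ μ 1 := (min_le_right _ _).trans (min_le_left _ _)
    have m2 : min (μ 0) (min (μ 1) (μ 2)) ≤ μ 2 := (min_le_right _ _).trans (min_le_right _ _)
    rw [speca_quad e h, speca_norm e, mul_add, mul_add]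
    gcongr
  · rw [speca_quad e h, speca_norm e, mul_add, mul_add]
    gcongr
    exacts [p0.2, p1.2, p2.2]
  · rw [speca_det e h]
    exact mul_pos (mul_pos p0.1 p1.1) p2.1
  · rwa [speca_det e h]

theorem ell_of_bounds {c Λ : ℝ} (hc : 0 < c) {σ : M3} (hs : Sym σ)
    (h1 : ∀ ξ : E3, c * ‖ξ‖ ^ 2 ≤ ⟪σ ξ, ξ⟫) (h2 : ∀ ξ : E3, ⟪σ ξ, ξ⟫ ≤ Λ * ‖ξ‖ ^ 2) :
    EllS (Λ + Λ ^ 2 / c ^ 3 + 1) σ := by
  obtain ⟨e, l, he, hl, -⟩ := speca_eig hs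
  have hp : ∀ i, c ≤ l i := fun i => by
    have := h1 (e i)
    rwa [e.orthonormal.1, ← hl, one_pow, mul_one] at this
  have hd : c ^ 3 ≤ σ.det := by
    rw [speca_det e he]
    have := hc.trans_le (hp 0)
    have := hc.trans_le (hp 1)
    calc c ^ 3 = c * c * c := by ring
      _ ≤ _ := by gcongr <;> exact hp _
  have hc3 : 0 < c ^ 3 := by positivity
  refine ⟨c, Λ, hc, h1, h2, hc3.trans_le hd, ?_⟩
  have : Λ ^ 2 / σ.det ≤ Λ ^ 2 / c ^ 3 := by gcongr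
  linarith

theorem EllS.bounds {S : ℝ} {σ : M3} (hs : Sym σ) (h : EllS S σ) (ξ : E3) :
    S⁻¹ * ‖ξ‖ ^ 2 ≤ ⟪σ ξ, ξ⟫ ∧ ‖σ ξ‖ ≤ S * ‖ξ‖ := by
  obtain ⟨e, l, he, hl, hS, h0, -⟩ := spec hs h
  have hS' : 0 < S⁻¹ := inv_pos.2 hS
  have hq : ∀ i, l i ^ 2 ≤ S ^ 2 := fun i =>
    pow_le_pow_left₀ (hS'.trans (hl i).1).le ((hl i).2.trans h0.le) 2
  constructor
  · rw [speca_quad e he, speca_norm e, mul_add, mul_add]
    gcongr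
    exacts [(hl 0).1.le, (hl 1).1.le, (hl 2).1.le]
  · refine (pow_le_pow_iff_left₀ (norm_nonneg _) (by positivity) two_ne_zero).1 ?_
    rw [mul_pow, speca_norm e, speca_norm e ξ, speca_coord e he, speca_coord e he, speca_coord e he,
      mul_pow, mul_pow, mul_pow, mul_add, mul_add]
    exact add_le_add (add_le_add (mul_le_mul_of_nonneg_right (hq 0) (sq_nonneg _))
      (mul_le_mul_of_nonneg_right (hq 1) (sq_nonneg _))) (mul_le_mul_of_nonneg_right (hq 2) (sq_nonneg _))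

theorem speca_pos {a b : E3} (hab : cr a b ≠ 0) : 0 < ‖a‖ ^ 2 + ‖b‖ ^ 2 := by
  have ha : a ≠ 0 := fun h => hab (by rw [h, cr_zero_left])
  positivity

theorem gam_bounds {S : ℝ} {σ : M3} (hs : Sym σ) (h : EllS S σ) {a b : E3} (hab : cr a b ≠ 0) :
    S⁻¹ ≤ gam σ a b ∧ gam σ a b ≤ S := by
  have hN := speca_pos hab
  have hu : ∀ ξ : E3, ⟪σ ξ, ξ⟫ ≤ S * ‖ξ‖ ^ 2 := fun ξ => by
    rw [sq, ← mul_assoc]
    exact (real_inner_le_norm _ _).trans (mul_le_mul_of_nonneg_right (h.bounds hs ξ).2 (norm_nonneg _))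
  unfold gam
  rw [le_div_iff₀ hN, div_le_iff₀ hN]
  constructor
  · linarith [(h.bounds hs a).1, (h.bounds hs b).1]
  · linarith [hu a, hu b]

theorem dfc_nonneg (σ : M3) (a b : E3) : 0 ≤ dfc σ a b := by
  unfold dfc
  positivity

theorem dfc_le (σ : M3) {a b : E3} (hab : cr a b ≠ 0) (g : ℝ) :
    dfc σ a b ≤ ‖σ a - g • a‖ ^ 2 + ‖σ b - g • b‖ ^ 2 := by
  have hN := speca_pos hab
  have e : ∀ (t : ℝ) (ξ : E3), ‖σ ξ - t • ξ‖ ^ 2 = ‖σ ξ‖ ^ 2 - 2 * t * ⟪σ ξ, ξ⟫ + t ^ 2 * ‖ξ‖ ^ 2 :=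
    fun t ξ => by
      rw [norm_sub_sq_real, real_inner_smul_right, norm_smul, mul_pow, Real.norm_eq_abs, sq_abs]
      ring
  have hg : gam σ a b * (‖a‖ ^ 2 + ‖b‖ ^ 2) = ⟪σ a, a⟫ + ⟪σ b, b⟫ := div_mul_cancel₀ _ hN.ne'
  unfold dfc
  rw [e, e, e, e]
  have h1 : 0 ≤ (g - gam σ a b) ^ 2 * (‖a‖ ^ 2 + ‖b‖ ^ 2) := by positivity
  have h2 : ⟪σ b, b⟫ = gam σ a b * (‖a‖ ^ 2 + ‖b‖ ^ 2) - ⟪σ a, a⟫ := by linarith
  rw [h2]
  nlinarith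

theorem Sym.push {s : M3} (hs : Sym s) (M : M3) : Sym (push M s) := by
  intro a b
  simp only [R83.push, smul_apply, ContinuousLinearMap.comp_apply, real_inner_smul_left,
    real_inner_smul_right]
  rw [← ContinuousLinearMap.adjoint_inner_right, hs, ContinuousLinearMap.adjoint_inner_left]

theorem push_robust {S : ℝ} {Mc sc : ℝ → M3} (hM : Continuous Mc) (hs : Continuous sc)
    (h : ∀ τ ∈ Icc (-1 : ℝ) 1, 1 / 2 < (Mc τ).det ∧ EllS S (push (Mc τ) (sc τ))) :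
    ∃ ε : ℝ, 0 < ε ∧ ∀ τ ∈ Icc (-1 : ℝ) 1, ∀ M s : M3, ‖M - Mc τ‖ ≤ ε → ‖s - sc τ‖ ≤ ε →
      1 / 2 ≤ M.det ∧ EllS S (push M s) := by
  have hdet : Continuous fun p : M3 × M3 => p.1.det := ContinuousLinearMap.continuous_det.comp continuous_fst
  have hU : IsOpen {p : M3 × M3 | 1 / 2 < p.1.det ∧ EllS S (push p.1 p.2)} := by
    refine isOpen_iff_eventually.2 fun p hp => ?_
    have h1 : ContinuousAt (fun p : M3 × M3 => push p.1 p.2) p := by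
      refine (hdet.continuousAt.inv₀ (by linarith [hp.1])).smul (Continuous.continuousAt ?_)
      exact continuous_fst.clm_comp (continuous_snd.clm_comp
        ((contDiff_tr (n := 0)).continuous.comp continuous_fst))
    exact (hdet.continuousAt.eventually (lt_mem_nhds hp.1)).and
      (h1.eventually ((isOpen_ellS S).mem_nhds hp.2))
  have hK : IsCompact ((fun τ => (Mc τ, sc τ)) '' Icc (-1 : ℝ) 1) := isCompact_Icc.image (hM.prodMk hs)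
  obtain ⟨ε, hε, hsub⟩ := hK.exists_cthickening_subset_open hU (by
    rintro _ ⟨τ, hτ, rfl⟩
    exact h τ hτ)
  refine ⟨ε, hε, fun τ hτ M s h1 h2 => ?_⟩
  have := hsub (mem_cthickening_of_dist_le (M, s) (Mc τ, sc τ) ε _ (mem_image_of_mem _ hτ) (by
    rw [Prod.dist_eq, dist_eq_norm, dist_eq_norm]
    exact max_le h1 h2))
  exact ⟨this.1.le, this.2⟩

/-! ### part b -/

theorem specb_norm {σ : M3} (hs : Sym σ) (e : OrthonormalBasis (Fin 3) ℝ E3) (l : Fin 3 → ℝ)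
    (h : ∀ i, σ (e i) = l i • e i) (a : E3) :
    ‖σ a - l 0 • a‖ ^ 2 = (l 0 - l 1) ^ 2 * ⟪e 1, a⟫ ^ 2 + (l 0 - l 2) ^ 2 * ⟪e 2, a⟫ ^ 2 := by
  rw [← e.sum_sq_inner_right, Fin.sum_univ_three]
  simp only [inner_sub_right, ← hs _ a, h, real_inner_smul_left, real_inner_smul_right]
  ring

theorem specb_one {S : ℝ} {σ : M3} (e : OrthonormalBasis (Fin 3) ℝ E3) (l : Fin 3 → ℝ)
    (h : ∀ i, σ (e i) = l i • e i) (hl : ∀ i, S⁻¹ < l i ∧ l i ≤ l 0) (hS : 0 < S) (h0 : l 0 < S)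
    (h1 : l 0 + l 0 / (l 1 * l 2) < S) :
    ∃ A c₁ c₂ : ℝ, 0 ≤ A ∧ A ≤ 1 / 4 ∧ (l 0 - l 1) ^ 2 / (S ^ 2 * (4 + S ^ 2) ^ 2) ≤ A ^ 2 ∧
      ∀ τ ∈ Icc (-1 : ℝ) 1, EllS S (push (1 + (A * τ) • tn (e 1) (e 1))
        (σ + (A * τ) • (c₁ • tn (e 0) (e 0) + c₂ • tn (e 2) (e 2)))) := by
  have hp : ∀ i, 0 < l i := fun i => (inv_pos.2 hS).trans (hl i).1
  have p0 := hp 0
  have p1 := hp 1
  have p2 := hp 2
  have l1 := (hl 1).2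
  have l2 := (hl 2).2
  obtain ⟨K, hK⟩ : ∃ K, K = 1 + 1 / (l 1 * l 2) := ⟨_, rfl⟩
  have hK0 : 0 < K := by rw [hK]; positivity
  have hK1 : K ≤ 1 + S ^ 2 := by
    rw [hK, add_le_add_iff_left, one_div, mul_inv, sq]
    exact mul_le_mul (inv_le_of_inv_le₀ hS (hl 1).1.le) (inv_le_of_inv_le₀ hS (hl 2).1.le) (by positivity) hS.le
  obtain ⟨A, hA⟩ : ∃ A, A = (l 0 - l 1) / (l 0 * (4 + S ^ 2)) := ⟨_, rfl⟩
  have hA0 : 0 ≤ A := by rw [hA]; exact div_nonneg (by linarith) (by positivity)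
  have hA1 : A * (l 0 * (4 + S ^ 2)) = l 0 - l 1 := by rw [hA]; field_simp
  have hA2 : A * (4 + S ^ 2) ≤ 1 := by
    refine le_of_mul_le_mul_left ?_ p0
    linarith
  have hA3 : A ≤ 1 / 4 := by nlinarith [mul_nonneg hA0 (sq_nonneg S)]
  refine ⟨A, K * l 0, K * l 2, hA0, hA3, ?_, fun τ hτ => ?_⟩
  · rw [hA, div_pow, mul_pow]
    gcongr
  obtain ⟨s, hs⟩ : ∃ s, s = A * τ := ⟨_, rfl⟩
  have s1 : -A ≤ s := by rw [hs]; nlinarith [hτ.1]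
  have s2 : s ≤ A := by rw [hs]; nlinarith [hτ.2]
  rw [← hs]
  have q1 : 0 < 1 + s := by linarith
  have hKA : K * A ≤ (1 + S ^ 2) * A := mul_le_mul_of_nonneg_right hK1 hA0
  have hKs : -(K * A) ≤ K * s := by nlinarith
  have q2 : 0 < 1 + K * s := by
    rcases hA0.eq_or_lt with h | h
    · have : s = 0 := by linarith
      rw [this]; simp
    · nlinarith
  have hM : tr ((1 : M3) + s • tn (e 1) (e 1)) = 1 + s • tn (e 1) (e 1) := sym_iff.1 fun a b => by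
    simp only [add_apply, smul_apply, one_apply_eq_self, tn_apply,
      inner_add_left, inner_add_right, real_inner_smul_left, real_inner_smul_right, real_inner_comm (e 1) a]
    ring
  have he : ∀ i j, ⟪e i, e j⟫ = if i = j then (1 : ℝ) else 0 := e.inner_eq_ite
  refine ell_diag (Λ := l 0 * (1 + K * s) / (1 + s)) e
    ![l 0 * (1 + K * s) / (1 + s), (1 + s) * l 1, l 2 * (1 + K * s) / (1 + s)] (fun i => ?_) (fun i => ?_) ?_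
  · rw [push, hM, det_one_add_tn, he]
    fin_cases i <;>
    · simp [tn_apply, he, h, smul_add, smul_smul]
      simp only [← add_smul]
      congr 1
      field_simp
      try ring
  · fin_cases i
    · exact ⟨by simp; positivity, le_rfl⟩
    · refine ⟨by simp; positivity, ?_⟩
      simp only [Fin.mk_one, Matrix.cons_val_one, Matrix.cons_val_zero]
      rw [le_div_iff₀ q1]
      have a1 : (2 + s) * s ≤ 3 * A := by nlinarith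
      have a2 : (2 + s) * s * l 1 ≤ 3 * A * l 0 :=
        (mul_le_mul_of_nonneg_right a1 p1.le).trans (mul_le_mul_of_nonneg_left l1 (by positivity))
      have a3 : l 0 * -((1 + S ^ 2) * A) ≤ l 0 * (K * s) := mul_le_mul_of_nonneg_left (by linarith) p0.le
      nlinarith
    · refine ⟨by simp; positivity, ?_⟩
      simp only [Fin.reduceFinMk, Matrix.cons_val]
      gcongr
  · refine lt_of_eq_of_lt ?_ h1
    simp only [Matrix.cons_val_zero, Matrix.cons_val_one, Matrix.cons_val]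
    have : l 0 / (l 1 * l 2) = l 0 * (K - 1) := by rw [hK]; ring
    have h3 : l 0 * (1 + K * s) / (1 + s) + l 0 * (K - 1) / (1 + s) = l 0 + l 0 * (K - 1) := by
      field_simp; ring
    rw [this, ← h3, ← this]
    field_simp

theorem spec_move {S : ℝ} (hS : 0 < S) : ∃ κ : ℝ, 0 < κ ∧ ∀ (σ : M3) (a b : E3), Sym σ → EllS S σ →
    cr a b ≠ 0 → ∃ (n f₁ f₂ : E3) (A c₁ c₂ : ℝ), ‖n‖ = 1 ∧ ‖f₁‖ = 1 ∧ ‖f₂‖ = 1 ∧ ⟪n, f₁⟫ = 0 ∧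
      ⟪n, f₂⟫ = 0 ∧ 0 ≤ A ∧ A ≤ 1 / 4 ∧ κ * dfc σ a b ≤ A ^ 2 * (⟪n, a⟫ ^ 2 + ⟪n, b⟫ ^ 2) ∧
      ∀ τ ∈ Icc (-1 : ℝ) 1, EllS S (push (1 + (A * τ) • tn n n)
        (σ + (A * τ) • (c₁ • tn f₁ f₁ + c₂ • tn f₂ f₂))) := by
  refine ⟨1 / (2 * (S ^ 2 * (4 + S ^ 2) ^ 2)), by positivity, fun σ a b hs h hab => ?_⟩
  obtain ⟨e, l, he, hl, -, h0, h1⟩ := spec hs h
  have hd := dfc_le σ hab (l 0)
  rw [specb_norm hs e l he, specb_norm hs e l he] at hd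
  have key : ∀ p w A : ℝ, 0 ≤ w → dfc σ a b ≤ 2 * (p * w) → p / (S ^ 2 * (4 + S ^ 2) ^ 2) ≤ A ^ 2 →
      1 / (2 * (S ^ 2 * (4 + S ^ 2) ^ 2)) * dfc σ a b ≤ A ^ 2 * w := fun p w A hw h2 h3 =>
    calc _ ≤ 1 / (2 * (S ^ 2 * (4 + S ^ 2) ^ 2)) * (2 * (p * w)) := by gcongr
      _ = p / (S ^ 2 * (4 + S ^ 2) ^ 2) * w := by field_simp
      _ ≤ _ := mul_le_mul_of_nonneg_right h3 hw
  rcases le_total ((l 0 - l 2) ^ 2 * (⟪e 2, a⟫ ^ 2 + ⟪e 2, b⟫ ^ 2))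
    ((l 0 - l 1) ^ 2 * (⟪e 1, a⟫ ^ 2 + ⟪e 1, b⟫ ^ 2)) with hc | hc
  · obtain ⟨A, c₁, c₂, a1, a2, a3, a4⟩ := specb_one e l he hl hS h0 h1
    exact ⟨e 1, e 0, e 2, A, c₁, c₂, e.norm_eq_one _, e.norm_eq_one _, e.norm_eq_one _,
      e.inner_eq_zero (by decide), e.inner_eq_zero (by decide), a1, a2,
      key _ _ A (by positivity) (by linarith) a3, a4⟩
  · have s0 : Equiv.swap (1 : Fin 3) 2 0 = 0 := by decide
    have s1 : Equiv.swap (1 : Fin 3) 2 1 = 2 := by decide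
    have s2 : Equiv.swap (1 : Fin 3) 2 2 = 1 := by decide
    obtain ⟨A, c₁, c₂, a1, a2, a3, a4⟩ := specb_one (σ := σ) (e.reindex (Equiv.swap 1 2))
      (fun i => l (Equiv.swap 1 2 i)) (fun i => by simp [he]) (fun i => by simpa only [s0] using hl _) hS
      (by simpa only [s0] using h0) (by simpa only [s0, s1, s2, mul_comm (l 2)] using h1)
    simp only [OrthonormalBasis.reindex_apply, Equiv.symm_swap, s0, s1, s2] at a3 a4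
    exact ⟨e 2, e 0, e 1, A, c₁, c₂, e.norm_eq_one _, e.norm_eq_one _, e.norm_eq_one _,
      e.inner_eq_zero (by decide), e.inner_eq_zero (by decide), a1, a2,
      key _ _ A (by positivity) (by linarith) a3, a4⟩

/-! ### part c -/

/-- canonical symmetric tensor with `σ E_i = J_i` -/
noncomputable def sigC (k : ℝ) (E₁ E₂ J₁ J₂ : E3) : M3 :=
  (⟪E₁, J₁⟫ * ⟪E₂, J₂⟫ - ⟪E₁, J₂⟫ ^ 2)⁻¹ •
      (⟪E₂, J₂⟫ • tn J₁ J₁ - ⟪E₁, J₂⟫ • (tn J₁ J₂ + tn J₂ J₁) + ⟪E₁, J₁⟫ • tn J₂ J₂) +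
    (k / ‖cr E₁ E₂‖ ^ 2) • tn (cr E₁ E₂) (cr E₁ E₂)

theorem specc_quad {c : ℝ} {E₁ E₂ J₁ J₂ : E3} (h : Cone c E₁ E₂ J₁ J₂) (s t : ℝ) :
    ⟪s • E₁ + t • E₂, s • J₁ + t • J₂⟫ =
      ⟪E₁, J₁⟫ * s ^ 2 + 2 * ⟪E₁, J₂⟫ * s * t + ⟪E₂, J₂⟫ * t ^ 2 := by
  simp only [inner_add_left, inner_add_right, real_inner_smul_left, real_inner_smul_right, ← h.sym]
  ring

theorem specc_pos {c : ℝ} (hc : 0 < c) {E₁ E₂ J₁ J₂ : E3} (h : Cone c E₁ E₂ J₁ J₂) {s t : ℝ}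
    (hst : s ≠ 0 ∨ t ≠ 0) : 0 < ⟪E₁, J₁⟫ * s ^ 2 + 2 * ⟪E₁, J₂⟫ * s * t + ⟪E₂, J₂⟫ * t ^ 2 := by
  rw [← specc_quad h]
  refine lt_of_lt_of_le ?_ (h.pos s t)
  have h1 : s • E₁ + t • E₂ ≠ 0 := fun h0 => by
    have := comb_ne_zero h.ind h0
    tauto
  have h2 : 0 < ‖s • E₁ + t • E₂‖ := norm_pos_iff.2 h1
  positivity

theorem specc_a_pos {c : ℝ} (hc : 0 < c) {E₁ E₂ J₁ J₂ : E3} (h : Cone c E₁ E₂ J₁ J₂) :
    0 < ⟪E₁, J₁⟫ := by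
  simpa using specc_pos hc h (s := 1) (t := 0) (Or.inl one_ne_zero)

theorem Cone.det_pos {c : ℝ} (hc : 0 < c) {E₁ E₂ J₁ J₂ : E3} (h : Cone c E₁ E₂ J₁ J₂) :
    0 < ⟪E₁, J₁⟫ * ⟪E₂, J₂⟫ - ⟪E₁, J₂⟫ ^ 2 := by
  have ha := specc_a_pos hc h
  have h1 := specc_pos hc h (s := -⟪E₁, J₂⟫) (t := ⟪E₁, J₁⟫) (Or.inr ha.ne')
  have e : ⟪E₁, J₁⟫ * (-⟪E₁, J₂⟫) ^ 2 + 2 * ⟪E₁, J₂⟫ * -⟪E₁, J₂⟫ * ⟪E₁, J₁⟫ + ⟪E₂, J₂⟫ * ⟪E₁, J₁⟫ ^ 2 =
      ⟪E₁, J₁⟫ * (⟪E₁, J₁⟫ * ⟪E₂, J₂⟫ - ⟪E₁, J₂⟫ ^ 2) := by ring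
  rw [e] at h1
  exact (pos_iff_pos_of_mul_pos h1).1 ha

theorem specc_inner (k : ℝ) (E₁ E₂ J₁ J₂ ξ η : E3) : ⟪sigC k E₁ E₂ J₁ J₂ ξ, η⟫ =
    (⟪E₁, J₁⟫ * ⟪E₂, J₂⟫ - ⟪E₁, J₂⟫ ^ 2)⁻¹ * (⟪E₂, J₂⟫ * (⟪J₁, ξ⟫ * ⟪J₁, η⟫) -
      ⟪E₁, J₂⟫ * (⟪J₂, ξ⟫ * ⟪J₁, η⟫ + ⟪J₁, ξ⟫ * ⟪J₂, η⟫) + ⟪E₁, J₁⟫ * (⟪J₂, ξ⟫ * ⟪J₂, η⟫)) +
      k / ‖cr E₁ E₂‖ ^ 2 * (⟪cr E₁ E₂, ξ⟫ * ⟪cr E₁ E₂, η⟫) := by
  simp only [sigC, add_apply, sub_apply, smul_apply, tn_apply, inner_add_left, inner_sub_left, real_inner_smul_left]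

theorem specc_var {a b d : ℝ} (ha : 0 < a) (hΔ : 0 < a * d - b ^ 2) (s t x y : ℝ) :
    2 * (s * x + t * y) - (a * s ^ 2 + 2 * b * s * t + d * t ^ 2) ≤
      (a * d - b ^ 2)⁻¹ * (d * (x * x) - b * (y * x + x * y) + a * (y * y)) := by
  rw [← div_eq_inv_mul, le_div_iff₀ hΔ]
  have h1 : 0 ≤ d * (x - (a * s + b * t)) ^ 2 - 2 * b * (x - (a * s + b * t)) * (y - (b * s + d * t)) +
      a * (y - (b * s + d * t)) ^ 2 := by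
    generalize x - (a * s + b * t) = u
    generalize y - (b * s + d * t) = v
    refine nonneg_of_mul_nonneg_right ?_ ha
    have e : a * (d * u ^ 2 - 2 * b * u * v + a * v ^ 2) =
        (a * d - b ^ 2) * u ^ 2 + (a * v - b * u) ^ 2 := by ring
    rw [e]
    positivity
  have e : d * (x - (a * s + b * t)) ^ 2 - 2 * b * (x - (a * s + b * t)) * (y - (b * s + d * t)) +
      a * (y - (b * s + d * t)) ^ 2 = (d * (x * x) - b * (y * x + x * y) + a * (y * y)) -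
      (2 * (s * x + t * y) - (a * s ^ 2 + 2 * b * s * t + d * t ^ 2)) * (a * d - b ^ 2) := by ring
  linarith

theorem specc_var_eq {a b d : ℝ} (hΔ : 0 < a * d - b ^ 2) (x y : ℝ) : ∃ s t : ℝ,
    (a * d - b ^ 2)⁻¹ * (d * (x * x) - b * (y * x + x * y) + a * (y * y)) =
      2 * (s * x + t * y) - (a * s ^ 2 + 2 * b * s * t + d * t ^ 2) := by
  refine ⟨(d * x - b * y) / (a * d - b ^ 2), (a * y - b * x) / (a * d - b ^ 2), ?_⟩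
  have := hΔ.ne'
  field_simp
  ring

theorem specc_young {c : ℝ} (hc : 0 < c) (u v : E3) :
    |2 * ⟪u, v⟫| ≤ c * ‖u‖ ^ 2 + ‖v‖ ^ 2 / c := by
  have h1 := abs_real_inner_le_norm u v
  rw [abs_mul, abs_two]
  have h2 : 0 ≤ (c * ‖u‖ - ‖v‖) ^ 2 / c := by positivity
  have e : (c * ‖u‖ - ‖v‖) ^ 2 / c = c * ‖u‖ ^ 2 + ‖v‖ ^ 2 / c - 2 * (‖u‖ * ‖v‖) := by
    field_simp
    ring
  linarith

theorem specc_upper {c : ℝ} (hc : 0 < c) {k : ℝ} (hk : 0 ≤ k) {E₁ E₂ J₁ J₂ : E3}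
    (h : Cone c E₁ E₂ J₁ J₂) (ξ : E3) : ⟪sigC k E₁ E₂ J₁ J₂ ξ, ξ⟫ ≤ (1 / c + k) * ‖ξ‖ ^ 2 := by
  obtain ⟨s, t, hst⟩ := specc_var_eq (h.det_pos hc) ⟪J₁, ξ⟫ ⟪J₂, ξ⟫
  rw [specc_inner, hst, ← specc_quad h]
  have h1 := h.pos s t
  have h2 := (le_abs_self _).trans (specc_young hc (s • J₁ + t • J₂) ξ)
  rw [inner_add_left, real_inner_smul_left, real_inner_smul_left] at h2
  have hν : 0 < ‖cr E₁ E₂‖ := norm_pos_iff.2 h.ind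
  have h3 : k / ‖cr E₁ E₂‖ ^ 2 * (⟪cr E₁ E₂, ξ⟫ * ⟪cr E₁ E₂, ξ⟫) ≤ k * ‖ξ‖ ^ 2 := by
    have h4 := real_inner_mul_inner_self_le (cr E₁ E₂) ξ
    rw [real_inner_self_eq_norm_sq, real_inner_self_eq_norm_sq] at h4
    calc _ ≤ k / ‖cr E₁ E₂‖ ^ 2 * (‖cr E₁ E₂‖ ^ 2 * ‖ξ‖ ^ 2) :=
          mul_le_mul_of_nonneg_left h4 (by positivity)
      _ = k * ‖ξ‖ ^ 2 := by field_simp
  have h5 : 0 ≤ c * ‖s • E₁ + t • E₂‖ ^ 2 := by positivity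
  have e : (1 / c + k) * ‖ξ‖ ^ 2 = ‖ξ‖ ^ 2 / c + k * ‖ξ‖ ^ 2 := by ring
  rw [mul_add] at h1
  linarith

theorem specc_lower {c : ℝ} (hc : 0 < c) {E₁ E₂ J₁ J₂ : E3}
    (h : Cone c E₁ E₂ J₁ J₂) (ξ : E3) : c * ‖ξ‖ ^ 2 ≤ ⟪sigC (1 / c + c) E₁ E₂ J₁ J₂ ξ, ξ⟫ := by
  obtain ⟨s, t, r, hξ⟩ := exists_comb h.ind ξ
  have hν : 0 < ‖cr E₁ E₂‖ := norm_pos_iff.2 h.ind
  have h0 : ⟪cr E₁ E₂, s • E₁ + t • E₂⟫ = 0 := by
    rw [inner_add_right, real_inner_smul_right, real_inner_smul_right, inner_cr_left,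
      inner_cr_right]
    ring
  have h1 : ⟪cr E₁ E₂, ξ⟫ = r * ‖cr E₁ E₂‖ ^ 2 := by
    rw [hξ, inner_add_right, h0, real_inner_smul_right, real_inner_self_eq_norm_sq, zero_add]
  have h2 : ‖ξ‖ ^ 2 = ‖s • E₁ + t • E₂‖ ^ 2 + ‖r • cr E₁ E₂‖ ^ 2 := by
    rw [hξ, norm_add_sq_real, real_inner_smul_right, real_inner_comm, h0]
    ring
  have h3 := specc_var (specc_a_pos hc h) (h.det_pos hc) s t ⟪J₁, ξ⟫ ⟪J₂, ξ⟫
  have h4 : s * ⟪J₁, ξ⟫ + t * ⟪J₂, ξ⟫ = ⟪s • E₁ + t • E₂, s • J₁ + t • J₂⟫ +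
      ⟪s • J₁ + t • J₂, r • cr E₁ E₂⟫ := by
    rw [real_inner_comm (s • J₁ + t • J₂), ← inner_add_right, ← hξ, inner_add_left,
      real_inner_smul_left, real_inner_smul_left]
  rw [h4, ← specc_quad h] at h3
  have h5 := h.pos s t
  have h6 := (neg_le_abs _).trans (specc_young hc (s • J₁ + t • J₂) (r • cr E₁ E₂))
  have h7 : (1 / c + c) / ‖cr E₁ E₂‖ ^ 2 * (⟪cr E₁ E₂, ξ⟫ * ⟪cr E₁ E₂, ξ⟫) =
      ‖r • cr E₁ E₂‖ ^ 2 / c + c * ‖r • cr E₁ E₂‖ ^ 2 := by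
    rw [h1, norm_smul, mul_pow, Real.norm_eq_abs, sq_abs]
    field_simp
  rw [specc_inner, h7, h2]
  rw [mul_add] at h5 ⊢
  linarith

theorem sigC_spec {c : ℝ} (hc : 0 < c) : ∃ S k : ℝ, 1 ≤ S ∧ ∀ E₁ E₂ J₁ J₂ : E3, Cone c E₁ E₂ J₁ J₂ →
    Sym (sigC k E₁ E₂ J₁ J₂) ∧ EllS S (sigC k E₁ E₂ J₁ J₂) ∧ sigC k E₁ E₂ J₁ J₂ E₁ = J₁ ∧
      sigC k E₁ E₂ J₁ J₂ E₂ = J₂ := by
  have hk : 0 ≤ 1 / c + c := by positivity
  refine ⟨(1 / c + (1 / c + c)) + (1 / c + (1 / c + c)) ^ 2 / c ^ 3 + 1, 1 / c + c, ?_,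
    fun E₁ E₂ J₁ J₂ h => ?_⟩
  · have : 0 ≤ (1 / c + (1 / c + c)) + (1 / c + (1 / c + c)) ^ 2 / c ^ 3 := by positivity
    linarith
  have hs : Sym (sigC (1 / c + c) E₁ E₂ J₁ J₂) := by
    intro a b
    rw [real_inner_comm (sigC (1 / c + c) E₁ E₂ J₁ J₂ b), specc_inner, specc_inner]
    ring
  have hΔ := (h.det_pos hc).ne'
  refine ⟨hs, ell_of_bounds hc hs (specc_lower hc h) (specc_upper hc hk h), ?_, ?_⟩
  · refine ext_inner_right ℝ fun η => ?_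
    rw [specc_inner, inner_cr_left, real_inner_comm E₁ J₁, real_inner_comm E₁ J₂]
    field_simp
    ring
  · refine ext_inner_right ℝ fun η => ?_
    rw [specc_inner, inner_cr_right, real_inner_comm E₂ J₁, real_inner_comm E₂ J₂, ← h.sym]
    field_simp
    ring

theorem continuousAt_sigC {c : ℝ} (hc : 0 < c) (k : ℝ) {E₁ E₂ J₁ J₂ : E3 → E3} {x : E3}
    (h : Cone c (E₁ x) (E₂ x) (J₁ x) (J₂ x)) (h1 : ContinuousAt E₁ x) (h2 : ContinuousAt E₂ x)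
    (h3 : ContinuousAt J₁ x) (h4 : ContinuousAt J₂ x) :
    ContinuousAt (fun y => sigC k (E₁ y) (E₂ y) (J₁ y) (J₂ y)) x := by
  have htn : ∀ {f g : E3 → E3}, ContinuousAt f x → ContinuousAt g x →
      ContinuousAt (fun y => tn (f y) (g y)) x := fun {f g} hf hg =>
    ContinuousAt.comp (g := fun p : E3 × E3 => tn p.1 p.2) (f := fun y => (f y, g y))
      (contDiff_tn (n := 0)).continuous.continuousAt (hf.prodMk hg)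
  have hcr : ContinuousAt (fun y => cr (E₁ y) (E₂ y)) x :=
    ContinuousAt.comp (g := fun p : E3 × E3 => cr p.1 p.2) (f := fun y => (E₁ y, E₂ y))
      (contDiff_cr (n := 0)).continuous.continuousAt (h1.prodMk h2)
  have hν : ‖cr (E₁ x) (E₂ x)‖ ^ 2 ≠ 0 := pow_ne_zero _ (norm_ne_zero_iff.2 h.ind)
  have hΔ : ContinuousAt (fun y => ⟪E₁ y, J₁ y⟫ * ⟪E₂ y, J₂ y⟫ - ⟪E₁ y, J₂ y⟫ ^ 2) x :=
    ((h1.inner (𝕜 := ℝ) h3).mul (h2.inner (𝕜 := ℝ) h4)).sub ((h1.inner (𝕜 := ℝ) h4).pow 2)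
  have hT : ContinuousAt (fun y => ⟪E₂ y, J₂ y⟫ • tn (J₁ y) (J₁ y) -
      ⟪E₁ y, J₂ y⟫ • (tn (J₁ y) (J₂ y) + tn (J₂ y) (J₁ y)) + ⟪E₁ y, J₁ y⟫ • tn (J₂ y) (J₂ y)) x :=
    (((h2.inner (𝕜 := ℝ) h4).smul (htn h3 h3)).sub
      ((h1.inner (𝕜 := ℝ) h4).smul ((htn h3 h4).add (htn h4 h3)))).add ((h1.inner (𝕜 := ℝ) h3).smul (htn h4 h4))
  have hk : ContinuousAt (fun y => k / ‖cr (E₁ y) (E₂ y)‖ ^ 2) x :=
    continuousAt_const.div (hcr.norm.pow 2) hν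
  exact ((hΔ.inv₀ (h.det_pos hc).ne').smul hT).add (hk.smul (htn hcr hcr))

end Crest.Agent.R83
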