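import Crest.Agent.R83.Energy

/-!
# Row 83: a node gives a shield

* `exists_gamma`: `f x = if I true x ∈ Q then I true x else if I false x ∈ Q then I false x else x`,
  `g x = γ₀ x` if `x ∈ Q`, `I true x ∉ Q`, `I false x ∉ Q`, else `1`; `γ x = limsup (g (f^[n] x))`
  (`Measurable.limsup`, `Filter.limsup_nat_add`, `Function.iterate_succ_apply`).
* `WN`, `VN`: potentials and fields with unit sources on generation `N`.  Increments:
  `WN (N+2) - WN (N+1) = Σ_i up i (WN (N+1) - WN N)`, the two terms have disjoint supports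
  (`dis`, everything vanishes off `Q`): sup norms contract by `1/(2λ)`, squared `L²` norms by
  `2 · 1/(4λ)`.  Limit: `cauchySeq_of_le_geometric`, `exists_l2_lim`, `H1.lim`; replace the limit field
  by its indicator on `Q`.
* `kill_MN` (induction on `N`, generalizing `v, φ, L`): `N = 0`: `v φ = φ 0 · v + v (φ - φ 0)`, `lin`,
  `mbd`.  Step: `(v φ) ∘ S i = (v ∘ S i) (φ ∘ S i)`, `Kill.comp`, `m (v ∘ S i) = pr γ (E i) v + m v`.
* `tree`: `w = ε (G true - G false + up true W - up false W)`, same for the field `X`, and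
  `X_N` with `VN N` in place of `V`: `pr γ X_N ψ = MN N (ψ ∘ S true) - MN N (ψ ∘ S false)`,
  `nr (X - X_N) → 0`.  `ℓ n = m (u n) / m 1` (if `m 1 = 0` all `m ψ` vanish by `mbd`),
  `v n = u n - ℓ n`, `nr B ∇(v n φ)` is bounded.  `kill_MN` is applied to `v n ∘ S i`, `φ ∘ S i`.
-/

namespace Crest.Agent.R83

open MeasureTheory Set Metric Filter Topology
open scoped Gradient RealInnerProductSpace NNReal
open Crest.Agent.R80 (L2 nr)

noncomputable def Sim.up (s : Sim) (i : Bool) (f : E3 → ℝ) (x : E3) : ℝ := (2 * s.lam)⁻¹ * f (s.I i x)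

noncomputable def Sim.upF (s : Sim) (i : Bool) (F : E3 → E3) (x : E3) : E3 :=
  (2 * s.lam ^ 2)⁻¹ • s.O (F (s.I i x))

/-- average of `m` over generation `N` -/
noncomputable def MN (s : Sim) (m : (E3 → ℝ) → ℝ) : ℕ → (E3 → ℝ) → ℝ
  | 0, ψ => m ψ
  | N + 1, ψ => (MN s m N (ψ ∘ s.S true) + MN s m N (ψ ∘ s.S false)) / 2

noncomputable def WN (s : Sim) (G : Bool → E3 → ℝ) : ℕ → E3 → ℝ
  | 0, _ => 0
  | N + 1, x => G true x + G false x + (s.up true (WN s G N) x + s.up false (WN s G N) x)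

noncomputable def VN (s : Sim) (E : Bool → E3 → E3) : ℕ → E3 → E3
  | 0, _ => 0
  | N + 1, x => E true x + E false x + (s.upF true (VN s E N) x + s.upF false (VN s E N) x)

/-- the self-similar conductivity -/
structure SelfSim (s : Sim) (Q : Set E3) (γ₀ γ : E3 → ℝ) (S : ℝ) : Prop where
  cond : Cond S γ
  out : ∀ x, x ∉ Q → γ x = 1
  eq : ∀ x ∈ Q, s.I true x ∉ Q → s.I false x ∉ Q → γ x = γ₀ x
  sim : ∀ i, ∀ x ∈ Q, γ (s.S i x) = γ x

/-- the sequence `v` is asymptotically a solution, tested against fields living in `Q` -/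
def Kill (γ : E3 → ℝ) (Q : Set E3) (v : ℕ → E3 → ℝ) : Prop :=
  ∀ f F, H1 (ball 0 (5 / 2)) f F → (∀ x, x ∉ Q → F x = 0) →
    Tendsto (fun n => pr γ F (v n)) atTop (𝓝 0)

/-! ### part a: similarities -/

namespace Sim
variable {s : Sim}

theorem I_S (hl : 0 < s.lam) (i : Bool) (x : E3) : s.I i (s.S i x) = x := by
  simp [I, S, smul_smul, inv_mul_cancel₀ hl.ne']

theorem S_I (hl : 0 < s.lam) (i : Bool) (x : E3) : s.S i (s.I i x) = x := by
  simp [I, S, smul_smul, mul_inv_cancel₀ hl.ne']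

theorem contDiff_S (s : Sim) (i : Bool) {n : WithTop ℕ∞} : ContDiff ℝ n (s.S i) := by
  exact contDiff_const.add (s.O.contDiff.const_smul s.lam)

theorem contDiff_I (s : Sim) (i : Bool) {n : WithTop ℕ∞} : ContDiff ℝ n (s.I i) := by
  exact (s.O.symm.contDiff.comp (contDiff_id.sub contDiff_const)).const_smul s.lam⁻¹

theorem lip_S (s : Sim) (i : Bool) : Lip (s.S i) := by
  refine ⟨‖s.lam‖₊, LipschitzWith.of_dist_le_mul fun x y => le_of_eq ?_⟩
  rw [S, S, dist_add_left, dist_smul₀, s.O.dist_map, coe_nnnorm]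

theorem lip_I (s : Sim) (i : Bool) : Lip (s.I i) := by
  refine ⟨‖s.lam⁻¹‖₊, LipschitzWith.of_dist_le_mul fun x y => le_of_eq ?_⟩
  rw [I, I, dist_smul₀, s.O.symm.dist_map, dist_sub_right, coe_nnnorm]

theorem norm_S_sub (hl : 0 < s.lam) (i : Bool) (x y : E3) : ‖s.S i x - s.S i y‖ = s.lam * ‖x - y‖ := by
  rw [S, S, add_sub_add_left_eq_sub, ← smul_sub, ← map_sub, norm_smul, s.O.norm_map,
    Real.norm_of_nonneg hl.le]

theorem S_mem_ball (hl : 0 < s.lam) {i : Bool} (hp : ‖s.p i‖ ≤ (1 - s.lam) * (5 / 2)) {x : E3}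
    (hx : x ∈ ball (0 : E3) (5 / 2)) : s.S i x ∈ ball (0 : E3) (5 / 2) := by
  rw [mem_ball_zero_iff] at hx ⊢
  have h := norm_add_le (s.p i) (s.lam • s.O x)
  rw [norm_smul, s.O.norm_map, Real.norm_of_nonneg hl.le] at h
  exact h.trans_lt (by nlinarith)

theorem treea_grad {Φ Ψ : E3 → E3} {x : E3} (hΨ : DifferentiableAt ℝ Ψ (Φ x)) (h1 : ∀ y, Φ (Ψ y) = y)
    (h2 : Ψ (Φ x) = x) (c : ℝ) (O : E3 ≃ₗᵢ[ℝ] E3) (hΦ : HasFDerivAt Φ (c • (O : E3 →L[ℝ] E3)) x)
    (ψ : E3 → ℝ) : ∇ (ψ ∘ Φ) x = c • O.symm (∇ ψ (Φ x)) := by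
  by_cases h : DifferentiableAt ℝ ψ (Φ x)
  · refine ext_inner_right ℝ fun v => ?_
    rw [inner_grad, (h.hasFDerivAt.comp x hΦ).fderiv, real_inner_smul_left, O.symm.inner_map_eq_flip]
    simp
  · have h' : ¬ DifferentiableAt ℝ (ψ ∘ Φ) x := fun h' => h (by
      rw [← h2] at h'
      simpa only [Function.comp_def, h1] using h'.comp (Φ x) hΨ)
    rw [gradient_eq_zero_of_not_differentiableAt h, gradient_eq_zero_of_not_differentiableAt h',
      map_zero, smul_zero]

/-- no differentiability needed: `S i` is an affine equivalence -/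
theorem grad_comp_S (hl : 0 < s.lam) (i : Bool) (ψ : E3 → ℝ) (x : E3) :
    ∇ (ψ ∘ s.S i) x = s.lam • s.O.symm (∇ ψ (s.S i x)) := by
  refine treea_grad (Ψ := s.I i) ((s.contDiff_I i (n := 1)).differentiable one_ne_zero _) (S_I hl i)
    (I_S hl i x) s.lam s.O ?_ ψ
  exact (((s.O : E3 →L[ℝ] E3).hasFDerivAt).const_smul s.lam).const_add (s.p i)

theorem grad_comp_I (hl : 0 < s.lam) (i : Bool) (ψ : E3 → ℝ) (x : E3) :
    ∇ (ψ ∘ s.I i) x = s.lam⁻¹ • s.O (∇ ψ (s.I i x)) := by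
  refine treea_grad (Ψ := s.S i) ((s.contDiff_S i (n := 1)).differentiable one_ne_zero _) (I_S hl i)
    (S_I hl i x) s.lam⁻¹ s.O.symm ?_ ψ
  exact (((s.O.symm : E3 →L[ℝ] E3).hasFDerivAt.comp x
    ((hasFDerivAt_id x).sub_const (s.p i))).const_smul s.lam⁻¹)

/-- `I i` as a homeomorphism -/
noncomputable def treea_homeo (hl : 0 < s.lam) (i : Bool) : E3 ≃ₜ E3 where
  toFun := s.I i
  invFun := s.S i
  left_inv := S_I hl i
  right_inv := I_S hl i
  continuous_toFun := (s.contDiff_I i (n := 0)).continuous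
  continuous_invFun := (s.contDiff_S i (n := 0)).continuous

theorem treea_mp (hl : 0 < s.lam) (i : Bool) :
    MeasurePreserving (s.I i) volume (ENNReal.ofReal (s.lam ^ 3) • volume) := by
  have h1 : MeasurePreserving (fun x : E3 => s.lam⁻¹ • x) volume (ENNReal.ofReal (s.lam ^ 3) • volume) := by
    refine ⟨by fun_prop, ?_⟩
    rw [Measure.map_addHaar_smul _ (inv_pos.2 hl).ne', finrank_euclideanSpace_fin, inv_pow, inv_inv,
      abs_of_nonneg (by positivity)]
  exact h1.comp (s.O.symm.measurePreserving.comp (measurePreserving_sub_right volume (s.p i)))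

/-- `Measure.integral_comp_smul`, `integral_add_left_eq_self`, `LinearIsometryEquiv.measurePreserving` -/
theorem integral_comp_I (hl : 0 < s.lam) (i : Bool) (h : E3 → ℝ) :
    ∫ x, h (s.I i x) = s.lam ^ 3 * ∫ x, h x := by
  rw [(treea_mp hl i).integral_comp (treea_homeo hl i).measurableEmbedding, integral_smul_measure,
    ENNReal.toReal_ofReal (by positivity), smul_eq_mul]

theorem ae_comp_I (hl : 0 < s.lam) (i : Bool) {P : E3 → Prop} (h : ∀ᵐ x : E3, P x) :
    ∀ᵐ x : E3, P (s.I i x) := by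
  exact (treea_mp hl i).quasiMeasurePreserving.ae (Measure.ae_smul_measure h _)

theorem l2_upF (hl : 0 < s.lam) (i : Bool) {F : E3 → E3} (hF : L2 univ F) :
    L2 univ (s.upF i F) ∧ nr univ (s.upF i F) ^ 2 = (4 * s.lam)⁻¹ * nr univ F ^ 2 := by
  have h1 : L2 univ (s.upF i F) := by
    unfold L2 at hF ⊢
    rw [Measure.restrict_univ] at hF ⊢
    exact ((s.O : E3 →L[ℝ] E3).comp_memLp' ((hF.smul_measure ENNReal.ofReal_ne_top).comp_measurePreserving
      (treea_mp hl i))).const_smul (2 * s.lam ^ 2)⁻¹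
  refine ⟨h1, ?_⟩
  rw [R80.nr_sq h1, R80.nr_sq hF, Measure.restrict_univ]
  have e : ∀ x, ‖s.upF i F x‖ ^ 2 = ((2 * s.lam ^ 2)⁻¹) ^ 2 * ‖F (s.I i x)‖ ^ 2 := fun x => by
    rw [upF, norm_smul, s.O.norm_map, mul_pow, Real.norm_eq_abs, sq_abs]
  simp only [e]
  rw [integral_const_mul, integral_comp_I hl i fun y => ‖F y‖ ^ 2]
  field_simp
  ring

theorem upF_sub (s : Sim) (i : Bool) (F G : E3 → E3) (x : E3) :
    s.upF i (fun y => F y - G y) x = s.upF i F x - s.upF i G x := by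
  simp only [upF, map_sub, smul_sub]

theorem h1_up (hl : 0 < s.lam) {i : Bool} (hp : ‖s.p i‖ ≤ (1 - s.lam) * (5 / 2)) {f : E3 → ℝ}
    {F : E3 → E3} (h : H1 (ball 0 (5 / 2)) f F) : H1 (ball 0 (5 / 2)) (s.up i f) (s.upF i F) := by
  refine ⟨(l2_upF hl i h.l2).1, fun δ hδ => ?_⟩
  have hm : 0 < min (2 * s.lam) 1 := lt_min (by positivity) one_pos
  have hm1 := min_le_left (2 * s.lam) 1
  have hm2 := min_le_right (2 * s.lam) 1
  set μ := min (2 * s.lam) 1
  obtain ⟨g, g1, g2, g3, g4, g5⟩ := h.apx (μ * δ) (by positivity)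
  refine ⟨s.up i g, contDiff_const.mul (g1.comp (s.contDiff_I i)),
    (g2.comp_homeomorph (treea_homeo hl i)).mul_left, fun x hx => ?_, fun x => ?_, ?_⟩
  · have h1 := tsupport_comp_subset_preimage g (s.contDiff_I i (n := 0)).continuous
      (tsupport_mul_subset_right hx)
    rw [← S_I hl i x]
    exact S_mem_ball hl hp (g3 h1)
  · rw [up, up, ← mul_sub, abs_mul, abs_of_pos (by positivity), inv_mul_le_iff₀ (by positivity)]
    exact (g4 _).trans (mul_le_mul_of_nonneg_right hm1 hδ.le)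
  · have e : (fun x => ∇ (s.up i g) x - s.upF i F x) = s.upF i fun y => ∇ g y - F y := by
      funext x
      have h1 := grad_affine (2 * s.lam)⁻¹ 0 (g ∘ s.I i) x
      simp only [add_zero] at h1
      rw [upF_sub, show ∇ (s.up i g) x = _ from h1, grad_comp_I hl, smul_smul, ← mul_inv, mul_assoc, ← sq]
      rfl
    have h2 := (l2_upF hl i ((l2_grad_cs g1 g2).sub' h.l2)).2
    have h3 := pow_le_pow_left₀ (R80.nr_nonneg _ _) g5 2
    rw [e]
    refine le_of_sq_le_sq (h2.trans_le ?_) hδ.le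
    rw [inv_mul_le_iff₀ (by positivity)]
    refine h3.trans ?_
    rw [mul_pow]
    exact mul_le_mul_of_nonneg_right (by nlinarith) (sq_nonneg δ)

theorem pr_upF (hl : 0 < s.lam) (i : Bool) {Q : Set E3} {γ : E3 → ℝ}
    (hγ : ∀ x ∈ Q, γ (s.S i x) = γ x) {F : E3 → E3} (hF : ∀ x, x ∉ Q → F x = 0) (ψ : E3 → ℝ) :
    pr γ (s.upF i F) ψ = pr γ F (ψ ∘ s.S i) / 2 := by
  have e : ∀ x, γ x * ⟪s.upF i F x, ∇ ψ x⟫ = (2 * s.lam ^ 3)⁻¹ *
      (γ (s.I i x) * ⟪F (s.I i x), ∇ (ψ ∘ s.S i) (s.I i x)⟫) := by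
    intro x
    by_cases hx : s.I i x ∈ Q
    · rw [← hγ _ hx, grad_comp_S hl, S_I hl, upF, real_inner_smul_left, real_inner_smul_right,
        s.O.inner_map_eq_flip]
      field_simp
    · simp [upF, hF _ hx]
  simp only [pr, e]
  rw [integral_const_mul, integral_comp_I hl i fun y => γ y * ⟪F y, ∇ (ψ ∘ s.S i) y⟫]
  field_simp

end Sim

variable {s : Sim} {Q : Set E3} {γ₀ γ : E3 → ℝ} {G : Bool → E3 → ℝ} {E : Bool → E3 → E3}
  {m : (E3 → ℝ) → ℝ} {S : ℝ}

/-! ### part b -/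

theorem exists_gamma (h : Node s Q γ₀ G E m) : ∃ γ S, SelfSim s Q γ₀ γ S := by
  classical
  have hl : 0 < s.lam := by linarith [h.l1]
  obtain ⟨S, hS, hb⟩ := h.bd
  let f : E3 → E3 := fun x =>
    if s.I true x ∈ Q then s.I true x else if s.I false x ∈ Q then s.I false x else x
  let g : E3 → ℝ := fun x => if x ∈ Q ∧ s.I true x ∉ Q ∧ s.I false x ∉ Q then γ₀ x else 1
  have hI : ∀ i, Measurable (s.I i) := fun i => (s.contDiff_I i (n := 0)).continuous.measurable
  have hf : Measurable f :=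
    Measurable.ite (hI true h.mQ) (hI true) (Measurable.ite (hI false h.mQ) (hI false) measurable_id)
  have hg : Measurable g :=
    Measurable.ite (h.mQ.inter ((hI true h.mQ).compl.inter (hI false h.mQ).compl)) h.meas
      measurable_const
  have hgb : ∀ x, S⁻¹ ≤ g x ∧ g x ≤ S := fun x => by
    simp only [g]
    split_ifs
    · exact hb x
    · exact ⟨inv_le_one_of_one_le₀ hS, hS⟩
  let γ : E3 → ℝ := fun x => limsup (fun n => g (f^[n] x)) atTop
  have h1 : ∀ x, γ (f x) = γ x := fun x => limsup_nat_add (fun n => g (f^[n] x)) 1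
  have h2 : ∀ x, s.I true x ∉ Q → s.I false x ∉ Q → γ x = g x := fun x ht hf => by
    have : f x = x := by simp only [f, if_neg ht, if_neg hf]
    simp only [γ, Function.iterate_fixed this, limsup_const]
  refine ⟨γ, S, ⟨hS, Measurable.limsup fun n => hg.comp (hf.iterate n), fun x => ⟨?_, ?_⟩⟩,
    fun x hx => ?_, fun x hx ht hf => ?_, fun i x hx => ?_⟩
  · exact le_limsup_of_frequently_le (Frequently.of_forall fun n => (hgb _).1)
      (isBoundedUnder_of ⟨S, fun n => (hgb _).2⟩)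
  · exact limsup_le_of_le (isCoboundedUnder_le_of_le atTop fun n => (hgb _).1)
      (Eventually.of_forall fun n => (hgb _).2)
  · rw [h2 x (fun h' => hx (h.sub _ _ h')) fun h' => hx (h.sub _ _ h')]
    exact if_neg fun h' => hx h'.1
  · rw [h2 x ht hf]
    exact if_pos ⟨hx, ht, hf⟩
  · have e : s.I i (s.S i x) = x := Sim.I_S hl i x
    have e' : f (s.S i x) = x := by
      cases i
      · have : s.I true (s.S false x) ∉ Q := fun h' => h.dis _ h' (e.symm ▸ hx)
        simp only [f, if_neg this, e, if_pos hx]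
      · simp only [f, e, if_pos hx]
    rw [← h1, e']

theorem Node.flux' (h : Node s Q γ₀ G E m) (hγ : SelfSim s Q γ₀ γ S) (i : Bool) {ψ : E3 → ℝ}
    (hψ : ContDiff ℝ 1 ψ) : pr γ (E i) ψ = m (ψ ∘ s.S i) - m ψ := by
  rw [← h.flux i ψ hψ]
  refine pr_congr (fun x => ?_) ψ
  by_cases hx : x ∉ Q ∨ s.I true x ∈ Q ∨ s.I false x ∈ Q
  · exact Or.inl (h.E0 i x hx)
  · push Not at hx
    exact Or.inr (hγ.eq x hx.1 hx.2.1 hx.2.2)

theorem Kill.comp (h : Node s Q γ₀ G E m) (hγ : SelfSim s Q γ₀ γ S) {v : ℕ → E3 → ℝ}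
    (hv : Kill γ Q v) (i : Bool) : Kill γ Q fun n => v n ∘ s.S i := by
  intro f F hF h0
  have hl : 0 < s.lam := by linarith [h.l1]
  have h1 := (hv _ _ (Sim.h1_up hl (h.hp i) hF) fun x hx => by
    rw [Sim.upF, h0 _ fun h' => hx (h.sub _ _ h'), map_zero, smul_zero]).const_mul 2
  rw [mul_zero] at h1
  refine h1.congr fun n => ?_
  rw [Sim.pr_upF hl i (hγ.sim i) h0]
  ring

theorem kill_MN (h : Node s Q γ₀ G E m) (hγ : SelfSim s Q γ₀ γ S) (N : ℕ) {M : ℝ} (hM : 0 ≤ M)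
    {v : ℕ → E3 → ℝ} (hv : ∀ n, ContDiff ℝ 1 (v n)) (hb : ∀ n, ∀ x ∈ Q, |v n x| ≤ M)
    (hk : Kill γ Q v) (h0 : Tendsto (fun n => m (v n)) atTop (𝓝 0)) {φ : E3 → ℝ} {L : ℝ} (hL : 0 ≤ L)
    (hφ : ContDiff ℝ 1 φ)
    (hl : ∀ x ∈ ball (0 : E3) (5 / 2), ∀ y ∈ ball (0 : E3) (5 / 2), |φ x - φ y| ≤ L * ‖x - y‖)
    {ε : ℝ} (hε : 0 < ε) :
    ∀ᶠ n in atTop, |MN s m N fun x => v n x * φ x| ≤ (m fun _ => 1) * (M * (3 * L * s.lam ^ N)) + ε := by
  have hl0 : 0 < s.lam := by linarith [h.l1]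
  induction N generalizing v φ L with
  | zero =>
    have h1 : Tendsto (fun n => |φ 0 * m (v n)|) atTop (𝓝 0) := by
      simpa using (h0.const_mul (φ 0)).abs
    filter_upwards [h1.eventually (ge_mem_nhds hε)] with n hn
    have hc : ContDiff ℝ 1 fun x => v n x * (φ x - φ 0) := (hv n).mul (hφ.sub contDiff_const)
    have e : (fun x => v n x * φ x) = fun x => φ 0 * v n x + 1 * (v n x * (φ x - φ 0)) := by
      funext x; ring
    have h2 := h.mbd _ (M * (3 * L)) hc fun x hx => by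
      have hx' : ‖x‖ < 9 / 4 := mem_ball_zero_iff.1 (h.Qb hx)
      have h3 := hl x (mem_ball_zero_iff.2 (by linarith)) 0 (mem_ball_self (by norm_num))
      rw [sub_zero] at h3
      rw [abs_mul]
      exact mul_le_mul (hb n x hx) (h3.trans (by nlinarith)) (abs_nonneg _) hM
    rw [MN, e, h.lin _ _ _ _ (hv n) hc, one_mul, pow_zero, mul_one]
    linarith [abs_add_le (φ 0 * m (v n)) (m fun x => v n x * (φ x - φ 0))]
  | succ N ih =>
    have key : ∀ i, ∀ᶠ n in atTop, |MN s m N ((fun x => v n x * φ x) ∘ s.S i)| ≤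
        (m fun _ => 1) * (M * (3 * (L * s.lam) * s.lam ^ N)) + ε := fun i => by
      refine ih (v := fun n => v n ∘ s.S i) (φ := φ ∘ s.S i) (fun n => (hv n).comp (s.contDiff_S i))
        (fun n x hx => hb n _ (h.sub i _ ((Sim.I_S hl0 i x).symm ▸ hx))) (hk.comp h hγ i) ?_
        (by positivity) (hφ.comp (s.contDiff_S i)) fun x hx y hy => ?_
      · have h1 := (hk _ _ (h.h1 i) fun x hx => h.E0 i x (Or.inl hx)).add h0
        rw [add_zero] at h1
        refine h1.congr fun n => ?_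
        rw [h.flux' hγ i (hv n), sub_add_cancel]
      · have := hl _ (Sim.S_mem_ball hl0 (h.hp i) hx) _ (Sim.S_mem_ball hl0 (h.hp i) hy)
        rwa [Sim.norm_S_sub hl0, ← mul_assoc] at this
    filter_upwards [key true, key false] with n h1 h2
    have e : 3 * L * s.lam ^ (N + 1) = 3 * (L * s.lam) * s.lam ^ N := by ring
    rw [MN, e, abs_div, abs_two]
    linarith [abs_add_le (MN s m N ((fun x => v n x * φ x) ∘ s.S true))
      (MN s m N ((fun x => v n x * φ x) ∘ s.S false))]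

/-! ### part c -/

theorem treec_pos (h : Node s Q γ₀ G E m) : 0 < s.lam := by linarith [h.l1]

theorem treec_out (h : Node s Q γ₀ G E m) {x : E3} (hx : x ∉ ball (0 : E3) 3) : x ∉ Q :=
  fun hq => hx (ball_subset_ball (by norm_num) (h.Qb hq))

theorem treec_upF (i : Bool) {F : E3 → E3} (hF : ∀ x, x ∉ Q → F x = 0)
    {x : E3} (hx : s.I i x ∉ Q) : s.upF i F x = 0 := by
  simp [Sim.upF, hF _ hx]

theorem WN_zero (h : Node s Q γ₀ G E m) (N : ℕ) {x : E3} (hx : x ∉ Q) :
    WN s G N x = 0 ∧ VN s E N x = 0 := by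
  induction N generalizing x with
  | zero => exact ⟨rfl, rfl⟩
  | succ N ih =>
    have h1 : ∀ i, s.I i x ∉ Q := fun i hi => hx (h.sub i x hi)
    constructor
    · simp [WN, Sim.up, h.G0 _ x hx, (ih (h1 _)).1]
    · simp [VN, Sim.upF, h.E0 _ x (Or.inl hx), (ih (h1 _)).2]

theorem h1_WN (h : Node s Q γ₀ G E m) (N : ℕ) : H1 (ball 0 (5 / 2)) (WN s G N) (VN s E N) := by
  induction N with
  | zero => exact H1.zero _
  | succ N ih =>
    exact ((h.h1 true).add (h.h1 false)).add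
      ((Sim.h1_up (treec_pos h) (h.hp true) ih).add (Sim.h1_up (treec_pos h) (h.hp false) ih))

theorem pr_VN (h : Node s Q γ₀ G E m) (hγ : SelfSim s Q γ₀ γ S) (N : ℕ) {ψ : E3 → ℝ}
    (hψ : ContDiff ℝ 1 ψ) : pr γ (VN s E N) ψ = 2 * (MN s m N ψ - m ψ) := by
  induction N generalizing ψ with
  | zero => simp [pr, VN, MN]
  | succ N ih =>
    have hl := treec_pos h
    have hV : ∀ x, x ∉ Q → VN s E N x = 0 := fun x hx => (WN_zero h N hx).2
    have hE : ∀ i x, x ∉ ball (0 : E3) 3 → E i x = 0 := fun i x hx => h.E0 i x (Or.inl (treec_out h hx))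
    have hU : ∀ i x, x ∉ ball (0 : E3) 3 → s.upF i (VN s E N) x = 0 := fun i x hx =>
      treec_upF i hV fun hi => treec_out h hx (h.sub i x hi)
    have hL : ∀ i, L2 univ (s.upF i (VN s E N)) := fun i => (Sim.l2_upF hl i (h1_WN h N).l2).1
    have e : VN s E (N + 1) = fun x => (E true x + E false x) +
        (s.upF true (VN s E N) x + s.upF false (VN s E N) x) := rfl
    rw [e, pr_add hγ.cond ((h.h1 true).l2.add' (h.h1 false).l2) ((hL true).add' (hL false))
        (fun x hx => by rw [hE _ x hx, hE _ x hx, add_zero])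
        (fun x hx => by rw [hU _ x hx, hU _ x hx, add_zero]) hψ,
      pr_add hγ.cond (h.h1 true).l2 (h.h1 false).l2 (hE _) (hE _) hψ,
      pr_add hγ.cond (hL true) (hL false) (hU _) (hU _) hψ,
      h.flux' hγ true hψ, h.flux' hγ false hψ, Sim.pr_upF hl true (hγ.sim true) hV,
      Sim.pr_upF hl false (hγ.sim false) hV, ih (hψ.comp (s.contDiff_S true)),
      ih (hψ.comp (s.contDiff_S false))]
    simp only [MN]
    ring

theorem treec_W (h : Node s Q γ₀ G E m) : ∃ M : ℝ, ∀ N x,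
    |WN s G N x - WN s G (N + 1) x| ≤ M * ((2 * s.lam)⁻¹) ^ N := by
  obtain ⟨M, hM⟩ := ((h1_WN h 0).sub (h1_WN h 1)).bounded
  have hθ : 0 < (2 * s.lam)⁻¹ := by have := treec_pos h; positivity
  refine ⟨M, fun N => ?_⟩
  induction N with
  | zero => simpa using hM
  | succ N ih =>
    intro x
    have e : WN s G (N + 1) x - WN s G (N + 1 + 1) x =
        (2 * s.lam)⁻¹ * ((WN s G N (s.I true x) - WN s G (N + 1) (s.I true x)) +
          (WN s G N (s.I false x) - WN s G (N + 1) (s.I false x))) := by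
      rw [WN, WN.eq_2 s G x (N + 1)]
      simp only [Sim.up]
      ring
    rw [e, abs_mul, abs_of_pos hθ, pow_succ, ← mul_assoc, mul_comm]
    refine mul_le_mul_of_nonneg_right ?_ hθ.le
    by_cases hx : s.I true x ∈ Q
    · rw [(WN_zero h N (h.dis x hx)).1, (WN_zero h (N + 1) (h.dis x hx)).1, sub_zero, add_zero]
      exact ih _
    · rw [(WN_zero h N hx).1, (WN_zero h (N + 1) hx).1, sub_zero, zero_add]
      exact ih _

theorem treec_V (h : Node s Q γ₀ G E m) : ∃ M : ℝ, ∀ N,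
    nr univ (fun x => VN s E N x - VN s E (N + 1) x) ≤ M * Real.sqrt (2 * s.lam)⁻¹ ^ N := by
  have hl := treec_pos h
  have hθ : 0 < (2 * s.lam)⁻¹ := by positivity
  refine ⟨nr univ fun x => VN s E 0 x - VN s E 1 x, fun N => ?_⟩
  induction N with
  | zero => simp
  | succ N ih =>
    set d : E3 → E3 := fun x => VN s E N x - VN s E (N + 1) x with hd
    have hd2 : L2 univ d := (h1_WN h N).l2.sub' (h1_WN h (N + 1)).l2
    have hd0 : ∀ x, x ∉ Q → d x = 0 := fun x hx => by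
      simp only [hd, (WN_zero h N hx).2, (WN_zero h (N + 1) hx).2, sub_zero]
    have e : (fun x => VN s E (N + 1) x - VN s E (N + 1 + 1) x) =
        fun x => s.upF true d x + s.upF false d x := by
      funext x
      rw [hd, Sim.upF_sub, Sim.upF_sub, VN, VN.eq_2 s E x (N + 1)]
      abel
    obtain ⟨a1, a2⟩ := Sim.l2_upF hl true hd2
    obtain ⟨b1, b2⟩ := Sim.l2_upF hl false hd2
    have key : nr univ (fun x => s.upF true d x + s.upF false d x) ^ 2 = (2 * s.lam)⁻¹ * nr univ d ^ 2 := by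
      have e2 : (2 * s.lam)⁻¹ * nr univ d ^ 2 =
          nr univ (s.upF true d) ^ 2 + nr univ (s.upF false d) ^ 2 := by
        rw [a2, b2]
        field_simp
        ring
      rw [e2, R80.nr_sq (a1.add' b1), R80.nr_sq a1, R80.nr_sq b1,
        ← integral_add a1.integrableOn_sq b1.integrableOn_sq]
      refine integral_congr_ae (Eventually.of_forall fun x => ?_)
      by_cases hx : s.I true x ∈ Q
      · simp [treec_upF false hd0 (h.dis x hx)]
      · simp [treec_upF true hd0 hx]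
    have key2 : nr univ (fun x => s.upF true d x + s.upF false d x) =
        Real.sqrt (2 * s.lam)⁻¹ * nr univ d := by
      rw [← Real.sqrt_sq (R80.nr_nonneg univ fun x => s.upF true d x + s.upF false d x), key,
        Real.sqrt_mul hθ.le, Real.sqrt_sq (R80.nr_nonneg _ _)]
    rw [e, key2, pow_succ, ← mul_assoc, mul_comm]
    exact mul_le_mul_of_nonneg_right ih (Real.sqrt_nonneg _)

theorem exists_WV (h : Node s Q γ₀ G E m) : ∃ (W : E3 → ℝ) (V : E3 → E3), H1 (ball 0 (5 / 2)) W V ∧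
    (∀ x, x ∉ Q → W x = 0 ∧ V x = 0) ∧
      Tendsto (fun N => nr univ fun x => VN s E N x - V x) atTop (𝓝 0) := by
  have hl := treec_pos h
  have hθ : 0 < (2 * s.lam)⁻¹ := by positivity
  have hθ1 : (2 * s.lam)⁻¹ < 1 := inv_lt_one_of_one_lt₀ (by linarith [h.l1])
  have hρ1 : Real.sqrt (2 * s.lam)⁻¹ < 1 := by
    rw [Real.sqrt_lt' one_pos, one_pow]
    exact hθ1
  obtain ⟨M, hM⟩ := treec_W h
  obtain ⟨M', hM'⟩ := treec_V h
  have hd : ∀ x N, dist (WN s G N x) (WN s G (N + 1) x) ≤ M * ((2 * s.lam)⁻¹) ^ N := fun x N => hM N x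
  choose W hW using fun x => cauchySeq_tendsto_of_complete (cauchySeq_of_le_geometric _ M hθ1 (hd x))
  have hL : ∀ N, L2 univ (VN s E N) := fun N => (h1_WN h N).l2
  have key : ∀ a b, nr univ (fun x => VN s E a x - VN s E b x) =
      dist ((hL a).toLp _) ((hL b).toLp _) := fun a b => by
    rw [dist_eq_norm, ← MemLp.toLp_sub, ← R80.nr_eq_norm_toLp]
    rfl
  have hc : CauchySeq fun N => (hL N).toLp _ :=
    cauchySeq_of_le_geometric _ M' hρ1 fun N => by rw [← key]; exact hM' N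
  obtain ⟨V, hV, hlim⟩ := exists_l2_lim hL fun ε hε => by
    obtain ⟨N, hN⟩ := Metric.cauchySeq_iff.1 hc ε hε
    exact ⟨N, fun a ha b hb => by rw [key]; exact (hN a ha b hb).le⟩
  have hlim' : Tendsto (fun N => nr univ fun x => VN s E N x - Q.indicator V x) atTop (𝓝 0) := by
    refine squeeze_zero (fun N => R80.nr_nonneg _ _) (fun N => ?_) hlim
    have e : (fun x => VN s E N x - Q.indicator V x) = Q.indicator fun x => VN s E N x - V x := by
      funext x
      by_cases hx : x ∈ Q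
      · simp [hx]
      · simp [hx, (WN_zero h N hx).2]
    rw [e, R80.nr_indicator h.mQ]
    exact R80.nr_mono_set (subset_univ _) ((hL N).sub' hV)
  refine ⟨W, Q.indicator V, H1.lim (h1_WN h) (hV.indicator' h.mQ) (fun δ hδ => ?_) hlim',
    fun x hx => ⟨?_, indicator_of_notMem hx _⟩, hlim'⟩
  · have h1 : Tendsto (fun N : ℕ => M * ((2 * s.lam)⁻¹) ^ N / (1 - (2 * s.lam)⁻¹)) atTop (𝓝 0) := by
      simpa using ((tendsto_pow_atTop_nhds_zero_of_lt_one hθ.le hθ1).const_mul M).div_const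
        (1 - (2 * s.lam)⁻¹)
    filter_upwards [h1.eventually (ge_mem_nhds hδ)] with N hN x
    exact (dist_le_of_le_geometric_of_tendsto _ M hθ1 (hd x) (hW x) N).trans hN
  · refine tendsto_nhds_unique (hW x) ?_
    simp only [(WN_zero h _ hx).1]
    exact tendsto_const_nhds

/-! ### part d -/

theorem treed_up0 (h : Node s Q γ₀ G E m) {V : E3 → E3} (hV : ∀ x, x ∉ Q → V x = 0) (i : Bool)
    (x : E3) (hx : x ∉ Q) : s.upF i V x = 0 := by
  rw [Sim.upF, hV _ fun h' => hx (h.sub i x h'), map_zero, smul_zero]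

theorem treed_Q (h : Node s Q γ₀ G E m) {r : ℝ} (hr : 9 / 4 ≤ r) {x : E3}
    (hx : x ∉ ball (0 : E3) r) : x ∉ Q := fun h' => hx (ball_subset_ball hr (h.Qb h'))

theorem treed_bd {v : ℕ → E3 → ℝ} {M C : ℝ} (hM : 0 ≤ M) (hv : ∀ n, ContDiff ℝ 1 (v n))
    (hb : ∀ n, ∀ x ∈ ball (0 : E3) 3, |v n x| ≤ M) (hC : ∀ n, nr (ball 0 3) (∇ (v n)) ≤ C)
    {φ : E3 → ℝ} (hφ : ContDiff ℝ 1 φ) :
    ∃ C' : ℝ, ∀ n, nr (ball 0 3) (∇ fun x => v n x * φ x) ≤ C' := by
  obtain ⟨K, hK⟩ := R80.L2_bound (isBounded_ball (x := (0 : E3)) (r := 3)) hφ.continuous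
  have hK0 : 0 ≤ K := (norm_nonneg _).trans (hK 0 (mem_ball_self (by norm_num)))
  refine ⟨M * nr (ball 0 3) (∇ φ) + K * C, fun n => ?_⟩
  have e : (∇ fun x => v n x * φ x) = fun x => v n x • ∇ φ x + φ x • ∇ (v n) x :=
    funext fun x => grad_mul ((hv n).differentiable one_ne_zero x) (hφ.differentiable one_ne_zero x)
  have l1 := l2_grad measurableSet_ball (isBounded_ball (x := (0 : E3)) (r := 3)) hφ
  have l2 := l2_grad measurableSet_ball (isBounded_ball (x := (0 : E3)) (r := 3)) (hv n)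
  have a1 : nr (ball (0 : E3) 3) (fun x => v n x • ∇ φ x) ≤ M * nr (ball 0 3) (∇ φ) :=
    R80.nr_le_mul_of_le measurableSet_ball l1 hM (Eventually.of_forall fun x hx => by
      rw [norm_smul]; exact mul_le_mul_of_nonneg_right (hb n x hx) (norm_nonneg _))
  have a2 : nr (ball (0 : E3) 3) (fun x => φ x • ∇ (v n) x) ≤ K * nr (ball 0 3) (∇ (v n)) :=
    R80.nr_le_mul_of_le measurableSet_ball l2 hK0 (Eventually.of_forall fun x hx => by
      rw [norm_smul]; exact mul_le_mul_of_nonneg_right (hK x hx) (norm_nonneg _))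
  have a3 := R80.nr_add_le
    (R80.L2.of_continuous measurableSet_ball (isBounded_ball (x := (0 : E3)) (r := 3))
      ((hv n).continuous.smul (continuous_grad hφ)))
    (R80.L2.of_continuous measurableSet_ball (isBounded_ball (x := (0 : E3)) (r := 3))
      (hφ.continuous.smul (continuous_grad (hv n))))
  have a4 := mul_le_mul_of_nonneg_left (hC n) hK0
  rw [e]
  exact a3.trans (add_le_add a1 (a2.trans a4))

theorem treed_lip {φ : E3 → ℝ} (hφ : ContDiff ℝ 1 φ) : ∃ L : ℝ, 0 ≤ L ∧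
    ∀ x ∈ ball (0 : E3) (5 / 2), ∀ y ∈ ball (0 : E3) (5 / 2), |φ x - φ y| ≤ L * ‖x - y‖ := by
  obtain ⟨K, hK⟩ := (hφ.locallyLipschitz.locallyLipschitzOn
    (s := closedBall (0 : E3) (5 / 2))).exists_lipschitzOnWith_of_compact (isCompact_closedBall _ _)
  refine ⟨K, K.coe_nonneg, fun x hx y hy => ?_⟩
  have := hK.dist_le_mul x (ball_subset_closedBall hx) y (ball_subset_closedBall hy)
  rwa [Real.dist_eq, dist_eq_norm] at this

theorem treed_pr (h : Node s Q γ₀ G E m) (hγ : SelfSim s Q γ₀ γ S) {V : E3 → E3} (hl : L2 univ V)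
    (hV : ∀ x, x ∉ Q → V x = 0) (i : Bool) (N : ℕ) {ψ : E3 → ℝ} (hψ : ContDiff ℝ 1 ψ) :
    |pr γ (fun x => E i x + s.upF i V x) ψ + m ψ| ≤ |MN s m N (ψ ∘ s.S i)| +
      S * (nr univ (fun x => VN s E N x - V x) * nr (ball 0 3) (∇ ψ)) := by
  have hlam : 0 < s.lam := by linarith [h.l1]
  have hN := (h1_WN h N).l2
  have hN0 : ∀ x, x ∉ Q → VN s E N x = 0 := fun x hx => (WN_zero h N hx).2
  have hD0 : ∀ x, x ∉ Q → VN s E N x - V x = 0 := fun x hx => by rw [hN0 x hx, hV x hx, sub_zero]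
  have z : ∀ {F : E3 → E3}, (∀ x, x ∉ Q → F x = 0) → ∀ x, x ∉ ball (0 : E3) 3 → s.upF i F x = 0 :=
    fun hF x hx => treed_up0 h hF i x (treed_Q h (by norm_num) hx)
  have e1 := pr_add hγ.cond (h.h1 i).l2 (Sim.l2_upF hlam i hl).1
    (fun x hx => h.E0 i x (Or.inl (treed_Q h (by norm_num) hx))) (z hV) hψ
  have e2 := h.flux' hγ i hψ
  have e3 := Sim.pr_upF hlam i (hγ.sim i) hN0 ψ
  have e4 := pr_VN h hγ N (hψ.comp (s.contDiff_S i))
  have e5 := pr_sub hγ.cond (Sim.l2_upF hlam i hN).1 (Sim.l2_upF hlam i hl).1 (z hN0) (z hV) hψ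
  obtain ⟨d1, d2⟩ := Sim.l2_upF hlam i (hN.sub' hl)
  have e6 := abs_pr_le hγ.cond d1 (z hD0) hψ
  have e7 : s.upF i (fun y => VN s E N y - V y) = fun x => s.upF i (VN s E N) x - s.upF i V x :=
    funext fun x => s.upF_sub i _ _ x
  have d3 : nr univ (s.upF i fun y => VN s E N y - V y) ≤ nr univ fun y => VN s E N y - V y := by
    refine (pow_le_pow_iff_left₀ (R80.nr_nonneg _ _) (R80.nr_nonneg _ _) two_ne_zero).1 ?_
    rw [d2]
    exact mul_le_of_le_one_left (sq_nonneg _) (inv_le_one_of_one_le₀ (by linarith [h.l1]))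
  have d4 := e6.trans (mul_le_mul_of_nonneg_left (mul_le_mul_of_nonneg_right d3 (R80.nr_nonneg _ _))
    (by linarith [hγ.cond.one]))
  rw [e7, e5] at d4
  have e8 : pr γ (fun x => E i x + s.upF i V x) ψ + m ψ = MN s m N (ψ ∘ s.S i) -
      (pr γ (s.upF i (VN s E N)) ψ - pr γ (s.upF i V) ψ) := by
    rw [e1, e2, e3, e4]; ring
  rw [e8]
  exact (abs_sub _ _).trans (add_le_add le_rfl d4)

theorem treed_key (h : Node s Q γ₀ G E m) (hγ : SelfSim s Q γ₀ γ S) {V : E3 → E3} (hl : L2 univ V)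
    (hV : ∀ x, x ∉ Q → V x = 0)
    (hlim : Tendsto (fun N => nr univ fun x => VN s E N x - V x) atTop (𝓝 0))
    {v : ℕ → E3 → ℝ} {M C : ℝ} (hM : 0 ≤ M) (hv : ∀ n, ContDiff ℝ 1 (v n))
    (hb : ∀ n, ∀ x ∈ ball (0 : E3) 3, |v n x| ≤ M) (hC : ∀ n, nr (ball 0 3) (∇ (v n)) ≤ C)
    (hk : Kill γ Q v) (h0 : ∀ n, m (v n) = 0) {φ : E3 → ℝ} (hφ : ContDiff ℝ 1 φ) (i : Bool) :
    Tendsto (fun n => pr γ (fun x => E i x + s.upF i V x) (fun x => v n x * φ x) +
      m fun x => v n x * φ x) atTop (𝓝 0) := by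
  have hlam : 0 < s.lam := by linarith [h.l1]
  obtain ⟨C', hC'⟩ := treed_bd hM hv hb hC hφ
  obtain ⟨L, hL, hLφ⟩ := treed_lip hφ
  have hS : 0 ≤ S := by linarith [hγ.cond.one]
  have t1 : Tendsto (fun N => (m fun _ => 1) * (M * (3 * L * s.lam ^ N)) +
      S * (nr univ (fun x => VN s E N x - V x) * C')) atTop (𝓝 0) := by
    have a := (((tendsto_pow_atTop_nhds_zero_of_lt_one hlam.le h.l2).const_mul (3 * L)).const_mul
      M).const_mul (m fun _ => 1)
    simpa using a.add ((hlim.mul_const C').const_mul S)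
  have hm : Tendsto (fun n => m (v n ∘ s.S i)) atTop (𝓝 0) := by
    refine (hk _ _ (h.h1 i) fun x hx => h.E0 i x (Or.inl hx)).congr fun n => ?_
    rw [h.flux' hγ i (hv n), h0 n, sub_zero]
  refine Metric.tendsto_nhds.2 fun ε hε => ?_
  obtain ⟨N, hN⟩ := (t1.eventually (gt_mem_nhds (half_pos hε))).exists
  have k := kill_MN h hγ N hM (v := fun n => v n ∘ s.S i) (fun n => (hv n).comp (s.contDiff_S i))
    (fun n x hx => hb n _ (ball_subset_ball (by norm_num)
      (Sim.S_mem_ball hlam (h.hp i) (ball_subset_ball (by norm_num) (h.Qb hx)))))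
    (hk.comp h hγ i) hm (φ := φ ∘ s.S i) hL (hφ.comp (s.contDiff_S i))
    (fun x hx y hy => by
      refine (hLφ _ (Sim.S_mem_ball hlam (h.hp i) hx) _ (Sim.S_mem_ball hlam (h.hp i) hy)).trans ?_
      rw [Sim.norm_S_sub hlam]
      exact mul_le_mul_of_nonneg_left (mul_le_of_le_one_left (norm_nonneg _) h.l2.le) hL)
    (half_pos hε)
  filter_upwards [k] with n hn
  rw [Real.dist_eq, sub_zero]
  have a := treed_pr h hγ hl hV i N ((hv n).mul hφ)
  have b := mul_le_mul_of_nonneg_left (mul_le_mul_of_nonneg_left (hC' n)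
    (R80.nr_nonneg univ fun x => VN s E N x - V x)) hS
  have hn' : |MN s m N ((fun x => v n x * φ x) ∘ s.S i)| ≤
      (m fun _ => 1) * (M * (3 * L * s.lam ^ N)) + ε / 2 := hn
  linarith

theorem treed_ell (h : Node s Q γ₀ G E m) {u : E3 → ℝ} {M : ℝ} (hM : 0 ≤ M) (hu : ContDiff ℝ 1 u)
    (hb : ∀ x ∈ Q, |u x| ≤ M) :
    |m u / m fun _ => 1| ≤ M ∧ m (fun x => u x - m u / m fun _ => 1) = 0 := by
  have h1 : |m fun _ => 1| ≤ (m fun _ => 1) * 1 :=
    h.mbd (fun _ => 1) 1 contDiff_const fun _ _ => by simp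
  have h2 := h.mbd u M hu hb
  have h3 := h.lin 1 (-(m u / m fun _ => 1)) u (fun _ => 1) hu contDiff_const
  simp only [one_mul, mul_one, ← sub_eq_add_neg] at h3
  rw [h3]
  rcases (show 0 ≤ m fun _ => 1 by linarith [abs_nonneg (m fun _ => 1)]).eq_or_lt with h4 | h4
  · rw [← h4, zero_mul] at h2
    rw [← h4, abs_nonpos_iff.1 h2]
    simpa using hM
  · refine ⟨?_, by field_simp; ring⟩
    rw [abs_div, abs_of_pos h4, div_le_iff₀ h4]
    linarith

theorem tree (h : Node s Q γ₀ G E m) : ∃ (γ w : E3 → ℝ) (W : E3 → E3), Shield γ w W ∧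
    (∀ x, x ∉ Q → γ x = 1) ∧ 0 < volume {x | w x ≠ 0} := by
  obtain ⟨γ, S, hγ⟩ := exists_gamma h
  obtain ⟨W, V, hW, h0, hlim⟩ := exists_WV h
  have hlam : 0 < s.lam := by linarith [h.l1]
  have hY : ∀ i, H1 (ball 0 (5 / 2)) (fun x => G i x + s.up i W x) fun x => E i x + s.upF i V x :=
    fun i => (h.h1 i).add (Sim.h1_up hlam (h.hp i) hW)
  have hY0 : ∀ i x, x ∉ Q → E i x + s.upF i V x = 0 := fun i x hx => by
    rw [h.E0 i x (Or.inl hx), treed_up0 h (fun y hy => (h0 y hy).2) i x hx, add_zero]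
  have hX := (hY true).sub (hY false)
  obtain ⟨B, hB⟩ := hX.bounded
  have hB0 : 0 ≤ B := (abs_nonneg _).trans (hB 0)
  have hε : 0 < 1 / (2 * (B + 1)) := by positivity
  refine ⟨γ, _, _, ⟨hγ.cond.meas, ⟨S, hγ.cond.one, hγ.cond.bd⟩, hX.smul (1 / (2 * (B + 1))),
    fun x => ?_, fun x hx => ?_, fun u M C hu hb hC hk => ?_⟩, hγ.out, h.nt.trans_le ?_⟩
  · rw [abs_mul, abs_of_pos hε, one_div_mul_eq_div, div_le_iff₀ (by positivity)]
    linarith [hB x]
  · have hx' := treed_Q h (by norm_num) hx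
    rw [hY0 true x hx', hY0 false x hx', sub_zero, smul_zero]
  · have hM : 0 ≤ M := (abs_nonneg _).trans (hb 0 0 (mem_ball_self (by norm_num)))
    have hl := fun n => treed_ell h hM (hu n) fun x hx =>
      hb n x (ball_subset_ball (by norm_num) (h.Qb hx))
    refine ⟨fun n => m (u n) / m fun _ => 1, fun n => (hl n).1, fun φ hφ => ?_⟩
    have hv : ∀ n, ContDiff ℝ 1 fun x => u n x - m (u n) / m fun _ => 1 :=
      fun n => (hu n).sub contDiff_const
    have key := treed_key h hγ hW.l2 (fun y hy => (h0 y hy).2) hlim (M := M + M) (C := C)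
      (add_nonneg hM hM) hv (fun n x hx => (abs_sub _ _).trans (add_le_add (hb n x hx) (hl n).1))
      (fun n => by
        have e : (∇ fun x => u n x - m (u n) / m fun _ => 1) = ∇ (u n) := funext fun x => by
          have := grad_affine 1 (-(m (u n) / m fun _ => 1)) (u n) x
          simpa only [one_mul, one_smul, ← sub_eq_add_neg] using this
        rw [e]; exact hC n)
      (fun f F hf hF => by
        simp only [pr_sub_const]
        exact hk f F hf fun x hx => hF x (treed_Q h (by norm_num) hx))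
      (fun n => (hl n).2) hφ
    have := ((key true).sub (key false)).const_mul (1 / (2 * (B + 1)))
    rw [sub_zero, mul_zero] at this
    refine this.congr fun n => ?_
    rw [pr_smul, pr_sub hγ.cond (hY true).l2 (hY false).l2
      (fun x hx => hY0 true x (treed_Q h (by norm_num) hx))
      (fun x hx => hY0 false x (treed_Q h (by norm_num) hx)) ((hv n).mul hφ)]
    ring
  · refine measure_mono fun x hx => mul_ne_zero hε.ne' ?_
    obtain ⟨-, h1, h2, h3⟩ := hx
    rw [Sim.up, Sim.up, (h0 _ h1).1, (h0 _ h2).1, mul_zero, add_zero, add_zero]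
    exact sub_ne_zero.2 h3

end Crest.Agent.R83
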